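import Mathlib

/-! # P328R: from a weak Poincaré inequality to mixing from a warm start

Everything is for a finite state space `Ω`, a law `p : Ω → ℝ` and a kernel `P : Ω → Ω → ℝ`. -/

namespace Vale.Agent.P328R

open Finset

variable {Ω : Type*} [Fintype Ω]

/-- mean of `g` under the weights `p` -/
def Ex (p g : Ω → ℝ) : ℝ := ∑ x, p x * g x

/-- variance of `g` under the weights `p` -/
def Vr (p g : Ω → ℝ) : ℝ := ∑ x, p x * (g x - Ex p g) ^ 2

/-- Dirichlet form `½ ∑ p x P x y (g x - g y)²` -/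
noncomputable def Dir (p : Ω → ℝ) (P : Ω → Ω → ℝ) (g : Ω → ℝ) : ℝ :=
  (1 / 2) * ∑ x, ∑ y, p x * P x y * (g x - g y) ^ 2

/-- action of the kernel on functions -/
def opP (P : Ω → Ω → ℝ) (g : Ω → ℝ) : Ω → ℝ := fun x => ∑ y, P x y * g y

/-- action of the kernel on laws -/
def pushP (P : Ω → Ω → ℝ) (μ : Ω → ℝ) : Ω → ℝ := fun y => ∑ x, μ x * P x y

/-- total variation distance -/
noncomputable def TVd (μ ν : Ω → ℝ) : ℝ := (1 / 2) * ∑ x, |μ x - ν x|

/-- A lazy reversible Markov kernel with stationary law `p`. -/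
structure LazyRev (p : Ω → ℝ) (P : Ω → Ω → ℝ) : Prop where
  p_nonneg : ∀ x, 0 ≤ p x
  p_sum : ∑ x, p x = 1
  nonneg : ∀ x y, 0 ≤ P x y
  row : ∀ x, ∑ y, P x y = 1
  rev : ∀ x y, p x * P x y = p y * P y x
  lazy : ∀ x, 1 / 2 ≤ P x x

/-- weak Poincaré inequality -/
def WeakPoincare (p : Ω → ℝ) (P : Ω → Ω → ℝ) (A ε : ℝ) : Prop :=
  ∀ (g : Ω → ℝ) (B : ℝ), (∀ x, |g x| ≤ B) → Vr p g ≤ A * Dir p P g + ε * B ^ 2

theorem Vr_eq {p : Ω → ℝ} (h1 : ∑ x, p x = 1) (g : Ω → ℝ) :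
    Vr p g = ∑ x, p x * g x ^ 2 - (Ex p g) ^ 2 := by
  unfold Vr
  have : ∀ x, p x * (g x - Ex p g) ^ 2 =
      p x * g x ^ 2 - 2 * Ex p g * (p x * g x) + (Ex p g) ^ 2 * p x := fun x => by ring
  simp only [this]
  rw [sum_add_distrib, sum_sub_distrib, ← mul_sum, ← mul_sum, h1]
  have h2 : ∑ x, p x * g x = Ex p g := rfl
  rw [h2]; ring

theorem Ex_opP {p : Ω → ℝ} {P : Ω → Ω → ℝ} (h : LazyRev p P) (g : Ω → ℝ) :
    Ex p (opP P g) = Ex p g := by
  unfold Ex opP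
  have : ∀ x, p x * ∑ y, P x y * g y = ∑ y, p y * P y x * g y := fun x => by
    rw [mul_sum]
    refine sum_congr rfl fun y _ => ?_
    rw [← mul_assoc, h.rev x y]
  simp only [this]
  rw [sum_comm]
  refine sum_congr rfl fun y _ => ?_
  rw [← sum_mul, ← mul_sum, h.row y, mul_one]

theorem Dir_eq {p : Ω → ℝ} {P : Ω → Ω → ℝ} (h : LazyRev p P) (g : Ω → ℝ) :
    Dir p P g = ∑ x, p x * g x ^ 2 - ∑ x, p x * (g x * opP P g x) := by
  unfold Dir opP
  have e1 : ∀ x, ∑ y, p x * P x y * (g x - g y) ^ 2 =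
      p x * g x ^ 2 - 2 * (p x * (g x * ∑ y, P x y * g y)) + ∑ y, p x * P x y * g y ^ 2 := by
    intro x
    have : ∀ y, p x * P x y * (g x - g y) ^ 2 =
        p x * g x ^ 2 * P x y - 2 * p x * g x * (P x y * g y) + p x * P x y * g y ^ 2 :=
      fun y => by ring
    simp only [this]
    rw [sum_add_distrib, sum_sub_distrib, ← mul_sum, ← mul_sum, h.row x]
    ring
  simp only [e1]
  rw [sum_add_distrib, sum_sub_distrib, ← mul_sum]
  have e2 : ∑ x, ∑ y, p x * P x y * g y ^ 2 = ∑ x, p x * g x ^ 2 := by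
    rw [sum_comm]
    refine sum_congr rfl fun y _ => ?_
    have : ∀ x, p x * P x y * g y ^ 2 = p y * g y ^ 2 * P y x := fun x => by
      rw [h.rev x y]; ring
    simp only [this]
    rw [← mul_sum, h.row y, mul_one]
  rw [e2]; ring

theorem sq_opP_le {p : Ω → ℝ} {P : Ω → Ω → ℝ} (h : LazyRev p P) (g : Ω → ℝ) :
    ∑ x, p x * opP P g x ^ 2 ≤ ∑ x, p x * (g x * opP P g x) := by
  classical
  -- pointwise: (2 Pg - g)² ≤ 2 P(g²) - g²
  have key : ∀ x, (2 * opP P g x - g x) ^ 2 ≤ 2 * (∑ y, P x y * g y ^ 2) - g x ^ 2 := by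
    intro x
    set m := 2 * opP P g x - g x with hm
    have h0 : 0 ≤ ∑ y, (2 * P x y - if x = y then 1 else 0) * (g y - m) ^ 2 := by
      refine sum_nonneg fun y _ => mul_nonneg ?_ (sq_nonneg _)
      split_ifs with hxy
      · have := h.lazy x; rw [← hxy]; linarith
      · have := h.nonneg x y; linarith
    have e : ∑ y, (2 * P x y - if x = y then 1 else 0) * (g y - m) ^ 2 =
        2 * (∑ y, P x y * g y ^ 2) - 4 * m * opP P g x + 2 * m ^ 2 - (g x - m) ^ 2 := by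
      have : ∀ y, (2 * P x y - if x = y then 1 else 0) * (g y - m) ^ 2 =
          2 * (P x y * g y ^ 2) - 4 * m * (P x y * g y) + 2 * m ^ 2 * P x y
            - (if x = y then (g y - m) ^ 2 else 0) := fun y => by
        split_ifs <;> ring
      simp only [this]
      rw [sum_sub_distrib, sum_add_distrib, sum_sub_distrib, ← mul_sum, ← mul_sum, ← mul_sum,
        h.row x, sum_ite_eq univ x]
      simp only [mem_univ, if_true, opP]
      ring
    rw [e] at h0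
    have : opP P g x = (m + g x) / 2 := by rw [hm]; ring
    rw [this] at h0
    nlinarith [h0]
  have h2 : ∑ x, p x * (2 * opP P g x - g x) ^ 2 ≤
      ∑ x, p x * (2 * (∑ y, P x y * g y ^ 2) - g x ^ 2) :=
    sum_le_sum fun x _ => mul_le_mul_of_nonneg_left (key x) (h.p_nonneg x)
  have e3 : ∑ x, p x * (2 * (∑ y, P x y * g y ^ 2) - g x ^ 2) = ∑ x, p x * g x ^ 2 := by
    have := Ex_opP h (fun x => g x ^ 2)
    unfold Ex opP at this
    have e4 : ∀ x, p x * (2 * (∑ y, P x y * g y ^ 2) - g x ^ 2) =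
        2 * (p x * (∑ y, P x y * g y ^ 2)) - p x * g x ^ 2 := fun x => by ring
    simp only [e4]
    rw [sum_sub_distrib, ← mul_sum, this]
    ring
  have e5 : ∑ x, p x * (2 * opP P g x - g x) ^ 2 =
      4 * ∑ x, p x * opP P g x ^ 2 - 4 * ∑ x, p x * (g x * opP P g x) + ∑ x, p x * g x ^ 2 := by
    rw [mul_sum, mul_sum, ← sum_sub_distrib, ← sum_add_distrib]
    exact sum_congr rfl fun x _ => by ring
  rw [e3, e5] at h2
  linarith

theorem Vr_opP_le {p : Ω → ℝ} {P : Ω → Ω → ℝ} (h : LazyRev p P) (g : Ω → ℝ) :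
    Vr p (opP P g) ≤ Vr p g - Dir p P g := by
  rw [Vr_eq h.p_sum, Vr_eq h.p_sum, Dir_eq h, Ex_opP h]
  have := sq_opP_le h g
  linarith

theorem abs_opP_le {p : Ω → ℝ} {P : Ω → Ω → ℝ} (h : LazyRev p P) {g : Ω → ℝ} {B : ℝ}
    (hg : ∀ x, |g x| ≤ B) (x : Ω) : |opP P g x| ≤ B := by
  unfold opP
  calc |∑ y, P x y * g y| ≤ ∑ y, |P x y * g y| := abs_sum_le_sum_abs _ _
    _ ≤ ∑ y, P x y * B := sum_le_sum fun y _ => by
        rw [abs_mul, abs_of_nonneg (h.nonneg x y)]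
        exact mul_le_mul_of_nonneg_left (hg y) (h.nonneg x y)
    _ = B := by rw [← sum_mul, h.row x, one_mul]

theorem abs_iter_le {p : Ω → ℝ} {P : Ω → Ω → ℝ} (h : LazyRev p P) {g : Ω → ℝ} {B : ℝ}
    (hg : ∀ x, |g x| ≤ B) (t : ℕ) (x : Ω) : |(opP P)^[t] g x| ≤ B := by
  induction t generalizing x with
  | zero => simpa using hg x
  | succ t ih =>
    rw [Function.iterate_succ_apply']
    exact abs_opP_le h ih x

/-- Decay of the variance under a weak Poincaré inequality. -/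
theorem Vr_iter_le {p : Ω → ℝ} {P : Ω → Ω → ℝ} (h : LazyRev p P) {A ε : ℝ} (hA : 1 ≤ A)
    (hW : WeakPoincare p P A ε) {g : Ω → ℝ} {B : ℝ} (hg : ∀ x, |g x| ≤ B) (t : ℕ) :
    Vr p ((opP P)^[t] g) ≤ (1 - 1 / A) ^ t * Vr p g + ε * B ^ 2 := by
  have hA0 : 0 < A := by linarith
  have hc : 0 ≤ 1 - 1 / A := by
    have : 1 / A ≤ 1 := by rw [div_le_one hA0]; exact hA
    linarith
  have main : ∀ t, Vr p ((opP P)^[t] g) - ε * B ^ 2 ≤ (1 - 1 / A) ^ t * (Vr p g - ε * B ^ 2) := by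
    intro t
    induction t with
    | zero => simp
    | succ t ih =>
      rw [Function.iterate_succ_apply']
      have h1 := Vr_opP_le h ((opP P)^[t] g)
      have h2 := hW ((opP P)^[t] g) B (abs_iter_le h hg t)
      have h3 : (Vr p ((opP P)^[t] g) - ε * B ^ 2) / A ≤ Dir p P ((opP P)^[t] g) := by
        rw [div_le_iff₀ hA0]; linarith
      have h4 : Vr p (opP P ((opP P)^[t] g)) - ε * B ^ 2 ≤
          (1 - 1 / A) * (Vr p ((opP P)^[t] g) - ε * B ^ 2) := by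
        have : (1 - 1 / A) * (Vr p ((opP P)^[t] g) - ε * B ^ 2) =
          (Vr p ((opP P)^[t] g) - ε * B ^ 2) - (Vr p ((opP P)^[t] g) - ε * B ^ 2) / A := by ring
        rw [this]; linarith
      calc _ ≤ (1 - 1 / A) * (Vr p ((opP P)^[t] g) - ε * B ^ 2) := h4
        _ ≤ (1 - 1 / A) * ((1 - 1 / A) ^ t * (Vr p g - ε * B ^ 2)) :=
          mul_le_mul_of_nonneg_left ih hc
        _ = _ := by ring
  have hm := main t
  have hε : 0 ≤ ε * B ^ 2 ∨ ε * B ^ 2 ≤ 0 := le_total 0 _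
  have hpow : 0 ≤ (1 - 1 / A) ^ t := pow_nonneg hc t
  have hpow1 : (1 - 1 / A) ^ t ≤ 1 := pow_le_one₀ hc (by
    have : 0 ≤ 1 / A := by positivity
    linarith)
  rcases hε with hε | hε
  · nlinarith
  · -- `ε B² < 0` is impossible unless trivial: test the inequality on `g = 0`
    have h0 := hW (fun _ => 0) B (fun x => by simpa using (abs_nonneg _).trans (hg x))
    have : Vr p (fun _ : Ω => (0 : ℝ)) = 0 := by simp [Vr, Ex]
    have h5 : Dir p P (fun _ : Ω => (0 : ℝ)) = 0 := by simp [Dir]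
    rw [this, h5] at h0
    have h6 : ε * B ^ 2 = 0 := le_antisymm hε (by linarith)
    rw [h6] at hm ⊢
    simpa using hm

theorem pushP_dens {p : Ω → ℝ} {P : Ω → Ω → ℝ} (h : LazyRev p P) (f : Ω → ℝ) :
    pushP P (fun x => p x * f x) = fun x => p x * opP P f x := by
  funext y
  unfold pushP opP
  rw [mul_sum]
  refine sum_congr rfl fun x _ => ?_
  have := h.rev x y
  calc p x * f x * P x y = (p x * P x y) * f x := by ring
    _ = _ := by rw [this]; ring

theorem pushP_iter_dens {p : Ω → ℝ} {P : Ω → Ω → ℝ} (h : LazyRev p P) (f : Ω → ℝ) (t : ℕ) :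
    (pushP P)^[t] (fun x => p x * f x) = fun x => p x * (opP P)^[t] f x := by
  induction t with
  | zero => rfl
  | succ t ih =>
    rw [Function.iterate_succ_apply', ih, pushP_dens h, Function.iterate_succ_apply']

theorem Ex_iter {p : Ω → ℝ} {P : Ω → Ω → ℝ} (h : LazyRev p P) (f : Ω → ℝ) (t : ℕ) :
    Ex p ((opP P)^[t] f) = Ex p f := by
  induction t with
  | zero => rfl
  | succ t ih => rw [Function.iterate_succ_apply', Ex_opP h, ih]

/-- `TV ≤ ½ √Var` of the density -/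
theorem TVd_dens_le {p : Ω → ℝ} (hp : ∀ x, 0 ≤ p x) (hp1 : ∑ x, p x = 1) {f : Ω → ℝ}
    (hf : Ex p f = 1) : TVd (fun x => p x * f x) p ≤ (1 / 2) * Real.sqrt (Vr p f) := by
  unfold TVd
  refine mul_le_mul_of_nonneg_left ?_ (by norm_num)
  apply Real.le_sqrt_of_sq_le
  have h1 : ∀ x, |p x * f x - p x| = Real.sqrt (p x) * (Real.sqrt (p x) * |f x - 1|) := by
    intro x
    rw [← mul_assoc, Real.mul_self_sqrt (hp x)]
    rw [show p x * f x - p x = p x * (f x - 1) by ring, abs_mul, abs_of_nonneg (hp x)]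
  simp only [h1]
  refine (sum_mul_sq_le_sq_mul_sq _ _ _).trans ?_
  have h2 : ∑ x, Real.sqrt (p x) ^ 2 = 1 := by
    simp only [Real.sq_sqrt (hp _)]; exact hp1
  rw [h2, one_mul]
  unfold Vr
  rw [hf]
  refine le_of_eq (sum_congr rfl fun x _ => ?_)
  rw [mul_pow, Real.sq_sqrt (hp x), sq_abs]

/-- **Mixing from an `M`-warm start.** -/
theorem mixing_of_weakPoincare {p : Ω → ℝ} {P : Ω → Ω → ℝ} (h : LazyRev p P) {A ε M : ℝ}
    (hA : 1 ≤ A) (hW : WeakPoincare p P A ε) {μ : Ω → ℝ} (hμ0 : ∀ x, 0 ≤ μ x)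
    (hμ1 : ∑ x, μ x = 1) (hM : ∀ x, μ x ≤ M * p x) (t : ℕ) :
    TVd ((pushP P)^[t] μ) p ≤ (1 / 2) * Real.sqrt ((1 - 1 / A) ^ t * M ^ 2 + ε * M ^ 2) := by
  -- density
  set f : Ω → ℝ := fun x => μ x / p x with hf
  have hμf : μ = fun x => p x * f x := by
    funext x
    rcases eq_or_ne (p x) 0 with hx | hx
    · have h1 := hM x
      rw [hx, mul_zero] at h1
      have : μ x = 0 := le_antisymm h1 (hμ0 x)
      simp [hx, this]
    · simp only [hf]; field_simp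
  have hM0 : 0 ≤ M := by
    by_contra hneg
    push Not at hneg
    have : ∑ x, μ x ≤ ∑ x, M * p x := sum_le_sum fun x _ => hM x
    rw [hμ1, ← mul_sum, h.p_sum] at this
    linarith
  have hfb : ∀ x, |f x| ≤ M := by
    intro x
    have h0 : 0 ≤ f x := div_nonneg (hμ0 x) (h.p_nonneg x)
    rw [abs_of_nonneg h0]
    rcases (h.p_nonneg x).eq_or_lt with hx | hx
    · simp only [hf, ← hx, div_zero]; exact hM0
    · simp only [hf]; rw [div_le_iff₀ hx]; exact hM x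
  have hE : Ex p f = 1 := by
    unfold Ex
    have : ∑ x, p x * f x = ∑ x, μ x := by
      refine sum_congr rfl fun x _ => ?_
      conv_rhs => rw [hμf]
    rw [this, hμ1]
  have hV0 : Vr p f ≤ M ^ 2 := by
    rw [Vr_eq h.p_sum, hE]
    have : ∑ x, p x * f x ^ 2 ≤ ∑ x, p x * M ^ 2 := sum_le_sum fun x _ => by
      refine mul_le_mul_of_nonneg_left ?_ (h.p_nonneg x)
      rw [← sq_abs]
      exact pow_le_pow_left₀ (abs_nonneg _) (hfb x) 2
    rw [← sum_mul, h.p_sum, one_mul] at this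
    linarith
  rw [hμf, pushP_iter_dens h]
  refine (TVd_dens_le h.p_nonneg h.p_sum ((Ex_iter h f t).trans hE)).trans ?_
  refine mul_le_mul_of_nonneg_left (Real.sqrt_le_sqrt ?_) (by norm_num)
  refine (Vr_iter_le h hA hW hfb t).trans ?_
  have hc : 0 ≤ 1 - 1 / A := by
    have : 1 / A ≤ 1 := by rw [div_le_one (by linarith)]; exact hA
    linarith
  have := mul_le_mul_of_nonneg_left hV0 (pow_nonneg hc t)
  linarith

/-- steps sufficient for accuracy `η` -/
theorem mixing_steps {p : Ω → ℝ} {P : Ω → Ω → ℝ} (h : LazyRev p P) {A ε M η : ℝ}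
    (hA : 1 ≤ A) (hW : WeakPoincare p P A ε) {μ : Ω → ℝ} (hμ0 : ∀ x, 0 ≤ μ x)
    (hμ1 : ∑ x, μ x = 1) (hM : ∀ x, μ x ≤ M * p x) (hM1 : 1 ≤ M) (hη : 0 < η)
    (hε : ε * M ^ 2 ≤ η ^ 2) (t : ℕ) (ht : 2 * A * Real.log (M / η) ≤ t) :
    TVd ((pushP P)^[t] μ) p ≤ η := by
  refine (mixing_of_weakPoincare h hA hW hμ0 hμ1 hM t).trans ?_
  have hA0 : 0 < A := by linarith
  have hc : 0 ≤ 1 - 1 / A := by
    have : 1 / A ≤ 1 := by rw [div_le_one hA0]; exact hA
    linarith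
  have h1 : (1 - 1 / A) ^ t ≤ (η / M) ^ 2 := by
    have h2 : 1 - 1 / A ≤ Real.exp (-(1 / A)) := by
      have := Real.add_one_le_exp (-(1 / A)); linarith
    have h3 : (1 - 1 / A) ^ t ≤ Real.exp (-(1 / A)) ^ t := pow_le_pow_left₀ hc h2 t
    refine h3.trans ?_
    rw [← Real.exp_nat_mul]
    have h4 : (η / M) ^ 2 = Real.exp (2 * Real.log (η / M)) := by
      have hpos : 0 < η / M := by positivity
      rw [mul_comm, Real.exp_mul, Real.exp_log hpos]
      norm_cast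
    rw [h4]
    apply Real.exp_le_exp.2
    have h5 : Real.log (η / M) = - Real.log (M / η) := by
      rw [← Real.log_inv, inv_div]
    rw [h5]
    have h6 : 2 * Real.log (M / η) ≤ t / A := by
      rw [le_div_iff₀ hA0]; linarith
    have : (t : ℝ) * -(1 / A) = -(t / A) := by ring
    rw [this]; linarith
  have h7 : (1 - 1 / A) ^ t * M ^ 2 ≤ η ^ 2 := by
    calc (1 - 1 / A) ^ t * M ^ 2 ≤ (η / M) ^ 2 * M ^ 2 :=
          mul_le_mul_of_nonneg_right h1 (sq_nonneg _)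
      _ = η ^ 2 := by field_simp
  have h8 : (1 - 1 / A) ^ t * M ^ 2 + ε * M ^ 2 ≤ (2 * η) ^ 2 := by nlinarith
  calc (1 / 2) * Real.sqrt ((1 - 1 / A) ^ t * M ^ 2 + ε * M ^ 2)
      ≤ (1 / 2) * Real.sqrt ((2 * η) ^ 2) :=
        mul_le_mul_of_nonneg_left (Real.sqrt_le_sqrt h8) (by norm_num)
    _ = η := by rw [Real.sqrt_sq (by positivity)]; ring

end Vale.Agent.P328R
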