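import Mathlib
import Vale.Agent.P328RAM.Lang

/-! # P328R: expectations and total variation for `PMF`s (in `ℝ≥0∞`, no summability needed) -/

namespace Vale.Agent.P328R

open scoped ENNReal

open Vale.Agent.P328RAM (iterBind)

variable {α β γ : Type}

/-- expectation of a nonnegative function -/
noncomputable def EE (μ : PMF α) (F : α → ℝ≥0∞) : ℝ≥0∞ := ∑' x, μ x * F x

/-- total variation distance at most `δ` -/
def TVle (μ ν : PMF α) (δ : ℝ≥0∞) : Prop :=
  ∀ F : α → ℝ≥0∞, (∀ x, F x ≤ 1) → EE μ F ≤ EE ν F + δ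

theorem EE_mono {μ : PMF α} {F G : α → ℝ≥0∞} (h : ∀ x, F x ≤ G x) : EE μ F ≤ EE μ G :=
  ENNReal.tsum_le_tsum fun x => mul_le_mul_right (h x) _

theorem EE_mono_support {μ : PMF α} {F G : α → ℝ≥0∞} (h : ∀ x ∈ μ.support, F x ≤ G x) :
    EE μ F ≤ EE μ G := by
  refine ENNReal.tsum_le_tsum fun x => ?_
  by_cases hx : μ x = 0
  · simp [hx]
  · exact mul_le_mul_right (h x ((PMF.mem_support_iff _ _).2 hx)) _

theorem EE_congr {μ : PMF α} {F G : α → ℝ≥0∞} (h : ∀ x ∈ μ.support, F x = G x) :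
    EE μ F = EE μ G :=
  le_antisymm (EE_mono_support fun x hx => (h x hx).le) (EE_mono_support fun x hx => (h x hx).ge)

@[simp] theorem EE_const (μ : PMF α) (c : ℝ≥0∞) : EE μ (fun _ => c) = c := by
  unfold EE; rw [ENNReal.tsum_mul_right, μ.tsum_coe, one_mul]

theorem EE_mul_const (μ : PMF α) (F : α → ℝ≥0∞) (c : ℝ≥0∞) :
    EE μ (fun x => F x * c) = EE μ F * c := by
  unfold EE; rw [← ENNReal.tsum_mul_right]; exact tsum_congr fun x => by ring

theorem EE_const_mul (μ : PMF α) (F : α → ℝ≥0∞) (c : ℝ≥0∞) :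
    EE μ (fun x => c * F x) = c * EE μ F := by
  unfold EE; rw [← ENNReal.tsum_mul_left]; exact tsum_congr fun x => by ring

theorem EE_add (μ : PMF α) (F G : α → ℝ≥0∞) :
    EE μ (fun x => F x + G x) = EE μ F + EE μ G := by
  unfold EE; rw [← ENNReal.tsum_add]; exact tsum_congr fun x => by ring

theorem EE_pure (a : α) (F : α → ℝ≥0∞) : EE (PMF.pure a) F = F a := by
  classical
  unfold EE
  rw [tsum_eq_single a]
  · simp
  · intro b hb; simp [PMF.pure_apply, hb]

theorem EE_bind (μ : PMF α) (κ : α → PMF β) (F : β → ℝ≥0∞) :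
    EE (μ.bind κ) F = EE μ (fun x => EE (κ x) F) := by
  unfold EE
  simp only [PMF.bind_apply]
  have h1 : ∀ y, (∑' a, μ a * (κ a) y) * F y = ∑' a, μ a * (κ a) y * F y := fun y =>
    (ENNReal.tsum_mul_right).symm
  simp only [h1]
  rw [ENNReal.tsum_comm]
  refine tsum_congr fun a => ?_
  rw [← ENNReal.tsum_mul_left]
  exact tsum_congr fun y => by ring

theorem EE_map (μ : PMF α) (f : α → β) (F : β → ℝ≥0∞) :
    EE (μ.map f) F = EE μ (fun x => F (f x)) := by
  unfold PMF.map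
  rw [EE_bind]
  simp only [Function.comp, EE_pure]

theorem EE_le_one {μ : PMF α} {F : α → ℝ≥0∞} (h : ∀ x, F x ≤ 1) : EE μ F ≤ 1 :=
  (EE_mono h).trans (by simp)

/-- probability of a set as an expectation -/
theorem EE_indicator (μ : PMF α) (S : Set α) :
    EE μ (S.indicator fun _ => 1) = μ.toOuterMeasure S := by
  rw [PMF.toOuterMeasure_apply]
  unfold EE
  refine tsum_congr fun x => ?_
  by_cases hx : x ∈ S <;> simp [hx]

/-- Markov's inequality -/
theorem prob_le_EE (μ : PMF α) (S : Set α) (F : α → ℝ≥0∞) (h : ∀ x ∈ S, 1 ≤ F x) :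
    μ.toOuterMeasure S ≤ EE μ F := by
  rw [← EE_indicator]
  refine EE_mono fun x => ?_
  by_cases hx : x ∈ S
  · simpa [hx] using h x hx
  · simp [hx]

theorem EE_compl {μ : PMF α} {F : α → ℝ≥0∞} (h : ∀ x, F x ≤ 1) :
    EE μ F + EE μ (fun x => 1 - F x) = 1 := by
  rw [← EE_add]
  have : (fun x => F x + (1 - F x)) = fun _ => (1 : ℝ≥0∞) := by
    funext x; exact add_tsub_cancel_of_le (h x)
  rw [this, EE_const]

/-! ### Total variation -/

theorem TVle.refl (μ : PMF α) (δ : ℝ≥0∞) : TVle μ μ δ := fun _ _ => le_self_add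

theorem TVle.mono {μ ν : PMF α} {δ δ' : ℝ≥0∞} (h : TVle μ ν δ) (hd : δ ≤ δ') : TVle μ ν δ' :=
  fun F hF => (h F hF).trans (add_le_add_right hd _)

theorem TVle.symm {μ ν : PMF α} {δ : ℝ≥0∞} (h : TVle μ ν δ) : TVle ν μ δ := by
  intro F hF
  have h1 := h (fun x => 1 - F x) (fun x => tsub_le_self)
  have h2 := EE_compl (μ := μ) hF
  have h3 := EE_compl (μ := ν) hF
  have h4 : EE μ F ≠ ∞ := ne_top_of_le_ne_top ENNReal.one_ne_top (EE_le_one hF)
  have h5 : EE ν F ≠ ∞ := ne_top_of_le_ne_top ENNReal.one_ne_top (EE_le_one hF)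
  have h6 : EE ν (fun x => 1 - F x) ≠ ∞ :=
    ne_top_of_le_ne_top ENNReal.one_ne_top (EE_le_one fun x => tsub_le_self)
  calc EE ν F = EE ν F + 0 := (add_zero _).symm
    _ ≤ EE μ F + δ := by
      have h7 : EE ν F + (EE ν fun x => 1 - F x) ≤ EE μ F + δ + (EE ν fun x => 1 - F x) := by
        calc EE ν F + (EE ν fun x => 1 - F x) = 1 := h3
          _ = EE μ F + (EE μ fun x => 1 - F x) := h2.symm
          _ ≤ EE μ F + ((EE ν fun x => 1 - F x) + δ) := by gcongr
          _ = _ := by rw [add_assoc, add_comm δ]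
      simpa using (ENNReal.add_le_add_iff_right h6).1 h7

theorem TVle.trans {μ ν ρ : PMF α} {δ δ' : ℝ≥0∞} (h : TVle μ ν δ) (h' : TVle ν ρ δ') :
    TVle μ ρ (δ + δ') := by
  intro F hF
  calc EE μ F ≤ EE ν F + δ := h F hF
    _ ≤ EE ρ F + δ' + δ := by gcongr; exact h' F hF
    _ = EE ρ F + (δ + δ') := by rw [add_assoc, add_comm δ' δ]

/-- data processing -/
theorem TVle.bind {μ ν : PMF α} {δ : ℝ≥0∞} (h : TVle μ ν δ) (κ : α → PMF β) :
    TVle (μ.bind κ) (ν.bind κ) δ := by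
  intro F hF
  rw [EE_bind, EE_bind]
  exact h _ fun x => EE_le_one hF

theorem TVle.map {μ ν : PMF α} {δ : ℝ≥0∞} (h : TVle μ ν δ) (f : α → β) :
    TVle (μ.map f) (ν.map f) δ := h.bind _

/-- perturbation of the kernel -/
theorem TVle.bind_right {μ : PMF α} {δ : ℝ≥0∞} {κ κ' : α → PMF β}
    (h : ∀ x ∈ μ.support, TVle (κ x) (κ' x) δ) : TVle (μ.bind κ) (μ.bind κ') δ := by
  intro F hF
  rw [EE_bind, EE_bind]
  calc EE μ (fun x => EE (κ x) F) ≤ EE μ (fun x => EE (κ' x) F + δ) :=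
        EE_mono_support fun x hx => h x hx F hF
    _ = _ := by rw [EE_add, EE_const]

/-- perturbation of an iterated kernel on an invariant set -/
theorem TVle.iterBind {κ κ' : α → PMF α} {δ : ℝ≥0∞} {I : α → Prop}
    (hI : ∀ x, I x → ∀ y ∈ (κ x).support, I y)
    (h : ∀ x, I x → TVle (κ x) (κ' x) δ) (k : ℕ) (x : α) (hx : I x) :
    TVle (Vale.Agent.P328RAM.iterBind κ k x) (Vale.Agent.P328RAM.iterBind κ' k x) (k * δ) := by
  induction k generalizing x with
  | zero => exact TVle.refl _ _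
  | succ k ih =>
    simp only [Vale.Agent.P328RAM.iterBind]
    have h1 : TVle ((κ x).bind (Vale.Agent.P328RAM.iterBind κ k))
        ((κ x).bind (Vale.Agent.P328RAM.iterBind κ' k)) (k * δ) :=
      TVle.bind_right fun y hy => ih y (hI x hx y hy)
    refine (h1.trans ((h x hx).bind _)).mono (le_of_eq ?_)
    push_cast
    ring

/-- the set version -/
theorem TVle.prob {μ ν : PMF α} {δ : ℝ≥0∞} (h : TVle μ ν δ) (S : Set α) :
    μ.toOuterMeasure S ≤ ν.toOuterMeasure S + δ := by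
  rw [← EE_indicator, ← EE_indicator]
  exact h _ fun x => by by_cases hx : x ∈ S <;> simp [hx]

theorem toOuterMeasure_le_one (μ : PMF α) (S : Set α) : μ.toOuterMeasure S ≤ 1 := by
  rw [← EE_indicator]
  exact EE_le_one fun x => by by_cases hx : x ∈ S <;> simp [hx]

theorem toOuterMeasure_ne_top (μ : PMF α) (S : Set α) : μ.toOuterMeasure S ≠ ∞ :=
  ne_top_of_le_ne_top ENNReal.one_ne_top (toOuterMeasure_le_one μ S)

/-- the set version in real numbers -/
theorem TVle.abs_prob {μ ν : PMF α} {δ : ℝ} (hδ : 0 ≤ δ) (h : TVle μ ν (ENNReal.ofReal δ))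
    (S : Set α) :
    |(μ.toOuterMeasure S).toReal - (ν.toOuterMeasure S).toReal| ≤ δ := by
  have h1 := h.prob S
  have h2 := h.symm.prob S
  have a1 := toOuterMeasure_ne_top μ S
  have a2 := toOuterMeasure_ne_top ν S
  have b1 : (μ.toOuterMeasure S).toReal ≤ (ν.toOuterMeasure S).toReal + δ := by
    have := ENNReal.toReal_mono (ENNReal.add_ne_top.2 ⟨a2, ENNReal.ofReal_ne_top⟩) h1
    rwa [ENNReal.toReal_add a2 ENNReal.ofReal_ne_top, ENNReal.toReal_ofReal hδ] at this
  have b2 : (ν.toOuterMeasure S).toReal ≤ (μ.toOuterMeasure S).toReal + δ := by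
    have := ENNReal.toReal_mono (ENNReal.add_ne_top.2 ⟨a1, ENNReal.ofReal_ne_top⟩) h2
    rwa [ENNReal.toReal_add a1 ENNReal.ofReal_ne_top, ENNReal.toReal_ofReal hδ] at this
  rw [abs_le]; constructor <;> linarith

theorem bind_iterBind_succ (μ : PMF α) (κ : α → PMF α) (k : ℕ) :
    μ.bind (iterBind κ (k + 1)) = (μ.bind κ).bind (iterBind κ k) := by
  rw [PMF.bind_bind]; rfl

theorem bind_iterBind_zero (μ : PMF α) (κ : α → PMF α) :
    μ.bind (iterBind κ 0) = μ := by
  have : iterBind κ 0 = PMF.pure := by funext s; rfl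
  rw [this, PMF.bind_pure]

end Vale.Agent.P328R
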