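import Mathlib
import Vale.Agent.P328R.Mix
import Vale.Agent.P328R.PMFTools

/-! # P328R: mixing and annealing for `PMF` kernels -/

namespace Vale.Agent.P328R

open scoped ENNReal

open Vale.Agent.P328RAM (iterBind)

variable {σ : Type}

/-- the mass function of `μ` on the finite set `S` -/
noncomputable def vec (S : Finset σ) (μ : PMF σ) : S → ℝ := fun x => (μ x).toReal

theorem vec_nonneg (S : Finset σ) (μ : PMF σ) (x : S) : 0 ≤ vec S μ x := ENNReal.toReal_nonneg

theorem vec_sum {S : Finset σ} {μ : PMF σ} (h : ∀ x, x ∉ S → μ x = 0) :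
    ∑ x, vec S μ x = 1 := by
  unfold vec
  have h0 : ∑ x : S, (μ x).toReal = (∑ x : S, μ x).toReal :=
    (ENNReal.toReal_sum (fun (x : S) _ => μ.apply_ne_top x)).symm
  have : ∑ x : S, μ x = 1 := by
    rw [← μ.tsum_coe, tsum_eq_sum (s := S) (fun x hx => h x hx)]
    exact (Finset.sum_coe_sort S fun x => μ x)
  rw [h0, this, ENNReal.toReal_one]

theorem bind_off {S : Finset σ} {μ : PMF σ} {κ : σ → PMF σ} (h : ∀ x, x ∉ S → μ x = 0)
    (hκ : ∀ x ∈ S, ∀ y, y ∉ S → κ x y = 0) : ∀ y, y ∉ S → (μ.bind κ) y = 0 := by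
  intro y hy
  rw [PMF.bind_apply, ENNReal.tsum_eq_zero]
  intro x
  by_cases hx : x ∈ S
  · rw [hκ x hx y hy, mul_zero]
  · rw [h x hx, zero_mul]

theorem vec_bind {S : Finset σ} {μ : PMF σ} {κ : σ → PMF σ} (h : ∀ x, x ∉ S → μ x = 0) :
    vec S (μ.bind κ) = pushP (fun x y : S => (κ x y).toReal) (vec S μ) := by
  funext y
  unfold vec pushP
  rw [PMF.bind_apply, tsum_eq_sum (s := S) (fun x hx => by rw [h x hx, zero_mul]),
    ENNReal.toReal_sum (fun x _ => ENNReal.mul_ne_top (μ.apply_ne_top x) ((κ x).apply_ne_top y)),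
    ← Finset.sum_coe_sort S]
  exact Finset.sum_congr rfl fun x _ => ENNReal.toReal_mul

theorem vec_iter {S : Finset σ} {κ : σ → PMF σ}
    (hκ : ∀ x ∈ S, ∀ y, y ∉ S → κ x y = 0) (t : ℕ) :
    ∀ μ : PMF σ, (∀ x, x ∉ S → μ x = 0) →
      vec S (μ.bind (iterBind κ t)) = (pushP (fun x y : S => (κ x y).toReal))^[t] (vec S μ) ∧
      ∀ x, x ∉ S → (μ.bind (iterBind κ t)) x = 0 := by
  induction t with
  | zero =>
    intro μ h
    rw [bind_iterBind_zero]
    exact ⟨rfl, h⟩
  | succ t ih =>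
    intro μ h
    rw [bind_iterBind_succ]
    obtain ⟨h1, h2⟩ := ih (μ.bind κ) (bind_off h hκ)
    refine ⟨?_, h2⟩
    rw [h1, vec_bind h, ← Function.iterate_succ_apply]

theorem TVle_of_TVd {S : Finset σ} {μ ν : PMF σ} (h : ∀ x, x ∉ S → μ x = 0)
    (h' : ∀ x, x ∉ S → ν x = 0) {η : ℝ} (hd : TVd (vec S μ) (vec S ν) ≤ η) :
    TVle μ ν (ENNReal.ofReal η) := by
  classical
  intro F hF
  unfold EE
  rw [tsum_eq_sum (s := S) (fun x hx => by rw [h x hx, zero_mul]),
    tsum_eq_sum (s := S) (fun x hx => by rw [h' x hx, zero_mul])]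
  have key : ∀ x, μ x * F x ≤ ν x * F x + ENNReal.ofReal ((μ x).toReal - (ν x).toReal) := by
    intro x
    have h1 : μ x ≤ ν x + ENNReal.ofReal ((μ x).toReal - (ν x).toReal) := by
      have e1 : μ x = ENNReal.ofReal (μ x).toReal := (ENNReal.ofReal_toReal (μ.apply_ne_top x)).symm
      have e2 : ν x = ENNReal.ofReal (ν x).toReal := (ENNReal.ofReal_toReal (ν.apply_ne_top x)).symm
      calc μ x = ENNReal.ofReal (μ x).toReal := e1
        _ = ENNReal.ofReal ((ν x).toReal + ((μ x).toReal - (ν x).toReal)) := by ring_nf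
        _ ≤ ENNReal.ofReal (ν x).toReal + ENNReal.ofReal ((μ x).toReal - (ν x).toReal) :=
          ENNReal.ofReal_add_le
        _ = _ := by rw [← e2]
    calc μ x * F x ≤ (ν x + ENNReal.ofReal ((μ x).toReal - (ν x).toReal)) * F x := by gcongr
      _ = ν x * F x + ENNReal.ofReal ((μ x).toReal - (ν x).toReal) * F x := by ring
      _ ≤ ν x * F x + ENNReal.ofReal ((μ x).toReal - (ν x).toReal) * 1 := by
        gcongr; exact hF x
      _ = _ := by rw [mul_one]
  calc ∑ x ∈ S, μ x * F x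
      ≤ ∑ x ∈ S, (ν x * F x + ENNReal.ofReal ((μ x).toReal - (ν x).toReal)) :=
        Finset.sum_le_sum fun x _ => key x
    _ = ∑ x ∈ S, ν x * F x + ∑ x ∈ S, ENNReal.ofReal ((μ x).toReal - (ν x).toReal) :=
        Finset.sum_add_distrib
    _ ≤ _ := by
      gcongr
      have e1 : ∀ x, ENNReal.ofReal ((μ x).toReal - (ν x).toReal) =
          ENNReal.ofReal (max ((μ x).toReal - (ν x).toReal) 0) := fun x => by
        simp [ENNReal.ofReal_max]
      simp only [e1]
      rw [← ENNReal.ofReal_sum_of_nonneg (fun x _ => le_max_right _ _)]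
      apply ENNReal.ofReal_le_ofReal
      refine le_trans (le_of_eq ?_) hd
      unfold TVd
      have s1 := vec_sum h
      have s2 := vec_sum h'
      have e2 : ∀ x : σ, max ((μ x).toReal - (ν x).toReal) 0 =
          (1 / 2) * |(μ x).toReal - (ν x).toReal| +
            (1 / 2) * ((μ x).toReal - (ν x).toReal) := by
        intro x
        rcases le_total 0 ((μ x).toReal - (ν x).toReal) with hx | hx
        · rw [max_eq_left hx, abs_of_nonneg hx]; ring
        · rw [max_eq_right hx, abs_of_nonpos hx]; ring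
      simp only [e2]
      rw [Finset.sum_add_distrib, ← Finset.mul_sum, ← Finset.mul_sum, Finset.sum_sub_distrib]
      have s1' : ∑ x ∈ S, (μ x).toReal = 1 := by
        rw [← s1]; exact (Finset.sum_coe_sort S fun x => (μ x).toReal).symm
      have s2' : ∑ x ∈ S, (ν x).toReal = 1 := by
        rw [← s2]; exact (Finset.sum_coe_sort S fun x => (ν x).toReal).symm
      rw [s1', s2', sub_self, mul_zero, add_zero]
      congr 1
      exact (Finset.sum_coe_sort S fun x => |(μ x).toReal - (ν x).toReal|).symm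

/-- A lazy reversible chain given by a `PMF` kernel `κ` on the finite set `S` with stationary law
`π`, satisfying a weak Poincaré inequality. -/
structure GoodChain (S : Finset σ) (π : PMF σ) (κ : σ → PMF σ) (A ε : ℝ) : Prop where
  supp : ∀ x, x ∉ S → π x = 0
  closed : ∀ x ∈ S, ∀ y, y ∉ S → κ x y = 0
  rev : ∀ x ∈ S, ∀ y ∈ S, π x * κ x y = π y * κ y x
  lazy : ∀ x ∈ S, 1 / 2 ≤ (κ x x).toReal
  one_le : 1 ≤ A
  wp : ∀ (g : σ → ℝ) (B : ℝ), (∀ x ∈ S, |g x| ≤ B) →
    ∑ x ∈ S, (π x).toReal * (g x - ∑ z ∈ S, (π z).toReal * g z) ^ 2 ≤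
      A * ((1 / 2) * ∑ x ∈ S, ∑ y ∈ S,
        (π x).toReal * (κ x y).toReal * (g x - g y) ^ 2) + ε * B ^ 2

theorem GoodChain.lazyRev {S : Finset σ} {π : PMF σ} {κ : σ → PMF σ} {A ε : ℝ}
    (h : GoodChain S π κ A ε) :
    LazyRev (vec S π) (fun x y : S => (κ x y).toReal) where
  p_nonneg := vec_nonneg S π
  p_sum := vec_sum h.supp
  nonneg := fun _ _ => ENNReal.toReal_nonneg
  row := fun x => vec_sum (μ := κ x) (fun y hy => h.closed x x.2 y hy)
  rev := fun x y => by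
    have := congrArg ENNReal.toReal (h.rev x x.2 y y.2)
    rw [ENNReal.toReal_mul, ENNReal.toReal_mul] at this
    exact this
  lazy := fun x => h.lazy x x.2

theorem GoodChain.weakPoincare {S : Finset σ} {π : PMF σ} {κ : σ → PMF σ} {A ε : ℝ}
    (h : GoodChain S π κ A ε) :
    WeakPoincare (vec S π) (fun x y : S => (κ x y).toReal) A ε := by
  classical
  intro g B hB
  -- extend `g`
  let g' : σ → ℝ := fun x => if hx : x ∈ S then g ⟨x, hx⟩ else 0
  have hg' : ∀ x : S, g' x = g x := fun x => by simp [g']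
  have h1 := h.wp g' B (fun x hx => by simpa [g', hx] using hB ⟨x, hx⟩)
  have e0 : ∑ z ∈ S, (π z).toReal * g' z = Ex (vec S π) g := by
    unfold Ex vec
    rw [← Finset.sum_coe_sort S]
    exact Finset.sum_congr rfl fun x _ => by rw [hg']
  rw [e0] at h1
  have e1 : ∑ x ∈ S, (π x).toReal * (g' x - Ex (vec S π) g) ^ 2 = Vr (vec S π) g := by
    unfold Vr
    rw [← Finset.sum_coe_sort S]
    exact Finset.sum_congr rfl fun x _ => by rw [hg']; rfl
  have e2 : ∑ x ∈ S, ∑ y ∈ S, (π x).toReal * (κ x y).toReal * (g' x - g' y) ^ 2 =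
      ∑ x : S, ∑ y : S, vec S π x * (κ x y).toReal * (g x - g y) ^ 2 := by
    rw [← Finset.sum_coe_sort S]
    refine Finset.sum_congr rfl fun x _ => ?_
    rw [← Finset.sum_coe_sort S]
    exact Finset.sum_congr rfl fun y _ => by rw [hg', hg']; rfl
  rw [e1, e2] at h1
  exact h1

/-- **Mixing from a warm start, `PMF` form.** -/
theorem GoodChain.mix {S : Finset σ} {π : PMF σ} {κ : σ → PMF σ} {A ε : ℝ}
    (h : GoodChain S π κ A ε) {μ : PMF σ} {M η : ℝ} (hM1 : 1 ≤ M) (hη : 0 < η)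
    (hε : ε * M ^ 2 ≤ η ^ 2) (hM : ∀ x, (μ x).toReal ≤ M * (π x).toReal) (t : ℕ)
    (ht : 2 * A * Real.log (M / η) ≤ t) :
    TVle (μ.bind (iterBind κ t)) π (ENNReal.ofReal η) := by
  have hμ : ∀ x, x ∉ S → μ x = 0 := fun x hx => by
    have h1 := hM x
    rw [h.supp x hx, ENNReal.toReal_zero, mul_zero] at h1
    have h2 : (μ x).toReal = 0 := le_antisymm h1 ENNReal.toReal_nonneg
    exact (ENNReal.toReal_eq_zero_iff _).1 h2 |>.resolve_right (μ.apply_ne_top x)
  obtain ⟨h1, h2⟩ := vec_iter h.closed t μ hμ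
  refine TVle_of_TVd h2 h.supp ?_
  rw [h1]
  exact mixing_steps h.lazyRev h.one_le h.weakPoincare (vec_nonneg S μ) (vec_sum hμ)
    (fun x => hM x) hM1 hη hε t ht

/-- One phase of annealing: a law close to `π₀` is transported by `φ` and then run for `t` steps. -/
theorem GoodChain.phase {S : Finset σ} {π₀ π : PMF σ} {κ : σ → PMF σ} {A ε : ℝ}
    (h : GoodChain S π κ A ε) {μ : PMF σ} (φ : σ → σ) {δ : ℝ≥0∞} (hμ : TVle μ π₀ δ)
    {M η : ℝ} (hM1 : 1 ≤ M) (hη : 0 < η) (hε : ε * M ^ 2 ≤ η ^ 2)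
    (hM : ∀ y, ((π₀.map φ) y).toReal ≤ M * (π y).toReal) (t : ℕ)
    (ht : 2 * A * Real.log (M / η) ≤ t) :
    TVle ((μ.map φ).bind (iterBind κ t)) π (δ + ENNReal.ofReal η) :=
  ((hμ.map φ).bind (iterBind κ t)).trans (h.mix hM1 hη hε hM t ht)

/-- **Annealing.** `μ l` is the law after phase `l`. -/
theorem anneal {L : ℕ} {S : ℕ → Finset σ} {π : ℕ → PMF σ} {κ : ℕ → σ → PMF σ} {A ε : ℝ}
    (h : ∀ l < L, GoodChain (S (l + 1)) (π (l + 1)) (κ (l + 1)) A ε) (φ : ℕ → σ → σ)
    {M η : ℝ} (hM1 : 1 ≤ M) (hη : 0 < η) (hε : ε * M ^ 2 ≤ η ^ 2)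
    (hM : ∀ l < L, ∀ y, (((π l).map (φ l)) y).toReal ≤ M * (π (l + 1) y).toReal) (t : ℕ)
    (ht : 2 * A * Real.log (M / η) ≤ t) (μ : ℕ → PMF σ) {δ : ℝ≥0∞} (h0 : TVle (μ 0) (π 0) δ)
    (hμ : ∀ l < L, μ (l + 1) = ((μ l).map (φ l)).bind (iterBind (κ (l + 1)) t)) :
    ∀ l ≤ L, TVle (μ l) (π l) (δ + l * ENNReal.ofReal η) := by
  intro l
  induction l with
  | zero => intro _; simpa using h0
  | succ l ih =>
    intro hl
    rw [hμ l (by omega)]
    refine ((h l (by omega)).phase (φ l) (ih (by omega)) hM1 hη hε (hM l (by omega)) t ht).mono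
      (le_of_eq ?_)
    push_cast
    ring

/-- **Annealing with soft weights and approximate kernels.** `u l` is the target law of phase `l`
(uniform on the tables), `π l` the stationary law of the ideal kernel `κ l` (TV distance at most
`η0` from `u l`), `κ' l` the implemented kernel, `φ l` the transport map, `μ l` the law of the
state after phase `l`. All errors add up. -/
theorem anneal_soft {L : ℕ} {S : ℕ → Finset σ} {u π : ℕ → PMF σ} {κ κ' : ℕ → σ → PMF σ}
    {A ε : ℝ} (h : ∀ l < L, GoodChain (S (l + 1)) (π (l + 1)) (κ (l + 1)) A ε)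
    {η0 ζ : ℝ≥0∞} (hu : ∀ l < L, TVle (π (l + 1)) (u (l + 1)) η0)
    (hcl : ∀ l < L, ∀ x ∈ S (l + 1), ∀ y ∈ (κ' (l + 1) x).support, y ∈ S (l + 1))
    (hpert : ∀ l < L, ∀ x ∈ S (l + 1), TVle (κ' (l + 1) x) (κ (l + 1) x) ζ)
    (φ : ℕ → σ → σ) (hφ : ∀ l < L, ∀ x ∈ (u l).support, φ l x ∈ S (l + 1))
    {M η : ℝ} (hM1 : 1 ≤ M) (hη : 0 < η) (hε : ε * M ^ 2 ≤ η ^ 2)
    (hM : ∀ l < L, ∀ y, (((u l).map (φ l)) y).toReal ≤ M * (π (l + 1) y).toReal) (t : ℕ)
    (ht : 2 * A * Real.log (M / η) ≤ t) (μ : ℕ → PMF σ) {δ : ℝ≥0∞} (h0 : TVle (μ 0) (u 0) δ)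
    (hμ : ∀ l < L, μ (l + 1) = ((μ l).map (φ l)).bind (iterBind (κ' (l + 1)) t)) :
    ∀ l ≤ L, TVle (μ l) (u l) (δ + l * (η0 + ENNReal.ofReal η + t * ζ)) := by
  intro l
  induction l with
  | zero => intro _; simpa using h0
  | succ l ih =>
    intro hl
    have hl' : l < L := by omega
    have ih1 := ih (by omega)
    have hsupp : ∀ x ∈ ((u l).map (φ l)).support, x ∈ S (l + 1) := by
      intro x hx
      rw [PMF.mem_support_map_iff] at hx
      obtain ⟨z, hz, rfl⟩ := hx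
      exact hφ l hl' z hz
    rw [hμ l hl']
    have e0 : TVle (((μ l).map (φ l)).bind (iterBind (κ' (l + 1)) t))
        (((u l).map (φ l)).bind (iterBind (κ' (l + 1)) t))
        (δ + l * (η0 + ENNReal.ofReal η + t * ζ)) := (ih1.map (φ l)).bind _
    have e2 : TVle (((u l).map (φ l)).bind (iterBind (κ' (l + 1)) t))
        (((u l).map (φ l)).bind (iterBind (κ (l + 1)) t)) (t * ζ) :=
      TVle.bind_right fun x hx => TVle.iterBind (I := fun x => x ∈ S (l + 1))
        (hcl l hl') (hpert l hl') t x (hsupp x hx)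
    have e1 := (h l hl').mix hM1 hη hε (hM l hl') t ht
    refine (((e0.trans e2).trans e1).trans (hu l hl')).mono (le_of_eq ?_)
    push_cast
    ring

/-- an injective map gives a warm start -/
theorem map_apply_le {π₀ π : PMF σ} {φ : σ → σ} {M : ℝ} (hM : 0 ≤ M)
    (hφ : ∀ x y, π₀ x ≠ 0 → π₀ y ≠ 0 → φ x = φ y → x = y)
    (h : ∀ x, (π₀ x).toReal ≤ M * (π (φ x)).toReal) (y : σ) :
    ((π₀.map φ) y).toReal ≤ M * (π y).toReal := by
  classical
  rw [PMF.map_apply]
  by_cases hy : ∃ x, π₀ x ≠ 0 ∧ φ x = y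
  · obtain ⟨x, hx, rfl⟩ := hy
    rw [tsum_eq_single x]
    · simpa using h x
    · intro z hz
      by_cases h0 : π₀ z = 0
      · simp [h0]
      · split_ifs with h1
        · exact absurd (hφ _ _ h0 hx h1.symm) hz
        · rfl
  · have : ∑' a, (if y = φ a then π₀ a else 0) = 0 := by
      rw [ENNReal.tsum_eq_zero]
      intro a
      split_ifs with h1
      · by_contra h2
        exact hy ⟨a, h2, h1.symm⟩
      · rfl
    rw [this, ENNReal.toReal_zero]
    exact mul_nonneg hM ENNReal.toReal_nonneg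

end Vale.Agent.P328R
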