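import Vale.Agent.P328R.ChainSym
import Vale.Agent.P328R.PMFTools

/-! # P328R: the implemented acceptance test against the ideal one -/

namespace Vale.Agent.P328R

open Vale.Agent.P328RAM

open scoped ENNReal

theorem EE_bern (a : NNReal) (ha : a ≤ 1) (F : Bool → ℝ≥0∞) :
    EE (bern a ha) F = a * F true + ((1 - a : NNReal) : ℝ≥0∞) * F false := by
  unfold EE
  rw [tsum_fintype, Fintype.sum_bool, bern_true, bern_false]

theorem TVle_bern {a a' δ : NNReal} (ha : a ≤ 1) (ha' : a' ≤ 1) (h : a ≤ a') (h' : a' ≤ a + δ) :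
    TVle (bern a' ha') (bern a ha) δ := by
  intro F hF
  rw [EE_bern, EE_bern]
  have h1 : ((1 - a' : NNReal) : ℝ≥0∞) ≤ ((1 - a : NNReal) : ℝ≥0∞) := by
    exact_mod_cast tsub_le_tsub_left h 1
  have h2 : (a' : ℝ≥0∞) ≤ (a : ℝ≥0∞) + δ := by exact_mod_cast h'
  calc (a' : ℝ≥0∞) * F true + ((1 - a' : NNReal) : ℝ≥0∞) * F false
      ≤ ((a : ℝ≥0∞) + δ) * F true + ((1 - a : NNReal) : ℝ≥0∞) * F false := by gcongr
    _ ≤ (a : ℝ≥0∞) * F true + δ * 1 + ((1 - a : NNReal) : ℝ≥0∞) * F false := by
        rw [add_mul]
        gcongr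
        exact hF _
    _ = _ := by rw [mul_one]; ring

theorem unif_eq (b : ℕ) : haveI : Nonempty (Fin (2 ^ b)) := ⟨⟨0, by positivity⟩⟩
    unif b = (PMF.uniformOfFintype (Fin (2 ^ b))).map fun i : Fin (2 ^ b) => (i : ℕ) := by
  unfold unif
  first
    | rfl
    | exact PMF.map_id _

theorem unif_map_dec (b : ℕ) (f : ℕ → Bool) (hle : ((((Finset.range (2 ^ b)).filter
    fun i => f i = true).card : NNReal) / 2 ^ b) ≤ 1) :
    (unif b).map f = bern ((((Finset.range (2 ^ b)).filter fun i => f i = true).card : NNReal)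
      / 2 ^ b) hle := by
  classical
  have key : ((unif b).map f) true =
      (((((Finset.range (2 ^ b)).filter fun i => f i = true).card : NNReal) / 2 ^ b : NNReal) :
        ℝ≥0∞) := by
    have : Nonempty (Fin (2 ^ b)) := ⟨⟨0, by positivity⟩⟩
    rw [unif_eq, PMF.map_comp, PMF.map_apply, tsum_fintype]
    simp only [PMF.uniformOfFintype_apply, Fintype.card_fin, Function.comp]
    rw [← Finset.sum_filter, Finset.sum_const, nsmul_eq_mul]
    have hc : (Finset.univ.filter fun i : Fin (2 ^ b) => true = f (i : ℕ)).card =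
        ((Finset.range (2 ^ b)).filter fun i => f i = true).card := by
      rw [← Finset.card_map Fin.valEmbedding]
      congr 1
      ext i
      simp only [Finset.mem_map, Finset.mem_filter, Finset.mem_univ, true_and,
        Fin.valEmbedding_apply, Finset.mem_range]
      constructor
      · rintro ⟨a, h1, rfl⟩
        exact ⟨a.2, h1.symm⟩
      · rintro ⟨h1, h2⟩
        exact ⟨⟨i, h1⟩, h2.symm, rfl⟩
    rw [hc]
    rw [ENNReal.coe_div (by positivity)]
    push_cast
    rw [div_eq_mul_inv]
  ext t
  cases t with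
  | true => rw [key, bern_true]
  | false =>
    have h1 := ((unif b).map f).tsum_coe
    have h2 := (bern ((((Finset.range (2 ^ b)).filter fun i => f i = true).card : NNReal)
      / 2 ^ b) hle).tsum_coe
    rw [tsum_fintype, Fintype.sum_bool] at h1 h2
    rw [key] at h1
    rw [bern_true] at h2
    exact (ENNReal.add_right_inj ENNReal.coe_ne_top).1 (h1.trans h2.symm)

/-- the number of accepted `U` -/
theorem count_lt {N x y : ℕ} (hx : 0 < x) :
    ((Finset.range N).filter fun i => decide (i * x < N * y) = true).card =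
      min N ((N * y + x - 1) / x) := by
  have : ((Finset.range N).filter fun i => decide (i * x < N * y) = true) =
      Finset.range (min N ((N * y + x - 1) / x)) := by
    ext i
    simp only [Finset.mem_filter, Finset.mem_range, decide_eq_true_eq, lt_min_iff]
    have h : i * x < N * y ↔ i < (N * y + x - 1) / x := by
      rw [Nat.lt_div_iff_mul_lt hx]
      omega
    rw [h]
  rw [this, Finset.card_range]

variable {m n : ℕ}

/-- The implemented acceptance is within `2 ^ (-b)` of the ideal one. -/
theorem accK_accI (p : Par) (g : Mg) {X : Tab m n} (hX : Wt p g X ≠ 0) (Y : Tab m n) :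
    TVle (accK p g X Y) (accI p g X Y) ((2 : ℝ≥0∞) ^ p.b)⁻¹ := by
  have hx : 0 < Wt p g X := Nat.pos_of_ne_zero hX
  set x := Wt p g X with hxd
  set y := Wt p g Y with hyd
  set N := 2 ^ p.b with hN
  have hN0 : 0 < N := by positivity
  set c := min N ((N * y + x - 1) / x) with hc
  have hcN : c ≤ N := min_le_left _ _
  have hcount := count_lt (N := N) (x := x) (y := y) hx
  have hle : ((((Finset.range (2 ^ p.b)).filter
      fun i => decide (i * x < N * y) = true).card : NNReal) / 2 ^ p.b) ≤ 1 := by
    rw [← hN, hcount]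
    rw [div_le_one (by positivity)]
    have : ((c : ℕ) : NNReal) ≤ ((N : ℕ) : NNReal) := by exact_mod_cast hcN
    rw [hN] at this
    push_cast at this
    exact this
  have e1 : accK p g X Y = ((unif p.b).map fun i => decide (i * x < N * y)).map
      fun t => if t then Y else X := by
    unfold accK
    rw [PMF.map_comp]
    congr 1
    funext U
    simp only [Function.comp, decide_eq_true_eq]
    rfl
  rw [e1, unif_map_dec p.b _ hle]
  unfold accI
  refine TVle.map ?_ _
  have hδ : ((2 : ℝ≥0∞) ^ p.b)⁻¹ = (((2 : NNReal) ^ p.b)⁻¹ : NNReal) := by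
    rw [ENNReal.coe_inv (by positivity)]
    push_cast
    rfl
  rw [hδ]
  have hcx : N * y ≤ ((N * y + x - 1) / x) * x := by
    have h1 := Nat.div_add_mod (N * y + x - 1) x
    have h2 := Nat.mod_lt (N * y + x - 1) hx
    have h3 : x * ((N * y + x - 1) / x) = ((N * y + x - 1) / x) * x := mul_comm _ _
    omega
  have hcx' : ((N * y + x - 1) / x) * x ≤ N * y + x - 1 := Nat.div_mul_le_self _ _
  have hx' : (0 : ℝ) < x := by exact_mod_cast hx
  have hN' : (0 : ℝ) < N := by exact_mod_cast hN0
  have h2N : ((2 : ℝ) ^ p.b) = N := by rw [hN]; push_cast; rfl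
  refine TVle_bern _ _ ?_ ?_
  · -- `a ≤ c / N`
    rw [← hN, hcount, ← hc]
    rw [← NNReal.coe_le_coe]
    unfold accP
    rw [← hxd, ← hyd]
    push_cast
    rw [h2N]
    rcases le_total N ((N * y + x - 1) / x) with h | h
    · have : c = N := by rw [hc]; exact min_eq_left h
      rw [this, div_self hN'.ne']
      exact min_le_left _ _
    · have : c = (N * y + x - 1) / x := by rw [hc]; exact min_eq_right h
      refine (min_le_right _ _).trans ?_
      rw [div_le_div_iff₀ hx' hN', this]
      have : ((N * y : ℕ) : ℝ) ≤ ((((N * y + x - 1) / x) * x : ℕ) : ℝ) := by exact_mod_cast hcx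
      push_cast at this ⊢
      linarith
  · rw [← hN, hcount, ← hc]
    rw [← NNReal.coe_le_coe]
    unfold accP
    rw [← hxd, ← hyd]
    push_cast
    rw [h2N]
    have hc2 : (c : ℝ) ≤ N * y / x + 1 := by
      have h3 : c ≤ (N * y + x - 1) / x := min_le_right _ _
      have h4 : c * x ≤ N * y + x - 1 := (Nat.mul_le_mul_right x h3).trans hcx'
      have h5 : c * x ≤ N * y + x := by omega
      have h6 : ((c * x : ℕ) : ℝ) ≤ ((N * y + x : ℕ) : ℝ) := by exact_mod_cast h5
      push_cast at h6
      have h7 : (N : ℝ) * y / x + 1 = (N * y + x) / x := by field_simp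
      rw [h7, le_div_iff₀ hx']
      exact h6
    have hc3 : (c : ℝ) ≤ N := by exact_mod_cast hcN
    rcases le_total (1 : ℝ) (y / x) with h | h
    · rw [min_eq_left h]
      have : (c : ℝ) / N ≤ 1 := by rw [div_le_one hN']; exact hc3
      have h8 : (0 : ℝ) ≤ (N : ℝ)⁻¹ := by positivity
      linarith
    · rw [min_eq_right h, div_le_iff₀ hN']
      have h9 : ((y : ℝ) / x + (N : ℝ)⁻¹) * N = N * y / x + 1 := by field_simp
      rw [h9]
      exact hc2

/-- The implemented step is within `2 ^ (-b)` of the ideal one. -/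
theorem stepK_stepI (p : Par) (g : Mg) {X : Tab m n} (hX : Wt p g X ≠ 0) :
    TVle (stepK p g X) (stepI p g X) ((2 : ℝ≥0∞) ^ p.b)⁻¹ := by
  unfold stepK stepI
  refine TVle.bind_right fun w _ => ?_
  by_cases hw : w = 0
  · simp only [hw, if_true]
    exact TVle.refl _ _
  · simp only [hw, if_false]
    exact TVle.bind_right fun Y _ => accK_accI p g hX Y

/-- a step either stays or goes to a proposal of positive weight -/
theorem stepK_support (p : Par) (g : Mg) {X Y : Tab m n} (hY : Y ∈ (stepK p g X).support) :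
    Y = X ∨ (Y ∈ (propK p g X).support ∧ Wt p g Y ≠ 0) := by
  unfold stepK at hY
  rw [PMF.mem_support_bind_iff] at hY
  obtain ⟨w, _, hY⟩ := hY
  by_cases hw : w = 0
  · simp only [hw, if_true, PMF.mem_support_pure_iff] at hY
    exact Or.inl hY
  · simp only [hw, if_false, PMF.mem_support_bind_iff] at hY
    obtain ⟨Z, hZ, hY⟩ := hY
    unfold accK at hY
    rw [PMF.mem_support_map_iff] at hY
    obtain ⟨U, _, hU⟩ := hY
    split_ifs at hU with h
    · subst hU
      refine Or.inr ⟨hZ, fun h0 => ?_⟩
      rw [h0] at h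
      omega
    · exact Or.inl hU.symm

end Vale.Agent.P328R
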