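import Mathlib
import Vale.Agent.P328R.PMFTools

/-! # P328R: the estimator

A Chernoff bound for counters of an iterated random map, a union bound, and the error analysis of
a product of ratios. -/

namespace Vale.Agent.P328R

open scoped ENNReal

open Vale.Agent.P328RAM (iterBind)

variable {σ : Type}

theorem iterBind_inv {K : σ → PMF σ} {I : σ → Prop}
    (hI : ∀ x, I x → ∀ y ∈ (K x).support, I y) (k : ℕ) :
    ∀ x, I x → ∀ y ∈ (iterBind K k x).support, I y := by
  induction k with
  | zero =>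
    intro x hx y hy
    simp only [iterBind, PMF.mem_support_pure_iff] at hy
    exact hy ▸ hx
  | succ k ih =>
    intro x hx y hy
    simp only [iterBind, PMF.mem_support_bind_iff] at hy
    obtain ⟨z, hz, hy⟩ := hy
    exact ih z (hI x hx z hz) y hy

/-- `e^θ ≤ 1 + θ + θ²` for `θ ≤ 1` -/
theorem exp_le_quad {θ : ℝ} (h0 : 0 ≤ θ) (h1 : θ ≤ 1) : Real.exp θ ≤ 1 + θ + θ ^ 2 := by
  have h := Real.abs_exp_sub_one_sub_id_le (x := θ) (by rw [abs_of_nonneg h0]; exact h1)
  have := abs_le.1 h
  linarith [this.2]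

theorem exp_neg_le_quad {θ : ℝ} (h0 : 0 ≤ θ) (h1 : θ ≤ 1) :
    Real.exp (-θ) ≤ 1 - θ + θ ^ 2 := by
  have h := Real.abs_exp_sub_one_sub_id_le (x := -θ) (by rw [abs_neg, abs_of_nonneg h0]; exact h1)
  have := abs_le.1 h
  have h2 := this.2
  have h3 : (-θ) ^ 2 = θ ^ 2 := by ring
  rw [h3] at h2
  linarith

/-- one step of the exponential moment, increments `0` or `1`, probability of `1` at most `p` -/
theorem mgf_step {μ : PMF σ} {c : σ → ℝ} {a p θ : ℝ}
    (hc : ∀ y ∈ μ.support, c y = a ∨ c y = a + 1)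
    (hp : μ.toOuterMeasure {y | c y = a + 1} ≤ ENNReal.ofReal p) (hp0 : 0 ≤ p)
    (h0 : 0 ≤ θ) (h1 : θ ≤ 1) (hp1 : p ≤ 1) :
    EE μ (fun y => ENNReal.ofReal (Real.exp (θ * c y))) ≤
      ENNReal.ofReal (Real.exp (θ * a + (p * θ + θ ^ 2))) := by
  classical
  have hexp : 1 ≤ Real.exp θ := Real.one_le_exp h0
  have e1 : EE μ (fun y => ENNReal.ofReal (Real.exp (θ * c y))) =
      EE μ (fun y => ENNReal.ofReal (Real.exp (θ * a)) +
        ENNReal.ofReal (Real.exp (θ * a) * (Real.exp θ - 1)) *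
          ({y | c y = a + 1} : Set σ).indicator (fun _ => 1) y) := by
    refine EE_congr fun y hy => ?_
    rcases hc y hy with h | h
    · have : y ∉ ({y | c y = a + 1} : Set σ) := by
        show ¬ (c y = a + 1); linarith
      rw [Set.indicator_of_notMem this, mul_zero, add_zero, h]
    · have : y ∈ ({y | c y = a + 1} : Set σ) := h
      rw [Set.indicator_of_mem this, mul_one, h,
        ← ENNReal.ofReal_add (Real.exp_pos _).le
          (mul_nonneg (Real.exp_pos _).le (by linarith))]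
      congr 1
      rw [mul_add, Real.exp_add, mul_one]
      ring
  rw [e1, EE_add, EE_const, EE_const_mul, EE_indicator]
  calc ENNReal.ofReal (Real.exp (θ * a)) +
        ENNReal.ofReal (Real.exp (θ * a) * (Real.exp θ - 1)) *
          μ.toOuterMeasure {y | c y = a + 1}
      ≤ ENNReal.ofReal (Real.exp (θ * a)) +
        ENNReal.ofReal (Real.exp (θ * a) * (Real.exp θ - 1)) * ENNReal.ofReal p := by gcongr
    _ = ENNReal.ofReal (Real.exp (θ * a) * (1 + p * (Real.exp θ - 1))) := by
        rw [← ENNReal.ofReal_mul (mul_nonneg (Real.exp_pos _).le (by linarith)),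
          ← ENNReal.ofReal_add (Real.exp_pos _).le
            (mul_nonneg (mul_nonneg (Real.exp_pos _).le (by linarith)) hp0)]
        congr 1; ring
    _ ≤ _ := by
        apply ENNReal.ofReal_le_ofReal
        rw [Real.exp_add]
        refine mul_le_mul_of_nonneg_left ?_ (Real.exp_pos _).le
        have h2 := Real.add_one_le_exp (p * θ + θ ^ 2)
        have h3 := exp_le_quad h0 h1
        nlinarith [sq_nonneg θ, mul_nonneg hp0 (sq_nonneg θ)]

/-- one step, lower tail: probability of the increment `1` at least `p` -/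
theorem mgf_step_low {μ : PMF σ} {c : σ → ℝ} {a p θ : ℝ}
    (hc : ∀ y ∈ μ.support, c y = a ∨ c y = a + 1)
    (hp : ENNReal.ofReal p ≤ μ.toOuterMeasure {y | c y = a + 1}) (hp0 : 0 ≤ p)
    (h0 : 0 ≤ θ) (h1 : θ ≤ 1) (hp1 : p ≤ 1) :
    EE μ (fun y => ENNReal.ofReal (Real.exp (-θ * c y))) ≤
      ENNReal.ofReal (Real.exp (-θ * a + (-p * θ + θ ^ 2))) := by
  classical
  have hexp : Real.exp (-θ) ≤ 1 := by
    rw [Real.exp_le_one_iff]; linarith
  -- increments `1 - inc` have probability at most `1 - p`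
  have hq : μ.toOuterMeasure {y | c y = a} ≤ ENNReal.ofReal (1 - p) := by
    have h2 : μ.toOuterMeasure {y | c y = a} + μ.toOuterMeasure {y | c y = a + 1} ≤ 1 := by
      rw [← EE_indicator, ← EE_indicator, ← EE_add]
      refine EE_le_one fun y => ?_
      by_cases h : c y = a
      · have h3 : ¬ c y = a + 1 := by rw [h]; linarith
        simp [Set.indicator, h]
      · by_cases h3 : c y = a + 1 <;> simp [Set.indicator, h, h3]
    have h3 : μ.toOuterMeasure {y | c y = a} + ENNReal.ofReal p ≤ 1 :=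
      (add_le_add_right hp _).trans h2
    rw [ENNReal.ofReal_sub _ hp0, ENNReal.ofReal_one]
    exact ENNReal.le_sub_of_add_le_right ENNReal.ofReal_ne_top h3
  have e1 : EE μ (fun y => ENNReal.ofReal (Real.exp (-θ * c y))) =
      EE μ (fun y => ENNReal.ofReal (Real.exp (-θ * a) * Real.exp (-θ)) +
        ENNReal.ofReal (Real.exp (-θ * a) * (1 - Real.exp (-θ))) *
          ({y | c y = a} : Set σ).indicator (fun _ => 1) y) := by
    refine EE_congr fun y hy => ?_
    rcases hc y hy with h | h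
    · have : y ∈ ({y | c y = a} : Set σ) := h
      rw [Set.indicator_of_mem this, mul_one, h,
        ← ENNReal.ofReal_add (by positivity)
          (mul_nonneg (Real.exp_pos _).le (by linarith))]
      congr 1; ring
    · have : y ∉ ({y | c y = a} : Set σ) := by
        show ¬ (c y = a); linarith
      rw [Set.indicator_of_notMem this, mul_zero, add_zero, h, mul_add, Real.exp_add, mul_one]
  rw [e1, EE_add, EE_const, EE_const_mul, EE_indicator]
  calc ENNReal.ofReal (Real.exp (-θ * a) * Real.exp (-θ)) +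
        ENNReal.ofReal (Real.exp (-θ * a) * (1 - Real.exp (-θ))) * μ.toOuterMeasure {y | c y = a}
      ≤ ENNReal.ofReal (Real.exp (-θ * a) * Real.exp (-θ)) +
        ENNReal.ofReal (Real.exp (-θ * a) * (1 - Real.exp (-θ))) * ENNReal.ofReal (1 - p) := by
          gcongr
    _ = ENNReal.ofReal (Real.exp (-θ * a) * (1 - p * (1 - Real.exp (-θ)))) := by
        rw [← ENNReal.ofReal_mul (mul_nonneg (Real.exp_pos _).le (by linarith)),
          ← ENNReal.ofReal_add (by positivity)
            (mul_nonneg (mul_nonneg (Real.exp_pos _).le (by linarith)) (by linarith))]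
        congr 1; ring
    _ ≤ _ := by
        apply ENNReal.ofReal_le_ofReal
        rw [Real.exp_add]
        refine mul_le_mul_of_nonneg_left ?_ (Real.exp_pos _).le
        have h2 := Real.add_one_le_exp (-p * θ + θ ^ 2)
        have h3 := exp_neg_le_quad h0 h1
        nlinarith [sq_nonneg θ, mul_nonneg hp0 (sq_nonneg θ)]

/-- exponential moment of a counter after `S` rounds (upper) -/
theorem mgf_iter {K : σ → PMF σ} {I : σ → Prop} (hI : ∀ x, I x → ∀ y ∈ (K x).support, I y)
    {c : σ → ℝ} {p θ : ℝ} (hc : ∀ x, I x → ∀ y ∈ (K x).support, c y = c x ∨ c y = c x + 1)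
    (hp : ∀ x, I x → (K x).toOuterMeasure {y | c y = c x + 1} ≤ ENNReal.ofReal p)
    (hp0 : 0 ≤ p) (hp1 : p ≤ 1) (h0 : 0 ≤ θ) (h1 : θ ≤ 1) (S : ℕ) :
    ∀ x, I x → EE (iterBind K S x) (fun y => ENNReal.ofReal (Real.exp (θ * c y))) ≤
      ENNReal.ofReal (Real.exp (θ * c x + S * (p * θ + θ ^ 2))) := by
  induction S with
  | zero => intro x _; simp [iterBind, EE_pure]
  | succ S ih =>
    intro x hx
    simp only [iterBind]
    rw [EE_bind]
    calc EE (K x) (fun y => EE (iterBind K S y) fun z => ENNReal.ofReal (Real.exp (θ * c z)))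
        ≤ EE (K x) (fun y => ENNReal.ofReal (Real.exp (θ * c y + S * (p * θ + θ ^ 2)))) :=
          EE_mono_support fun y hy => ih y (hI x hx y hy)
      _ = EE (K x) (fun y => ENNReal.ofReal (Real.exp (θ * c y))) *
            ENNReal.ofReal (Real.exp (S * (p * θ + θ ^ 2))) := by
          rw [← EE_mul_const]
          refine congrArg _ (funext fun y => ?_)
          rw [Real.exp_add, ENNReal.ofReal_mul (Real.exp_pos _).le]
      _ ≤ ENNReal.ofReal (Real.exp (θ * c x + (p * θ + θ ^ 2))) *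
            ENNReal.ofReal (Real.exp (S * (p * θ + θ ^ 2))) := by
          gcongr
          exact mgf_step (hc x hx) (hp x hx) hp0 h0 h1 hp1
      _ = _ := by
          rw [← ENNReal.ofReal_mul (Real.exp_pos _).le, ← Real.exp_add]
          congr 2
          push_cast
          ring

/-- exponential moment of a counter after `S` rounds (lower) -/
theorem mgf_iter_low {K : σ → PMF σ} {I : σ → Prop} (hI : ∀ x, I x → ∀ y ∈ (K x).support, I y)
    {c : σ → ℝ} {p θ : ℝ} (hc : ∀ x, I x → ∀ y ∈ (K x).support, c y = c x ∨ c y = c x + 1)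
    (hp : ∀ x, I x → ENNReal.ofReal p ≤ (K x).toOuterMeasure {y | c y = c x + 1})
    (hp0 : 0 ≤ p) (hp1 : p ≤ 1) (h0 : 0 ≤ θ) (h1 : θ ≤ 1) (S : ℕ) :
    ∀ x, I x → EE (iterBind K S x) (fun y => ENNReal.ofReal (Real.exp (-θ * c y))) ≤
      ENNReal.ofReal (Real.exp (-θ * c x + S * (-p * θ + θ ^ 2))) := by
  induction S with
  | zero => intro x _; simp [iterBind, EE_pure]
  | succ S ih =>
    intro x hx
    simp only [iterBind]
    rw [EE_bind]
    calc EE (K x) (fun y => EE (iterBind K S y) fun z => ENNReal.ofReal (Real.exp (-θ * c z)))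
        ≤ EE (K x) (fun y => ENNReal.ofReal (Real.exp (-θ * c y + S * (-p * θ + θ ^ 2)))) :=
          EE_mono_support fun y hy => ih y (hI x hx y hy)
      _ = EE (K x) (fun y => ENNReal.ofReal (Real.exp (-θ * c y))) *
            ENNReal.ofReal (Real.exp (S * (-p * θ + θ ^ 2))) := by
          rw [← EE_mul_const]
          refine congrArg _ (funext fun y => ?_)
          rw [Real.exp_add, ENNReal.ofReal_mul (Real.exp_pos _).le]
      _ ≤ ENNReal.ofReal (Real.exp (-θ * c x + (-p * θ + θ ^ 2))) *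
            ENNReal.ofReal (Real.exp (S * (-p * θ + θ ^ 2))) := by
          gcongr
          exact mgf_step_low (hc x hx) (hp x hx) hp0 h0 h1 hp1
      _ = _ := by
          rw [← ENNReal.ofReal_mul (Real.exp_pos _).le, ← Real.exp_add]
          congr 2
          push_cast
          ring

/-- Chernoff bound, upper tail. -/
theorem chernoff_up {K : σ → PMF σ} {I : σ → Prop} (hI : ∀ x, I x → ∀ y ∈ (K x).support, I y)
    {c : σ → ℝ} {p τ : ℝ} (hc : ∀ x, I x → ∀ y ∈ (K x).support, c y = c x ∨ c y = c x + 1)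
    (hp : ∀ x, I x → (K x).toOuterMeasure {y | c y = c x + 1} ≤ ENNReal.ofReal p)
    (hp0 : 0 ≤ p) (hp1 : p ≤ 1) (h0 : 0 ≤ τ) (h1 : τ ≤ 2) (S : ℕ) (x : σ) (hx : I x) :
    (iterBind K S x).toOuterMeasure {y | c x + S * (p + τ) ≤ c y} ≤
      ENNReal.ofReal (Real.exp (-(S * τ ^ 2 / 4))) := by
  have h := mgf_iter hI hc hp hp0 hp1 (θ := τ / 2) (by linarith) (by linarith) S x hx
  have h2 := prob_le_EE (iterBind K S x) {y | c x + S * (p + τ) ≤ c y}
    (fun y => ENNReal.ofReal (Real.exp (τ / 2 * c y)) *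
      ENNReal.ofReal (Real.exp (-(τ / 2 * (c x + S * (p + τ)))))) (by
        intro y hy
        rw [← ENNReal.ofReal_mul (Real.exp_pos _).le, ← Real.exp_add, ENNReal.one_le_ofReal]
        apply Real.one_le_exp
        have hy' : c x + S * (p + τ) ≤ c y := hy
        nlinarith)
  rw [EE_mul_const] at h2
  refine h2.trans ?_
  calc _ ≤ ENNReal.ofReal (Real.exp (τ / 2 * c x + S * (p * (τ / 2) + (τ / 2) ^ 2))) *
        ENNReal.ofReal (Real.exp (-(τ / 2 * (c x + S * (p + τ))))) := by gcongr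
    _ = _ := by
      rw [← ENNReal.ofReal_mul (Real.exp_pos _).le, ← Real.exp_add]
      congr 2
      ring

/-- Chernoff bound, lower tail. -/
theorem chernoff_low {K : σ → PMF σ} {I : σ → Prop} (hI : ∀ x, I x → ∀ y ∈ (K x).support, I y)
    {c : σ → ℝ} {p τ : ℝ} (hc : ∀ x, I x → ∀ y ∈ (K x).support, c y = c x ∨ c y = c x + 1)
    (hp : ∀ x, I x → ENNReal.ofReal p ≤ (K x).toOuterMeasure {y | c y = c x + 1})
    (hp0 : 0 ≤ p) (hp1 : p ≤ 1) (h0 : 0 ≤ τ) (h1 : τ ≤ 2) (S : ℕ) (x : σ) (hx : I x) :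
    (iterBind K S x).toOuterMeasure {y | c y ≤ c x + S * (p - τ)} ≤
      ENNReal.ofReal (Real.exp (-(S * τ ^ 2 / 4))) := by
  have h := mgf_iter_low hI hc hp hp0 hp1 (θ := τ / 2) (by linarith) (by linarith) S x hx
  have h2 := prob_le_EE (iterBind K S x) {y | c y ≤ c x + S * (p - τ)}
    (fun y => ENNReal.ofReal (Real.exp (-(τ / 2) * c y)) *
      ENNReal.ofReal (Real.exp (τ / 2 * (c x + S * (p - τ))))) (by
        intro y hy
        rw [← ENNReal.ofReal_mul (Real.exp_pos _).le, ← Real.exp_add, ENNReal.one_le_ofReal]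
        apply Real.one_le_exp
        have hy' : c y ≤ c x + S * (p - τ) := hy
        nlinarith)
  rw [EE_mul_const] at h2
  refine h2.trans ?_
  calc _ ≤ ENNReal.ofReal (Real.exp (-(τ / 2) * c x + S * (-p * (τ / 2) + (τ / 2) ^ 2))) *
        ENNReal.ofReal (Real.exp (τ / 2 * (c x + S * (p - τ)))) := by gcongr
    _ = _ := by
      rw [← ENNReal.ofReal_mul (Real.exp_pos _).le, ← Real.exp_add]
      congr 2
      ring

theorem outer_union_le (μ : PMF σ) {ι : Type} (T : Finset ι) (A : ι → Set σ) :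
    μ.toOuterMeasure (⋃ i ∈ T, A i) ≤ ∑ i ∈ T, μ.toOuterMeasure (A i) :=
  MeasureTheory.measure_biUnion_finset_le T A

/-- **All counters are accurate.** The counters `c i` start at `0`; in every round counter `i`
increases by one with probability within `η` of `p i`, otherwise it stays. After `S` rounds all
frequencies are within `η + τ` of `p i`, except with probability `2 |ι| exp(-S τ²/4)`. -/
theorem counters_good {ι : Type} [Fintype ι] {K : σ → PMF σ} {I : σ → Prop}
    (hI : ∀ x, I x → ∀ y ∈ (K x).support, I y) {c : ι → σ → ℝ} {p : ι → ℝ} {η τ : ℝ}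
    (hc : ∀ i x, I x → ∀ y ∈ (K x).support, c i y = c i x ∨ c i y = c i x + 1)
    (hp : ∀ i x, I x →
      |((K x).toOuterMeasure {y | c i y = c i x + 1}).toReal - p i| ≤ η)
    (hτ0 : 0 ≤ τ) (hτ : τ ≤ 2) (S : ℕ) (x : σ) (hx : I x) (h0 : ∀ i, c i x = 0) (hS : 0 < S) :
    (iterBind K S x).toOuterMeasure {y | ∃ i, η + τ < |c i y / S - p i|} ≤
      ENNReal.ofReal (2 * Fintype.card ι * Real.exp (-(S * τ ^ 2 / 4))) := by
  classical
  have hS' : (0 : ℝ) < S := by exact_mod_cast hS
  have hsub : {y | ∃ i, η + τ < |c i y / S - p i|} ⊆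
      ⋃ i ∈ (Finset.univ : Finset ι),
        ({y | c i x + S * (min 1 (p i + η) + τ) ≤ c i y} ∪
          {y | c i y ≤ c i x + S * (max 0 (p i - η) - τ)}) := by
    intro y hy
    obtain ⟨i, hi⟩ := hy
    simp only [Set.mem_iUnion, Finset.mem_univ, exists_prop, true_and]
    refine ⟨i, ?_⟩
    rw [Set.mem_union]
    rcases lt_abs.1 hi with h | h
    · left
      show c i x + S * (min 1 (p i + η) + τ) ≤ c i y
      rw [h0 i, zero_add]
      have h2 : p i + η + τ < c i y / S := by linarith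
      rw [lt_div_iff₀ hS'] at h2
      have h3 : min 1 (p i + η) ≤ p i + η := min_le_right _ _
      nlinarith
    · right
      show c i y ≤ c i x + S * (max 0 (p i - η) - τ)
      rw [h0 i, zero_add]
      have h2 : c i y / S < p i - η - τ := by linarith
      rw [div_lt_iff₀ hS'] at h2
      have h3 : p i - η ≤ max 0 (p i - η) := le_max_right _ _
      nlinarith
  refine ((iterBind K S x).toOuterMeasure.mono hsub).trans ?_
  refine (outer_union_le _ _ _).trans ?_
  have hone : ∀ i, (iterBind K S x).toOuterMeasure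
      ({y | c i x + S * (min 1 (p i + η) + τ) ≤ c i y} ∪
          {y | c i y ≤ c i x + S * (max 0 (p i - η) - τ)}) ≤
      ENNReal.ofReal (2 * Real.exp (-(S * τ ^ 2 / 4))) := by
    intro i
    have hle : ∀ z, I z → ((K z).toOuterMeasure {y | c i y = c i z + 1}).toReal ≤ 1 := fun z _ => by
      have := ENNReal.toReal_mono ENNReal.one_ne_top
        (toOuterMeasure_le_one (K z) {y | c i y = c i z + 1})
      simpa using this
    have hge : 0 ≤ p i + η := by
      have := abs_le.1 (hp i x hx)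
      have h3 : 0 ≤ ((K x).toOuterMeasure {y | c i y = c i x + 1}).toReal := ENNReal.toReal_nonneg
      linarith [this.2]
    have hle1 : p i - η ≤ 1 := by
      have := abs_le.1 (hp i x hx)
      linarith [this.1, hle x hx]
    have hup := chernoff_up (p := min 1 (p i + η)) hI (hc i) (fun z hz => by
        have := abs_le.1 (hp i z hz)
        rw [← ENNReal.ofReal_toReal (toOuterMeasure_ne_top (K z) _)]
        exact ENNReal.ofReal_le_ofReal (le_min (hle z hz) (by linarith [this.2])))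
        (le_min zero_le_one hge) (min_le_left _ _) hτ0 hτ S x hx
    have hlow := chernoff_low (p := max 0 (p i - η)) hI (hc i) (fun z hz => by
        have := abs_le.1 (hp i z hz)
        rw [← ENNReal.ofReal_toReal (toOuterMeasure_ne_top (K z) {y | c i y = c i z + 1})]
        exact ENNReal.ofReal_le_ofReal (max_le ENNReal.toReal_nonneg (by linarith [this.1])))
        (le_max_left _ _) (max_le zero_le_one hle1) hτ0 hτ S x hx
    calc _ ≤ ENNReal.ofReal (Real.exp (-(S * τ ^ 2 / 4))) +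
          ENNReal.ofReal (Real.exp (-(S * τ ^ 2 / 4))) :=
          (MeasureTheory.measure_union_le _ _).trans (add_le_add hup hlow)
      _ = _ := by
        rw [← ENNReal.ofReal_add (Real.exp_pos _).le (Real.exp_pos _).le]
        congr 1; ring
  refine (Finset.sum_le_sum fun i _ => hone i).trans (le_of_eq ?_)
  rw [Finset.sum_const, Finset.card_univ, nsmul_eq_mul,
    ← ENNReal.ofReal_natCast, ← ENNReal.ofReal_mul (Nat.cast_nonneg _)]
  congr 1; ring

/-! ### Product of ratios -/

theorem ratio_bounds {a b a' b' β τ u : ℝ} (hβ : 0 < β) (ha : β ≤ a) (hb : β ≤ b)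
    (hτu : τ ≤ u * β) (hu : u ≤ 1 / 8) (hu0 : 0 ≤ u) (h1 : |a' - a| ≤ τ)
    (h2 : |b' - b| ≤ τ) :
    (1 - 2 * u) * (b / a) ≤ b' / a' ∧ b' / a' ≤ (1 + 3 * u) * (b / a) ∧ 0 < a' ∧ 0 < b' := by
  have ha0 : 0 < a := by linarith
  have hb0 : 0 < b := by linarith
  have e1 := abs_le.1 h1
  have e2 := abs_le.1 h2
  have f1 : τ ≤ u * a := hτu.trans (mul_le_mul_of_nonneg_left ha hu0)
  have f2 : τ ≤ u * b := hτu.trans (mul_le_mul_of_nonneg_left hb hu0)
  have ha' : (1 - u) * a ≤ a' := by linarith [e1.1]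
  have ha'' : a' ≤ (1 + u) * a := by linarith [e1.2]
  have hb' : (1 - u) * b ≤ b' := by linarith [e2.1]
  have hb'' : b' ≤ (1 + u) * b := by linarith [e2.2]
  have hap : 0 < a' := lt_of_lt_of_le (mul_pos (by linarith) ha0) ha'
  have hbp : 0 < b' := lt_of_lt_of_le (mul_pos (by linarith) hb0) hb'
  refine ⟨?_, ?_, hap, hbp⟩
  · rw [le_div_iff₀ hap]
    have : (1 - 2 * u) * (b / a) * a' ≤ (1 - 2 * u) * (b / a) * ((1 + u) * a) :=
      mul_le_mul_of_nonneg_left ha'' (mul_nonneg (by linarith) (div_nonneg hb0.le ha0.le))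
    refine this.trans ?_
    have e3 : (1 - 2 * u) * (b / a) * ((1 + u) * a) = (1 - 2 * u) * (1 + u) * b := by
      field_simp
    rw [e3]
    refine le_trans ?_ hb'
    refine mul_le_mul_of_nonneg_right ?_ hb0.le
    nlinarith
  · rw [div_le_iff₀ hap]
    have : (1 + 3 * u) * (b / a) * ((1 - u) * a) ≤ (1 + 3 * u) * (b / a) * a' :=
      mul_le_mul_of_nonneg_left ha' (mul_nonneg (by linarith) (div_nonneg hb0.le ha0.le))
    refine le_trans ?_ this
    have e3 : (1 + 3 * u) * (b / a) * ((1 - u) * a) = (1 + 3 * u) * (1 - u) * b := by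
      field_simp
    rw [e3]
    refine hb''.trans ?_
    refine mul_le_mul_of_nonneg_right ?_ hb0.le
    nlinarith

/-- **Product of ratios.** If all frequencies are accurate to `τ ≤ ε β / (8 L)`, the product of
the empirical ratios is within `1 ± ε` of the true one. -/
theorem prod_ratio {L : ℕ} {a b a' b' : ℕ → ℝ} {β τ ε : ℝ} (hβ : 0 < β) (hε0 : 0 ≤ ε)
    (hε : ε ≤ 1) (hτ : 8 * L * τ ≤ ε * β) (ha : ∀ l < L, β ≤ a l) (hb : ∀ l < L, β ≤ b l)
    (h1 : ∀ l < L, |a' l - a l| ≤ τ) (h2 : ∀ l < L, |b' l - b l| ≤ τ) :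
    (1 - ε) * ∏ l ∈ Finset.range L, b l / a l ≤ ∏ l ∈ Finset.range L, b' l / a' l ∧
      ∏ l ∈ Finset.range L, b' l / a' l ≤ (1 + ε) * ∏ l ∈ Finset.range L, b l / a l := by
  rcases Nat.eq_zero_or_pos L with h0 | hL
  · subst h0; simp; exact hε0
  have hL' : (0 : ℝ) < L := by exact_mod_cast hL
  set u : ℝ := ε / (8 * L) with hu
  have hu0 : 0 ≤ u := by positivity
  have hL1 : (1 : ℝ) ≤ L := by exact_mod_cast hL
  have hu8 : u ≤ 1 / 8 := by
    rw [hu, div_le_div_iff₀ (by positivity) (by norm_num)]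
    nlinarith
  have huL : u * L = ε / 8 := by rw [hu]; field_simp
  have hτu : τ ≤ u * β := by
    rw [hu, div_mul_eq_mul_div, le_div_iff₀ (by positivity)]
    linarith
  have hr := fun l (hl : l ∈ Finset.range L) =>
    ratio_bounds hβ (ha l (Finset.mem_range.1 hl)) (hb l (Finset.mem_range.1 hl)) hτu hu8 hu0
      (h1 l (Finset.mem_range.1 hl)) (h2 l (Finset.mem_range.1 hl))
  have hpos : ∀ l ∈ Finset.range L, 0 ≤ b l / a l := fun l hl =>
    div_nonneg (hβ.le.trans (hb l (Finset.mem_range.1 hl)))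
      (hβ.le.trans (ha l (Finset.mem_range.1 hl)))
  have hprod : 0 ≤ ∏ l ∈ Finset.range L, b l / a l := Finset.prod_nonneg hpos
  constructor
  · have h3 : ∏ l ∈ Finset.range L, ((1 - 2 * u) * (b l / a l)) ≤
        ∏ l ∈ Finset.range L, b' l / a' l :=
      Finset.prod_le_prod (fun l hl => mul_nonneg (by linarith) (hpos l hl))
        (fun l hl => (hr l hl).1)
    rw [Finset.prod_mul_distrib, Finset.prod_const, Finset.card_range] at h3
    refine le_trans ?_ h3
    refine mul_le_mul_of_nonneg_right ?_ hprod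
    have h4 := one_add_mul_le_pow (a := -(2 * u)) (by linarith) L
    have h5 : 1 + (-(2 * u)) = 1 - 2 * u := by ring
    rw [h5] at h4
    have h6 : 1 + (L : ℝ) * (-(2 * u)) = 1 - 2 * (u * L) := by ring
    rw [h6, huL] at h4
    linarith
  · have h3 : ∏ l ∈ Finset.range L, b' l / a' l ≤
        ∏ l ∈ Finset.range L, ((1 + 3 * u) * (b l / a l)) :=
      Finset.prod_le_prod (fun l hl => div_nonneg (hr l hl).2.2.2.le (hr l hl).2.2.1.le)
        (fun l hl => (hr l hl).2.1)
    rw [Finset.prod_mul_distrib, Finset.prod_const, Finset.card_range] at h3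
    refine h3.trans ?_
    refine mul_le_mul_of_nonneg_right ?_ hprod
    have h4 : (1 + 3 * u) ^ L ≤ Real.exp (3 * (u * L)) := by
      have h5 : 1 + 3 * u ≤ Real.exp (3 * u) := by
        have := Real.add_one_le_exp (3 * u); linarith
      calc (1 + 3 * u) ^ L ≤ Real.exp (3 * u) ^ L := pow_le_pow_left₀ (by linarith) h5 L
        _ = _ := by rw [← Real.exp_nat_mul]; congr 1; ring
    rw [huL] at h4
    refine h4.trans ?_
    have h7 := exp_le_quad (θ := 3 * (ε / 8)) (by linarith) (by linarith)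
    nlinarith

theorem prod_telescope {Zs : ℕ → ℝ} (L : ℕ) (h : ∀ l ≤ L, Zs l ≠ 0) :
    ∏ l ∈ Finset.range L, Zs (l + 1) / Zs l = Zs L / Zs 0 := by
  induction L with
  | zero => simp [h 0 le_rfl]
  | succ L ih =>
    rw [Finset.prod_range_succ, ih fun l hl => h l (by omega)]
    have h1 := h L (by omega)
    field_simp

/-- **The estimator.** `K` is one pass of the program; the counter `l` increases by one with
probability within `η` of `Z l / Z (l+1)`. After `S` passes the product of `S / c l` is within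
`1 ± ε` of `Z L / Z 0`, except with probability `δ`. -/
theorem fpras_main {L : ℕ} {K : σ → PMF σ} {I : σ → Prop}
    (hI : ∀ x, I x → ∀ y ∈ (K x).support, I y) {c : ℕ → σ → ℝ} {Zs : ℕ → ℝ} {β η τ ε δ : ℝ}
    (hZ : ∀ l ≤ L, 0 < Zs l) (hβ0 : 0 < β) (hβ1 : β ≤ 1) (hβ : ∀ l < L, β ≤ Zs l / Zs (l + 1))
    (hc : ∀ l < L, ∀ x, I x → ∀ y ∈ (K x).support, c l y = c l x ∨ c l y = c l x + 1)
    (hp : ∀ l < L, ∀ x, I x →
      |((K x).toOuterMeasure {y | c l y = c l x + 1}).toReal - Zs l / Zs (l + 1)| ≤ η)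
    (hε0 : 0 ≤ ε) (hε1 : ε ≤ 1) (hτ0 : 0 ≤ τ) (hτ2 : τ ≤ 2) (hη : 0 ≤ η)
    (hτ : 8 * L * (η + τ) ≤ ε * β) (S : ℕ) (hS : 0 < S)
    (hδ : 2 * L * Real.exp (-(S * τ ^ 2 / 4)) ≤ δ) (x : σ) (hx : I x)
    (h0 : ∀ l < L, c l x = 0) :
    (iterBind K S x).toOuterMeasure {y | ¬ ((1 - ε) * (Zs L / Zs 0) ≤
        ∏ l ∈ Finset.range L, (S : ℝ) / c l y ∧
        ∏ l ∈ Finset.range L, (S : ℝ) / c l y ≤ (1 + ε) * (Zs L / Zs 0))} ≤
      ENNReal.ofReal δ := by
  classical
  have hS' : (0 : ℝ) < S := by exact_mod_cast hS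
  have key := counters_good (ι := Fin L) (K := K) (I := I) hI
    (c := fun i => c i) (p := fun i => Zs i / Zs (i + 1)) (η := η) (τ := τ)
    (fun i x hx => hc i i.2 x hx) (fun i x hx => hp i i.2 x hx) hτ0 hτ2 S x hx
    (fun i => h0 i i.2) hS
  refine le_trans ((iterBind K S x).toOuterMeasure.mono ?_) (key.trans ?_)
  · intro y hy
    by_contra hcon
    have hall : ∀ l < L, |c l y / S - Zs l / Zs (l + 1)| ≤ η + τ := by
      intro l hl
      by_contra h1
      exact hcon ⟨⟨l, hl⟩, not_le.1 h1⟩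
    refine hy ?_
    have h1 := prod_ratio (L := L) (a := fun l => Zs l / Zs (l + 1)) (b := fun _ => 1)
      (a' := fun l => c l y / S) (b' := fun _ => 1) (β := β) (τ := η + τ) (ε := ε) hβ0 hε0 hε1 hτ
      hβ (fun _ _ => hβ1) hall (fun _ _ => by simp; linarith)
    have e1 : ∏ l ∈ Finset.range L, (1 : ℝ) / (Zs l / Zs (l + 1)) = Zs L / Zs 0 := by
      rw [← prod_telescope L fun l hl => (hZ l hl).ne']
      exact Finset.prod_congr rfl fun l _ => one_div_div _ _
    have e2 : ∏ l ∈ Finset.range L, (1 : ℝ) / (c l y / S) =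
        ∏ l ∈ Finset.range L, (S : ℝ) / c l y :=
      Finset.prod_congr rfl fun l _ => one_div_div _ _
    simp only [e1, e2] at h1
    exact h1
  · rw [Fintype.card_fin]
    exact ENNReal.ofReal_le_ofReal hδ

end Vale.Agent.P328R
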