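import Mathlib

/-!
P328, replica proof (see notes/P328_replica.md). Shared definitions.
A network is given by `src tgt : E → V`; `bd src tgt X v` is the net flow of `X` out of `v`.
-/

namespace Vale.Agent.P328R

open Finset

variable {V E : Type} [Fintype V] [DecidableEq V] [Fintype E] [DecidableEq E]

/-- Net flow out of the vertex `v`. -/
def bd (src tgt : E → V) (X : E → ℤ) (v : V) : ℤ :=
  (∑ e, if src e = v then X e else 0) - ∑ e, if tgt e = v then X e else 0

/-- The vector `1_u - 1_v`. -/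
def dl (u v : V) : V → ℤ := fun x => (if x = u then 1 else 0) - (if x = v then 1 else 0)

/-- Log-concave without internal zeros. -/
def LC (w : ℤ → ℝ) : Prop :=
  (∀ x, 0 ≤ w x) ∧ ∀ a b, a < b → w a * w b ≤ w (a + 1) * w (b - 1)

/-- Nonnegative, symmetric about `t / 2` and unimodal. -/
def SU (t : ℤ) (f : ℤ → ℝ) : Prop :=
  (∀ x, 0 ≤ f x) ∧ (∀ x, f (t - x) = f x) ∧ ∀ x, t ≤ 2 * x → f (x + 1) ≤ f x

/-- `f` vanishes outside `[-M, M]`. -/
def Supp (M : ℤ) (f : ℤ → ℝ) : Prop := ∀ x, M < |x| → f x = 0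

/-- All `X : E → ℤ` with entries in `[-M, M]`. -/
noncomputable def box (E : Type) [Fintype E] [DecidableEq E] (M : ℤ) : Finset (E → ℤ) :=
  Fintype.piFinset fun _ => Finset.Icc (-M) M

/-- Product weight. -/
noncomputable def pw (f : E → ℤ → ℝ) (X : E → ℤ) : ℝ := ∏ e, f e (X e)

/-- Configurations with entries in `[-M, M]` and boundary `β`. -/
noncomputable def conf (src tgt : E → V) (M : ℤ) (β : V → ℤ) : Finset (E → ℤ) :=
  (box E M).filter fun X => bd src tgt X = β

/-- Partition function. -/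
noncomputable def Z (src tgt : E → V) (M : ℤ) (f : E → ℤ → ℝ) (β : V → ℤ) : ℝ :=
  ∑ X ∈ conf src tgt M β, pw f X

/-- The replica cut of a weight family. -/
def cut (f : E → ℤ → ℝ) (T : E → ℤ) : E → ℤ → ℝ := fun e x => f e x * f e (T e - x)

/-- Frames: symmetric log-concave weights centred at `T / 2`, where `T` has boundary `2 α`. -/
def Frame (src tgt : E → V) (M : ℤ) (α : V → ℤ) (f : E → ℤ → ℝ) (T : E → ℤ) : Prop :=
  (∀ e, LC (f e)) ∧ (∀ e x, f e (T e - x) = f e x) ∧ (∀ e, Supp M (f e)) ∧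
    ∀ v, bd src tgt T v = 2 * α v

/-- The replica functional. `β = α` gives the pair functional, `β = α + 1_u - 1_v` the load
functional. -/
noncomputable def A (src tgt : E → V) (M : ℤ) (α β : V → ℤ) :
    ℕ → (E → ℤ → ℝ) → (E → ℤ) → ((E → ℤ) → (E → ℤ) → ℝ) → ℝ
  | 0, f, T, G => ∑ X ∈ conf src tgt M β, pw f X * G X (T - X)
  | k + 1, f, _, G =>
      (Z src tgt M f α)⁻¹ *
        ∑ T' ∈ conf src tgt (2 * M) (fun v => 2 * α v), A src tgt M α β k (cut f T') T' G

/-- `ψ n = n² (n² - 1)`. -/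
def psi (n : ℤ) : ℝ := ((n : ℝ) ^ 2) * ((n : ℝ) ^ 2 - 1)

/-! ### The grid -/

variable {R C : Type} [Fintype R] [DecidableEq R] [Fintype C] [DecidableEq C]

/-- Source map of the grid: the row. -/
def gs (R C : Type) : R × C → R ⊕ C := fun e => Sum.inl e.1

/-- Target map of the grid: the column. -/
def gt (R C : Type) : R × C → R ⊕ C := fun e => Sum.inr e.2

/-- Move one unit inside column `j` from row `a` to row `b`. -/
def mv (j : C) (a b : R) (X : R × C → ℤ) : R × C → ℤ :=
  fun e => X e - (if e = (a, j) then 1 else 0) + (if e = (b, j) then 1 else 0)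

/-- Boundary `α` up to one unit moved between two rows (`p = q` allowed). -/
def Near (α : R ⊕ C → ℤ) (X : R × C → ℤ) : Prop :=
  ∃ p q : R, bd (gs R C) (gt R C) X = α + dl (Sum.inl p) (Sum.inl q)

/-- A pair whose difference is a disjoint union of simple alternating cycles. -/
def Good (X Y : R × C → ℤ) : Prop :=
  (∀ e, |X e - Y e| ≤ 1) ∧
    (∀ i : R, ∀ j j' : C, j ≠ j' → |(X (i, j) - Y (i, j)) + (X (i, j') - Y (i, j'))| ≤ 1) ∧
    (∀ j : C, ∀ i i' : R, i ≠ i' → |(X (i, j) - Y (i, j)) + (X (i', j) - Y (i', j))| ≤ 1)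

/-- Exchange column `j` of `Z` with that of `T - Z`. -/
def sw (T : R × C → ℤ) (j : C) (Z : R × C → ℤ) : R × C → ℤ :=
  fun e => if e.2 = j then T e - Z e else Z e

/-- The local energy: one-unit moves inside a column between near-tables, charged to the end
of smaller weight. -/
noncomputable def Gam (α : R ⊕ C → ℤ) (w : R × C → ℤ → ℝ) (g : (R × C → ℤ) → ℝ)
    (X : R × C → ℤ) : ℝ := by
  classical
  exact ∑ j : C, ∑ a : R, ∑ b : R,
    if Near α (mv j a b X) ∧ pw w X ≤ pw w (mv j a b X) then (g X - g (mv j a b X)) ^ 2 else 0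

end Vale.Agent.P328R
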