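import Vale.Agent.P328RAM.Spec
import Vale.Agent.P328RAM.Lib
import Vale.Agent.P328R.Defs

/-!
# P328, arbitrary (binary) margins: the algorithm as a native random process

Interface between the mathematics (`Vale.Agent.P328R`) and the program (`Vale.Agent.P328RAM`), as
fixed by helper31.  Tables are `Tab m n = Fin m × Fin n → ℤ`, margins are functions `ℕ → ℤ` of
which only the values below `m`, `n` matter.
-/

namespace Vale.Agent.P328R

open Vale.Agent.P328RAM

/-- The parameters of the chain. -/
structure Par where
  /-- threshold: margins above `Q` are big -/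
  Q : ℤ
  /-- exponent of the pivot weights -/
  q : ℕ
  /-- softness of the pivots which are not the corner -/
  Lp : ℤ
  /-- softness of the corner -/
  Lc : ℤ
  /-- block moves have length `sigma / 2 ^ k1` -/
  k1 : ℕ
  /-- number of random bits for the choice of a line -/
  B : ℕ
  /-- number of random bits for the acceptance test -/
  b : ℕ

variable (p : Par) (m n : ℕ)

/-- The least index below the bound at which `r` is largest. -/
def am (r : ℕ → ℤ) : ℕ → ℕ
  | 0 => 0
  | k + 1 => if r (am r k) < r k then k else am r k

/-- A pair of margins. -/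
structure Mg where
  r : ℕ → ℤ
  c : ℕ → ℤ

variable (g : Mg)

/-- the largest row -/
def is : ℕ := am g.r m

/-- the largest column -/
def js : ℕ := am g.c n

/-- the largest possible value of the cell `(i, j)` -/
def sc (i j : ℕ) : ℤ := min (g.r i) (g.c j)

/-- the number of bits of `sc` -/
def sb (i j : ℕ) : ℕ := Nat.size (sc g i j).toNat

/-- the scale of the cell `(i, j)`: `sc < sg ≤ 2 sc` -/
def sg (i j : ℕ) : ℤ := 2 ^ sb g i j

/-- pivot cells -/
def Piv (i j : ℕ) : Prop :=
  (p.Q < g.r (is m g) ∧ p.Q < g.c (js n g)) ∧
    ((i = is m g ∧ p.Q < g.c j) ∨ (j = js n g ∧ p.Q < g.r i))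

instance (i j : ℕ) : Decidable (Piv p m n g i j) := by unfold Piv; infer_instance

/-- block cells -/
def Blk (i j : ℕ) : Prop := (i ≠ is m g ∧ p.Q < g.r i) ∧ (j ≠ js n g ∧ p.Q < g.c j)

instance (i j : ℕ) : Decidable (Blk p m n g i j) := by unfold Blk; infer_instance

/-- the softness of the pivot `(i, j)` -/
def Ls (i j : ℕ) : ℤ := (if i = is m g ∧ j = js n g then p.Lc else p.Lp) * sg g i j

/-- the integer weight of the value `x` of the cell `(i, j)` -/
def cw (i j : ℕ) (x : ℤ) : ℕ :=
  if Piv p m n g i j then
    if |x| ≤ Ls p m n g i j then (Ls p m n g i j + min 0 x).toNat ^ p.q else 0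
  else if Blk p m n g i j then if 0 ≤ x ∧ x < sg g i j then 1 else 0
  else if 0 ≤ x ∧ x ≤ sc g i j then 1 else 0

variable {m n}

/-- the integer weight of a table; zero unless all row sums are exact (the column sums are
preserved by all moves and not tested) -/
def Wt (X : Tab m n) : ℕ :=
  if ∀ i : Fin m, rowSum X i = g.r i then ∏ e, cw p m n g (e.1 : ℕ) (e.2 : ℕ) (X e) else 0

/-- add `d` to the cell `(i, j)` (nothing happens outside the table) -/
def addc (i j : ℕ) (d : ℤ) (X : Tab m n) : Tab m n :=
  fun e => X e + if (e.1 : ℕ) = i ∧ (e.2 : ℕ) = j then d else 0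

/-- one unit of the column `j` from the row `a` to the row `b`, if the indices are in range -/
def unitM (a b j : ℕ) (X : Tab m n) : Tab m n :=
  if a < m ∧ b < m ∧ j < n then addc b j 1 (addc a j (-1) X) else X

/-- a random unit move (draws `j a b`) -/
noncomputable def unitK (X : Tab m n) : PMF (Tab m n) :=
  (unif p.B).bind fun j => (unif p.B).bind fun a => (unif p.B).map fun b => unitM a b j X

/-- the proposal of the worm: five random unit moves -/
noncomputable def wormK (X : Tab m n) : PMF (Tab m n) := iterBind (unitK p) 5 X

/-- number of bits of the length of the block move at `(i, j)` -/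
def lb (i j : ℕ) : ℕ := sb g i j - p.k1

/-- the cell `(i, j)` is changed by `d`, compensated in the pivots -/
def bmv (i j : ℕ) (d : ℤ) (X : Tab m n) : Tab m n :=
  addc i j d (addc i (js n g) (-d) (addc (is m g) j (-d) (addc (is m g) (js n g) d X)))

/-- the entry `(i, j)` (zero outside the table) -/
def ent (X : Tab m n) (i j : ℕ) : ℤ := if h : i < m ∧ j < n then X (⟨i, h.1⟩, ⟨j, h.2⟩) else 0

/-- the block move at `(i, j)` by `d` -/
def blockM (i j : ℕ) (d : ℤ) (X : Tab m n) : Tab m n :=
  if (i < m ∧ j < n) ∧ Blk p m n g i j then bmv g i j d X else X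

/-- the proposal of the block move: a cell, a sign, a length -/
noncomputable def blockK (X : Tab m n) : PMF (Tab m n) :=
  (unif p.B).bind fun i => (unif p.B).bind fun j => coin.bind fun s =>
    (unif (lb p g i j)).map fun d : ℕ => blockM p g i j (if s = 0 then (d : ℤ) else -(d : ℤ)) X

/-- the proposal -/
noncomputable def propK (X : Tab m n) : PMF (Tab m n) :=
  coin.bind fun v => if v = 0 then wormK p X else blockK p g X

/-- the implemented acceptance: `U` uniform with `b` bits, accept iff `U * W X < 2 ^ b * W Y` -/
noncomputable def accK (X Y : Tab m n) : PMF (Tab m n) :=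
  (unif p.b).map fun U => if U * Wt p g X < 2 ^ p.b * Wt p g Y then Y else X

/-- the ideal acceptance probability `min 1 (W Y / W X)` -/
noncomputable def accP (X Y : Tab m n) : NNReal := min 1 ((Wt p g Y : NNReal) / (Wt p g X : NNReal))

/-- a Bernoulli variable -/
noncomputable def bern (a : NNReal) (ha : a ≤ 1) : PMF Bool :=
  PMF.ofFintype (fun t => if t then (a : ENNReal) else ((1 - a : NNReal) : ENNReal)) (by
    rw [Fintype.sum_bool]
    simp only [if_true, Bool.false_eq_true, if_false]
    rw [← ENNReal.coe_add, add_tsub_cancel_of_le ha, ENNReal.coe_one])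

@[simp] theorem bern_true (a : NNReal) (ha : a ≤ 1) : bern a ha true = a := by
  simp [bern]

@[simp] theorem bern_false (a : NNReal) (ha : a ≤ 1) : bern a ha false = ((1 - a : NNReal)) := by
  simp [bern]

/-- the ideal acceptance -/
noncomputable def accI (X Y : Tab m n) : PMF (Tab m n) :=
  (bern (accP p g X Y) (min_le_left _ _)).map fun t => if t then Y else X

/-- one step of the implemented chain -/
noncomputable def stepK (X : Tab m n) : PMF (Tab m n) :=
  coin.bind fun w => if w = 0 then PMF.pure X else (propK p g X).bind (accK p g X)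

/-- one step of the ideal chain -/
noncomputable def stepI (X : Tab m n) : PMF (Tab m n) :=
  coin.bind fun w => if w = 0 then PMF.pure X else (propK p g X).bind (accI p g X)

/-! ### phases -/

variable (m n)

/-- the number of units added in the corner in the phase with margins `g` -/
def inc : ℤ :=
  if 0 < sc g (is m g) (js n g) then max 1 (sc g (is m g) (js n g) / (max m n : ℕ)) else 0

/-- the margins of the previous phase: subtract `inc` from the largest row and column -/
def down : Mg where
  r := fun i => g.r i - if i = is m g then inc m n g else 0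
  c := fun j => g.c j - if j = js n g then inc m n g else 0

/-- the margins of the phase number `k` -/
def mg (k : ℕ) : Mg := (down m n)^[k] g

variable {m n}

/-- the event counted in the phase with margins `g`: a genuine table whose corner is at least
`inc` -/
def hit (X : Tab m n) : Prop :=
  (∀ e, 0 ≤ X e) ∧ inc m n g ≤ ent X (is m g) (js n g)

instance (X : Tab m n) : Decidable (hit g X) := by unfold hit; infer_instance

/-- the phase number `k` of a pass: add `inc` in the corner, run `T` steps, count; the state is
the table together with the counters -/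
noncomputable def phaseK (T k : ℕ) (s : Tab m n × (ℕ → ℤ)) : PMF (Tab m n × (ℕ → ℤ)) :=
  (iterBind (stepK p (mg m n g k)) T
    (addc (is m (mg m n g k)) (js n (mg m n g k)) (inc m n (mg m n g k)) s.1)).map fun X =>
      (X, if hit (mg m n g k) X then Function.update s.2 k (s.2 k + 1) else s.2)

/-- one pass through the phases `P - 1, …, 0` starting with the zero table -/
noncomputable def passK (m n : ℕ) (T P : ℕ) (cnt : ℕ → ℤ) : PMF (ℕ → ℤ) :=
  (seqBind (fun l => phaseK (m := m) (n := n) p g T (P - 1 - l)) P (0, cnt)).map Prod.snd

/-- all counters after `S` passes -/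
noncomputable def counts (m n : ℕ) (T P S : ℕ) : PMF (ℕ → ℤ) :=
  iterBind (passK p g m n T P) S fun _ => 0

/-- the set of contingency tables -/
def OmegaS (m n : ℕ) : Set (Tab m n) :=
  {X | (∀ e, 0 ≤ X e) ∧ (∀ i, rowSum X i = g.r i) ∧ ∀ j, colSum X j = g.c j}

/-- the set of contingency tables, as a finite set -/
noncomputable def OmegaF (m n : ℕ) : Finset (Tab m n) := by
  classical
  exact (box (Fin m × Fin n) (∑ i : Fin m, g.r i)).filter fun X => X ∈ OmegaS g m n

/-- the state space of the chain: exact margins, positive weight -/
noncomputable def stF (m n : ℕ) : Finset (Tab m n) := by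
  classical
  exact (box (Fin m × Fin n) (2 * (p.Lc + p.Lp + 1) * ∑ i : Fin m, g.r i)).filter fun X =>
    (∀ j, colSum X j = g.c j) ∧ Wt p g X ≠ 0

/-- the law on the finite set `S` proportional to `w` (junk if all weights vanish) -/
noncomputable def lawOf {σ : Type} [Inhabited σ] (S : Finset σ) (w : σ → ℕ) : PMF σ := by
  classical
  exact if h : ∑ x ∈ S, w x = 0 then PMF.pure default else
    PMF.ofFinset (fun x => if x ∈ S then (w x : ENNReal) / ((∑ x ∈ S, w x : ℕ) : ENNReal) else 0) S
      (by
        rw [Finset.sum_congr rfl (fun x hx => if_pos hx)]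
        simp only [div_eq_mul_inv]
        rw [← Finset.sum_mul, Nat.cast_sum]
        refine ENNReal.mul_inv_cancel ?_ (by
          rw [← Nat.cast_sum]; exact ENNReal.natCast_ne_top _)
        rw [← Nat.cast_sum]
        exact_mod_cast h)
      (fun x hx => if_neg hx)

theorem lawOf_apply {σ : Type} [Inhabited σ] {S : Finset σ} {w : σ → ℕ}
    (h : ∑ x ∈ S, w x ≠ 0) (x : σ) [Decidable (x ∈ S)] :
    lawOf S w x = if x ∈ S then (w x : ENNReal) / ((∑ x ∈ S, w x : ℕ) : ENNReal) else 0 := by
  classical
  unfold lawOf
  rw [dif_neg h, PMF.ofFinset_apply]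
  congr

/-- the stationary law of the chain -/
noncomputable def piF (m n : ℕ) : PMF (Tab m n) := lawOf (stF p g m n) (Wt p g)

/-- the uniform law on the contingency tables -/
noncomputable def uniF (m n : ℕ) : PMF (Tab m n) := lawOf (OmegaF g m n) fun _ => 1

end Vale.Agent.P328R
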