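import Mathlib
import Vale.Agent.P328R.MixPMF
import Vale.Agent.P328R.Est
import Vale.Agent.P328RAM.Lib

/-! # P328R: the randomized approximation scheme as an abstract process

One pass goes through the phases `l = 0, …, L - 1`: the state is transported by `φ l`, the kernel
`κ' (l + 1)` is run `t` times, and the counter `ix l` is increased if the state is in `E l`. -/

namespace Vale.Agent.P328R

open scoped ENNReal
open Vale.Agent.P328RAM (iterBind seqBind seqBind_succ')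

variable {σ : Type}

section pass

variable (φ : ℕ → σ → σ) (κ' : ℕ → σ → PMF σ) (t : ℕ) (E : ℕ → σ → Prop)
  [∀ l y, Decidable (E l y)] (ix : ℕ → ℕ)

/-- phase `l` of a pass, with counters -/
noncomputable def phaseFull (l : ℕ) (s : σ × (ℕ → ℤ)) : PMF (σ × (ℕ → ℤ)) :=
  (iterBind (κ' (l + 1)) t (φ l s.1)).map fun y =>
    (y, if E l y then Function.update s.2 (ix l) (s.2 (ix l) + 1) else s.2)

/-- the law of the state after `l` phases -/
noncomputable def stLaw (x0 : σ) : ℕ → PMF σ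
  | 0 => PMF.pure x0
  | l + 1 => ((stLaw x0 l).map (φ l)).bind (iterBind (κ' (l + 1)) t)

/-- one pass as a kernel on the counters -/
noncomputable def passG (L : ℕ) (x0 : σ) (c : ℕ → ℤ) : PMF (ℕ → ℤ) :=
  (seqBind (phaseFull φ κ' t E ix) L (x0, c)).map Prod.snd

theorem seqBind_fst (x0 : σ) (c : ℕ → ℤ) (l : ℕ) :
    (seqBind (phaseFull φ κ' t E ix) l (x0, c)).map Prod.fst = stLaw φ κ' t x0 l := by
  induction l with
  | zero => simp [seqBind, stLaw, PMF.pure_map]
  | succ l ih =>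
    simp only [seqBind, stLaw]
    rw [PMF.map_bind, ← ih, PMF.map_comp, PMF.bind_map]
    refine congrArg _ (funext fun s => ?_)
    unfold phaseFull
    rw [PMF.map_comp]
    exact PMF.map_id _

theorem seqBind_counter {L : ℕ} (hix : ∀ i < L, ∀ j < L, ix i = ix j → i = j)
    (x0 : σ) (c : ℕ → ℤ) (k : ℕ) (hk : k < L) (l : ℕ) (hl : l ≤ L) :
    ∀ s ∈ (seqBind (phaseFull φ κ' t E ix) l (x0, c)).support,
      (l ≤ k → s.2 (ix k) = c (ix k)) ∧ (s.2 (ix k) = c (ix k) ∨ s.2 (ix k) = c (ix k) + 1) := by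
  induction l with
  | zero =>
    intro s hs
    simp only [seqBind, PMF.mem_support_pure_iff] at hs
    subst hs
    exact ⟨fun _ => rfl, Or.inl rfl⟩
  | succ l ih =>
    intro s hs
    simp only [seqBind, PMF.mem_support_bind_iff] at hs
    obtain ⟨s1, h1, h2⟩ := hs
    obtain ⟨i1, i2⟩ := ih (by omega) s1 h1
    unfold phaseFull at h2
    rw [PMF.mem_support_map_iff] at h2
    obtain ⟨y, _, rfl⟩ := h2
    constructor
    · intro hk'
      have h3 : ¬ (ix k = ix l) := fun h => by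
        have := hix k hk l (by omega) h
        omega
      split_ifs
      · simp only [Function.update_of_ne h3]
        exact i1 (by omega)
      · exact i1 (by omega)
    · by_cases hkl : k = l
      · subst hkl
        have h4 := i1 le_rfl
        split_ifs
        · right; simp [h4]
        · left; exact h4
      · have h3 : ¬ (ix k = ix l) := fun h => hkl (hix k hk l (by omega) h)
        split_ifs
        · simp only [Function.update_of_ne h3]
          exact i2
        · exact i2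

theorem prob_map (μ : PMF σ) {τ : Type} (f : σ → τ) (S : Set τ) :
    (μ.map f).toOuterMeasure S = μ.toOuterMeasure (f ⁻¹' S) := by
  rw [← EE_indicator, ← EE_indicator, EE_map]
  rfl

/-- the counter `ix k` increases with the probability of `E k` after phase `k` -/
theorem seqBind_prob {L : ℕ} (hix : ∀ i < L, ∀ j < L, ix i = ix j → i = j)
    (x0 : σ) (c : ℕ → ℤ) (k : ℕ) (l : ℕ) (hl : l ≤ L) (hk : k < l) :
    (seqBind (phaseFull φ κ' t E ix) l (x0, c)).toOuterMeasure
        {s | s.2 (ix k) = c (ix k) + 1} =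
      (stLaw φ κ' t x0 (k + 1)).toOuterMeasure {y | E k y} := by
  classical
  induction l with
  | zero => omega
  | succ l ih =>
    rcases Nat.lt_succ_iff_lt_or_eq.1 hk with h | h
    · rw [← ih (by omega) h]
      simp only [seqBind]
      rw [← EE_indicator, ← EE_indicator, EE_bind]
      refine congrArg _ (funext fun s => ?_)
      unfold phaseFull
      rw [EE_map]
      have h3 : ¬ (ix k = ix l) := fun h => by
        have := hix k (by omega) l (by omega) h
        omega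
      have : (fun y => ({s : σ × (ℕ → ℤ) | s.2 (ix k) = c (ix k) + 1} : Set _).indicator
          (fun _ => (1 : ℝ≥0∞)) (y, if E l y then
            Function.update s.2 (ix l) (s.2 (ix l) + 1) else s.2)) =
          fun _ : σ => ({s : σ × (ℕ → ℤ) | s.2 (ix k) = c (ix k) + 1} : Set _).indicator
            (fun _ => (1 : ℝ≥0∞)) s := by
        funext y
        split_ifs <;> simp [Set.indicator, Function.update_of_ne h3]
      rw [this, EE_const]
    · subst h
      simp only [seqBind, stLaw]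
      rw [← EE_indicator, ← EE_indicator, EE_bind, EE_bind, EE_map,
        ← seqBind_fst φ κ' t E ix x0 c, EE_map]
      refine EE_congr fun s hs => ?_
      have h4 := (seqBind_counter φ κ' t E ix hix x0 c k (by omega) k (by omega) s hs).1 le_rfl
      unfold phaseFull
      rw [EE_map]
      refine congrArg _ (funext fun y => ?_)
      by_cases hE : E k y
      · simp [Set.indicator, hE, h4]
      · simp [Set.indicator, hE, h4]

theorem passG_prob {L : ℕ} (hix : ∀ i < L, ∀ j < L, ix i = ix j → i = j) (x0 : σ)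
    (c : ℕ → ℤ) (l : ℕ) (hl : l < L) :
    (passG φ κ' t E ix L x0 c).toOuterMeasure
        {y | ((y (ix l) : ℤ) : ℝ) = (c (ix l) : ℝ) + 1} =
      (stLaw φ κ' t x0 (l + 1)).toOuterMeasure {y | E l y} := by
  rw [← seqBind_prob φ κ' t E ix hix x0 c l L le_rfl hl]
  unfold passG
  rw [prob_map]
  have : (Prod.snd ⁻¹' {y : ℕ → ℤ | ((y (ix l) : ℤ) : ℝ) = (c (ix l) : ℝ) + 1} :
      Set (σ × (ℕ → ℤ))) = {s | s.2 (ix l) = c (ix l) + 1} := by
    ext s
    constructor
    · intro (hs : ((s.2 (ix l) : ℤ) : ℝ) = (c (ix l) : ℝ) + 1)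
      show s.2 (ix l) = c (ix l) + 1
      exact_mod_cast hs
    · intro (hs : s.2 (ix l) = c (ix l) + 1)
      show ((s.2 (ix l) : ℤ) : ℝ) = (c (ix l) : ℝ) + 1
      exact_mod_cast hs
  rw [this]

end pass

/-- **The approximation scheme.** Data as in `anneal_soft`; `Zs l` is the number of tables of
phase `l`, and the event `E l` has probability `Zs l / Zs (l + 1)` under `u (l + 1)`. -/
theorem fpras_process {L : ℕ} {Sf : ℕ → Finset σ} {u π : ℕ → PMF σ} {κ κ' : ℕ → σ → PMF σ}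
    {A ε' : ℝ} (h : ∀ l < L, GoodChain (Sf (l + 1)) (π (l + 1)) (κ (l + 1)) A ε')
    {η0 ζ : ℝ} (hη0 : 0 ≤ η0) (hζ : 0 ≤ ζ)
    (hu : ∀ l < L, TVle (π (l + 1)) (u (l + 1)) (ENNReal.ofReal η0))
    (hcl : ∀ l < L, ∀ x ∈ Sf (l + 1), ∀ y ∈ (κ' (l + 1) x).support, y ∈ Sf (l + 1))
    (hpert : ∀ l < L, ∀ x ∈ Sf (l + 1), TVle (κ' (l + 1) x) (κ (l + 1) x) (ENNReal.ofReal ζ))
    (φ : ℕ → σ → σ) (hφ : ∀ l < L, ∀ x ∈ (u l).support, φ l x ∈ Sf (l + 1))
    {M η : ℝ} (hM1 : 1 ≤ M) (hη : 0 < η) (hε' : ε' * M ^ 2 ≤ η ^ 2)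
    (hM : ∀ l < L, ∀ y, (((u l).map (φ l)) y).toReal ≤ M * (π (l + 1) y).toReal) (t : ℕ)
    (ht : 2 * A * Real.log (M / η) ≤ t) (x0 : σ) (hu0 : u 0 = PMF.pure x0)
    (E : ℕ → σ → Prop) [∀ l y, Decidable (E l y)] (ix : ℕ → ℕ)
    (hix : ∀ i < L, ∀ j < L, ix i = ix j → i = j) {Zs : ℕ → ℝ} (hZ : ∀ l ≤ L, 0 < Zs l)
    (hE : ∀ l < L, ((u (l + 1)).toOuterMeasure {y | E l y}).toReal = Zs l / Zs (l + 1))
    {β τ ε δ : ℝ} (hβ0 : 0 < β) (hβ1 : β ≤ 1) (hβ : ∀ l < L, β ≤ Zs l / Zs (l + 1))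
    (hε0 : 0 ≤ ε) (hε1 : ε ≤ 1) (hτ0 : 0 ≤ τ) (hτ2 : τ ≤ 2)
    (hτ : 8 * L * (L * (η0 + η + t * ζ) + τ) ≤ ε * β) (S : ℕ) (hS : 0 < S)
    (hδ : 2 * L * Real.exp (-(S * τ ^ 2 / 4)) ≤ δ) :
    (iterBind (passG φ κ' t E ix L x0) S (fun _ => 0)).toOuterMeasure
      {c | ¬ ((1 - ε) * (Zs L / Zs 0) ≤ ∏ l ∈ Finset.range L, (S : ℝ) / (c (ix l) : ℝ) ∧
        ∏ l ∈ Finset.range L, (S : ℝ) / (c (ix l) : ℝ) ≤ (1 + ε) * (Zs L / Zs 0))} ≤
      ENNReal.ofReal δ := by
  have hz : (0 : ℝ) ≤ η0 + η + t * ζ := by positivity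
  have han := anneal_soft (L := L) h (η0 := ENNReal.ofReal η0) (ζ := ENNReal.ofReal ζ) hu hcl
    hpert φ hφ hM1 hη hε' hM t ht (stLaw φ κ' t x0) (δ := 0) (by
      show TVle (PMF.pure x0) (u 0) 0
      rw [hu0]; exact TVle.refl _ _) (fun l _ => rfl)
  have hc1 : ∀ l < L, ∀ c : ℕ → ℤ, True → ∀ c' ∈ (passG φ κ' t E ix L x0 c).support,
      ((c' (ix l) : ℤ) : ℝ) = (c (ix l) : ℝ) ∨ ((c' (ix l) : ℤ) : ℝ) = (c (ix l) : ℝ) + 1 := by
    intro l hl c _ c' hc'
    unfold passG at hc'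
    rw [PMF.mem_support_map_iff] at hc'
    obtain ⟨s, hs, rfl⟩ := hc'
    rcases (seqBind_counter φ κ' t E ix hix x0 c l (by assumption) L le_rfl s hs).2 with h1 | h1
    · left; rw [h1]
    · right; rw [h1]; push_cast; ring
  have hc2 : ∀ l < L, ∀ c : ℕ → ℤ, True →
      |((passG φ κ' t E ix L x0 c).toOuterMeasure
        {y | ((y (ix l) : ℤ) : ℝ) = (c (ix l) : ℝ) + 1}).toReal - Zs l / Zs (l + 1)| ≤
        L * (η0 + η + t * ζ) := by
    intro l hl c _
    rw [passG_prob φ κ' t E ix hix x0 c l hl, ← hE l hl]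
    have h2 := han (l + 1) (by omega)
    have h3 : (0 : ℝ≥0∞) + ((l + 1 : ℕ) : ℝ≥0∞) *
        (ENNReal.ofReal η0 + ENNReal.ofReal η + t * ENNReal.ofReal ζ) =
        ENNReal.ofReal (((l + 1 : ℕ) : ℝ) * (η0 + η + t * ζ)) := by
      rw [zero_add, ENNReal.ofReal_mul (by positivity), ENNReal.ofReal_natCast,
        ENNReal.ofReal_add (by positivity) (by positivity),
        ENNReal.ofReal_add hη0 hη.le, ENNReal.ofReal_mul (Nat.cast_nonneg t),
        ENNReal.ofReal_natCast]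
    rw [h3] at h2
    refine (TVle.abs_prob (by positivity) h2 _).trans ?_
    have h4 : ((l + 1 : ℕ) : ℝ) ≤ L := by exact_mod_cast hl
    exact mul_le_mul_of_nonneg_right h4 hz
  exact fpras_main (σ := ℕ → ℤ) (K := passG φ κ' t E ix L x0) (I := fun _ => True)
    (fun _ _ _ _ => trivial) (c := fun l c => (c (ix l) : ℝ)) hZ hβ0 hβ1 hβ hc1 hc2 hε0 hε1 hτ0
    hτ2 (by positivity) hτ S hS hδ (fun _ => 0) trivial (fun _ _ => by simp)

end Vale.Agent.P328R
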