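import Mathlib
import Vale.Agent.P328R.Fpras
import Vale.Agent.P328R.Algo

/-! # P328R: the counters of the algorithm give `|Ω|`

`counts_main`: the per-phase facts (good chain, soft law close to uniform, transport, hit ratio)
imply that the product of `S / counter` is within `1 ± ε` of the number of tables. -/

namespace Vale.Agent.P328R

open scoped ENNReal
open Vale.Agent.P328RAM (iterBind seqBind Tab)

variable {m n : ℕ}

theorem ofPMF_uniform {g : Mg} (hne : (OmegaF g m n).Nonempty) (X : Tab m n)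
    [Decidable (X ∈ OmegaF g m n)] :
    uniF g m n X = if X ∈ OmegaF g m n then ((OmegaF g m n).card : ℝ≥0∞)⁻¹ else 0 := by
  unfold uniF
  rw [lawOf_apply (by simpa using hne.ne_empty) X]
  by_cases h : X ∈ OmegaF g m n
  · simp [h]
  · simp [h]

theorem uniF_prob {g : Mg} (hne : (OmegaF g m n).Nonempty) (E : Tab m n → Prop)
    [DecidablePred E] :
    ((uniF g m n).toOuterMeasure {X | E X}).toReal =
      (((OmegaF g m n).filter E).card : ℝ) / (OmegaF g m n).card := by
  classical
  have h1 : (uniF g m n).toOuterMeasure {X | E X} =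
      (((OmegaF g m n).filter E).card : ℝ≥0∞) * ((OmegaF g m n).card : ℝ≥0∞)⁻¹ := by
    rw [← EE_indicator]
    unfold EE
    rw [tsum_eq_sum (s := (OmegaF g m n).filter E)]
    · rw [Finset.sum_congr rfl (g := fun _ => ((OmegaF g m n).card : ℝ≥0∞)⁻¹)]
      · rw [Finset.sum_const, nsmul_eq_mul]
      · intro X hX
        obtain ⟨h2, h3⟩ := Finset.mem_filter.1 hX
        rw [ofPMF_uniform hne, if_pos h2]
        simp [Set.indicator, h3]
    · intro X hX
      rw [ofPMF_uniform hne]
      by_cases h2 : X ∈ OmegaF g m n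
      · have h3 : ¬ E X := fun h3 => hX (Finset.mem_filter.2 ⟨h2, h3⟩)
        simp [Set.indicator, h3]
      · simp [h2]
  rw [h1, ENNReal.toReal_mul, ENNReal.toReal_inv, ENNReal.toReal_natCast, ENNReal.toReal_natCast,
    div_eq_mul_inv]

theorem uniF_support {g : Mg} (hne : (OmegaF g m n).Nonempty) {X : Tab m n}
    (hX : X ∈ (uniF g m n).support) : X ∈ OmegaF g m n := by
  classical
  rw [PMF.mem_support_iff, ofPMF_uniform hne] at hX
  by_contra h
  exact hX (by simp [h])

/-- the margins of the phase `l` counted from the start: `mg P, mg (P-1), …, mg 0` -/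
def gph (m n : ℕ) (g : Mg) (P : ℕ) : ℕ → Mg
  | 0 => mg m n g P
  | l + 1 => mg m n g (P - 1 - l)

theorem gph_eq (g : Mg) (P l : ℕ) (hl : l ≤ P) : gph m n g P l = mg m n g (P - l) := by
  cases l with
  | zero => rfl
  | succ l =>
    show mg m n g (P - 1 - l) = _
    congr 1
    omega

/-- **The counters give the number of tables.** -/
theorem counts_main (p : Par) (g : Mg) {T P S : ℕ} {A ε' η0 ζ M η β τ ε δ : ℝ}
    (hgood : ∀ k < P, GoodChain (stF p (mg m n g k) m n) (piF p (mg m n g k) m n)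
      (stepI p (mg m n g k)) A ε')
    (hη0 : 0 ≤ η0) (hζ : 0 ≤ ζ)
    (hu : ∀ k < P, TVle (piF p (mg m n g k) m n) (uniF (mg m n g k) m n) (ENNReal.ofReal η0))
    (hcl : ∀ k < P, ∀ X ∈ stF p (mg m n g k) m n, ∀ Y ∈ (stepK p (mg m n g k) X).support,
      Y ∈ stF p (mg m n g k) m n)
    (hpert : ∀ k < P, ∀ X ∈ stF p (mg m n g k) m n,
      TVle (stepK p (mg m n g k) X) (stepI p (mg m n g k) X) (ENNReal.ofReal ζ))
    (htr : ∀ k < P, ∀ X ∈ OmegaF (mg m n g (k + 1)) m n,
      addc (is m (mg m n g k)) (js n (mg m n g k)) (inc m n (mg m n g k)) X ∈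
        stF p (mg m n g k) m n)
    (hwarm : ∀ k < P, ∀ X ∈ OmegaF (mg m n g (k + 1)) m n,
      (uniF (mg m n g (k + 1)) m n X).toReal ≤ M * (piF p (mg m n g k) m n
        (addc (is m (mg m n g k)) (js n (mg m n g k)) (inc m n (mg m n g k)) X)).toReal)
    (hzero : OmegaF (mg m n g P) m n = {0})
    (hne : ∀ k ≤ P, (OmegaF (mg m n g k) m n).Nonempty)
    (hcard : ∀ k < P, ((OmegaF (mg m n g k) m n).filter fun X => hit (mg m n g k) X).card =
      (OmegaF (mg m n g (k + 1)) m n).card)
    (hβ0 : 0 < β) (hβ1 : β ≤ 1)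
    (hβ : ∀ k < P, β * (OmegaF (mg m n g k) m n).card ≤ (OmegaF (mg m n g (k + 1)) m n).card)
    (hM1 : 1 ≤ M) (hη : 0 < η) (hε' : ε' * M ^ 2 ≤ η ^ 2)
    (ht : 2 * A * Real.log (M / η) ≤ T)
    (hε0 : 0 ≤ ε) (hε1 : ε ≤ 1) (hτ0 : 0 ≤ τ) (hτ2 : τ ≤ 2)
    (hτ : 8 * P * (P * (η0 + η + T * ζ) + τ) ≤ ε * β) (hS : 0 < S)
    (hδ : 2 * P * Real.exp (-(S * τ ^ 2 / 4)) ≤ δ) :
    (counts p g m n T P S).toOuterMeasure
      {c | ¬ ((1 - ε) * (OmegaF g m n).card ≤ ∏ k ∈ Finset.range P, (S : ℝ) / (c k : ℝ) ∧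
        ∏ k ∈ Finset.range P, (S : ℝ) / (c k : ℝ) ≤ (1 + ε) * (OmegaF g m n).card)} ≤
      ENNReal.ofReal δ := by
  classical
  have hstep : ∀ l < P, gph m n g P l = mg m n g (P - 1 - l + 1) := by
    intro l hl
    rw [gph_eq g P l hl.le]
    congr 1
    omega
  have hZ0 : gph m n g P 0 = mg m n g P := rfl
  have hZP : gph m n g P P = g := by
    rw [gph_eq g P P le_rfl, Nat.sub_self]; rfl
  have key := fpras_process (σ := Tab m n) (L := P)
    (Sf := fun l => stF p (gph m n g P l) m n) (u := fun l => uniF (gph m n g P l) m n)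
    (π := fun l => piF p (gph m n g P l) m n) (κ := fun l => stepI p (gph m n g P l))
    (κ' := fun l => stepK p (gph m n g P l)) (A := A) (ε' := ε')
    (fun l hl => hgood (P - 1 - l) (by omega)) hη0 hζ
    (fun l hl => hu (P - 1 - l) (by omega)) (fun l hl => hcl (P - 1 - l) (by omega))
    (fun l hl => hpert (P - 1 - l) (by omega))
    (fun l => addc (is m (mg m n g (P - 1 - l))) (js n (mg m n g (P - 1 - l)))
      (inc m n (mg m n g (P - 1 - l))))
    (fun l hl X hX => by
      rw [hstep l hl] at hX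
      exact htr (P - 1 - l) (by omega) X (uniF_support (hne _ (by omega)) hX))
    hM1 hη hε'
    (fun l hl y => by
      refine map_apply_le (by linarith) ?_ ?_ y
      · intro X Y _ _ h
        funext e
        have := congrFun h e
        simp only [addc] at this
        linarith
      · intro X
        rw [hstep l hl]
        by_cases hX : X ∈ OmegaF (mg m n g (P - 1 - l + 1)) m n
        · exact hwarm (P - 1 - l) (by omega) X hX
        · rw [ofPMF_uniform (hne _ (by omega)), if_neg hX, ENNReal.toReal_zero]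
          exact mul_nonneg (by linarith) ENNReal.toReal_nonneg)
    T ht 0 (by
      show uniF (mg m n g P) m n = _
      ext X
      rw [ofPMF_uniform (hne P le_rfl), hzero, PMF.pure_apply]
      by_cases hX : X = 0
      · simp [hX]
      · simp [hX])
    (fun l => hit (mg m n g (P - 1 - l))) (fun l => P - 1 - l) (by intro i hi j hj h; omega)
    (Zs := fun l => ((OmegaF (gph m n g P l) m n).card : ℝ))
    (fun l hl => by
      rw [gph_eq g P l hl]
      exact_mod_cast Finset.card_pos.2 (hne _ (by omega)))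
    (fun l hl => by
      have e1 := uniF_prob (g := mg m n g (P - 1 - l)) (hne _ (by omega))
        (fun X => hit (mg m n g (P - 1 - l)) X)
      rw [hstep l hl, ← hcard (P - 1 - l) (by omega)]
      exact e1)
    hβ0 hβ1
    (fun l hl => by
      have h1 := hβ (P - 1 - l) (by omega)
      have h2 : (0 : ℝ) < (OmegaF (mg m n g (P - 1 - l)) m n).card := by
        exact_mod_cast Finset.card_pos.2 (hne _ (by omega))
      rw [hstep l hl]
      show β ≤ _ / ((OmegaF (mg m n g (P - 1 - l)) m n).card : ℝ)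
      rw [le_div_iff₀ h2]
      exact h1)
    hε0 hε1 hτ0 hτ2 hτ S hS hδ
  have h0 : ((OmegaF (gph m n g P 0) m n).card : ℝ) = 1 := by
    rw [hZ0, hzero, Finset.card_singleton, Nat.cast_one]
  have hset : {c : ℕ → ℤ | ¬ ((1 - ε) * (OmegaF g m n).card ≤
        ∏ k ∈ Finset.range P, (S : ℝ) / (c k : ℝ) ∧
        ∏ k ∈ Finset.range P, (S : ℝ) / (c k : ℝ) ≤ (1 + ε) * (OmegaF g m n).card)} =
      {c : ℕ → ℤ | ¬ ((1 - ε) * (((OmegaF (gph m n g P P) m n).card : ℝ) /
          ((OmegaF (gph m n g P 0) m n).card : ℝ)) ≤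
        ∏ l ∈ Finset.range P, (S : ℝ) / (c (P - 1 - l) : ℝ) ∧
        ∏ l ∈ Finset.range P, (S : ℝ) / (c (P - 1 - l) : ℝ) ≤
          (1 + ε) * (((OmegaF (gph m n g P P) m n).card : ℝ) /
            ((OmegaF (gph m n g P 0) m n).card : ℝ)))} := by
    ext c
    have e1 : ∏ l ∈ Finset.range P, (S : ℝ) / (c (P - 1 - l) : ℝ) =
        ∏ k ∈ Finset.range P, (S : ℝ) / (c k : ℝ) :=
      Finset.prod_range_reflect (fun k => (S : ℝ) / (c k : ℝ)) P
    rw [Set.mem_ofPred_eq, Set.mem_ofPred_eq, e1, h0, hZP, div_one]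
  rw [hset]
  exact key

end Vale.Agent.P328R
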