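import Vale.Agent.P328R.Algo

/-! # P328R: the schedule of margins -/

namespace Vale.Agent.P328R

open Vale.Agent.P328RAM

theorem am_lt (r : ℕ → ℤ) : ∀ k, 0 < k → am r k < k
  | 0, h => absurd h (lt_irrefl _)
  | k + 1, _ => by
    unfold am
    split_ifs
    · omega
    · rcases Nat.eq_zero_or_pos k with h | h
      · subst h; simp [am]
      · have := am_lt r k h
        omega

theorem am_max (r : ℕ → ℤ) : ∀ k i, i < k → r i ≤ r (am r k)
  | 0, i, h => absurd h (Nat.not_lt_zero _)
  | k + 1, i, h => by
    unfold am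
    rcases Nat.lt_succ_iff_lt_or_eq.1 h with h1 | h1
    · have := am_max r k i h1
      split_ifs with h2
      · omega
      · exact this
    · subst h1
      split_ifs with h2
      · exact le_rfl
      · omega

/-- admissible margins -/
structure Valid (m n : ℕ) (g : Mg) : Prop where
  m_pos : 0 < m
  n_pos : 0 < n
  r_nonneg : ∀ i < m, 0 ≤ g.r i
  c_nonneg : ∀ j < n, 0 ≤ g.c j
  sum_eq : ∑ i : Fin m, g.r i = ∑ j : Fin n, g.c j

variable {m n : ℕ} {g : Mg}

theorem Valid.is_lt (h : Valid m n g) : is m g < m := am_lt _ _ h.m_pos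

theorem Valid.js_lt (h : Valid m n g) : js n g < n := am_lt _ _ h.n_pos

theorem Valid.r_le (_h : Valid m n g) (i : Fin m) : g.r i ≤ g.r (is m g) := am_max _ _ _ i.2

theorem Valid.c_le (_h : Valid m n g) (j : Fin n) : g.c j ≤ g.c (js n g) := am_max _ _ _ j.2

/-- total sum -/
def tot (m : ℕ) (g : Mg) : ℤ := ∑ i : Fin m, g.r i

theorem Valid.tot_nonneg (h : Valid m n g) : 0 ≤ tot m g :=
  Finset.sum_nonneg fun i _ => h.r_nonneg i i.2

theorem Valid.r_is_nonneg (h : Valid m n g) : 0 ≤ g.r (is m g) := h.r_nonneg _ h.is_lt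

theorem Valid.c_js_nonneg (h : Valid m n g) : 0 ≤ g.c (js n g) := h.c_nonneg _ h.js_lt

theorem Valid.tot_le_r (h : Valid m n g) : tot m g ≤ m * g.r (is m g) := by
  unfold tot
  calc ∑ i : Fin m, g.r i ≤ ∑ _i : Fin m, g.r (is m g) := Finset.sum_le_sum fun i _ => h.r_le i
    _ = _ := by simp

theorem Valid.tot_le_c (h : Valid m n g) : tot m g ≤ n * g.c (js n g) := by
  unfold tot
  rw [h.sum_eq]
  calc ∑ j : Fin n, g.c j ≤ ∑ _j : Fin n, g.c (js n g) := Finset.sum_le_sum fun j _ => h.c_le j
    _ = _ := by simp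

theorem inc_nonneg : 0 ≤ inc m n g := by
  unfold inc
  split_ifs
  · exact zero_le_one.trans (le_max_left _ _)
  · exact le_rfl

theorem Valid.inc_le (h : Valid m n g) : inc m n g ≤ sc g (is m g) (js n g) := by
  have h0 : 0 ≤ sc g (is m g) (js n g) := le_min h.r_is_nonneg h.c_js_nonneg
  unfold inc
  split_ifs with h1
  · refine max_le (by omega) ?_
    refine (Int.ediv_le_self _ h0)
  · exact h0

theorem Valid.inc_le_r (h : Valid m n g) : inc m n g ≤ g.r (is m g) :=
  h.inc_le.trans (min_le_left _ _)

theorem Valid.inc_le_c (h : Valid m n g) : inc m n g ≤ g.c (js n g) :=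
  h.inc_le.trans (min_le_right _ _)

theorem sum_sub_single {k : ℕ} (f : ℕ → ℤ) (a : ℕ) (ha : a < k) (d : ℤ) :
    ∑ i : Fin k, (f i - if (i : ℕ) = a then d else 0) = (∑ i : Fin k, f i) - d := by
  rw [Finset.sum_sub_distrib]
  congr 1
  rw [Finset.sum_eq_single (⟨a, ha⟩ : Fin k)]
  · simp
  · intro b _ hb
    rw [if_neg]
    intro h
    exact hb (Fin.ext h)
  · intro h
    exact absurd (Finset.mem_univ _) h

theorem Valid.tot_down (h : Valid m n g) : tot m (down m n g) = tot m g - inc m n g :=
  sum_sub_single g.r (is m g) h.is_lt _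

theorem Valid.down (h : Valid m n g) : Valid m n (down m n g) where
  m_pos := h.m_pos
  n_pos := h.n_pos
  r_nonneg := by
    intro i hi
    show 0 ≤ g.r i - if i = is m g then inc m n g else 0
    split_ifs with h1
    · subst h1
      have := h.inc_le_r
      omega
    · have := h.r_nonneg i hi
      omega
  c_nonneg := by
    intro j hj
    show 0 ≤ g.c j - if j = js n g then inc m n g else 0
    split_ifs with h1
    · subst h1
      have := h.inc_le_c
      omega
    · have := h.c_nonneg j hj
      omega
  sum_eq := by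
    have h1 : ∑ i : Fin m, (P328R.down m n g).r i = (∑ i : Fin m, g.r i) - inc m n g :=
      sum_sub_single g.r (is m g) h.is_lt _
    have h2 : ∑ j : Fin n, (P328R.down m n g).c j = (∑ j : Fin n, g.c j) - inc m n g :=
      sum_sub_single g.c (js n g) h.js_lt _
    rw [h1, h2, h.sum_eq]

theorem mg_succ (k : ℕ) : mg m n g (k + 1) = down m n (mg m n g k) :=
  Function.iterate_succ_apply' _ _ _

theorem Valid.mg (h : Valid m n g) (k : ℕ) : Valid m n (mg m n g k) := by
  induction k with
  | zero => exact h
  | succ k ih => rw [mg_succ]; exact ih.down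

/-- the increment is a fixed fraction of the total -/
theorem Valid.le_inc (h : Valid m n g) :
    tot m g ≤ 2 * (max m n : ℕ) ^ 2 * inc m n g := by
  set x : ℤ := ((max m n : ℕ) : ℤ) with hx
  have hm : (m : ℤ) ≤ x := by rw [hx]; exact_mod_cast le_max_left _ _
  have hn : (n : ℤ) ≤ x := by rw [hx]; exact_mod_cast le_max_right _ _
  have hm0 : (0 : ℤ) < m := by exact_mod_cast h.m_pos
  have hx0 : 0 < x := by omega
  have h1 := h.tot_le_r
  have h2 := h.tot_le_c
  have hr := h.r_is_nonneg
  have hc := h.c_js_nonneg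
  set s := sc g (is m g) (js n g) with hs
  have hs1 : tot m g ≤ x * s := by
    rcases le_total (g.r (is m g)) (g.c (js n g)) with h3 | h3
    · have : s = g.r (is m g) := min_eq_left h3
      rw [this]
      exact h1.trans (mul_le_mul_of_nonneg_right hm hr)
    · have : s = g.c (js n g) := min_eq_right h3
      rw [this]
      exact h2.trans (mul_le_mul_of_nonneg_right hn hc)
  have hs0 : 0 ≤ s := le_min hr hc
  unfold inc
  rw [← hs]
  split_ifs with h3
  · rw [← hx]
    -- `s ≤ 2 x max(1, s / x)`
    have h4 : s ≤ 2 * x * max 1 (s / x) := by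
      have h5 := Int.mul_ediv_add_emod s x
      have h6 := Int.emod_lt_of_pos s hx0
      rcases le_total (s / x) 1 with h7 | h7
      · rw [max_eq_left h7]
        nlinarith
      · rw [max_eq_right h7]
        nlinarith
    calc tot m g ≤ x * s := hs1
      _ ≤ x * (2 * x * max 1 (s / x)) := mul_le_mul_of_nonneg_left h4 hx0.le
      _ = _ := by ring
  · have : s = 0 := le_antisymm (not_lt.1 h3) hs0
    rw [this, mul_zero] at hs1
    simpa using hs1

/-- after `K = 2 max² ` steps the total is halved -/
theorem Valid.halve (h : Valid m n g) {K : ℕ} (hK : 2 * (max m n) ^ 2 ≤ K) :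
    2 * tot m (P328R.mg m n g K) ≤ tot m g := by
  have hx0 : 0 < max m n := lt_of_lt_of_le h.m_pos (le_max_left _ _)
  have hK0 : 0 < K := lt_of_lt_of_le (by positivity) hK
  have key : ∀ k, 2 * tot m (P328R.mg m n g k) ≤ tot m g ∨
      2 * K * tot m (P328R.mg m n g k) ≤ (2 * K - k) * tot m g := by
    intro k
    induction k with
    | zero => right; simp [P328R.mg]
    | succ k ih =>
      have hv := h.mg k
      have h1 := hv.tot_down
      rw [mg_succ, h1]
      have hi : 0 ≤ inc m n (P328R.mg m n g k) := inc_nonneg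
      rcases ih with h2 | h2
      · left
        omega
      · by_cases h3 : 2 * tot m (P328R.mg m n g k) ≤ tot m g
        · left
          omega
        · right
          have h4 := hv.le_inc
          have h5 : tot m (P328R.mg m n g k) ≤ K * inc m n (P328R.mg m n g k) := by
            refine h4.trans (mul_le_mul_of_nonneg_right ?_ hi)
            exact_mod_cast hK
          push_cast
          nlinarith
  rcases key K with h1 | h1
  · exact h1
  · have hKz : (0 : ℤ) < K := by exact_mod_cast hK0
    have h2 : (2 * (K : ℤ) - K) * tot m g = K * tot m g := by ring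
    rw [h2] at h1
    have h3 : (K : ℤ) * (2 * tot m (P328R.mg m n g K)) ≤ K * tot m g := by linarith
    exact le_of_mul_le_mul_left h3 hKz

theorem mg_add (k l : ℕ) : mg m n g (k + l) = mg m n (mg m n g k) l := by
  unfold mg
  rw [add_comm, Function.iterate_add_apply]

theorem Valid.tot_pow (h : Valid m n g) {K : ℕ} (hK : 2 * (max m n) ^ 2 ≤ K) (l : ℕ) :
    2 ^ l * tot m (P328R.mg m n g (K * l)) ≤ tot m g := by
  induction l with
  | zero => simp [P328R.mg]
  | succ l ih =>
    have h1 := (h.mg (K * l)).halve hK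
    rw [← mg_add] at h1
    rw [show K * (l + 1) = K * l + K by ring, pow_succ, mul_assoc]
    have h2 : (0 : ℤ) < 2 ^ l := by positivity
    nlinarith

theorem Valid.tot_mono (h : Valid m n g) (l : ℕ) : tot m (P328R.mg m n g l) ≤ tot m g := by
  induction l with
  | zero => exact le_rfl
  | succ l ih =>
    rw [mg_succ, (h.mg l).tot_down]
    have : 0 ≤ inc m n (P328R.mg m n g l) := inc_nonneg
    omega

/-- The schedule ends with zero margins. -/
theorem Valid.tot_zero (h : Valid m n g) {P : ℕ}
    (hP : 2 * (max m n) ^ 2 * Nat.size (tot m g).toNat ≤ P) : tot m (P328R.mg m n g P) = 0 := by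
  set l := Nat.size (tot m g).toNat with hl
  have h1 := h.tot_pow le_rfl l
  have h2 : tot m g < 2 ^ l := by
    have h3 := Nat.lt_size_self (tot m g).toNat
    have h4 : ((tot m g).toNat : ℤ) = tot m g := Int.toNat_of_nonneg h.tot_nonneg
    rw [← h4]
    exact_mod_cast h3
  set Q := 2 * (max m n) ^ 2 * l with hQ
  have h5 : tot m (P328R.mg m n g Q) = 0 := by
    have h6 := (h.mg Q).tot_nonneg
    have h7 : (0 : ℤ) < 2 ^ l := by positivity
    by_contra h8
    have h9 : 1 ≤ tot m (P328R.mg m n g Q) := by omega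
    nlinarith
  obtain ⟨e, rfl⟩ := Nat.exists_eq_add_of_le hP
  rw [mg_add]
  have h6 := (h.mg Q).tot_mono e
  have h7 := ((h.mg Q).mg e).tot_nonneg
  omega

/-! ### The sets of tables -/

theorem mem_OmegaF {X : Tab m n} :
    X ∈ OmegaF g m n ↔ X ∈ OmegaS g m n := by
  classical
  unfold OmegaF
  rw [Finset.mem_filter]
  constructor
  · exact fun h => h.2
  · intro h
    refine ⟨?_, h⟩
    unfold box
    rw [Fintype.mem_piFinset]
    intro e
    rw [Finset.mem_Icc]
    obtain ⟨h1, h2, h3⟩ := h
    have h4 : X e ≤ rowSum X e.1 := by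
      unfold rowSum
      exact Finset.single_le_sum (f := fun j => X (e.1, j)) (fun j _ => h1 _) (Finset.mem_univ e.2)
    have h5 : ∀ i, 0 ≤ rowSum X i := fun i => Finset.sum_nonneg fun j _ => h1 _
    have h6 : rowSum X e.1 ≤ ∑ i : Fin m, g.r i := by
      rw [← Finset.sum_congr rfl fun i _ => h2 i]
      exact Finset.single_le_sum (f := fun i => rowSum X i) (fun i _ => h5 i)
        (Finset.mem_univ e.1)
    have h7 := h1 e
    constructor <;> omega

theorem sum_addc_row (X : Tab m n) {a b : ℕ} (hb : b < n) (d : ℤ) (i : Fin m) :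
    rowSum (addc a b d X) i = rowSum X i + if (i : ℕ) = a then d else 0 := by
  unfold rowSum addc
  rw [Finset.sum_add_distrib]
  congr 1
  split_ifs with h
  · rw [Finset.sum_eq_single (⟨b, hb⟩ : Fin n)]
    · simp [h]
    · intro j _ hj
      rw [if_neg]
      rintro ⟨_, h2⟩
      exact hj (Fin.ext h2)
    · intro h1
      exact absurd (Finset.mem_univ _) h1
  · exact Finset.sum_eq_zero fun j _ => if_neg fun h1 => h h1.1

theorem sum_addc_col (X : Tab m n) {a b : ℕ} (ha : a < m) (d : ℤ) (j : Fin n) :
    colSum (addc a b d X) j = colSum X j + if (j : ℕ) = b then d else 0 := by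
  unfold colSum addc
  rw [Finset.sum_add_distrib]
  congr 1
  split_ifs with h
  · rw [Finset.sum_eq_single (⟨a, ha⟩ : Fin m)]
    · simp [h]
    · intro i _ hi
      rw [if_neg]
      rintro ⟨h2, _⟩
      exact hi (Fin.ext h2)
    · intro h1
      exact absurd (Finset.mem_univ _) h1
  · exact Finset.sum_eq_zero fun i _ => if_neg fun h1 => h h1.2

/-- adding the increment in the corner goes from the tables of the previous phase to the tables
of the phase -/
theorem Valid.transport (h : Valid m n g) {X : Tab m n} (hX : X ∈ OmegaF (P328R.down m n g) m n) :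
    addc (is m g) (js n g) (inc m n g) X ∈ OmegaF g m n ∧
      hit g (addc (is m g) (js n g) (inc m n g) X) := by
  rw [mem_OmegaF] at hX ⊢
  obtain ⟨h1, h2, h3⟩ := hX
  have hi : 0 ≤ inc m n g := inc_nonneg
  have hpos : ∀ e, 0 ≤ addc (is m g) (js n g) (inc m n g) X e := by
    intro e
    unfold addc
    have := h1 e
    split_ifs <;> omega
  refine ⟨⟨hpos, ?_, ?_⟩, hpos, ?_⟩
  · intro i
    rw [sum_addc_row X h.js_lt, h2 i]
    show g.r i - (if (i : ℕ) = is m g then inc m n g else 0) +
      (if (i : ℕ) = is m g then inc m n g else 0) = g.r i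
    ring
  · intro j
    rw [sum_addc_col X h.is_lt, h3 j]
    show g.c j - (if (j : ℕ) = js n g then inc m n g else 0) +
      (if (j : ℕ) = js n g then inc m n g else 0) = g.c j
    ring
  · unfold ent addc
    rw [dif_pos ⟨h.is_lt, h.js_lt⟩]
    have := h1 (⟨is m g, h.is_lt⟩, ⟨js n g, h.js_lt⟩)
    simp only [and_self, if_true]
    omega

theorem Valid.transport_back (h : Valid m n g) {X : Tab m n} (hX : X ∈ OmegaF g m n)
    (hh : hit g X) : addc (is m g) (js n g) (-inc m n g) X ∈ OmegaF (P328R.down m n g) m n := by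
  rw [mem_OmegaF] at hX ⊢
  obtain ⟨h1, h2, h3⟩ := hX
  refine ⟨?_, ?_, ?_⟩
  · intro e
    unfold addc
    split_ifs with h4
    · have h5 := hh.2
      unfold ent at h5
      rw [dif_pos ⟨h.is_lt, h.js_lt⟩] at h5
      have h6 : e = (⟨is m g, h.is_lt⟩, ⟨js n g, h.js_lt⟩) :=
        Prod.ext (Fin.ext h4.1) (Fin.ext h4.2)
      rw [← h6] at h5
      omega
    · have := h1 e
      omega
  · intro i
    rw [sum_addc_row X h.js_lt, h2 i]
    show g.r i + (if (i : ℕ) = is m g then -inc m n g else 0) =
      g.r i - (if (i : ℕ) = is m g then inc m n g else 0)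
    split_ifs <;> ring
  · intro j
    rw [sum_addc_col X h.is_lt, h3 j]
    show g.c j + (if (j : ℕ) = js n g then -inc m n g else 0) =
      g.c j - (if (j : ℕ) = js n g then inc m n g else 0)
    split_ifs <;> ring

/-- the number of hits is the number of tables of the previous phase -/
theorem Valid.card_hit (h : Valid m n g) :
    ((OmegaF g m n).filter fun X => hit g X).card = (OmegaF (P328R.down m n g) m n).card := by
  have inv : ∀ (X : Tab m n) (d : ℤ), addc (is m g) (js n g) (-d)
      (addc (is m g) (js n g) d X) = X := by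
    intro X d
    funext e
    unfold addc
    split_ifs <;> ring
  have inv' : ∀ (X : Tab m n) (d : ℤ), addc (is m g) (js n g) d
      (addc (is m g) (js n g) (-d) X) = X := by
    intro X d
    funext e
    unfold addc
    split_ifs <;> ring
  refine Finset.card_nbij' (fun X => addc (is m g) (js n g) (-inc m n g) X)
    (fun X => addc (is m g) (js n g) (inc m n g) X) ?_ ?_ ?_ ?_
  · intro X hX
    rw [Finset.mem_coe, Finset.mem_filter] at hX
    exact h.transport_back hX.1 hX.2
  · intro X hX
    rw [Finset.mem_coe, Finset.mem_filter]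
    exact h.transport hX
  · intro X _
    exact inv' X _
  · intro X _
    exact inv X _

/-- margins of total zero: the only table is the zero table -/
theorem Valid.OmegaF_zero (h : Valid m n g) (h0 : tot m g = 0) : OmegaF g m n = {0} := by
  have hr : ∀ i : Fin m, g.r i = 0 := by
    intro i
    exact (Finset.sum_eq_zero_iff_of_nonneg fun (i : Fin m) _ => h.r_nonneg i i.2).1 h0 i
      (Finset.mem_univ i)
  have hc : ∀ j : Fin n, g.c j = 0 := by
    intro j
    have h1 : ∑ j : Fin n, g.c j = 0 := by rw [← h.sum_eq]; exact h0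
    exact (Finset.sum_eq_zero_iff_of_nonneg fun (j : Fin n) _ => h.c_nonneg j j.2).1 h1 j
      (Finset.mem_univ j)
  ext X
  rw [mem_OmegaF, Finset.mem_singleton]
  constructor
  · rintro ⟨h1, h2, h3⟩
    funext e
    have h4 := h2 e.1
    rw [hr] at h4
    have h5 := (Finset.sum_eq_zero_iff_of_nonneg fun j _ => h1 (e.1, j)).1 h4 e.2
      (Finset.mem_univ _)
    exact h5
  · rintro rfl
    refine ⟨fun e => le_rfl, fun i => ?_, fun j => ?_⟩
    · rw [hr]; simp [rowSum]
    · rw [hc]; simp [colSum]

theorem Valid.nonempty (h : Valid m n g) : (OmegaF g m n).Nonempty := by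
  -- go down to the zero margins and come back
  have h0 := h.tot_zero (P := 2 * (max m n) ^ 2 * Nat.size (tot m g).toNat) le_rfl
  set P := 2 * (max m n) ^ 2 * Nat.size (tot m g).toNat
  have key : ∀ k ≤ P, (OmegaF (P328R.mg m n g (P - k)) m n).Nonempty := by
    intro k
    induction k with
    | zero =>
      intro _
      rw [Nat.sub_zero, (h.mg P).OmegaF_zero h0]
      exact ⟨0, Finset.mem_singleton_self _⟩
    | succ k ih =>
      intro hk
      obtain ⟨X, hX⟩ := ih (by omega)
      rw [show P - k = P - (k + 1) + 1 by omega, mg_succ] at hX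
      exact ⟨_, ((h.mg _).transport hX).1⟩
  have := key P le_rfl
  rw [Nat.sub_self] at this
  exact this

end Vale.Agent.P328R
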