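import Vale.Agent.P328R.IdealRev
import Vale.Agent.P328R.FprasAlgo
import Vale.Agent.P328R.Pert
import Vale.Agent.P328R.Sched

/-! # P328R: genuine tables in the state space, warm starts, and the counters for valid margins -/

namespace Vale.Agent.P328R

open scoped ENNReal
open Vale.Agent.P328RAM

variable {m n : ℕ} {g : Mg} {p : Par}

/-- the weight of a genuine table -/
def W0 (p : Par) (g : Mg) (m n : ℕ) : ℕ :=
  ∏ e : Fin m × Fin n, if Piv p m n g (e.1 : ℕ) (e.2 : ℕ) then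
    (Ls p m n g (e.1 : ℕ) (e.2 : ℕ)).toNat ^ p.q else 1

theorem sg_pos (g : Mg) (i j : ℕ) : 0 < sg g i j := by unfold sg; positivity

theorem sg_le_Ls (hLp : 1 ≤ p.Lp) (hLc : 1 ≤ p.Lc) (i j : ℕ) : sg g i j ≤ Ls p m n g i j := by
  unfold Ls
  have h := sg_pos g i j
  split_ifs <;> nlinarith

theorem genuine_le {X : Tab m n} (hX : X ∈ OmegaF g m n) (e : Fin m × Fin n) :
    0 ≤ X e ∧ X e ≤ sc g e.1 e.2 := by
  rw [mem_OmegaF] at hX
  obtain ⟨h1, h2, h3⟩ := hX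
  refine ⟨h1 e, le_min ?_ ?_⟩
  · rw [← h2 e.1]
    unfold rowSum
    exact Finset.single_le_sum (f := fun j => X (e.1, j)) (fun j _ => h1 _) (Finset.mem_univ e.2)
  · rw [← h3 e.2]
    unfold colSum
    exact Finset.single_le_sum (f := fun i => X (i, e.2)) (fun i _ => h1 _) (Finset.mem_univ e.1)

theorem Wt_genuine (hLp : 1 ≤ p.Lp) (hLc : 1 ≤ p.Lc) {X : Tab m n} (hX : X ∈ OmegaF g m n) :
    Wt p g X = W0 p g m n := by
  unfold Wt W0
  have hX' := hX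
  rw [mem_OmegaF] at hX'
  rw [if_pos hX'.2.1]
  refine Finset.prod_congr rfl fun e _ => ?_
  obtain ⟨h1, h2⟩ := genuine_le hX e
  have h3 := sc_lt_sg g (e.1 : ℕ) (e.2 : ℕ)
  have h4 := sg_le_Ls (g := g) (m := m) (n := n) hLp hLc (e.1 : ℕ) (e.2 : ℕ)
  unfold cw
  by_cases hp : Piv p m n g (e.1 : ℕ) (e.2 : ℕ)
  · rw [if_pos hp, if_pos hp, if_pos (by rw [abs_of_nonneg h1]; omega), min_eq_left h1, add_zero]
  · rw [if_neg hp, if_neg hp]
    by_cases hb : Blk p m n g (e.1 : ℕ) (e.2 : ℕ)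
    · rw [if_pos hb, if_pos ⟨h1, by omega⟩]
    · rw [if_neg hb, if_pos ⟨h1, h2⟩]

theorem W0_pos (hLp : 1 ≤ p.Lp) (hLc : 1 ≤ p.Lc) : 0 < W0 p g m n := by
  refine Finset.prod_pos fun e _ => ?_
  split_ifs
  · have h3 := sg_pos g (e.1 : ℕ) (e.2 : ℕ)
    have h4 := sg_le_Ls (g := g) (m := m) (n := n) hLp hLc (e.1 : ℕ) (e.2 : ℕ)
    have : 0 < (Ls p m n g (e.1 : ℕ) (e.2 : ℕ)).toNat := by omega
    positivity
  · exact one_pos

theorem Valid.OmegaF_subset (h : Valid m n g) (hQ : 0 ≤ p.Q) (hLp : 1 ≤ p.Lp) (hLc : 1 ≤ p.Lc)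
    {X : Tab m n} (hX : X ∈ OmegaF g m n) : X ∈ stF p g m n := by
  rw [mem_stF_iff hQ (by omega) (by omega) fun i => h.r_nonneg i i.2]
  refine ⟨(mem_OmegaF.1 hX).2.2, ?_⟩
  rw [Wt_genuine hLp hLc hX]
  exact (W0_pos hLp hLc).ne'

theorem Valid.stF_nonempty (h : Valid m n g) (hQ : 0 ≤ p.Q) (hLp : 1 ≤ p.Lp) (hLc : 1 ≤ p.Lc) :
    (stF p g m n).Nonempty := by
  obtain ⟨X, hX⟩ := h.nonempty
  exact ⟨X, h.OmegaF_subset hQ hLp hLc hX⟩

theorem Valid.stepK_closed (h : Valid m n g) (hQ : 0 ≤ p.Q) (hLp : 1 ≤ p.Lp) (hLc : 1 ≤ p.Lc) :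
    ∀ X ∈ stF p g m n, ∀ Y ∈ (stepK p g X).support, Y ∈ stF p g m n := by
  intro X hX Y hY
  rcases stepK_support p g hY with h1 | ⟨h1, h2⟩
  · rw [h1]; exact hX
  · have hr : ∀ i : Fin m, 0 ≤ g.r i := fun i => h.r_nonneg i i.2
    rw [mem_stF_iff hQ (by omega) (by omega) hr] at hX ⊢
    exact ⟨fun j => by rw [propK_colSum h1 j]; exact hX.1 j, h2⟩

/-- warm starts -/
theorem Valid.warm (h : Valid m n g) (hQ : 0 ≤ p.Q) (hLp : 1 ≤ p.Lp) (hLc : 1 ≤ p.Lc)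
    {η0 β : ℝ} (hη0 : 0 ≤ η0) (hη0' : η0 ≤ 1 / 2)
    (hu : TVle (piF p g m n) (uniF g m n) (ENNReal.ofReal η0)) (hβ0 : 0 < β)
    (hβ : β * (OmegaF g m n).card ≤ (OmegaF (P328R.down m n g) m n).card)
    {X : Tab m n} (hX : X ∈ OmegaF (P328R.down m n g) m n) :
    (uniF (P328R.down m n g) m n X).toReal ≤ 2 / β * (piF p g m n
      (addc (is m g) (js n g) (inc m n g) X)).toReal := by
  classical
  have hne := h.nonempty
  have hne' := h.down.nonempty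
  have hst := h.stF_nonempty (p := p) hQ hLp hLc
  set X' := addc (is m g) (js n g) (inc m n g) X with hX'
  have hX'm : X' ∈ OmegaF g m n := (h.transport hX).1
  have hX's := h.OmegaF_subset (p := p) hQ hLp hLc hX'm
  -- the mass of the genuine tables
  have h1 := hu.symm.abs_prob hη0 {Y | Y ∈ OmegaF g m n}
  rw [uniF_prob hne (fun Y => Y ∈ OmegaF g m n)] at h1
  have hcard0 : (0 : ℝ) < (OmegaF g m n).card := by exact_mod_cast hne.card_pos
  have hcard1 : (0 : ℝ) < (OmegaF (P328R.down m n g) m n).card := by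
    exact_mod_cast hne'.card_pos
  have e1 : ((OmegaF g m n).filter fun Y => Y ∈ OmegaF g m n) = OmegaF g m n :=
    Finset.filter_true_of_mem fun Y hY => hY
  rw [e1, div_self hcard0.ne'] at h1
  have e2 : ((piF p g m n).toOuterMeasure {Y | Y ∈ OmegaF g m n}).toReal =
      (OmegaF g m n).card * (piF p g m n X').toReal := by
    have e3 : (piF p g m n).toOuterMeasure {Y | Y ∈ OmegaF g m n} =
        ((OmegaF g m n).card : ℝ≥0∞) * piF p g m n X' := by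
      rw [← EE_indicator]
      unfold EE
      rw [tsum_eq_sum (s := OmegaF g m n)]
      · rw [Finset.sum_congr rfl (g := fun _ => piF p g m n X')]
        · rw [Finset.sum_const, nsmul_eq_mul]
        · intro Y hY
          rw [Set.indicator_of_mem (by exact hY), mul_one,
            piF_apply_mem hst (h.OmegaF_subset hQ hLp hLc hY), piF_apply_mem hst hX's,
            Wt_genuine hLp hLc hY, Wt_genuine hLp hLc hX'm]
      · intro Y hY
        rw [Set.indicator_of_notMem (by exact hY), mul_zero]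
    rw [e3, ENNReal.toReal_mul, ENNReal.toReal_natCast]
  rw [e2] at h1
  have h2 := (abs_le.1 h1).2
  rw [ofPMF_uniform hne', if_pos hX, ENNReal.toReal_inv, ENNReal.toReal_natCast]
  set a : ℝ := (piF p g m n X').toReal with ha
  have h3 : 1 / 2 ≤ (OmegaF g m n).card * a := by linarith
  have ha0 : 0 ≤ a := ENNReal.toReal_nonneg
  rw [inv_eq_one_div, div_mul_eq_mul_div, div_le_div_iff₀ hcard1 hβ0]
  have h4 : β * 1 ≤ 2 * (β * ((OmegaF g m n).card * a)) := by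
    have := mul_le_mul_of_nonneg_left h3 hβ0.le
    linarith
  have h5 : β * (OmegaF g m n).card * a ≤ (OmegaF (P328R.down m n g) m n).card * a :=
    mul_le_mul_of_nonneg_right hβ ha0
  nlinarith

/-- **The counters for valid margins.** -/
theorem counts_valid (h : Valid m n g) (hQ : 0 ≤ p.Q) (hLp : 1 ≤ p.Lp) (hLc : 1 ≤ p.Lc)
    {T P S : ℕ} {A ε' η0 η β τ ε δ : ℝ}
    (hgood : ∀ g', Valid m n g' → GoodChain (stF p g' m n) (piF p g' m n) (stepI p g') A ε')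
    (hη0 : 0 ≤ η0) (hη0' : η0 ≤ 1 / 2)
    (hu : ∀ g', Valid m n g' → TVle (piF p g' m n) (uniF g' m n) (ENNReal.ofReal η0))
    (hβ0 : 0 < β) (hβ1 : β ≤ 1)
    (hβ : ∀ g', Valid m n g' →
      β * (OmegaF g' m n).card ≤ (OmegaF (P328R.down m n g') m n).card)
    (hP : 2 * (max m n) ^ 2 * Nat.size (tot m g).toNat ≤ P)
    (hη : 0 < η) (hε' : ε' * (2 / β) ^ 2 ≤ η ^ 2)
    (ht : 2 * A * Real.log (2 / β / η) ≤ T)
    (hε0 : 0 ≤ ε) (hε1 : ε ≤ 1) (hτ0 : 0 ≤ τ) (hτ2 : τ ≤ 2)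
    (hτ : 8 * P * (P * (η0 + η + T * ((2 : ℝ) ^ p.b)⁻¹) + τ) ≤ ε * β) (hS : 0 < S)
    (hδ : 2 * P * Real.exp (-(S * τ ^ 2 / 4)) ≤ δ) :
    (P328R.counts p g m n T P S).toOuterMeasure
      {c | ¬ ((1 - ε) * (OmegaF g m n).card ≤ ∏ k ∈ Finset.range P, (S : ℝ) / (c k : ℝ) ∧
        ∏ k ∈ Finset.range P, (S : ℝ) / (c k : ℝ) ≤ (1 + ε) * (OmegaF g m n).card)} ≤
      ENNReal.ofReal δ := by
  refine counts_main p g (A := A) (ε' := ε') (η0 := η0) (ζ := ((2 : ℝ) ^ p.b)⁻¹) (M := 2 / β)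
    (η := η) (β := β) (τ := τ) (fun k _ => hgood _ (h.mg k)) hη0 (by positivity)
    (fun k _ => hu _ (h.mg k)) (fun k _ => (h.mg k).stepK_closed hQ hLp hLc) ?_ ?_ ?_ ?_
    (fun k _ => (h.mg k).nonempty) ?_ hβ0 hβ1 ?_ ?_ hη hε' ht hε0 hε1 hτ0 hτ2 hτ hS hδ
  · intro k _ X hX
    have h1 := stepK_stepI p (P328R.mg m n g k) (Wt_ne_of_mem hX)
    have h2 : ((2 : ℝ≥0∞) ^ p.b)⁻¹ = ENNReal.ofReal ((2 : ℝ) ^ p.b)⁻¹ := by
      rw [ENNReal.ofReal_inv_of_pos (by positivity), ENNReal.ofReal_pow (by norm_num)]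
      simp
    rw [← h2]
    exact h1
  · intro k _ X hX
    rw [mg_succ] at hX
    exact (h.mg k).OmegaF_subset hQ hLp hLc ((h.mg k).transport hX).1
  · intro k _ X hX
    rw [mg_succ] at hX ⊢
    exact (h.mg k).warm hQ hLp hLc hη0 hη0' (hu _ (h.mg k)) hβ0 (hβ _ (h.mg k)) hX
  · exact (h.mg P).OmegaF_zero (h.tot_zero hP)
  · intro k _
    rw [mg_succ]
    exact (h.mg k).card_hit
  · intro k _
    rw [mg_succ]
    exact hβ _ (h.mg k)
  · rw [le_div_iff₀ hβ0]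
    linarith

end Vale.Agent.P328R
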