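import Mathlib
import Vale.Agent.P328R.FprasAlgo
import Vale.Agent.P328R.Sched2

/-! # P328R: explicit parameters

`X` is the base in which all parameters are powers: `X ≥ m + n + 2`, number of phases `P ≤ X ^ 4`,
accuracy `1 / E` with `E ≤ X`, failure probability `2 ^ (-D)` with `D ≤ X`. -/

namespace Vale.Agent.P328R

open scoped ENNReal
open Vale.Agent.P328RAM (iterBind seqBind Tab)

variable {m n : ℕ}

theorem log_le_self' {x : ℝ} (hx : 0 < x) : Real.log x ≤ x := by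
  have := Real.log_le_sub_one_of_pos hx; linarith

/-- enough passes -/
theorem passes_bound {P S X D : ℕ} (hX4 : (4 : ℝ) ≤ X) (hPX : (P : ℝ) ≤ (X : ℝ) ^ 4)
    (hDX : (D : ℝ) ≤ X) (hS : S = X ^ 22) :
    2 * (P : ℝ) * Real.exp (-(S * (1 / (X : ℝ) ^ 9) ^ 2 / 4)) ≤ 1 / 2 ^ D := by
  have hX0 : (0 : ℝ) < X := by linarith
  have hP0 : (0 : ℝ) ≤ P := Nat.cast_nonneg P
  have hSr : (S : ℝ) = (X : ℝ) ^ 22 := by rw [hS]; push_cast; rfl
  have e1 : (S : ℝ) * (1 / (X : ℝ) ^ 9) ^ 2 / 4 = (X : ℝ) ^ 4 / 4 := by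
    rw [hSr]; field_simp
  rw [e1]
  rcases hP0.eq_or_lt with h0 | hPpos
  · rw [← h0]; simp
  have h2 : 2 * (P : ℝ) * Real.exp (-((X : ℝ) ^ 4 / 4)) ≤
      Real.exp (Real.log (2 * (X : ℝ) ^ 4) - (X : ℝ) ^ 4 / 4) := by
    rw [sub_eq_add_neg, Real.exp_add, Real.exp_log (by positivity)]
    exact mul_le_mul_of_nonneg_right (by linarith) (Real.exp_pos _).le
  refine h2.trans ?_
  have h3 : (1 : ℝ) / 2 ^ D = Real.exp (-(D * Real.log 2)) := by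
    rw [Real.exp_neg, Real.exp_nat_mul, Real.exp_log (by norm_num), one_div]
  rw [h3]
  apply Real.exp_le_exp.2
  have h4 : Real.log (2 * (X : ℝ) ^ 4) ≤ 1 + 4 * X := by
    rw [Real.log_mul (by norm_num) (by positivity), Real.log_pow]
    have h5 : Real.log 2 ≤ 1 := by have := Real.log_two_lt_d9; linarith
    have h6 := log_le_self' hX0
    push_cast
    linarith
  have h7 : (D : ℝ) * Real.log 2 ≤ X := by
    have h5 : Real.log 2 ≤ 1 := by have := Real.log_two_lt_d9; linarith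
    calc (D : ℝ) * Real.log 2 ≤ D * 1 := mul_le_mul_of_nonneg_left h5 (Nat.cast_nonneg _)
      _ ≤ X := by linarith
  have h8 : 1 + 4 * (X : ℝ) + X ≤ (X : ℝ) ^ 4 / 4 := by
    have h9 : (64 : ℝ) * X ≤ (X : ℝ) ^ 4 := by
      have : (4 : ℝ) ^ 3 ≤ (X : ℝ) ^ 3 := pow_le_pow_left₀ (by norm_num) hX4 3
      calc (64 : ℝ) * X = 4 ^ 3 * X := by norm_num
        _ ≤ (X : ℝ) ^ 3 * X := mul_le_mul_of_nonneg_right this hX0.le
        _ = _ := by ring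
    linarith
  linarith

/-- **Explicit parameters.** -/
theorem counts_param (p : Par) (g : Mg) {T P S X E D : ℕ} {A ζ : ℝ}
    (hX : 4 ≤ X) (hmn : m * n ≤ X ^ 2) (hP : P ≤ X ^ 4) (hE1 : 1 ≤ E) (hE : E ≤ X) (hD : D ≤ X)
    (hS : S = X ^ 22) (hT : 34 * A * X ≤ T) (hζ : 0 ≤ ζ) (hTζ : T * ζ ≤ 1 / (X : ℝ) ^ 14)
    (hA : 0 ≤ A)
    (hgood : ∀ k < P, GoodChain (stF p (mg m n g k) m n) (piF p (mg m n g k) m n)
      (stepI p (mg m n g k)) A (1 / (X : ℝ) ^ 34))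
    (hu : ∀ k < P, TVle (piF p (mg m n g k) m n) (uniF (mg m n g k) m n)
      (ENNReal.ofReal (1 / (X : ℝ) ^ 14)))
    (hcl : ∀ k < P, ∀ Y ∈ stF p (mg m n g k) m n, ∀ Z ∈ (stepK p (mg m n g k) Y).support,
      Z ∈ stF p (mg m n g k) m n)
    (hpert : ∀ k < P, ∀ Y ∈ stF p (mg m n g k) m n,
      TVle (stepK p (mg m n g k) Y) (stepI p (mg m n g k) Y) (ENNReal.ofReal ζ))
    (htr : ∀ k < P, ∀ Y ∈ OmegaF (mg m n g (k + 1)) m n,
      addc (is m (mg m n g k)) (js n (mg m n g k)) (inc m n (mg m n g k)) Y ∈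
        stF p (mg m n g k) m n)
    (hwarm : ∀ k < P, ∀ Y ∈ OmegaF (mg m n g (k + 1)) m n,
      (uniF (mg m n g (k + 1)) m n Y).toReal ≤ (X : ℝ) ^ 3 * (piF p (mg m n g k) m n
        (addc (is m (mg m n g k)) (js n (mg m n g k)) (inc m n (mg m n g k)) Y)).toReal)
    (hzero : OmegaF (mg m n g P) m n = {0})
    (hne : ∀ k ≤ P, (OmegaF (mg m n g k) m n).Nonempty)
    (hcard : ∀ k < P, ((OmegaF (mg m n g k) m n).filter fun Y => hit (mg m n g k) Y).card =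
      (OmegaF (mg m n g (k + 1)) m n).card)
    (hβ : ∀ k < P, (OmegaF (mg m n g k) m n).card ≤
      m * n * (OmegaF (mg m n g (k + 1)) m n).card) :
    (counts p g m n T P S).toOuterMeasure
      {c | ¬ ((1 - 1 / (E : ℝ)) * (OmegaF g m n).card ≤
          ∏ k ∈ Finset.range P, (S : ℝ) / (c k : ℝ) ∧
        ∏ k ∈ Finset.range P, (S : ℝ) / (c k : ℝ) ≤
          (1 + 1 / (E : ℝ)) * (OmegaF g m n).card)} ≤
      ENNReal.ofReal (1 / 2 ^ D) := by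
  have hX4 : (4 : ℝ) ≤ X := by exact_mod_cast hX
  have hX0 : (0 : ℝ) < X := by linarith
  have hPX : (P : ℝ) ≤ (X : ℝ) ^ 4 := by exact_mod_cast hP
  have hP0 : (0 : ℝ) ≤ P := Nat.cast_nonneg P
  have hE0 : (1 : ℝ) ≤ E := by exact_mod_cast hE1
  have hEX : (E : ℝ) ≤ X := by exact_mod_cast hE
  have hDX : (D : ℝ) ≤ X := by exact_mod_cast hD
  have hmnX : ((m * n : ℕ) : ℝ) ≤ (X : ℝ) ^ 2 := by exact_mod_cast hmn
  refine counts_main (A := A) (ε' := 1 / (X : ℝ) ^ 34) (η0 := 1 / (X : ℝ) ^ 14) (ζ := ζ)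
    (M := (X : ℝ) ^ 3) (η := 1 / (X : ℝ) ^ 14) (β := 1 / (X : ℝ) ^ 2) (τ := 1 / (X : ℝ) ^ 9) p g
    hgood (by positivity) hζ hu hcl hpert htr hwarm hzero hne hcard (by positivity) ?_ ?_ ?_
    (by positivity) ?_ ?_ (by positivity) ?_ (by positivity) ?_ ?_ ?_ ?_
  · rw [div_le_one (by positivity)]
    nlinarith
  · intro k hk
    have h1 := hβ k hk
    have h2 : ((OmegaF (mg m n g k) m n).card : ℝ) ≤
        ((m * n : ℕ) : ℝ) * ((OmegaF (mg m n g (k + 1)) m n).card : ℝ) := by exact_mod_cast h1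
    have h3 : (0 : ℝ) ≤ ((OmegaF (mg m n g (k + 1)) m n).card : ℝ) := Nat.cast_nonneg _
    rw [div_mul_eq_mul_div, one_mul, div_le_iff₀ (by positivity)]
    calc _ ≤ ((m * n : ℕ) : ℝ) * ((OmegaF (mg m n g (k + 1)) m n).card : ℝ) := h2
      _ ≤ (X : ℝ) ^ 2 * ((OmegaF (mg m n g (k + 1)) m n).card : ℝ) :=
        mul_le_mul_of_nonneg_right hmnX h3
      _ = _ := by ring
  · exact one_le_pow₀ (by linarith)
  · rw [← pow_mul, div_mul_eq_mul_div, one_mul, div_pow, one_pow, ← pow_mul,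
      div_le_div_iff₀ (by positivity) (by positivity)]
    exact le_of_eq (by ring)
  · -- the number of steps
    have h1 : Real.log ((X : ℝ) ^ 3 / (1 / (X : ℝ) ^ 14)) ≤ 17 * X := by
      have e : (X : ℝ) ^ 3 / (1 / (X : ℝ) ^ 14) = (X : ℝ) ^ 17 := by field_simp
      rw [e, Real.log_pow]
      push_cast
      exact mul_le_mul_of_nonneg_left (log_le_self' hX0) (by norm_num)
    refine le_trans ?_ hT
    calc 2 * A * Real.log ((X : ℝ) ^ 3 / (1 / (X : ℝ) ^ 14)) ≤ 2 * A * (17 * X) :=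
          mul_le_mul_of_nonneg_left h1 (by positivity)
      _ = 34 * A * X := by ring
  · rw [div_le_one (by linarith)]; exact hE0
  · rw [div_le_iff₀ (by positivity)]
    have : (1 : ℝ) ≤ (X : ℝ) ^ 9 := one_le_pow₀ (by linarith)
    linarith
  · -- the error budget
    have h1 : P * (1 / (X : ℝ) ^ 14 + 1 / (X : ℝ) ^ 14 + T * ζ) + 1 / (X : ℝ) ^ 9 ≤
        (X : ℝ) ^ 4 * (3 * (1 / (X : ℝ) ^ 14)) + 1 / (X : ℝ) ^ 9 := by
      refine add_le_add (mul_le_mul hPX (by linarith) (by positivity) (by positivity)) le_rfl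
    have h2 : 8 * (P : ℝ) * (P * (1 / (X : ℝ) ^ 14 + 1 / (X : ℝ) ^ 14 + T * ζ) +
        1 / (X : ℝ) ^ 9) ≤
        8 * (X : ℝ) ^ 4 * ((X : ℝ) ^ 4 * (3 * (1 / (X : ℝ) ^ 14)) + 1 / (X : ℝ) ^ 9) :=
      mul_le_mul (by linarith) h1 (by positivity) (by positivity)
    refine h2.trans ?_
    have h3 : 1 / (X : ℝ) * (1 / (X : ℝ) ^ 2) ≤ 1 / (E : ℝ) * (1 / (X : ℝ) ^ 2) := by
      refine mul_le_mul_of_nonneg_right ?_ (by positivity)
      exact one_div_le_one_div_of_le (by linarith) hEX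
    refine le_trans ?_ h3
    have e1 : 8 * (X : ℝ) ^ 4 * ((X : ℝ) ^ 4 * (3 * (1 / (X : ℝ) ^ 14)) + 1 / (X : ℝ) ^ 9) =
        (24 + 8 * X) / (X : ℝ) ^ 6 := by field_simp; ring
    have e2 : 1 / (X : ℝ) * (1 / (X : ℝ) ^ 2) = (X : ℝ) ^ 3 / (X : ℝ) ^ 6 := by field_simp
    rw [e1, e2]
    refine div_le_div_of_nonneg_right ?_ (by positivity)
    nlinarith [mul_nonneg (sub_nonneg.2 hX4) (sub_nonneg.2 hX4),
      mul_nonneg (mul_nonneg (sub_nonneg.2 hX4) (sub_nonneg.2 hX4)) hX0.le]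
  · rw [hS]; positivity
  · exact passes_bound hX4 hPX hDX hS

/-- **Explicit parameters, valid margins.** The per-phase facts are assumed for all valid
margins. -/
theorem counts_param_valid {p : Par} {g : Mg} (h : Valid m n g) (hQ : 0 ≤ p.Q) (hLp : 1 ≤ p.Lp)
    (hLc : 1 ≤ p.Lc) {T P S X E D : ℕ} {A : ℝ}
    (hX : 4 ≤ X) (hmn : m * n ≤ X ^ 2) (hPX : P ≤ X ^ 4)
    (hP : 2 * (max m n) ^ 2 * Nat.size (tot m g).toNat ≤ P)
    (hE1 : 1 ≤ E) (hE : E ≤ X) (hD : D ≤ X)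
    (hS : S = X ^ 22) (hT : 34 * A * X ≤ T) (hb : T * X ^ 14 ≤ 2 ^ p.b) (hA : 0 ≤ A)
    (hgood : ∀ g', Valid m n g' →
      GoodChain (stF p g' m n) (piF p g' m n) (stepI p g') A (1 / (X : ℝ) ^ 34))
    (hu : ∀ g', Valid m n g' →
      TVle (piF p g' m n) (uniF g' m n) (ENNReal.ofReal (1 / (X : ℝ) ^ 14)))
    (hβ : ∀ g', Valid m n g' →
      (OmegaF g' m n).card ≤ m * n * (OmegaF (P328R.down m n g') m n).card) :
    (counts p g m n T P S).toOuterMeasure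
      {c | ¬ ((1 - 1 / (E : ℝ)) * (OmegaF g m n).card ≤
          ∏ k ∈ Finset.range P, (S : ℝ) / (c k : ℝ) ∧
        ∏ k ∈ Finset.range P, (S : ℝ) / (c k : ℝ) ≤
          (1 + 1 / (E : ℝ)) * (OmegaF g m n).card)} ≤
      ENNReal.ofReal (1 / 2 ^ D) := by
  have hX4 : (4 : ℝ) ≤ X := by exact_mod_cast hX
  have hX0 : (0 : ℝ) < X := by linarith
  have hPX' : (P : ℝ) ≤ (X : ℝ) ^ 4 := by exact_mod_cast hPX
  have hP0 : (0 : ℝ) ≤ P := Nat.cast_nonneg P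
  have hE0 : (1 : ℝ) ≤ E := by exact_mod_cast hE1
  have hEX : (E : ℝ) ≤ X := by exact_mod_cast hE
  have hDX : (D : ℝ) ≤ X := by exact_mod_cast hD
  have hmnX : ((m * n : ℕ) : ℝ) ≤ (X : ℝ) ^ 2 := by exact_mod_cast hmn
  have hTζ : (T : ℝ) * ((2 : ℝ) ^ p.b)⁻¹ ≤ 1 / (X : ℝ) ^ 14 := by
    have h1 : (T : ℝ) * (X : ℝ) ^ 14 ≤ (2 : ℝ) ^ p.b := by exact_mod_cast hb
    rw [← div_eq_mul_inv, div_le_div_iff₀ (by positivity) (by positivity)]
    linarith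
  refine counts_valid h hQ hLp hLc (A := A) (ε' := 1 / (X : ℝ) ^ 34) (η0 := 1 / (X : ℝ) ^ 14)
    (η := 1 / (X : ℝ) ^ 14) (β := 1 / (X : ℝ) ^ 2) (τ := 1 / (X : ℝ) ^ 9)
    hgood (by positivity) ?_ hu (by positivity) ?_ ?_ hP
    (by positivity) ?_ ?_ (by positivity) ?_ (by positivity) ?_ ?_ ?_ ?_
  · rw [div_le_div_iff₀ (by positivity) (by norm_num)]
    have : (4 : ℝ) ^ 14 ≤ (X : ℝ) ^ 14 := pow_le_pow_left₀ (by norm_num) hX4 14
    linarith [this, show (2 : ℝ) ≤ 4 ^ 14 by norm_num]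
  · rw [div_le_one (by positivity)]
    nlinarith
  · intro g' hg'
    have h2 : ((OmegaF g' m n).card : ℝ) ≤
        ((m * n : ℕ) : ℝ) * ((OmegaF (P328R.down m n g') m n).card : ℝ) := by
      exact_mod_cast hβ g' hg'
    have h3 : (0 : ℝ) ≤ ((OmegaF (P328R.down m n g') m n).card : ℝ) := Nat.cast_nonneg _
    rw [div_mul_eq_mul_div, one_mul, div_le_iff₀ (by positivity)]
    calc _ ≤ ((m * n : ℕ) : ℝ) * ((OmegaF (P328R.down m n g') m n).card : ℝ) := h2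
      _ ≤ (X : ℝ) ^ 2 * ((OmegaF (P328R.down m n g') m n).card : ℝ) :=
        mul_le_mul_of_nonneg_right hmnX h3
      _ = _ := by ring
  · have e1 : 1 / (X : ℝ) ^ 34 * (2 / (1 / (X : ℝ) ^ 2)) ^ 2 = 4 / (X : ℝ) ^ 30 := by
      field_simp; ring
    have e2 : (1 / (X : ℝ) ^ 14) ^ 2 = (X : ℝ) ^ 2 / (X : ℝ) ^ 30 := by field_simp
    rw [e1, e2]
    exact div_le_div_of_nonneg_right (by nlinarith) (by positivity)
  · -- the number of steps
    have h1 : Real.log (2 / (1 / (X : ℝ) ^ 2) / (1 / (X : ℝ) ^ 14)) ≤ 17 * X := by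
      have e : 2 / (1 / (X : ℝ) ^ 2) / (1 / (X : ℝ) ^ 14) = 2 * (X : ℝ) ^ 16 := by
        field_simp
      rw [e, Real.log_mul (by norm_num) (by positivity), Real.log_pow]
      have h5 : Real.log 2 ≤ 1 := by have := Real.log_two_lt_d9; linarith
      have h6 := log_le_self' hX0
      push_cast
      linarith
    refine le_trans ?_ hT
    calc 2 * A * Real.log (2 / (1 / (X : ℝ) ^ 2) / (1 / (X : ℝ) ^ 14)) ≤ 2 * A * (17 * X) :=
          mul_le_mul_of_nonneg_left h1 (by positivity)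
      _ = 34 * A * X := by ring
  · rw [div_le_one (by linarith)]; exact hE0
  · rw [div_le_iff₀ (by positivity)]
    have : (1 : ℝ) ≤ (X : ℝ) ^ 9 := one_le_pow₀ (by linarith)
    linarith
  · -- the error budget
    have hTn : (0 : ℝ) ≤ (T : ℝ) * ((2 : ℝ) ^ p.b)⁻¹ := by positivity
    have h1 : P * (1 / (X : ℝ) ^ 14 + 1 / (X : ℝ) ^ 14 + T * ((2 : ℝ) ^ p.b)⁻¹) +
        1 / (X : ℝ) ^ 9 ≤ (X : ℝ) ^ 4 * (3 * (1 / (X : ℝ) ^ 14)) + 1 / (X : ℝ) ^ 9 := by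
      refine add_le_add (mul_le_mul hPX' (by linarith) (by positivity) (by positivity)) le_rfl
    have h2 : 8 * (P : ℝ) * (P * (1 / (X : ℝ) ^ 14 + 1 / (X : ℝ) ^ 14 +
        T * ((2 : ℝ) ^ p.b)⁻¹) + 1 / (X : ℝ) ^ 9) ≤
        8 * (X : ℝ) ^ 4 * ((X : ℝ) ^ 4 * (3 * (1 / (X : ℝ) ^ 14)) + 1 / (X : ℝ) ^ 9) :=
      mul_le_mul (by linarith) h1 (by positivity) (by positivity)
    refine h2.trans ?_
    have h3 : 1 / (X : ℝ) * (1 / (X : ℝ) ^ 2) ≤ 1 / (E : ℝ) * (1 / (X : ℝ) ^ 2) := by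
      refine mul_le_mul_of_nonneg_right ?_ (by positivity)
      exact one_div_le_one_div_of_le (by linarith) hEX
    refine le_trans ?_ h3
    have e1 : 8 * (X : ℝ) ^ 4 * ((X : ℝ) ^ 4 * (3 * (1 / (X : ℝ) ^ 14)) + 1 / (X : ℝ) ^ 9) =
        (24 + 8 * X) / (X : ℝ) ^ 6 := by field_simp; ring
    have e2 : 1 / (X : ℝ) * (1 / (X : ℝ) ^ 2) = (X : ℝ) ^ 3 / (X : ℝ) ^ 6 := by field_simp
    rw [e1, e2]
    refine div_le_div_of_nonneg_right ?_ (by positivity)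
    nlinarith [mul_nonneg (sub_nonneg.2 hX4) (sub_nonneg.2 hX4),
      mul_nonneg (mul_nonneg (sub_nonneg.2 hX4) (sub_nonneg.2 hX4)) hX0.le]
  · rw [hS]; positivity
  · exact passes_bound hX4 hPX' hDX hS

end Vale.Agent.P328R
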