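import Vale.Agent.P328R.Block2

/-!
# P328R, fact F8: the abstract block step, main inequality
-/

namespace Vale.Agent.P328R.Block

open Finset

variable {Ω ι : Type} [AddCommGroup Ω] [Fintype ι] [DecidableEq ι]
  {S : Finset Ω} {w : Ω → ℝ} {val : Ω → ι → ℤ} {blk : ι → Ω} {u : ι → ℤ} {K : ℕ}
  {M : ι → ℕ} {Cw : ℝ}

/-- the local quantity at `X` for the offset `t` -/
noncomputable def AA (val : Ω → ι → ℤ) (blk : ι → Ω) (u : ι → ℤ) (K : ℕ) (M : ι → ℕ)
    (g : Ω → ℝ) (m : (ι → ℤ) → ℝ) (t : ℕ) (X : Ω) : ℝ :=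
  ((Blo val u K M t X).card : ℝ)⁻¹ * ∑ W ∈ Blo val u K M t X,
    (3 * (g X - g (res val blk univ W X)) ^ 2 + 6 * (g (res val blk univ W X) - m W) ^ 2)

theorem AA_nonneg (g : Ω → ℝ) (m : (ι → ℤ) → ℝ) (t : ℕ) (X : Ω) :
    0 ≤ AA val blk u K M g m t X := by
  unfold AA
  positivity

namespace Setup

/-- pairs in the same block -/
theorem pair_le (h : Setup S w val blk u K M Cw) (g : Ω → ℝ) (m : (ι → ℤ) → ℝ) {t : ℕ} {X Y : Ω}
    (hX : X ∈ S) (hXY : Blo val u K M t X = Blo val u K M t Y) :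
    (g X - g Y) ^ 2 ≤ AA val blk u K M g m t X + AA val blk u K M g m t Y := by
  unfold AA
  rw [← hXY, ← mul_add, ← Finset.sum_add_distrib]
  have hne : (Blo val u K M t X).Nonempty := ⟨val X, h.val_mem_Blo t hX⟩
  have hc : (0 : ℝ) < ((Blo val u K M t X).card : ℝ) := by
    have := hne.card_pos
    exact_mod_cast this
  rw [inv_mul_eq_div, le_div_iff₀ hc]
  calc (g X - g Y) ^ 2 * ((Blo val u K M t X).card : ℝ)
      = ∑ W ∈ Blo val u K M t X, (g X - g Y) ^ 2 := by
        rw [Finset.sum_const, nsmul_eq_mul, mul_comm]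
    _ ≤ _ := by
        refine Finset.sum_le_sum fun W _ => ?_
        set a := g X
        set b := g (res val blk univ W X)
        set c := g (res val blk univ W Y)
        set d := g Y
        set q := m W
        nlinarith [sq_nonneg ((a - b) - (b - c)), sq_nonneg ((a - b) - (c - d)),
          sq_nonneg ((b - c) - (c - d)), sq_nonneg ((b - q) + (c - q)), sq_nonneg ((b - q) - (c - q))]

/-- the local quantities have bounded mean -/
theorem sum_AA_le (h : Setup S w val blk u K M Cw) {t : ℕ} (ht : t < K) (g : Ω → ℝ)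
    (m : (ι → ℤ) → ℝ) :
    ∑ X ∈ S, w X * AA val blk u K M g m t X ≤
      3 * (Fintype.card ι * ∑ e, Cw * (Cw * (1 / (u e : ℝ) * ∑ Z ∈ S,
        ∑ d ∈ Finset.Ioo (-((K : ℤ) * u e)) ((K : ℤ) * u e),
          min (w Z) (w (Z + d • blk e)) * (g Z - g (Z + d • blk e)) ^ 2)))
      + 6 * (Cw * ∑ Z ∈ S, w Z * (g Z - m (val Z)) ^ 2) := by
  have hCw : 0 < Cw := lt_of_lt_of_le one_pos h.one_le
  have h1 := h.telescope ht g Finset.univ
  have h2 := h.transport ht Finset.univ (fun Z _ => (g Z - m (val Z)) ^ 2)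
    (fun Z _ => sq_nonneg _)
  have e1 : ∀ (X : Ω) (W : ι → ℤ), val (res val blk univ W X) = W := by
    intro X W
    funext e
    rw [h.val_res, if_pos (Finset.mem_univ e)]
  simp only [e1] at h2
  have e2 : ∑ Z ∈ S, w Z * ((((Blo val u K M t Z).card : ℝ))⁻¹ *
        ∑ _V ∈ Blo val u K M t Z, (g Z - m (val Z)) ^ 2)
      = ∑ Z ∈ S, w Z * (g Z - m (val Z)) ^ 2 := by
    refine Finset.sum_congr rfl fun Z hZ => ?_
    have hne : (Blo val u K M t Z).Nonempty := ⟨val Z, h.val_mem_Blo t hZ⟩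
    have hc : ((Blo val u K M t Z).card : ℝ) ≠ 0 := by
      have := hne.card_pos
      positivity
    rw [Finset.sum_const, nsmul_eq_mul, ← mul_assoc (((Blo val u K M t Z).card : ℝ))⁻¹,
      inv_mul_cancel₀ hc, one_mul]
  rw [e2] at h2
  have e3 : ∑ X ∈ S, w X * AA val blk u K M g m t X
      = 3 * ∑ X ∈ S, w X * ((((Blo val u K M t X).card : ℝ))⁻¹ *
        ∑ W ∈ Blo val u K M t X, (g X - g (res val blk univ W X)) ^ 2)
      + 6 * ∑ X ∈ S, w X * ((((Blo val u K M t X).card : ℝ))⁻¹ *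
        ∑ W ∈ Blo val u K M t X, (g (res val blk univ W X) - m W) ^ 2) := by
    rw [Finset.mul_sum, Finset.mul_sum, ← Finset.sum_add_distrib]
    refine Finset.sum_congr rfl fun X _ => ?_
    unfold AA
    rw [Finset.sum_add_distrib, ← Finset.mul_sum, ← Finset.mul_sum]
    ring
  rw [e3]
  refine add_le_add (mul_le_mul_of_nonneg_left (h1.trans ?_) (by norm_num))
    (mul_le_mul_of_nonneg_left h2 (by norm_num))
  rw [Finset.card_univ]
  refine mul_le_mul_of_nonneg_left ?_ (by positivity)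
  exact Finset.sum_le_sum fun e _ => mul_le_mul_of_nonneg_left (h.EE_le ht g e) hCw.le

omit [AddCommGroup Ω] in
/-- most offsets keep close points in the same block -/
theorem good_offsets (hK : 4 * Fintype.card ι ≤ K) (hu : ∀ e, 0 < u e) {X Y : Ω}
    (hXY : ∀ e, |val X e - val Y e| ≤ u e) :
    (3 : ℝ) / 4 * K ≤ (((Finset.range K).filter fun t =>
      Blo val u K M t X = Blo val u K M t Y).card : ℝ) := by
  classical
  set G := (Finset.range K).filter fun t => Blo val u K M t X = Blo val u K M t Y with hG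
  set Bd := (Finset.range K).filter fun t => ¬ Blo val u K M t X = Blo val u K M t Y with hBd
  have h1 : G.card + Bd.card = K := by
    have := Finset.card_filter_add_card_filter_not (s := Finset.range K)
      (fun t => Blo val u K M t X = Blo val u K M t Y)
    rw [Finset.card_range] at this
    exact this
  have h2 : Bd ⊆ Finset.univ.biUnion fun e : ι => (Finset.range K).filter fun t =>
      (val X e + t * u e) / (K * u e) ≠ (val Y e + t * u e) / (K * u e) := by
    intro t ht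
    rw [hBd, Finset.mem_filter] at ht
    by_contra hcon
    refine ht.2 ?_
    simp only [Finset.mem_biUnion, Finset.mem_univ, true_and, Finset.mem_filter, not_exists,
      not_and, not_not] at hcon
    unfold Blo
    congr 1
    funext e
    exact Ib_congr (hcon e ht.1)
  have h3 : Bd.card ≤ Fintype.card ι := by
    calc Bd.card ≤ _ := Finset.card_le_card h2
      _ ≤ ∑ e : ι, ((Finset.range K).filter fun t : ℕ =>
          (val X e + t * u e) / (K * u e) ≠ (val Y e + t * u e) / (K * u e)).card :=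
          Finset.card_biUnion_le
      _ ≤ ∑ _e : ι, 1 := by
          refine Finset.sum_le_sum fun e _ => ?_
          rw [Finset.card_le_one]
          intro s hs t ht
          rw [Finset.mem_filter, Finset.mem_range] at hs ht
          exact sep_unique (hu e) (hXY e) hs.1 ht.1 hs.2 ht.2
      _ = Fintype.card ι := by simp
  have h4 : 4 * (K - (G.card : ℝ)) ≤ K := by
    have h5 : ((4 * Bd.card : ℕ) : ℝ) ≤ K := by
      have : 4 * Bd.card ≤ K := by omega
      exact_mod_cast this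
    have h6 : ((G.card : ℝ) + Bd.card) = K := by exact_mod_cast h1
    push_cast at h5
    linarith
  linarith

omit [AddCommGroup Ω] in
theorem sum3 (S : Finset Ω) (R : Finset ℕ) (a : ℝ) (F : Ω → Ω → ℕ → ℝ) :
    ∑ X ∈ S, ∑ Y ∈ S, a * ∑ t ∈ R, F X Y t = a * ∑ t ∈ R, ∑ X ∈ S, ∑ Y ∈ S, F X Y t := by
  calc ∑ X ∈ S, ∑ Y ∈ S, a * ∑ t ∈ R, F X Y t = a * ∑ X ∈ S, ∑ t ∈ R, ∑ Y ∈ S, F X Y t := by
        rw [Finset.mul_sum]
        refine Finset.sum_congr rfl fun X _ => ?_
        rw [← Finset.mul_sum, Finset.sum_comm]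
    _ = a * ∑ t ∈ R, ∑ X ∈ S, ∑ Y ∈ S, F X Y t := by rw [Finset.sum_comm]

/-- **F8, the block step.** -/
theorem block_step (h : Setup S w val blk u K M Cw) (hK : 4 * Fintype.card ι ≤ K) (hK0 : 0 < K)
    (θ : Ω → Ω → ℝ) (hθ : ∀ X ∈ S, ∀ Y ∈ S, 0 ≤ θ X Y) {c : ℝ} (hc : 0 ≤ c)
    (hrow : ∀ X ∈ S, ∑ Y ∈ S, θ X Y ≤ c * w X) (hcol : ∀ Y ∈ S, ∑ X ∈ S, θ X Y ≤ c * w Y)
    (g : Ω → ℝ) (m : (ι → ℤ) → ℝ) :
    ∑ X ∈ S, ∑ Y ∈ S, θ X Y * (if ∀ e, |val X e - val Y e| ≤ u e then (g X - g Y) ^ 2 else 0) ≤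
      c * (8 * (Fintype.card ι * (Cw ^ 2 * ∑ e, 1 / (u e : ℝ) * ∑ Z ∈ S,
        ∑ d ∈ Finset.Ioo (-((K : ℤ) * u e)) ((K : ℤ) * u e),
          min (w Z) (w (Z + d • blk e)) * (g Z - g (Z + d • blk e)) ^ 2))
      + 16 * (Cw * ∑ Z ∈ S, w Z * (g Z - m (val Z)) ^ 2)) := by
  classical
  have hKr : (0 : ℝ) < K := by exact_mod_cast hK0
  -- pointwise
  have hpt : ∀ X ∈ S, ∀ Y ∈ S,
      θ X Y * (if ∀ e, |val X e - val Y e| ≤ u e then (g X - g Y) ^ 2 else 0) ≤
      4 / (3 * (K : ℝ)) * ∑ t ∈ Finset.range K,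
        θ X Y * (AA val blk u K M g m t X + AA val blk u K M g m t Y) := by
    intro X hX Y hY
    rw [← Finset.mul_sum, ← mul_assoc, mul_comm (4 / (3 * (K : ℝ))) (θ X Y), mul_assoc]
    refine mul_le_mul_of_nonneg_left ?_ (hθ X hX Y hY)
    split_ifs with hcl
    · have h1 := good_offsets (M := M) (val := val) (X := X) (Y := Y) hK h.u_pos hcl
      set G := (Finset.range K).filter fun t => Blo val u K M t X = Blo val u K M t Y with hG
      have h2 : (G.card : ℝ) * (g X - g Y) ^ 2 ≤ ∑ t ∈ Finset.range K,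
          (AA val blk u K M g m t X + AA val blk u K M g m t Y) := by
        calc (G.card : ℝ) * (g X - g Y) ^ 2 = ∑ t ∈ G, (g X - g Y) ^ 2 := by
              rw [Finset.sum_const, nsmul_eq_mul]
          _ ≤ ∑ t ∈ G, (AA val blk u K M g m t X + AA val blk u K M g m t Y) :=
              Finset.sum_le_sum fun t ht => h.pair_le g m hX (Finset.mem_filter.1 ht).2
          _ ≤ _ := Finset.sum_le_sum_of_subset_of_nonneg (Finset.filter_subset _ _)
              fun t _ _ => add_nonneg (AA_nonneg g m t X) (AA_nonneg g m t Y)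
      have h3 : 3 / 4 * (K : ℝ) * (g X - g Y) ^ 2 ≤ (G.card : ℝ) * (g X - g Y) ^ 2 :=
        mul_le_mul_of_nonneg_right h1 (sq_nonneg _)
      rw [div_mul_eq_mul_div, le_div_iff₀ (by positivity)]
      linarith
    · exact mul_nonneg (by positivity) (Finset.sum_nonneg fun t _ =>
        add_nonneg (AA_nonneg g m t X) (AA_nonneg g m t Y))
  have h1 : ∑ X ∈ S, ∑ Y ∈ S,
      θ X Y * (if ∀ e, |val X e - val Y e| ≤ u e then (g X - g Y) ^ 2 else 0) ≤
      4 / (3 * (K : ℝ)) * ∑ t ∈ Finset.range K, ∑ X ∈ S, ∑ Y ∈ S,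
        θ X Y * (AA val blk u K M g m t X + AA val blk u K M g m t Y) := by
    refine (Finset.sum_le_sum fun X hX => Finset.sum_le_sum fun Y hY => hpt X hX Y hY).trans
      (le_of_eq ?_)
    exact sum3 S (Finset.range K) _
      (fun X Y t => θ X Y * (AA val blk u K M g m t X + AA val blk u K M g m t Y))
  refine h1.trans ?_
  set BB : ℝ := 3 * (Fintype.card ι * ∑ e, Cw * (Cw * (1 / (u e : ℝ) * ∑ Z ∈ S,
        ∑ d ∈ Finset.Ioo (-((K : ℤ) * u e)) ((K : ℤ) * u e),
          min (w Z) (w (Z + d • blk e)) * (g Z - g (Z + d • blk e)) ^ 2)))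
      + 6 * (Cw * ∑ Z ∈ S, w Z * (g Z - m (val Z)) ^ 2) with hBB
  have h2 : ∀ t ∈ Finset.range K, ∑ X ∈ S, ∑ Y ∈ S,
      θ X Y * (AA val blk u K M g m t X + AA val blk u K M g m t Y) ≤ 2 * (c * BB) := by
    intro t ht
    have h3 := h.sum_AA_le (Finset.mem_range.1 ht) g m
    rw [← hBB] at h3
    have e1 : ∑ X ∈ S, ∑ Y ∈ S, θ X Y * (AA val blk u K M g m t X + AA val blk u K M g m t Y)
        = ∑ X ∈ S, (∑ Y ∈ S, θ X Y) * AA val blk u K M g m t X
          + ∑ Y ∈ S, (∑ X ∈ S, θ X Y) * AA val blk u K M g m t Y := by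
      simp only [mul_add, Finset.sum_add_distrib, Finset.sum_mul]
      congr 1
      rw [Finset.sum_comm]
    have h4 : ∑ X ∈ S, (∑ Y ∈ S, θ X Y) * AA val blk u K M g m t X ≤ c * BB := by
      calc _ ≤ ∑ X ∈ S, c * w X * AA val blk u K M g m t X :=
            Finset.sum_le_sum fun X hX =>
              mul_le_mul_of_nonneg_right (hrow X hX) (AA_nonneg g m t X)
        _ = c * ∑ X ∈ S, w X * AA val blk u K M g m t X := by
            rw [Finset.mul_sum]
            exact Finset.sum_congr rfl fun X _ => by ring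
        _ ≤ c * BB := mul_le_mul_of_nonneg_left h3 hc
    have h5 : ∑ Y ∈ S, (∑ X ∈ S, θ X Y) * AA val blk u K M g m t Y ≤ c * BB := by
      calc _ ≤ ∑ X ∈ S, c * w X * AA val blk u K M g m t X :=
            Finset.sum_le_sum fun X hX =>
              mul_le_mul_of_nonneg_right (hcol X hX) (AA_nonneg g m t X)
        _ = c * ∑ X ∈ S, w X * AA val blk u K M g m t X := by
            rw [Finset.mul_sum]
            exact Finset.sum_congr rfl fun X _ => by ring
        _ ≤ c * BB := mul_le_mul_of_nonneg_left h3 hc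
    rw [e1]
    linarith
  have h6 : ∑ t ∈ Finset.range K, ∑ X ∈ S, ∑ Y ∈ S,
      θ X Y * (AA val blk u K M g m t X + AA val blk u K M g m t Y) ≤ K * (2 * (c * BB)) := by
    calc _ ≤ ∑ _t ∈ Finset.range K, 2 * (c * BB) := Finset.sum_le_sum h2
      _ = K * (2 * (c * BB)) := by rw [Finset.sum_const, Finset.card_range, nsmul_eq_mul]
  calc 4 / (3 * (K : ℝ)) * ∑ t ∈ Finset.range K, ∑ X ∈ S, ∑ Y ∈ S,
        θ X Y * (AA val blk u K M g m t X + AA val blk u K M g m t Y)
      ≤ 4 / (3 * (K : ℝ)) * (K * (2 * (c * BB))) :=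
        mul_le_mul_of_nonneg_left h6 (by positivity)
    _ = c * (8 / 3 * BB) := by
        field_simp
        ring
    _ = _ := by
        rw [hBB]
        congr 1
        have e1 : ∑ e, Cw * (Cw * (1 / (u e : ℝ) * ∑ Z ∈ S,
            ∑ d ∈ Finset.Ioo (-((K : ℤ) * u e)) ((K : ℤ) * u e),
            min (w Z) (w (Z + d • blk e)) * (g Z - g (Z + d • blk e)) ^ 2))
            = Cw ^ 2 * ∑ e, 1 / (u e : ℝ) * ∑ Z ∈ S,
            ∑ d ∈ Finset.Ioo (-((K : ℤ) * u e)) ((K : ℤ) * u e),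
            min (w Z) (w (Z + d • blk e)) * (g Z - g (Z + d • blk e)) ^ 2 := by
          rw [Finset.mul_sum]
          exact Finset.sum_congr rfl fun e _ => by ring
        rw [e1]
        ring

end Setup

end Vale.Agent.P328R.Block
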