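import Vale.Agent.P328R.TheoremU

/-!
P328, tensorization (F7): the pair law given by the top of the replica functional.

`exists_pair_law`: for log-concave weights `w` and every `k` there is a weight `θ X Y ≥ 0` on pairs
of configurations with both marginals equal to `Z * pw w`, which controls the variance up to the
factor `2 ^ k` and contracts every `psi (X e - Y e)` by `3 ^ k`.
-/

namespace Vale.Agent.P328R

open Finset

variable {V E : Type} [Fintype V] [DecidableEq V] [Fintype E] [DecidableEq E]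

/-- Indicator of a pair. -/
def ind2 (X Y : E → ℤ) : (E → ℤ) → (E → ℤ) → ℝ :=
  fun X' Y' => if X' = X ∧ Y' = Y then 1 else 0

theorem ind2_nonneg (X Y X' Y' : E → ℤ) : 0 ≤ ind2 X Y X' Y' := by
  unfold ind2
  split_ifs <;> norm_num

theorem A_expand (src tgt : E → V) {M : ℤ} {α : V → ℤ} (G : (E → ℤ) → (E → ℤ) → ℝ) (k : ℕ)
    {f : E → ℤ → ℝ} {T : E → ℤ} (hF : Frame src tgt M α f T) :
    A src tgt M α α k f T G =
      ∑ X ∈ conf src tgt M α, ∑ Y ∈ conf src tgt M α,
        A src tgt M α α k f T (ind2 X Y) * G X Y := by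
  induction k generalizing f T with
  | zero =>
    simp only [A_lvl_zero]
    refine Finset.sum_congr rfl fun X hX => ?_
    have h1 : ∀ Y, ∑ X' ∈ conf src tgt M α, pw f X' * ind2 X Y X' (T - X') =
        if T - X = Y then pw f X else 0 := by
      intro Y
      rw [Finset.sum_eq_single_of_mem X hX]
      · unfold ind2
        by_cases h : T - X = Y
        · simp [h]
        · simp [h]
      · intro X' _ hne
        unfold ind2
        rw [if_neg (fun h => hne h.1), mul_zero]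
    simp only [h1]
    by_cases h0 : pw f X = 0
    · rw [h0, zero_mul, Finset.sum_eq_zero]
      intro Y _
      simp
    · rw [Finset.sum_eq_single_of_mem (T - X) (hF.refl_mem hX h0)]
      · simp
      · intro Y _ hne
        rw [if_neg (fun h => hne h.symm), zero_mul]
  | succ k ih =>
    simp only [A_lvl_succ]
    have h1 : ∀ T' ∈ conf src tgt (2 * M) (fun v => 2 * α v),
        A src tgt M α α k (cut f T') T' G =
        ∑ X ∈ conf src tgt M α, ∑ Y ∈ conf src tgt M α,
          A src tgt M α α k (cut f T') T' (ind2 X Y) * G X Y := fun T' hT' => ih (hF.cut hT')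
    rw [Finset.sum_congr rfl h1, Finset.sum_comm, Finset.mul_sum]
    refine Finset.sum_congr rfl fun X _ => ?_
    rw [Finset.sum_comm, Finset.mul_sum]
    refine Finset.sum_congr rfl fun Y _ => ?_
    rw [← Finset.sum_mul]
    ring

/-- The top of the replica functional. -/
noncomputable def Theta (src tgt : E → V) (M : ℤ) (α : V → ℤ) (w : E → ℤ → ℝ) (k : ℕ)
    (G : (E → ℤ) → (E → ℤ) → ℝ) : ℝ :=
  ∑ T ∈ conf src tgt (2 * M) (fun v => 2 * α v), A src tgt M α α k (cut w T) T G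

/-- The pair weight. -/
noncomputable def theta (src tgt : E → V) (M : ℤ) (α : V → ℤ) (w : E → ℤ → ℝ) (k : ℕ)
    (X Y : E → ℤ) : ℝ := Theta src tgt M α w k (ind2 X Y)

variable (src tgt : E → V) {M : ℤ} {α : V → ℤ} {w : E → ℤ → ℝ}

theorem Theta_eq (hw : ∀ e, LC (w e)) (hM : ∀ e, Supp M (w e)) (k : ℕ)
    (G : (E → ℤ) → (E → ℤ) → ℝ) :
    Theta src tgt M α w k G =
      ∑ X ∈ conf src tgt M α, ∑ Y ∈ conf src tgt M α, theta src tgt M α w k X Y * G X Y := by
  unfold theta Theta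
  rw [Finset.sum_congr rfl fun T hT => A_expand src tgt G k (Frame.of_cut hw hM hT),
    Finset.sum_comm]
  refine Finset.sum_congr rfl fun X _ => ?_
  rw [Finset.sum_comm]
  refine Finset.sum_congr rfl fun Y _ => ?_
  rw [← Finset.sum_mul]

theorem Theta_zero_eq (hM : ∀ e, Supp M (w e)) (G : (E → ℤ) → (E → ℤ) → ℝ) :
    Theta src tgt M α w 0 G =
      ∑ X ∈ conf src tgt M α, ∑ Y ∈ conf src tgt M α, pw w X * pw w Y * G X Y :=
  (top_pairs src tgt hM G).symm

theorem A_nonneg {f : E → ℤ → ℝ} {T : E → ℤ} (hf : ∀ e x, 0 ≤ f e x)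
    {G : (E → ℤ) → (E → ℤ) → ℝ} (hG : ∀ X Y, 0 ≤ G X Y) (k : ℕ) :
    0 ≤ A src tgt M α α k f T G := by
  have h := A_mono src tgt (M := M) (α := α) (β := α) (G := fun _ _ => 0) (G' := G)
    (fun X Y => hG X Y) k f T hf
  rwa [A_zero] at h

theorem theta_nonneg (hw : ∀ e, LC (w e)) (k : ℕ) (X Y : E → ℤ) :
    0 ≤ theta src tgt M α w k X Y :=
  Finset.sum_nonneg fun T _ =>
    A_nonneg src tgt (cut_nonneg' (fun e => (hw e).1) T) (ind2_nonneg X Y) k

theorem Theta_left (hw : ∀ e, LC (w e)) (hM : ∀ e, Supp M (w e)) (k : ℕ) (u : (E → ℤ) → ℝ) :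
    Theta src tgt M α w k (fun X _ => u X) =
      Z src tgt M w α * ∑ X ∈ conf src tgt M α, pw w X * u X := by
  have h0 := Theta_zero_eq src tgt (α := α) hM (fun X _ => u X)
  have h1 : Theta src tgt M α w k (fun X _ => u X) = Theta src tgt M α w 0 (fun X _ => u X) := by
    unfold Theta
    refine Finset.sum_congr rfl fun T hT => ?_
    rw [A_marg_left src tgt u k (Frame.of_cut hw hM hT),
      A_marg_left src tgt u 0 (Frame.of_cut hw hM hT)]
  rw [h1, h0, Finset.mul_sum]
  refine Finset.sum_congr rfl fun X _ => ?_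
  unfold Z
  rw [Finset.sum_mul]
  exact Finset.sum_congr rfl fun Y _ => by ring

theorem Theta_right (hw : ∀ e, LC (w e)) (hM : ∀ e, Supp M (w e)) (k : ℕ) (u : (E → ℤ) → ℝ) :
    Theta src tgt M α w k (fun _ Y => u Y) =
      Z src tgt M w α * ∑ X ∈ conf src tgt M α, pw w X * u X := by
  rw [← Theta_left src tgt hw hM k u]
  unfold Theta
  refine Finset.sum_congr rfl fun T hT => ?_
  rw [A_marg_left src tgt u k (Frame.of_cut hw hM hT),
      A_marg_right src tgt u k (Frame.of_cut hw hM hT)]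

/-- left marginal of the pair weight -/
theorem theta_left (hw : ∀ e, LC (w e)) (hM : ∀ e, Supp M (w e)) (k : ℕ) {X : E → ℤ}
    (hX : X ∈ conf src tgt M α) :
    ∑ Y ∈ conf src tgt M α, theta src tgt M α w k X Y = Z src tgt M w α * pw w X := by
  have h := Theta_left src tgt (α := α) hw hM k (fun X' => if X' = X then 1 else 0)
  rw [Theta_eq src tgt hw hM] at h
  have e1 : ∑ X' ∈ conf src tgt M α, ∑ Y ∈ conf src tgt M α,
      theta src tgt M α w k X' Y * (if X' = X then 1 else 0) =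
      ∑ Y ∈ conf src tgt M α, theta src tgt M α w k X Y := by
    rw [Finset.sum_eq_single_of_mem X hX]
    · simp
    · intro X' _ hne
      simp [hne]
  have e2 : ∑ X' ∈ conf src tgt M α, pw w X' * (if X' = X then 1 else 0) = pw w X := by
    rw [Finset.sum_eq_single_of_mem X hX]
    · simp
    · intro X' _ hne
      simp [hne]
  rw [e1, e2] at h
  exact h

/-- right marginal of the pair weight -/
theorem theta_right (hw : ∀ e, LC (w e)) (hM : ∀ e, Supp M (w e)) (k : ℕ) {Y : E → ℤ}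
    (hY : Y ∈ conf src tgt M α) :
    ∑ X ∈ conf src tgt M α, theta src tgt M α w k X Y = Z src tgt M w α * pw w Y := by
  have h := Theta_right src tgt (α := α) hw hM k (fun X' => if X' = Y then 1 else 0)
  rw [Theta_eq src tgt hw hM, Finset.sum_comm] at h
  have e1 : ∑ Y' ∈ conf src tgt M α, ∑ X ∈ conf src tgt M α,
      theta src tgt M α w k X Y' * (if Y' = Y then 1 else 0) =
      ∑ X ∈ conf src tgt M α, theta src tgt M α w k X Y := by
    rw [Finset.sum_eq_single_of_mem Y hY]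
    · simp
    · intro X' _ hne
      simp [hne]
  have e2 : ∑ X' ∈ conf src tgt M α, pw w X' * (if X' = Y then 1 else 0) = pw w Y := by
    rw [Finset.sum_eq_single_of_mem Y hY]
    · simp
    · intro X' _ hne
      simp [hne]
  rw [e1, e2] at h
  exact h

/-- the variance is controlled by the pair weight -/
theorem pairs_le (hw : ∀ e, LC (w e)) (hM : ∀ e, Supp M (w e)) (k : ℕ) (g : (E → ℤ) → ℝ) :
    ∑ X ∈ conf src tgt M α, ∑ Y ∈ conf src tgt M α, pw w X * pw w Y * (g X - g Y) ^ 2 ≤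
      2 ^ k * ∑ X ∈ conf src tgt M α, ∑ Y ∈ conf src tgt M α,
        theta src tgt M α w k X Y * (g X - g Y) ^ 2 := by
  rw [← Theta_zero_eq src tgt hM (fun X Y => (g X - g Y) ^ 2),
    ← Theta_eq src tgt hw hM k (fun X Y => (g X - g Y) ^ 2)]
  unfold Theta
  rw [Finset.mul_sum]
  refine Finset.sum_le_sum fun T hT => ?_
  exact A_iter_ge src tgt (M := M) (α := α) (β := α) (c := 2) (by norm_num)
    (G := fun X Y => (g X - g Y) ^ 2) (fun X Y => sq_nonneg _)
    (fun f T hF => A_zero_le_two src tgt g hF) k (Frame.of_cut hw hM hT)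

/-- the pair weight contracts the difference in every cell -/
theorem theta_psi (hne : ∀ e, src e ≠ tgt e) (hw : ∀ e, LC (w e)) (hM : ∀ e, Supp M (w e))
    (k : ℕ) (e : E) :
    ∑ X ∈ conf src tgt M α, ∑ Y ∈ conf src tgt M α,
        theta src tgt M α w k X Y * psi (X e - Y e) ≤
      (1 / 3) ^ k * ∑ X ∈ conf src tgt M α, ∑ Y ∈ conf src tgt M α,
        pw w X * pw w Y * psi (X e - Y e) := by
  rw [← Theta_zero_eq src tgt hM (fun X Y => psi (X e - Y e)),
    ← Theta_eq src tgt hw hM k (fun X Y => psi (X e - Y e))]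
  unfold Theta
  rw [Finset.mul_sum]
  exact Finset.sum_le_sum fun T hT => A_psi_one src tgt hne e k (Frame.of_cut hw hM hT)

/-- the pair weight lives on pairs of configurations of positive weight -/
theorem theta_eq_zero_left (hw : ∀ e, LC (w e)) (hM : ∀ e, Supp M (w e)) (k : ℕ) {X Y : E → ℤ}
    (hX : X ∈ conf src tgt M α) (hY : Y ∈ conf src tgt M α) (h : pw w X = 0) :
    theta src tgt M α w k X Y = 0 := by
  have h1 := theta_left src tgt hw hM k hX
  rw [h, mul_zero] at h1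
  exact (Finset.sum_eq_zero_iff_of_nonneg fun Y _ => theta_nonneg src tgt hw k X Y).1 h1 Y hY

theorem theta_eq_zero_right (hw : ∀ e, LC (w e)) (hM : ∀ e, Supp M (w e)) (k : ℕ) {X Y : E → ℤ}
    (hX : X ∈ conf src tgt M α) (hY : Y ∈ conf src tgt M α) (h : pw w Y = 0) :
    theta src tgt M α w k X Y = 0 := by
  have h1 := theta_right src tgt hw hM k hY
  rw [h, mul_zero] at h1
  exact (Finset.sum_eq_zero_iff_of_nonneg fun X _ => theta_nonneg src tgt hw k X Y).1 h1 X hX

theorem psi_ge_of_gt {n H : ℤ} (hH : 1 ≤ H) (h : H < |n|) : (H : ℝ) ^ 4 ≤ psi n := by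
  unfold psi
  have h1 : ((H : ℝ) + 1) ≤ |(n : ℝ)| := by
    have : H + 1 ≤ |n| := by omega
    exact_mod_cast this
  have hH1 : (1 : ℝ) ≤ H := by exact_mod_cast hH
  have h2 : ((H : ℝ) + 1) ^ 2 ≤ (n : ℝ) ^ 2 := by
    rw [← sq_abs (n : ℝ)]
    exact pow_le_pow_left₀ (by linarith) h1 2
  have h3 : (H : ℝ) ^ 2 ≤ (n : ℝ) ^ 2 - 1 := by nlinarith
  have h4 : (H : ℝ) ^ 2 ≤ (n : ℝ) ^ 2 := by linarith
  calc (H : ℝ) ^ 4 = (H : ℝ) ^ 2 * (H : ℝ) ^ 2 := by ring
    _ ≤ _ := mul_le_mul h4 h3 (by positivity) (by positivity)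

/-- Markov: far pairs are rare under the pair weight. `s` bounds the differences on the support,
`H` is the threshold. -/
theorem theta_far (hne : ∀ e, src e ≠ tgt e) (hw : ∀ e, LC (w e)) (hM : ∀ e, Supp M (w e))
    (k : ℕ) (e : E) {s : ℝ} {H : ℤ} (hH : 1 ≤ H)
    (hs : ∀ X ∈ conf src tgt M α, ∀ Y ∈ conf src tgt M α, pw w X ≠ 0 → pw w Y ≠ 0 →
      |((X e - Y e : ℤ) : ℝ)| ≤ s) :
    (∑ X ∈ conf src tgt M α, ∑ Y ∈ conf src tgt M α,
        theta src tgt M α w k X Y * (if H < |X e - Y e| then 1 else 0)) * (H : ℝ) ^ 4 ≤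
      (1 / 3) ^ k * (s ^ 4 * (Z src tgt M w α) ^ 2) := by
  have h1 : (∑ X ∈ conf src tgt M α, ∑ Y ∈ conf src tgt M α,
        theta src tgt M α w k X Y * (if H < |X e - Y e| then 1 else 0)) * (H : ℝ) ^ 4 ≤
      ∑ X ∈ conf src tgt M α, ∑ Y ∈ conf src tgt M α,
        theta src tgt M α w k X Y * psi (X e - Y e) := by
    rw [Finset.sum_mul]
    refine Finset.sum_le_sum fun X _ => ?_
    rw [Finset.sum_mul]
    refine Finset.sum_le_sum fun Y _ => ?_
    rw [mul_assoc]
    refine mul_le_mul_of_nonneg_left ?_ (theta_nonneg src tgt hw k X Y)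
    split_ifs with h
    · rw [one_mul]
      exact psi_ge_of_gt hH h
    · rw [zero_mul]
      exact psi_nonneg' _
  refine h1.trans ((theta_psi src tgt hne hw hM k e).trans
    (mul_le_mul_of_nonneg_left ?_ (by positivity)))
  have e2 : s ^ 4 * (Z src tgt M w α) ^ 2 =
      ∑ X ∈ conf src tgt M α, ∑ Y ∈ conf src tgt M α, pw w X * pw w Y * s ^ 4 := by
    have : (Z src tgt M w α) ^ 2 =
        ∑ X ∈ conf src tgt M α, ∑ Y ∈ conf src tgt M α, pw w X * pw w Y := by
      rw [sq, Z, Finset.sum_mul_sum]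
    rw [this, mul_comm, Finset.sum_mul]
    exact Finset.sum_congr rfl fun X _ => by rw [Finset.sum_mul]
  rw [e2]
  refine Finset.sum_le_sum fun X hX => Finset.sum_le_sum fun Y hY => ?_
  have hw0 : ∀ e x, 0 ≤ w e x := fun e => (hw e).1
  by_cases hx : pw w X = 0
  · simp [hx]
  by_cases hy : pw w Y = 0
  · simp [hy]
  exact mul_le_mul_of_nonneg_left (psi_le_pow _ (hs X hX Y hY hx hy))
    (mul_nonneg (pw_nonneg hw0 X) (pw_nonneg hw0 Y))

/-- Everything about the pair law in one statement. -/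
theorem exists_pair_law (hne : ∀ e, src e ≠ tgt e) (hw : ∀ e, LC (w e))
    (hM : ∀ e, Supp M (w e)) (k : ℕ) :
    ∃ θ : (E → ℤ) → (E → ℤ) → ℝ,
      (∀ X Y, 0 ≤ θ X Y) ∧
      (∀ X ∈ conf src tgt M α, ∑ Y ∈ conf src tgt M α, θ X Y = Z src tgt M w α * pw w X) ∧
      (∀ Y ∈ conf src tgt M α, ∑ X ∈ conf src tgt M α, θ X Y = Z src tgt M w α * pw w Y) ∧
      (∀ g : (E → ℤ) → ℝ,
        ∑ X ∈ conf src tgt M α, ∑ Y ∈ conf src tgt M α, pw w X * pw w Y * (g X - g Y) ^ 2 ≤
          2 ^ k * ∑ X ∈ conf src tgt M α, ∑ Y ∈ conf src tgt M α, θ X Y * (g X - g Y) ^ 2) ∧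
      (∀ (e : E) (s : ℝ) (H : ℤ), 1 ≤ H →
        (∀ X ∈ conf src tgt M α, ∀ Y ∈ conf src tgt M α, pw w X ≠ 0 → pw w Y ≠ 0 →
          |((X e - Y e : ℤ) : ℝ)| ≤ s) →
        (∑ X ∈ conf src tgt M α, ∑ Y ∈ conf src tgt M α,
          θ X Y * (if H < |X e - Y e| then 1 else 0)) * (H : ℝ) ^ 4 ≤
        (1 / 3) ^ k * (s ^ 4 * (Z src tgt M w α) ^ 2)) :=
  ⟨theta src tgt M α w k, theta_nonneg src tgt hw k, fun _ hX => theta_left src tgt hw hM k hX,
    fun _ hY => theta_right src tgt hw hM k hY, pairs_le src tgt hw hM k,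
    fun e _ _ hH hs => theta_far src tgt hne hw hM k e hH hs⟩

end Vale.Agent.P328R
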