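import Vale.Agent.P328R.WDefs
import Vale.Agent.P328R.Theta
import Vale.Agent.P328R.Block3

/-! Module W4: tensorization. The block moves and the conditional variance control the variance. -/

set_option linter.unusedSectionVars false

namespace Vale.Agent.P328R

open Finset

variable {R C : Type} [Fintype R] [LinearOrder R] [Fintype C] [DecidableEq C]

/-- The elementary block move at the cell `e`, compensated in the row `i0` and the column `j0`. -/
def blk (i0 : R) (j0 : C) (e : R × C) : R × C → ℤ := fun f =>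
  (if f = e then 1 else 0) - (if f = (e.1, j0) then 1 else 0) - (if f = (i0, e.2) then 1 else 0) +
    (if f = (i0, j0) then 1 else 0)

/-- Replace the cells of `D` by those of `W`, compensated in the row `i0` and the column `j0`. -/
def upd (i0 : R) (j0 : C) (D : Finset (R × C)) (X W : R × C → ℤ) : R × C → ℤ := fun f =>
  X f + ∑ e ∈ D, (W e - X e) * blk i0 j0 e f

/-- The energy of the block moves (Metropolis rates), `lam e` is the range of the move at `e`. -/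
noncomputable def BlockE (α : R ⊕ C → ℤ) (M : ℤ) (w : R × C → ℤ → ℝ) (i0 : R) (j0 : C)
    (D : Finset (R × C)) (lam : R × C → ℤ) (g : (R × C → ℤ) → ℝ) : ℝ :=
  ∑ X ∈ conf (gs R C) (gt R C) M α, ∑ e ∈ D, (1 / (lam e : ℝ)) *
    ∑ d ∈ Finset.Ioo (-lam e) (lam e),
      min (pw w X) (pw w (X + d • blk i0 j0 e)) * (g X - g (X + d • blk i0 j0 e)) ^ 2

namespace WB

theorem blk_cell {i0 : R} {j0 : C} {e f : R × C}
    (hf : f.1 ≠ i0 ∧ f.2 ≠ j0) : blk i0 j0 e f = if f = e then 1 else 0 := by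
  unfold blk
  have h1 : f ≠ (e.1, j0) := fun h => hf.2 (by rw [h])
  have h2 : f ≠ (i0, e.2) := fun h => hf.1 (by rw [h])
  have h3 : f ≠ (i0, j0) := fun h => hf.1 (by rw [h])
  rw [if_neg h1, if_neg h2, if_neg h3]
  ring

theorem row_ite (a : R) (e : R × C) :
    ∑ j : C, (if ((a, j) : R × C) = e then (1 : ℤ) else 0) = if a = e.1 then 1 else 0 := by
  obtain ⟨i, j'⟩ := e
  by_cases h : a = i
  · subst h
    simp
  · have : ∀ j : C, ((a, j) : R × C) ≠ (i, j') := fun j hj => h (Prod.ext_iff.1 hj).1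
    simp [h]

theorem col_ite (b : C) (e : R × C) :
    ∑ i : R, (if ((i, b) : R × C) = e then (1 : ℤ) else 0) = if b = e.2 then 1 else 0 := by
  obtain ⟨i', j⟩ := e
  by_cases h : b = j
  · subst h
    simp
  · simp [h]

theorem blk_row (i0 : R) (j0 : C) (e : R × C) (a : R) : ∑ j, blk i0 j0 e (a, j) = 0 := by
  unfold blk
  rw [Finset.sum_add_distrib, Finset.sum_sub_distrib, Finset.sum_sub_distrib, row_ite, row_ite,
    row_ite, row_ite]
  simp only
  ring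

theorem blk_col (i0 : R) (j0 : C) (e : R × C) (b : C) : ∑ i, blk i0 j0 e (i, b) = 0 := by
  unfold blk
  rw [Finset.sum_add_distrib, Finset.sum_sub_distrib, Finset.sum_sub_distrib, col_ite, col_ite,
    col_ite, col_ite]
  simp only
  ring

theorem bd_upd (i0 : R) (j0 : C) (D : Finset (R × C)) (X W : R × C → ℤ) :
    bd (gs R C) (gt R C) (upd i0 j0 D X W) = bd (gs R C) (gt R C) X := by
  funext v
  rcases v with i | j
  · rw [bd_inl, bd_inl]
    unfold upd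
    rw [Finset.sum_add_distrib, Finset.sum_comm]
    simp only [← Finset.mul_sum, blk_row, mul_zero, Finset.sum_const_zero, add_zero]
  · rw [bd_inr, bd_inr]
    unfold upd
    rw [Finset.sum_add_distrib, Finset.sum_comm]
    simp only [← Finset.mul_sum, blk_col, mul_zero, Finset.sum_const_zero, add_zero]

theorem mem_conf_of {V E : Type} [Fintype V] [DecidableEq V] [Fintype E] [DecidableEq E]
    {src tgt : E → V} {M : ℤ} {α : V → ℤ} {w : E → ℤ → ℝ} (hM : ∀ e, Supp M (w e))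
    {X : E → ℤ} (hb : bd src tgt X = α) (hX : pw w X ≠ 0) : X ∈ conf src tgt M α := by
  unfold conf
  rw [Finset.mem_filter]
  refine ⟨?_, hb⟩
  unfold box
  rw [Fintype.mem_piFinset]
  intro e
  rw [Finset.mem_Icc, ← abs_le]
  by_contra hc
  push Not at hc
  exact hX (Finset.prod_eq_zero (Finset.mem_univ e) (hM e _ hc))

/-- the values on `D`, extended by zero -/
def ext (D : Finset (R × C)) (W : {e // e ∈ D} → ℤ) : R × C → ℤ :=
  fun f => if h : f ∈ D then W ⟨f, h⟩ else 0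

theorem res_eq (i0 : R) (j0 : C) (D : Finset (R × C)) (X : R × C → ℤ) (W : {e // e ∈ D} → ℤ) :
    Block.res (fun (X : R × C → ℤ) (e : {e // e ∈ D}) => X e.1)
      (fun e : {e // e ∈ D} => blk i0 j0 e.1) Finset.univ W X = upd i0 j0 D X (ext D W) := by
  funext f
  unfold Block.res upd
  rw [Pi.add_apply, Finset.sum_apply]
  congr 1
  rw [← Finset.sum_coe_sort D]
  refine Finset.sum_congr rfl fun e _ => ?_
  have : ext D W e.1 = W e := by
    unfold ext
    rw [dif_pos e.2]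
  rw [this]
  simp

open scoped Classical in
/-- The hypotheses of the abstract block step hold. -/
theorem setup {α : R ⊕ C → ℤ} {M : ℤ} {w : R × C → ℤ → ℝ} (hw : ∀ e, LC (w e))
    (hM : ∀ e, Supp M (w e)) {i0 : R} {j0 : C} {D : Finset (R × C)}
    (hD : ∀ e ∈ D, e.1 ≠ i0 ∧ e.2 ≠ j0) {sig lam u : R × C → ℤ} {K2 : ℕ} {K1 : ℝ}
    (hu : ∀ e ∈ D, 1 ≤ u e) (hlam : ∀ e ∈ D, lam e = K2 * u e) (hdvd : ∀ e ∈ D, lam e ∣ sig e)
    (hK2 : 4 * D.card ≤ K2)
    (hbox : ∀ X : R × C → ℤ, pw w X ≠ 0 → ∀ e ∈ D, 0 ≤ X e ∧ X e < sig e)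
    (hK1 : 1 ≤ K1)
    (hJ : ∀ X ∈ conf (gs R C) (gt R C) M α, pw w X ≠ 0 → ∀ W : R × C → ℤ,
      (∀ e ∈ D, 0 ≤ W e ∧ W e < sig e ∧ |W e - X e| < lam e) →
      pw w X ≤ K1 * pw w (upd i0 j0 D X W)) :
    Block.Setup ((conf (gs R C) (gt R C) M α).filter fun X => pw w X ≠ 0) (pw w)
      (fun (X : R × C → ℤ) (e : {e // e ∈ D}) => X e.1)
      (fun e : {e // e ∈ D} => blk i0 j0 e.1) (fun e => u e.1) K2
      (fun e => (sig e.1 / lam e.1).toNat) K1 := by
  have hw0 : ∀ e x, 0 ≤ w e x := fun e => (hw e).1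
  -- the box sizes
  have hsig : ∀ X ∈ (conf (gs R C) (gt R C) M α).filter (fun X => pw w X ≠ 0),
      ∀ e : {e // e ∈ D}, (((sig e.1 / lam e.1).toNat : ℕ) : ℤ) * ((K2 : ℤ) * u e.1) = sig e.1 := by
    intro X hX e
    have h1 := hbox X (Finset.mem_filter.1 hX).2 e.1 e.2
    have hDpos : 0 < D.card := Finset.card_pos.2 ⟨e.1, e.2⟩
    have hK2pos : (0 : ℤ) < K2 := by
      have : 0 < K2 := by omega
      exact_mod_cast this
    have hu1 := hu e.1 e.2
    have hl : 0 < lam e.1 := by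
      rw [hlam e.1 e.2]
      exact mul_pos hK2pos (by linarith)
    obtain ⟨q, hq⟩ := hdvd e.1 e.2
    have hq1 : sig e.1 / lam e.1 = q := by
      rw [hq]
      exact Int.mul_ediv_cancel_left q hl.ne'
    have hq0 : 0 ≤ q := by
      by_contra hcon
      push Not at hcon
      have : lam e.1 * q < 0 := mul_neg_of_pos_of_neg hl hcon
      linarith
    rw [hq1, Int.toNat_of_nonneg hq0, ← hlam e.1 e.2, hq]
    ring
  refine ⟨?_, ?_, pw_nonneg hw0, hK1, ?_, ?_⟩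
  · intro X e d e'
    have h1 := blk_cell (e := e.1) (hD e'.1 e'.2)
    simp only [Pi.add_apply, Pi.smul_apply, smul_eq_mul]
    rw [h1]
    by_cases h2 : e' = e
    · subst h2
      simp
    · have : (e' : R × C) ≠ e := fun h => h2 (Subtype.ext h)
      simp [h2, this]
  · intro e
    have := hu e.1 e.2
    linarith
  · intro X hX e
    rw [hsig X hX e]
    exact hbox X (Finset.mem_filter.1 hX).2 e.1 e.2
  · intro X hX W hW
    have hXf := Finset.mem_filter.1 hX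
    rw [res_eq]
    have h1 := hJ X hXf.1 hXf.2 (ext D W) (fun e he => by
      have h2 := hW ⟨e, he⟩
      rw [hsig X hX ⟨e, he⟩] at h2
      have h3 : ext D W e = W ⟨e, he⟩ := by
        unfold ext
        rw [dif_pos he]
      rw [h3, hlam e he]
      exact ⟨h2.1.1, h2.1.2, h2.2⟩)
    refine ⟨?_, h1⟩
    have hpos : 0 < pw w X := lt_of_le_of_ne (pw_nonneg hw0 X) (Ne.symm hXf.2)
    have hne : pw w (upd i0 j0 D X (ext D W)) ≠ 0 := by
      intro h0
      rw [h0, mul_zero] at h1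
      linarith
    rw [Finset.mem_filter]
    refine ⟨mem_conf_of hM ?_ hne, hne⟩
    rw [bd_upd]
    exact (Finset.mem_filter.1 hXf.1).2

theorem BlockE_nonneg {α : R ⊕ C → ℤ} {M : ℤ} {w : R × C → ℤ → ℝ} (hw : ∀ e x, 0 ≤ w e x)
    (i0 : R) (j0 : C) {D : Finset (R × C)} {lam : R × C → ℤ} (hl : ∀ e ∈ D, 0 ≤ lam e)
    (g : (R × C → ℤ) → ℝ) : 0 ≤ BlockE α M w i0 j0 D lam g := by
  unfold BlockE
  refine Finset.sum_nonneg fun X _ => Finset.sum_nonneg fun e he => mul_nonneg ?_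
    (Finset.sum_nonneg fun d _ => mul_nonneg (le_min (pw_nonneg hw _) (pw_nonneg hw _))
      (sq_nonneg _))
  have h1 : (0 : ℝ) ≤ lam e := by exact_mod_cast hl e he
  positivity

theorem VarD_nonneg {α : R ⊕ C → ℤ} {M : ℤ} {w : R × C → ℤ → ℝ} (hw : ∀ e x, 0 ≤ w e x)
    (D : Finset (R × C)) (g : (R × C → ℤ) → ℝ) : 0 ≤ VarD α M w D g :=
  Finset.sum_nonneg fun X _ => mul_nonneg (pw_nonneg hw X) (sq_nonneg _)

open scoped Classical in
/-- Close pairs. -/
theorem close_pairs {α : R ⊕ C → ℤ} {M : ℤ} {w : R × C → ℤ → ℝ} (hw : ∀ e, LC (w e))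
    (hM : ∀ e, Supp M (w e)) {i0 : R} {j0 : C} {D : Finset (R × C)}
    (hD : ∀ e ∈ D, e.1 ≠ i0 ∧ e.2 ≠ j0) {sig lam u : R × C → ℤ} {K2 : ℕ} {K1 : ℝ}
    (hu : ∀ e ∈ D, 1 ≤ u e) (hlam : ∀ e ∈ D, lam e = K2 * u e) (hdvd : ∀ e ∈ D, lam e ∣ sig e)
    (hK2 : 4 * D.card ≤ K2) (hK0 : 0 < K2)
    (hbox : ∀ X : R × C → ℤ, pw w X ≠ 0 → ∀ e ∈ D, 0 ≤ X e ∧ X e < sig e)
    (hK1 : 1 ≤ K1)
    (hJ : ∀ X ∈ conf (gs R C) (gt R C) M α, pw w X ≠ 0 → ∀ W : R × C → ℤ,
      (∀ e ∈ D, 0 ≤ W e ∧ W e < sig e ∧ |W e - X e| < lam e) →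
      pw w X ≤ K1 * pw w (upd i0 j0 D X W))
    (g : (R × C → ℤ) → ℝ) {θ : (R × C → ℤ) → (R × C → ℤ) → ℝ} (hθ0 : ∀ X Y, 0 ≤ θ X Y) {c : ℝ}
    (hc : 0 ≤ c)
    (hrow : ∀ X ∈ conf (gs R C) (gt R C) M α,
      ∑ Y ∈ conf (gs R C) (gt R C) M α, θ X Y = c * pw w X)
    (hcol : ∀ Y ∈ conf (gs R C) (gt R C) M α,
      ∑ X ∈ conf (gs R C) (gt R C) M α, θ X Y = c * pw w Y) :
    ∑ X ∈ conf (gs R C) (gt R C) M α, ∑ Y ∈ conf (gs R C) (gt R C) M α, θ X Y *
      (if ∀ e : {e // e ∈ D}, |X e.1 - Y e.1| ≤ u e.1 then (g X - g Y) ^ 2 else 0) ≤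
      c * (8 * K1 ^ 2 * K2 * D.card * BlockE α M w i0 j0 D lam g
        + 16 * K1 * VarD α M w D g) := by
  have hw0 : ∀ e x, 0 ≤ w e x := fun e => (hw e).1
  have hset := setup hw hM hD hu hlam hdvd hK2 hbox hK1 hJ
  generalize hcf : conf (gs R C) (gt R C) M α = cf at *
  set S' := cf.filter fun X => pw w X ≠ 0 with hS'
  have hθl : ∀ X ∈ cf, ∀ Y ∈ cf, ¬ pw w X ≠ 0 → θ X Y = 0 := by
    intro X hX Y hY h
    push Not at h
    have h1 := hrow X hX
    rw [h, mul_zero] at h1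
    exact (Finset.sum_eq_zero_iff_of_nonneg fun Y _ => hθ0 X Y).1 h1 Y hY
  have hθr : ∀ X ∈ cf, ∀ Y ∈ cf, ¬ pw w Y ≠ 0 → θ X Y = 0 := by
    intro X hX Y hY h
    push Not at h
    have h1 := hcol Y hY
    rw [h, mul_zero] at h1
    exact (Finset.sum_eq_zero_iff_of_nonneg fun X _ => hθ0 X Y).1 h1 X hX
  have e0 : ∑ X ∈ cf, ∑ Y ∈ cf, θ X Y *
      (if ∀ e : {e // e ∈ D}, |X e.1 - Y e.1| ≤ u e.1 then (g X - g Y) ^ 2 else 0)
      = ∑ X ∈ S', ∑ Y ∈ S', θ X Y *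
      (if ∀ e : {e // e ∈ D}, |X e.1 - Y e.1| ≤ u e.1 then (g X - g Y) ^ 2 else 0) := by
    symm
    have e1 : ∀ X ∈ S', ∑ Y ∈ S', θ X Y *
        (if ∀ e : {e // e ∈ D}, |X e.1 - Y e.1| ≤ u e.1 then (g X - g Y) ^ 2 else 0)
        = ∑ Y ∈ cf, θ X Y *
        (if ∀ e : {e // e ∈ D}, |X e.1 - Y e.1| ≤ u e.1 then (g X - g Y) ^ 2 else 0) := by
      intro X hX
      refine Finset.sum_subset (Finset.filter_subset _ _) fun Y hY hY' => ?_
      rw [hθr X (Finset.mem_filter.1 hX).1 Y hY fun hp => hY' (Finset.mem_filter.2 ⟨hY, hp⟩),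
        zero_mul]
    rw [Finset.sum_congr rfl e1]
    refine Finset.sum_subset (Finset.filter_subset _ _) fun X hX hX' => ?_
    refine Finset.sum_eq_zero fun Y hY => ?_
    rw [hθl X hX Y hY fun hp => hX' (Finset.mem_filter.2 ⟨hX, hp⟩), zero_mul]
  rw [e0]
  have hcard : Fintype.card {e // e ∈ D} = D.card := Fintype.card_coe D
  have h1 := hset.block_step (by rw [hcard]; exact hK2) hK0 θ (fun X _ Y _ => hθ0 X Y) hc
    (fun X hX => by
      rw [← hrow X (Finset.mem_filter.1 hX).1]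
      exact Finset.sum_le_sum_of_subset_of_nonneg (Finset.filter_subset _ _)
        fun Y _ _ => hθ0 X Y)
    (fun Y hY => by
      rw [← hcol Y (Finset.mem_filter.1 hY).1]
      exact Finset.sum_le_sum_of_subset_of_nonneg (Finset.filter_subset _ _)
        fun X _ _ => hθ0 X Y)
    g (fun W => cmean α M w D g (ext D W))
  refine h1.trans (mul_le_mul_of_nonneg_left (add_le_add ?_ ?_) hc)
  · rw [hcard]
    have h2 : ∑ e : {e // e ∈ D}, 1 / ((u e.1 : ℤ) : ℝ) * ∑ Z ∈ S',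
        ∑ d ∈ Finset.Ioo (-((K2 : ℤ) * u e.1)) ((K2 : ℤ) * u e.1),
          min (pw w Z) (pw w (Z + d • blk i0 j0 e.1)) * (g Z - g (Z + d • blk i0 j0 e.1)) ^ 2
        ≤ K2 * BlockE α M w i0 j0 D lam g := by
      unfold BlockE
      rw [hcf, Finset.sum_comm, Finset.mul_sum, ← Finset.sum_coe_sort D]
      refine Finset.sum_le_sum fun e _ => ?_
      have hu1 : (0 : ℝ) < u e.1 := by
        have := hu e.1 e.2
        have h3 : (1 : ℝ) ≤ u e.1 := by exact_mod_cast this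
        linarith
      have hK0r : (0 : ℝ) < K2 := by exact_mod_cast hK0
      have hl1 : (lam e.1 : ℝ) = K2 * u e.1 := by
        rw [hlam e.1 e.2]
        push_cast
        rfl
      rw [← hlam e.1 e.2, ← Finset.mul_sum, ← mul_assoc]
      have e1 : (K2 : ℝ) * (1 / (lam e.1 : ℝ)) = 1 / (u e.1 : ℝ) := by
        rw [hl1]
        field_simp
      rw [e1]
      refine mul_le_mul_of_nonneg_left ?_ (by positivity)
      refine Finset.sum_le_sum_of_subset_of_nonneg (Finset.filter_subset _ _) fun X _ _ => ?_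
      exact Finset.sum_nonneg fun d _ => mul_nonneg
        (le_min (pw_nonneg hw0 _) (pw_nonneg hw0 _)) (sq_nonneg _)
    calc 8 * ((D.card : ℝ) * (K1 ^ 2 * _)) ≤ 8 * ((D.card : ℝ) * (K1 ^ 2
        * (K2 * BlockE α M w i0 j0 D lam g))) := by
          refine mul_le_mul_of_nonneg_left (mul_le_mul_of_nonneg_left
            (mul_le_mul_of_nonneg_left h2 (by positivity)) (by positivity)) (by norm_num)
      _ = 8 * K1 ^ 2 * K2 * D.card * BlockE α M w i0 j0 D lam g := by ring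
  · have h2 : ∑ Z ∈ S', pw w Z * (g Z - cmean α M w D g (ext D fun e : {e // e ∈ D} => Z e.1)) ^ 2
        ≤ VarD α M w D g := by
      unfold VarD
      rw [hcf]
      have e1 : ∀ Z : R × C → ℤ, cmean α M w D g (ext D fun e : {e // e ∈ D} => Z e.1)
          = cmean α M w D g Z := by
        intro Z
        refine cmean_congr fun e he => ?_
        unfold ext
        rw [dif_pos he]
      simp only [e1]
      exact Finset.sum_le_sum_of_subset_of_nonneg (Finset.filter_subset _ _)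
        fun X _ _ => mul_nonneg (pw_nonneg hw0 X) (sq_nonneg _)
    have hK1' : 0 ≤ K1 := by linarith
    calc 16 * (K1 * _) ≤ 16 * (K1 * VarD α M w D g) :=
          mul_le_mul_of_nonneg_left (mul_le_mul_of_nonneg_left h2 hK1') (by norm_num)
      _ = 16 * K1 * VarD α M w D g := by ring

open scoped Classical in
/-- Far pairs. -/
theorem far_pairs {cf : Finset (R × C → ℤ)} {w : R × C → ℤ → ℝ} {D : Finset (R × C)}
    {sig u : R × C → ℤ} {S : ℝ}
    (hu : ∀ e ∈ D, 1 ≤ u e) (hS : ∀ e ∈ D, (sig e : ℝ) ≤ S * u e)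
    (hbox : ∀ X : R × C → ℤ, pw w X ≠ 0 → ∀ e ∈ D, 0 ≤ X e ∧ X e < sig e)
    (g : (R × C → ℤ) → ℝ) {B : ℝ} (hB : ∀ X ∈ cf, |g X| ≤ B) {q Zw : ℝ}
    {θ : (R × C → ℤ) → (R × C → ℤ) → ℝ} (hθ0 : ∀ X Y, 0 ≤ θ X Y)
    (hfar : ∀ (e : R × C) (s : ℝ) (H : ℤ), 1 ≤ H →
        (∀ X ∈ cf, ∀ Y ∈ cf, pw w X ≠ 0 → pw w Y ≠ 0 → |((X e - Y e : ℤ) : ℝ)| ≤ s) →
        (∑ X ∈ cf, ∑ Y ∈ cf, θ X Y * (if H < |X e - Y e| then 1 else 0)) * (H : ℝ) ^ 4 ≤
        q * (s ^ 4 * Zw ^ 2)) :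
    ∑ X ∈ cf, ∑ Y ∈ cf, θ X Y *
      (if ∀ e : {e // e ∈ D}, |X e.1 - Y e.1| ≤ u e.1 then 0 else (g X - g Y) ^ 2) ≤
      q * (4 * B ^ 2 * D.card * S ^ 4) * Zw ^ 2 := by
  have h1 : ∀ X ∈ cf, ∀ Y ∈ cf, θ X Y *
      (if ∀ e : {e // e ∈ D}, |X e.1 - Y e.1| ≤ u e.1 then 0 else (g X - g Y) ^ 2)
      ≤ 4 * B ^ 2 * ∑ e ∈ D, θ X Y * (if u e < |X e - Y e| then 1 else 0) := by
    intro X hX Y hY
    rw [← Finset.mul_sum, ← mul_assoc, mul_comm (4 * B ^ 2) (θ X Y), mul_assoc]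
    refine mul_le_mul_of_nonneg_left ?_ (hθ0 X Y)
    split_ifs with h
    · exact mul_nonneg (by positivity) (Finset.sum_nonneg fun e _ => by split_ifs <;> norm_num)
    · push Not at h
      obtain ⟨e, he⟩ := h
      have h2 : (1 : ℝ) ≤ ∑ e ∈ D, (if u e < |X e - Y e| then (1 : ℝ) else 0) := by
        have h3 := Finset.single_le_sum (f := fun e => if u e < |X e - Y e| then (1 : ℝ) else 0)
          (s := D) (fun e _ => by split_ifs <;> norm_num) e.2
        simp only [if_pos he] at h3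
        exact h3
      have h3 : (g X - g Y) ^ 2 ≤ 4 * B ^ 2 := by
        have h4 := hB X hX
        have h5 := hB Y hY
        have h6 : |g X - g Y| ≤ 2 * B := by
          have := abs_sub (g X) (g Y)
          linarith
        calc (g X - g Y) ^ 2 = |g X - g Y| ^ 2 := (sq_abs _).symm
          _ ≤ (2 * B) ^ 2 := pow_le_pow_left₀ (abs_nonneg _) h6 2
          _ = 4 * B ^ 2 := by ring
      nlinarith [sq_nonneg B]
  have h2 : ∀ e ∈ D, ∑ X ∈ cf, ∑ Y ∈ cf, θ X Y * (if u e < |X e - Y e| then (1 : ℝ) else 0)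
      ≤ q * (S ^ 4 * Zw ^ 2) := by
    intro e he
    have hu1 : (1 : ℝ) ≤ u e := by exact_mod_cast hu e he
    have h3 := hfar e (S * u e) (u e) (hu e he) (fun X _ Y _ hx hy => by
      have h4 := hbox X hx e he
      have h5 := hbox Y hy e he
      have h6 : |X e - Y e| ≤ sig e := by
        rw [abs_le]
        constructor <;> linarith
      have h7 : |((X e - Y e : ℤ) : ℝ)| ≤ sig e := by exact_mod_cast h6
      exact h7.trans (hS e he))
    have h4 : (0 : ℝ) < (u e : ℝ) ^ 4 := by positivity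
    refine le_of_mul_le_mul_right (h3.trans (le_of_eq ?_)) h4
    ring
  calc _ ≤ ∑ X ∈ cf, ∑ Y ∈ cf,
        4 * B ^ 2 * ∑ e ∈ D, θ X Y * (if u e < |X e - Y e| then (1 : ℝ) else 0) :=
        Finset.sum_le_sum fun X hX => Finset.sum_le_sum fun Y hY => h1 X hX Y hY
    _ = 4 * B ^ 2 * ∑ e ∈ D, ∑ X ∈ cf, ∑ Y ∈ cf,
        θ X Y * (if u e < |X e - Y e| then (1 : ℝ) else 0) := by
        simp only [← Finset.mul_sum]
        congr 1
        rw [Finset.sum_comm' (s := D) (t := fun _ => cf) (t' := cf) (s' := fun _ => D)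
          (by intro x y; tauto)]
        refine Finset.sum_congr rfl fun X _ => ?_
        rw [Finset.sum_comm]
        refine Finset.sum_congr rfl fun Y _ => ?_
        rw [Finset.mul_sum]
    _ ≤ 4 * B ^ 2 * ∑ _e ∈ D, q * (S ^ 4 * Zw ^ 2) :=
        mul_le_mul_of_nonneg_left (Finset.sum_le_sum h2) (by positivity)
    _ = q * (4 * B ^ 2 * D.card * S ^ 4) * Zw ^ 2 := by
        rw [Finset.sum_const, nsmul_eq_mul]
        ring

end WB

/-- **Tensorization (W4).** `sig` = box sizes of the cells of `D`, `lam e = K2 * u e` the block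
length, a divisor of `sig e`; the weight changes at most by the factor `K1` when all cells of `D`
are changed by less than `lam`. -/
theorem tensor {α : R ⊕ C → ℤ} {M : ℤ} {w : R × C → ℤ → ℝ} (hw : ∀ e, LC (w e))
    (hM : ∀ e, Supp M (w e)) {i0 : R} {j0 : C} {D : Finset (R × C)}
    (hD : ∀ e ∈ D, e.1 ≠ i0 ∧ e.2 ≠ j0) {sig lam u : R × C → ℤ} {K2 : ℕ} {K1 S : ℝ}
    (hu : ∀ e ∈ D, 1 ≤ u e) (hlam : ∀ e ∈ D, lam e = K2 * u e) (hdvd : ∀ e ∈ D, lam e ∣ sig e)
    (hK2 : 4 * D.card ≤ K2)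
    (hS : ∀ e ∈ D, (sig e : ℝ) ≤ S * u e)
    (hbox : ∀ X : R × C → ℤ, pw w X ≠ 0 → ∀ e ∈ D, 0 ≤ X e ∧ X e < sig e)
    (hK1 : 1 ≤ K1)
    (hJ : ∀ X ∈ conf (gs R C) (gt R C) M α, pw w X ≠ 0 → ∀ W : R × C → ℤ,
      (∀ e ∈ D, 0 ≤ W e ∧ W e < sig e ∧ |W e - X e| < lam e) →
      pw w X ≤ K1 * pw w (upd i0 j0 D X W))
    (g : (R × C → ℤ) → ℝ) {B : ℝ} (hB0 : 0 ≤ B)
    (hB : ∀ X ∈ conf (gs R C) (gt R C) M α, |g X| ≤ B) (k : ℕ) :
    ∑ X ∈ conf (gs R C) (gt R C) M α, ∑ Y ∈ conf (gs R C) (gt R C) M α,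
        pw w X * pw w Y * (g X - g Y) ^ 2 ≤
      2 ^ k * Z (gs R C) (gt R C) M w α *
        (48 * K1 ^ 2 * K2 * (D.card + 1) * BlockE α M w i0 j0 D lam g + 48 * K1 * VarD α M w D g) +
      (2 / 3) ^ k * (4 * B ^ 2 * D.card * S ^ 4) * (Z (gs R C) (gt R C) M w α) ^ 2 := by
  classical
  have hw0 : ∀ e x, 0 ≤ w e x := fun e => (hw e).1
  have hZ0 : 0 ≤ Z (gs R C) (gt R C) M w α := Z_nonneg (gs R C) (gt R C) M hw0 α
  obtain ⟨θ, hθ0, hrow, hcol, hpairs, hfar⟩ := exists_pair_law (gs R C) (gt R C) (M := M)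
    (α := α) grid_ne hw hM k
  have hl0 : ∀ e ∈ D, 0 ≤ lam e := by
    intro e he
    rw [hlam e he]
    have := hu e he
    positivity
  have hE0 := WB.BlockE_nonneg (α := α) (M := M) hw0 i0 j0 hl0 g
  have hV0 := WB.VarD_nonneg (α := α) (M := M) hw0 D g
  -- close pairs
  have hclose : ∑ X ∈ conf (gs R C) (gt R C) M α, ∑ Y ∈ conf (gs R C) (gt R C) M α, θ X Y *
      (if ∀ e : {e // e ∈ D}, |X e.1 - Y e.1| ≤ u e.1 then (g X - g Y) ^ 2 else 0) ≤
      Z (gs R C) (gt R C) M w α * (8 * K1 ^ 2 * K2 * D.card * BlockE α M w i0 j0 D lam g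
        + 16 * K1 * VarD α M w D g) := by
    rcases Finset.eq_empty_or_nonempty D with hDe | hDne
    · subst hDe
      have h1 := WB.close_pairs hw hM (i0 := i0) (j0 := j0) (D := ∅) hD (sig := sig) (lam := lam)
        (u := u) (K2 := 1) hu (by simp) hdvd (by simp) one_pos hbox hK1 hJ g hθ0 hZ0 hrow hcol
      simpa using h1
    · have hK0 : 0 < K2 := by
        have := hDne.card_pos
        omega
      exact WB.close_pairs hw hM hD hu hlam hdvd hK2 hK0 hbox hK1 hJ g hθ0 hZ0 hrow hcol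
  have hfar' := WB.far_pairs (cf := conf (gs R C) (gt R C) M α) (w := w) hu hS hbox g hB hθ0 hfar
  have hsum : ∑ X ∈ conf (gs R C) (gt R C) M α, ∑ Y ∈ conf (gs R C) (gt R C) M α,
      θ X Y * (g X - g Y) ^ 2
      = ∑ X ∈ conf (gs R C) (gt R C) M α, ∑ Y ∈ conf (gs R C) (gt R C) M α, θ X Y *
      (if ∀ e : {e // e ∈ D}, |X e.1 - Y e.1| ≤ u e.1 then (g X - g Y) ^ 2 else 0)
      + ∑ X ∈ conf (gs R C) (gt R C) M α, ∑ Y ∈ conf (gs R C) (gt R C) M α, θ X Y *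
      (if ∀ e : {e // e ∈ D}, |X e.1 - Y e.1| ≤ u e.1 then 0 else (g X - g Y) ^ 2) := by
    rw [← Finset.sum_add_distrib]
    refine Finset.sum_congr rfl fun X _ => ?_
    rw [← Finset.sum_add_distrib]
    refine Finset.sum_congr rfl fun Y _ => ?_
    split_ifs <;> ring
  have h1 := hpairs g
  rw [hsum] at h1
  refine h1.trans ?_
  have h2 : (2 : ℝ) ^ k * (1 / 3) ^ k = (2 / 3) ^ k := by
    rw [← mul_pow]
    norm_num
  have h3 : 8 * K1 ^ 2 * K2 * D.card * BlockE α M w i0 j0 D lam g + 16 * K1 * VarD α M w D g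
      ≤ 48 * K1 ^ 2 * K2 * (D.card + 1) * BlockE α M w i0 j0 D lam g
        + 48 * K1 * VarD α M w D g := by
    have hK1' : 0 ≤ K1 := by linarith
    refine add_le_add (mul_le_mul_of_nonneg_right ?_ hE0) (mul_le_mul_of_nonneg_right ?_ hV0)
    · have h4 : 0 ≤ K1 ^ 2 * (K2 : ℝ) * D.card := by positivity
      have h5 : 0 ≤ K1 ^ 2 * (K2 : ℝ) := by positivity
      nlinarith
    · nlinarith
  calc 2 ^ k * (_ + _) ≤ 2 ^ k * (Z (gs R C) (gt R C) M w α *
        (8 * K1 ^ 2 * K2 * D.card * BlockE α M w i0 j0 D lam g + 16 * K1 * VarD α M w D g)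
        + (1 / 3) ^ k * (4 * B ^ 2 * D.card * S ^ 4) * (Z (gs R C) (gt R C) M w α) ^ 2) :=
        mul_le_mul_of_nonneg_left (add_le_add hclose hfar') (by positivity)
    _ = 2 ^ k * Z (gs R C) (gt R C) M w α *
        (8 * K1 ^ 2 * K2 * D.card * BlockE α M w i0 j0 D lam g + 16 * K1 * VarD α M w D g)
        + (2 ^ k * (1 / 3) ^ k) * (4 * B ^ 2 * D.card * S ^ 4)
          * (Z (gs R C) (gt R C) M w α) ^ 2 := by ring
    _ ≤ _ := by
        rw [h2]
        exact add_le_add (mul_le_mul_of_nonneg_left h3 (by positivity)) le_rfl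

end Vale.Agent.P328R
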