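import Vale.Agent.P328R.Sched
import Vale.Agent.P328R.WBlk

/-!
The concrete weights of `Algo.lean` in the form needed by the weak Poincaré inequality
(definitions and elementary facts; the modules G1 .. G5 are in their own files).
-/

set_option linter.unusedSectionVars false

namespace Vale.Agent.P328R

open Finset Vale.Agent.P328RAM

/-- Real cell weights. -/
noncomputable def wR (p : Par) (m n : ℕ) (g : Mg) : Fin m × Fin n → ℤ → ℝ :=
  fun e x => (cw p m n g (e.1 : ℕ) (e.2 : ℕ) x : ℝ)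

/-- The boundary of the exact tables. -/
def al (m n : ℕ) (g : Mg) : Fin m ⊕ Fin n → ℤ :=
  Sum.elim (fun i => g.r i) (fun j => -g.c j)

open scoped Classical in
/-- The block cells. -/
noncomputable def DB (p : Par) (m n : ℕ) (g : Mg) : Finset (Fin m × Fin n) :=
  univ.filter fun e => Blk p m n g (e.1 : ℕ) (e.2 : ℕ)

/-- The radius of the box. -/
def rad (p : Par) (m : ℕ) (g : Mg) : ℤ := 2 * (p.Lc + p.Lp + 1) * ∑ i : Fin m, g.r i

/-- Valid margins. -/
structure GV (m n : ℕ) (g : Mg) : Prop where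
  r0 : ∀ i : Fin m, 0 ≤ g.r i
  c0 : ∀ j : Fin n, 0 ≤ g.c j
  tot : ∑ i : Fin m, g.r i = ∑ j : Fin n, g.c j

/-- Valid parameters for the weak Poincaré part (`μ` is a power of two larger than `m + n`). -/
structure PV (p : Par) (m n μ : ℕ) : Prop where
  hm : 0 < m
  hn : 0 < n
  pow : ∃ a : ℕ, μ = 2 ^ a
  mu : m + n < μ
  q1 : 1 ≤ p.q
  Lp : 16 * (μ : ℤ) ^ 2 ≤ p.Lp
  Lc : p.Lp ≤ p.Lc
  k1 : p.q ≤ 2 ^ p.k1
  Q : 16 * (2 : ℤ) ^ p.k1 * (μ : ℤ) ^ 2 ≤ p.Q

variable {p : Par} {m n μ : ℕ} {g : Mg}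

/-- The largest row. -/
def ri (m : ℕ) (g : Mg) (hm : 0 < m) : Fin m := ⟨is m g, am_lt _ _ hm⟩

/-- The largest column. -/
def cj (n : ℕ) (g : Mg) (hn : 0 < n) : Fin n := ⟨js n g, am_lt _ _ hn⟩

end Vale.Agent.P328R
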