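import Vale.Agent.P328R.ParDef
import Vale.Agent.P328R.WConc
import Vale.Agent.P328R.Params

/-! # P328R: the explicit parameters of the final program -/

namespace Vale.Agent.P328R

open scoped ENNReal
open Vale.Agent.P328RAM

variable {kT m n N a D : ℕ}

theorem four_le_baseX (hm : 0 < m) (hn : 0 < n) : 4 ≤ baseX m n N a D := by
  unfold baseX
  omega

theorem baseX_lt : baseX m n N a D < 2 ^ bitX m n N a D := Nat.lt_size_self _

theorem lt_mu : m + n < 2 ^ bitB m n := Nat.lt_size_self _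

theorem mul_le_baseX : m * n ≤ baseX m n N a D ^ 2 := by
  have h1 : m ≤ baseX m n N a D := by unfold baseX; omega
  have h2 : n ≤ baseX m n N a D := by unfold baseX; omega
  rw [sq]
  exact Nat.mul_le_mul h1 h2

theorem numP_le (hm : 0 < m) (hn : 0 < n) : numP m n N ≤ baseX m n N a D ^ 4 := by
  unfold numP
  set X := baseX m n N a D with hX
  have h1 : max m n ≤ X := by
    rw [hX]; unfold baseX
    exact max_le (by omega) (by omega)
  have h2 : Nat.size N ≤ X := by rw [hX]; unfold baseX; omega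
  have h4 : 4 ≤ X := four_le_baseX hm hn
  calc 2 * (max m n) ^ 2 * Nat.size N ≤ X * X ^ 2 * X := by
        refine Nat.mul_le_mul (Nat.mul_le_mul (by omega) (Nat.pow_le_pow_left h1 2)) h2
    _ = X ^ 4 := by ring

theorem parOf_PV (hm : 0 < m) (hn : 0 < n) : PV (parOf kT m n N a D) m n (2 ^ bitB m n) where
  hm := hm
  hn := hn
  pow := ⟨_, rfl⟩
  mu := lt_mu
  q1 := Nat.one_le_two_pow
  Lp := by
    show 16 * (((2 ^ bitB m n : ℕ) : ℤ)) ^ 2 ≤ 2 ^ (4 + 2 * bitB m n)
    rw [pow_add, pow_mul']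
    push_cast
    norm_num
  Lc := by
    show (2 : ℤ) ^ (4 + 2 * bitB m n) ≤ 2 ^ (10 + 10 * bitB m n + 28 * bitX m n N a D)
    exact pow_le_pow_right₀ (by norm_num) (by omega)
  k1 := le_rfl
  Q := by
    show 16 * (2 : ℤ) ^ expq m n N a D * (((2 ^ bitB m n : ℕ) : ℤ)) ^ 2 ≤
      2 ^ (expq m n N a D + 10 + 2 * bitB m n)
    rw [pow_add, pow_add, pow_mul']
    push_cast
    have h : (0 : ℤ) < 2 ^ expq m n N a D := by positivity
    have h' : (0 : ℤ) < (2 ^ bitB m n) ^ 2 := by positivity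
    have h'' : (0 : ℤ) < 2 ^ expq m n N a D * (2 ^ bitB m n) ^ 2 := by positivity
    nlinarith

theorem parOf_Q : 0 ≤ (parOf kT m n N a D).Q := by
  show (0 : ℤ) ≤ 2 ^ _
  positivity

theorem parOf_Lp : 1 ≤ (parOf kT m n N a D).Lp := by
  show (1 : ℤ) ≤ 2 ^ _
  exact one_le_pow₀ (by norm_num)

theorem parOf_Lc : 1 ≤ (parOf kT m n N a D).Lc := by
  show (1 : ℤ) ≤ 2 ^ _
  exact one_le_pow₀ (by norm_num)

/-- The per-phase facts for the explicit parameters (`kA` is the exponent in the relaxation time). -/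
structure PhaseFacts (kA kT : ℕ) : Prop where
  good : ∀ m n N a D : ℕ, 0 < m → 0 < n → ∀ g : Mg, Valid m n g →
    GoodChain (stF (parOf kT m n N a D) g m n) (piF (parOf kT m n N a D) g m n)
      (stepI (parOf kT m n N a D) g) ((baseX m n N a D : ℝ) ^ kA)
      (1 / (baseX m n N a D : ℝ) ^ 34)
  tv : ∀ m n N a D : ℕ, 0 < m → 0 < n → ∀ g : Mg, Valid m n g →
    TVle (piF (parOf kT m n N a D) g m n) (uniF g m n)
      (ENNReal.ofReal (1 / (baseX m n N a D : ℝ) ^ 14))
  ratio : ∀ m n : ℕ, ∀ g : Mg, Valid m n g →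
    (OmegaF g m n).card ≤ m * n * (OmegaF (down m n g) m n).card

/-- The counters of the program with the explicit parameters. -/
theorem counts_final {kA kT : ℕ} (hF : PhaseFacts kA kT) (hk : kA + 4 ≤ kT) {g : Mg}
    (h : Valid m n g) (hN : tot m g = N) (ha : 1 ≤ a) :
    (counts (parOf kT m n N a D) g m n (numT kT m n N a D) (numP m n N)
      (numS m n N a D)).toOuterMeasure
      {c | ¬ ((1 - 1 / (a : ℝ)) * (OmegaF g m n).card ≤
          ∏ k ∈ Finset.range (numP m n N), (numS m n N a D : ℝ) / (c k : ℝ) ∧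
        ∏ k ∈ Finset.range (numP m n N), (numS m n N a D : ℝ) / (c k : ℝ) ≤
          (1 + 1 / (a : ℝ)) * (OmegaF g m n).card)} ≤
      ENNReal.ofReal (1 / 2 ^ D) := by
  have hX4 : 4 ≤ baseX m n N a D := four_le_baseX h.m_pos h.n_pos
  refine counts_param_valid h parOf_Q parOf_Lp parOf_Lc hX4 mul_le_baseX
    (numP_le (a := a) (D := D) h.m_pos h.n_pos) ?_ ha (by unfold baseX; omega)
    (by unfold baseX; omega) rfl (A := (baseX m n N a D : ℝ) ^ kA) ?_ ?_ (by positivity)
    (fun g' hg' => hF.good m n N a D h.m_pos h.n_pos g' hg')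
    (fun g' hg' => hF.tv m n N a D h.m_pos h.n_pos g' hg') (fun g' hg' => hF.ratio m n g' hg')
  · rw [hN, Int.toNat_natCast]
    exact le_rfl
  · unfold numT
    push_cast
    have hX : (4 : ℝ) ≤ (baseX m n N a D : ℝ) := by exact_mod_cast hX4
    set x : ℝ := (baseX m n N a D : ℝ) with hx
    have h1 : x ^ (kA + 4) ≤ x ^ kT := pow_le_pow_right₀ (by linarith) hk
    have h2 : 34 * x ^ kA * x ≤ x ^ (kA + 4) := by
      have h3 : (4 : ℝ) ^ 3 ≤ x ^ 3 := pow_le_pow_left₀ (by norm_num) hX 3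
      have h5 : (34 : ℝ) ≤ x ^ 3 := by norm_num at h3; linarith
      have h4 : 0 ≤ x ^ kA * x := by positivity
      calc 34 * x ^ kA * x = 34 * (x ^ kA * x) := by ring
        _ ≤ x ^ 3 * (x ^ kA * x) := mul_le_mul_of_nonneg_right h5 h4
        _ = _ := by ring
    linarith
  · show numT kT m n N a D * baseX m n N a D ^ 14 ≤ 2 ^ ((kT + 14) * bitX m n N a D)
    unfold numT
    rw [← pow_add, mul_comm (kT + 14), pow_mul]
    exact Nat.pow_le_pow_left baseX_lt.le _

end Vale.Agent.P328R
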