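import Vale.Agent.P328R.RoutA

/-! Module M9: routing (section 5 of the note). -/

namespace Vale.Agent.P328R

open Finset

section aux

variable {R C : Type} [Fintype R] [DecidableEq R] [Fintype C] [DecidableEq C]

theorem bd_inl (X : R × C → ℤ) (i : R) :
    bd (gs R C) (gt R C) X (Sum.inl i) = ∑ j, X (i, j) := by
  unfold bd gs gt
  rw [← univ_product_univ, sum_product, sum_product]
  simp

theorem bd_inr (X : R × C → ℤ) (j : C) :
    bd (gs R C) (gt R C) X (Sum.inr j) = -∑ i, X (i, j) := by
  unfold bd gs gt
  rw [← univ_product_univ, sum_product, sum_product]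
  simp

/-- `X` with the columns in `S` replaced by those of `T - X`. -/
def repT (T X : R × C → ℤ) (S : Finset C) : R × C → ℤ :=
  fun e => if e.2 ∈ S then T e - X e else X e

/-- the difference of the pair -/
def dfT (T X : R × C → ℤ) : R × C → ℤ := fun e => 2 * X e - T e

theorem gd_df (α : R ⊕ C → ℤ) (T X : R × C → ℤ)
    (hT : ∀ v, bd (gs R C) (gt R C) T v = 2 * α v)
    (hX : bd (gs R C) (gt R C) X = α) (hg : Good X (T - X)) : GD (dfT T X) := by
  have e1 : ∀ e, X e - (T - X) e = dfT T X e := by
    intro e
    simp only [dfT, Pi.sub_apply]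
    ring
  obtain ⟨g1, g2, g3⟩ := hg
  refine ⟨fun i => ?_, fun j => ?_, fun e => ?_, fun i j j' h => ?_, fun j i i' h => ?_⟩
  · have a1 := hT (Sum.inl i)
    have a2 := congrFun hX (Sum.inl i)
    rw [bd_inl] at a1 a2
    simp only [dfT]
    rw [sum_sub_distrib, ← mul_sum, a1, a2]
    ring
  · have a1 := hT (Sum.inr j)
    have a2 := congrFun hX (Sum.inr j)
    rw [bd_inr] at a1 a2
    simp only [dfT]
    rw [sum_sub_distrib, ← mul_sum]
    linarith
  · rw [← e1]; exact g1 e
  · rw [← e1, ← e1]; exact g2 i j j' h
  · rw [← e1, ← e1]; exact g3 j i i' h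

omit [Fintype R] [DecidableEq R] [Fintype C] in
theorem rep_eq (T X : R × C → ℤ) (S : Finset C) (e : R × C) :
    repT T X S e = X e - (if e.2 ∈ S then dfT T X e else 0) := by
  unfold repT dfT
  split_ifs <;> ring

theorem near_rep (α : R ⊕ C → ℤ) (T X : R × C → ℤ)
    (hX : bd (gs R C) (gt R C) X = α) (hD : GD (dfT T X)) (S : Finset C)
    (hS : nVec (cSum (dfT T X) S)) (r : R) : Near α (repT T X S) := by
  have hl : ∀ i, bd (gs R C) (gt R C) (repT T X S) (Sum.inl i) = α (Sum.inl i) - cSum (dfT T X) S i := by
    intro i
    have a2 := congrFun hX (Sum.inl i)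
    rw [bd_inl] at a2 ⊢
    simp only [rep_eq]
    rw [sum_sub_distrib, a2]
    congr 1
    unfold cSum
    rw [← sum_filter]
    congr 1
    ext j
    simp
  have hr : ∀ j, bd (gs R C) (gt R C) (repT T X S) (Sum.inr j) = α (Sum.inr j) := by
    intro j
    have a2 := congrFun hX (Sum.inr j)
    rw [bd_inr] at a2 ⊢
    simp only [rep_eq]
    rw [sum_sub_distrib, ← a2]
    have : ∑ i, (if j ∈ S then dfT T X (i, j) else 0) = 0 := by
      split_ifs
      · exact hD.col j
      · simp
    rw [this, sub_zero]
  rcases hS with h0 | ⟨p, q, hpq, hv⟩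
  · refine ⟨r, r, ?_⟩
    funext v
    rcases v with i | j
    · rw [hl i, h0 i]
      simp [dl]
    · rw [hr j]
      simp [dl]
  · refine ⟨q, p, ?_⟩
    funext v
    rcases v with i | j
    · rw [hl i, hv i]
      simp only [dl, Pi.add_apply, Sum.inl.injEq]
      ring
    · rw [hr j]
      simp [dl]

omit [Fintype R] [DecidableEq R] [Fintype C] in
theorem sw_rep (T X : R × C → ℤ) (S : Finset C) (c : C) (hc : c ∉ S) :
    sw T c (repT T X S) = repT T X (insert c S) := by
  funext e
  unfold sw repT
  by_cases h : e.2 = c
  · rw [if_pos h, if_neg (by rw [h]; exact hc), if_pos (by rw [h]; exact mem_insert_self c S)]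
  · rw [if_neg h]
    by_cases h2 : e.2 ∈ S
    · rw [if_pos h2, if_pos (mem_insert_of_mem h2)]
    · rw [if_neg h2, if_neg (by simp [h, h2])]

omit [Fintype C] in
/-- telescoping along an injective numbering -/
theorem teleS (ord : C → ℕ) (hinj : Function.Injective ord) (G : Finset C → ℝ) (S : Finset C) :
    ∑ c ∈ S, (G (S.filter fun x => ord x < ord c) -
      G (insert c (S.filter fun x => ord x < ord c))) = G ∅ - G S := by
  refine Finset.induction_on_max_value ord S ?_ ?_
  · simp
  · intro a s ha hmax ih
    rw [sum_insert ha]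
    have hlt : ∀ x ∈ s, ord x < ord a := fun x hx =>
      lt_of_le_of_ne (hmax x hx) fun h => ha (hinj h ▸ hx)
    have h1 : (insert a s).filter (fun x => ord x < ord a) = s := by
      ext x
      simp only [mem_filter, mem_insert]
      constructor
      · rintro ⟨h | h, h'⟩
        · rw [h] at h'
          exact absurd h' (lt_irrefl _)
        · exact h
      · intro h
        exact ⟨Or.inr h, hlt x h⟩
    have h2 : ∀ c ∈ s, (insert a s).filter (fun x => ord x < ord c) =
        s.filter fun x => ord x < ord c := by
      intro c hc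
      ext x
      simp only [mem_filter, mem_insert]
      constructor
      · rintro ⟨h | h, h'⟩
        · rw [h] at h'
          exact absurd h' (not_lt.2 (hlt c hc).le)
        · exact ⟨h, h'⟩
      · rintro ⟨h, h'⟩
        exact ⟨Or.inr h, h'⟩
    rw [h1, sum_congr rfl fun c hc => by rw [h2 c hc], ih]
    ring

open scoped Classical in
/-- the canonical order of the columns attached to the pattern of absolute values -/
noncomputable def ordOf (H : R × C → ℤ) : C → ℕ :=
  if h : ∃ ord : C → ℕ, Function.Injective ord ∧ ∀ D : R × C → ℤ, GD D → (∀ e, |D e| = H e) →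
      ∀ t, nVec (cSum D (univ.filter fun c => ord c < t)) then h.choose else fun _ => 0

theorem ordOf_spec {D : R × C → ℤ} (hD : GD D) :
    Function.Injective (ordOf fun e => |D e|) ∧
      ∀ t, nVec (cSum D (univ.filter fun c => ordOf (fun e => |D e|) c < t)) := by
  have h : ∃ ord : C → ℕ, Function.Injective ord ∧ ∀ D' : R × C → ℤ, GD D' →
      (∀ e, |D' e| = |D e|) → ∀ t, nVec (cSum D' (univ.filter fun c => ord c < t)) := by
    obtain ⟨ord, h1, h2⟩ := exists_ord hD
    exact ⟨ord, h1, fun D' hD' he t => nVec_transfer hD' hD he _ (h2 t)⟩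
  have e : (ordOf fun e => |D e|) = h.choose := by
    unfold ordOf
    rw [dif_pos h]
  rw [e]
  exact ⟨h.choose_spec.1, h.choose_spec.2 D hD fun _ => rfl⟩

end aux

variable {R C : Type} [Fintype R] [LinearOrder R] [Fintype C] [DecidableEq C]

/-- The combinatorial heart. For a fixed `T` every good `X` (meaning `Good X (T - X)` and equal
margins) gets a finite set of steps `(W, j)` (exchange column `j` of the near-table `W`) which
form a path from `X` to `T - X`; different good `X` get disjoint sets of steps. -/
theorem routing (α : R ⊕ C → ℤ) (T : R × C → ℤ)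
    (hT : ∀ v, bd (gs R C) (gt R C) T v = 2 * α v) :
    ∃ P : (R × C → ℤ) → Finset ((R × C → ℤ) × C),
      ∀ X, bd (gs R C) (gt R C) X = α → Good X (T - X) →
        (∀ s ∈ P X, Near α s.1 ∧ Near α (sw T s.2 s.1) ∧
          (∀ j : C, (∀ i, s.1 (i, j) = X (i, j)) ∨ (∀ i, s.1 (i, j) = T (i, j) - X (i, j))) ∧
          ∃ a b : R, a ≠ b ∧ sw T s.2 s.1 = mv s.2 a b s.1) ∧
        (∀ g : (R × C → ℤ) → ℝ, (g X - g (T - X)) ^ 2 ≤
          (Fintype.card C : ℝ) * ∑ s ∈ P X, (g s.1 - g (sw T s.2 s.1)) ^ 2) ∧
        (∀ X', bd (gs R C) (gt R C) X' = α → Good X' (T - X') → X' ≠ X →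
          Disjoint (P X) (P X')) := by
  classical
  let pre : (R × C → ℤ) → C → Finset C := fun X c =>
    univ.filter fun x => ordOf (fun e => |dfT T X e|) x < ordOf (fun e => |dfT T X e|) c
  let act : (R × C → ℤ) → Finset C := fun X => univ.filter fun c => ∃ i, dfT T X (i, c) ≠ 0
  refine ⟨fun X => (act X).image fun c => (repT T X (pre X c), c), fun X hX hgX => ?_⟩
  have hD := gd_df α T X hT hX hgX
  obtain ⟨hinj, hNV⟩ := ordOf_spec hD
  have hpre : ∀ c, c ∉ pre X c := by
    intro c
    simp [pre]
  have hins : ∀ c, insert c (pre X c) = univ.filter fun x =>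
      ordOf (fun e => |dfT T X e|) x < ordOf (fun e => |dfT T X e|) c + 1 := by
    intro c
    ext x
    simp only [pre, mem_insert, mem_filter, mem_univ, true_and]
    constructor
    · rintro (h | h)
      · rw [h]; omega
      · omega
    · intro h
      by_cases h1 : ordOf (fun e => |dfT T X e|) x = ordOf (fun e => |dfT T X e|) c
      · exact Or.inl (hinj h1)
      · right; omega
  refine ⟨?_, ?_, ?_⟩
  · intro s hs
    obtain ⟨c, hc, rfl⟩ := mem_image.1 hs
    obtain ⟨r, hr⟩ := (mem_filter.1 hc).2
    refine ⟨near_rep α T X hX hD _ (hNV _) r, ?_, ?_, ?_⟩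
    · show Near α (sw T c (repT T X (pre X c)))
      rw [sw_rep T X _ c (hpre c), hins c]
      exact near_rep α T X hX hD _ (hNV _) r
    · intro j
      by_cases hj : j ∈ pre X c
      · right
        intro i
        show repT T X (pre X c) (i, j) = _
        unfold repT
        rw [if_pos hj]
      · left
        intro i
        show repT T X (pre X c) (i, j) = _
        unfold repT
        rw [if_neg hj]
    · rcases hD.colS c with h0 | ⟨a, b, hab, hv⟩
      · exact absurd (h0 r) hr
      · refine ⟨a, b, hab, ?_⟩
        show sw T c (repT T X (pre X c)) = mv c a b (repT T X (pre X c))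
        funext e
        obtain ⟨i, j⟩ := e
        unfold sw mv
        by_cases hj : j = c
        · subst hj
          simp only [if_true, Prod.mk.injEq, and_true]
          have h1 : repT T X (pre X j) (i, j) = X (i, j) := by
            unfold repT
            rw [if_neg (hpre j)]
          rw [h1]
          have h2 := hv i
          unfold dfT at h2
          linarith
        · simp [hj]
  · intro g
    have hsum : ∑ s ∈ (act X).image (fun c => (repT T X (pre X c), c)),
        (g s.1 - g (sw T s.2 s.1)) ^ 2 =
        ∑ c, (g (repT T X (pre X c)) - g (repT T X (insert c (pre X c)))) ^ 2 := by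
      rw [sum_image (fun c _ c' _ h => (Prod.mk.inj h).2)]
      rw [← sum_subset (subset_univ (act X))]
      · refine sum_congr rfl fun c _ => ?_
        simp only
        rw [sw_rep T X _ c (hpre c)]
      · intro c _ hc
        have h0 : ∀ i, dfT T X (i, c) = 0 := by
          intro i
          by_contra hcon
          exact hc (mem_filter.2 ⟨mem_univ c, i, hcon⟩)
        have : repT T X (insert c (pre X c)) = repT T X (pre X c) := by
          funext e
          obtain ⟨i, j⟩ := e
          rw [rep_eq, rep_eq]
          by_cases hj : j = c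
          · subst hj
            simp [h0 i]
          · simp [hj]
        rw [this]
        ring
    rw [hsum]
    have htele := teleS (ordOf fun e => |dfT T X e|) hinj (fun S => g (repT T X S)) univ
    have hx : repT T X ∅ = X := by
      funext e
      unfold repT
      simp
    have hy : repT T X univ = T - X := by
      funext e
      unfold repT
      simp
    rw [hx, hy] at htele
    have := sq_sum_le_card_mul_sum_sq (s := (univ : Finset C))
      (f := fun c => g (repT T X (pre X c)) - g (repT T X (insert c (pre X c))))
    rw [← htele]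
    simpa using this
  · intro X' hX' hgX' hne
    rw [disjoint_left]
    intro s hs hs'
    obtain ⟨c, hc, rfl⟩ := mem_image.1 hs
    obtain ⟨c', hc', he⟩ := mem_image.1 hs'
    have e2 : c' = c := (Prod.mk.inj he).2
    subst e2
    have e1 : repT T X' (pre X' c') = repT T X (pre X c') := (Prod.mk.inj he).1
    apply hne
    have hH : (fun e => |dfT T X' e|) = fun e => |dfT T X e| := by
      have key : ∀ Y S e, |dfT T Y e| = |2 * repT T Y S e - T e| := by
        intro Y S e
        unfold repT dfT
        split_ifs
        · rw [show 2 * (T e - Y e) - T e = -(2 * Y e - T e) by ring, abs_neg]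
        · rfl
      funext e
      rw [key X' (pre X' c') e, key X (pre X c') e, e1]
    have hp : pre X' c' = pre X c' := by
      simp only [pre]
      rw [hH]
    rw [hp] at e1
    funext e
    have := congrFun e1 e
    unfold repT at this
    split_ifs at this <;> linarith

end Vale.Agent.P328R
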