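import Vale.Agent.P328R.PsiFun
import Vale.Agent.P328R.Routing

/-! Module M10a: routing inserted into the functional of one frame. -/

namespace Vale.Agent.P328R

open Finset

open scoped Classical in
/-- The truncated quadratic form: `(g X - g Y)^2` on good pairs, `0` otherwise. -/
noncomputable def goodSq {R C : Type} (g : (R × C → ℤ) → ℝ) (X Y : R × C → ℤ) : ℝ :=
  if Good X Y then (g X - g Y) ^ 2 else 0

section one

variable {R C : Type} [DecidableEq C]

theorem sw_sw (T : R × C → ℤ) (j : C) (W : R × C → ℤ) : sw T j (sw T j W) = W := by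
  funext e
  unfold sw
  by_cases h : e.2 = j <;> simp [h]

end one

variable {R C : Type} [Fintype R] [LinearOrder R] [Fintype C] [DecidableEq C]

theorem mv_mv (j : C) (a b : R) (X : R × C → ℤ) : mv j b a (mv j a b X) = X := by
  funext e
  unfold mv
  ring

open scoped Classical in
/-- One column of the local energy. -/
noncomputable def Gj (α : R ⊕ C → ℤ) (w : R × C → ℤ → ℝ) (g : (R × C → ℤ) → ℝ)
    (X : R × C → ℤ) (j : C) : ℝ :=
  ∑ a : R, ∑ b : R,
    if Near α (mv j a b X) ∧ pw w X ≤ pw w (mv j a b X) then (g X - g (mv j a b X)) ^ 2 else 0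

theorem Gam_eq (α : R ⊕ C → ℤ) (w : R × C → ℤ → ℝ) (g : (R × C → ℤ) → ℝ)
    (X : R × C → ℤ) : Gam α w g X = ∑ j : C, Gj α w g X j := by
  unfold Gam Gj
  rfl

theorem Gj_nonneg (α : R ⊕ C → ℤ) (w : R × C → ℤ → ℝ) (g : (R × C → ℤ) → ℝ)
    (X : R × C → ℤ) (j : C) : 0 ≤ Gj α w g X j := by
  unfold Gj
  refine Finset.sum_nonneg fun a _ => Finset.sum_nonneg fun b _ => ?_
  split_ifs
  · positivity
  · exact le_rfl

theorem Gam_nonneg (α : R ⊕ C → ℤ) (w : R × C → ℤ → ℝ) (g : (R × C → ℤ) → ℝ)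
    (X : R × C → ℤ) : 0 ≤ Gam α w g X := by
  rw [Gam_eq]
  exact Finset.sum_nonneg fun j _ => Gj_nonneg α w g X j

theorem le_Gj (α : R ⊕ C → ℤ) (w : R × C → ℤ → ℝ) (g : (R × C → ℤ) → ℝ)
    (X : R × C → ℤ) (j : C) (a b : R) (h1 : Near α (mv j a b X))
    (h2 : pw w X ≤ pw w (mv j a b X)) : (g X - g (mv j a b X)) ^ 2 ≤ Gj α w g X j := by
  classical
  have hn : ∀ a b : R, 0 ≤ (if Near α (mv j a b X) ∧ pw w X ≤ pw w (mv j a b X) then
      (g X - g (mv j a b X)) ^ 2 else 0) := by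
    intro a b
    split_ifs
    · positivity
    · exact le_rfl
  have h3 : (g X - g (mv j a b X)) ^ 2 = (if Near α (mv j a b X) ∧
      pw w X ≤ pw w (mv j a b X) then (g X - g (mv j a b X)) ^ 2 else 0) := by
    rw [if_pos ⟨h1, h2⟩]
  rw [h3]
  unfold Gj
  calc _ ≤ ∑ b : R, (if Near α (mv j a b X) ∧ pw w X ≤ pw w (mv j a b X) then
      (g X - g (mv j a b X)) ^ 2 else 0) :=
        Finset.single_le_sum (fun b _ => hn a b) (Finset.mem_univ b)
    _ ≤ _ := by
        refine Finset.single_le_sum (f := fun a => ∑ b : R,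
          (if Near α (mv j a b X) ∧ pw w X ≤ pw w (mv j a b X) then
            (g X - g (mv j a b X)) ^ 2 else 0))
          (fun a _ => Finset.sum_nonneg fun b _ => hn a b) (Finset.mem_univ a)

/-- M10a. Routing inserted into the functional of one frame. `w` is the top level weight with
`pw f W ≠ 0 → pw w W ≠ 0` not needed: `Gam` charges every step to the end of smaller `w`-weight. -/
theorem A_good (α : R ⊕ C → ℤ) {M : ℤ} (w : R × C → ℤ → ℝ) (g : (R × C → ℤ) → ℝ)
    {f : R × C → ℤ → ℝ} {T : R × C → ℤ} (hF : Frame (gs R C) (gt R C) M α f T) :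
    A (gs R C) (gt R C) M α α 0 f T (goodSq g) ≤
      2 * (Fintype.card C : ℝ) *
        ∑ pq : R × R, A (gs R C) (gt R C) M α (α + dl (Sum.inl pq.1) (Sum.inl pq.2)) 0 f T
          (fun X _ => Gam α w g X) := by
  classical
  obtain ⟨P, hP⟩ := routing α T hF.2.2.2
  have hnn : ∀ e x, 0 ≤ f e x := fun e => (hF.1 e).1
  set D := (conf (gs R C) (gt R C) M α).filter
    (fun X => Good X (T - X) ∧ pw f X ≠ 0) with hD
  have hDm : ∀ X ∈ D, bd (gs R C) (gt R C) X = α ∧ Good X (T - X) ∧ pw f X ≠ 0 ∧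
      X ∈ conf (gs R C) (gt R C) M α := by
    intro X hX
    rw [hD, Finset.mem_filter] at hX
    exact ⟨(Finset.mem_filter.1 hX.1).2, hX.2.1, hX.2.2, hX.1⟩
  -- all near tables in the box
  set N : Finset (R × C → ℤ) := (box (R × C) M).filter (fun W => Near α W) with hN
  -- weights along a step
  have hcol : ∀ X ∈ D, ∀ s ∈ P X, pw f s.1 = pw f X ∧ s.1 ∈ N ∧
      pw f (sw T s.2 s.1) = pw f X ∧ sw T s.2 s.1 ∈ N := by
    intro X hX s hs
    obtain ⟨hXb, hXg, hX0, hXc⟩ := hDm X hX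
    obtain ⟨h1, h2, h3, -⟩ := (hP X hXb hXg).1 s hs
    have hval : ∀ e, s.1 e = X e ∨ s.1 e = T e - X e := by
      intro e
      rcases h3 e.2 with h | h
      · left
        exact h e.1
      · right
        exact h e.1
    have hval2 : ∀ e, sw T s.2 s.1 e = X e ∨ sw T s.2 s.1 e = T e - X e := by
      intro e
      unfold sw
      by_cases he : e.2 = s.2
      · rw [if_pos he]
        rcases hval e with h | h
        · right; rw [h]
        · left; rw [h]; ring
      · rw [if_neg he]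
        exact hval e
    have hf : ∀ e, f e (X e) ≠ 0 := fun e he => hX0 (Finset.prod_eq_zero (Finset.mem_univ e) he)
    have hb : ∀ e, |X e| ≤ M := by
      intro e
      by_contra hc
      push Not at hc
      exact hf e (hF.2.2.1 e _ hc)
    have hb' : ∀ e, |T e - X e| ≤ M := by
      intro e
      by_contra hc
      push Not at hc
      have h := hF.2.2.1 e _ hc
      rw [hF.2.1] at h
      exact hf e h
    have key : ∀ W : R × C → ℤ, (∀ e, W e = X e ∨ W e = T e - X e) → Near α W →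
        pw f W = pw f X ∧ W ∈ N := by
      intro W hW hWn
      constructor
      · unfold pw
        refine Finset.prod_congr rfl fun e _ => ?_
        rcases hW e with h | h
        · rw [h]
        · rw [h, hF.2.1]
      · rw [hN, Finset.mem_filter]
        refine ⟨?_, hWn⟩
        unfold box
        rw [Fintype.mem_piFinset]
        intro e
        rw [Finset.mem_Icc, ← abs_le]
        rcases hW e with h | h
        · rw [h]; exact hb e
        · rw [h]; exact hb' e
    exact ⟨(key s.1 hval h1).1, (key s.1 hval h1).2, (key _ hval2 h2).1, (key _ hval2 h2).2⟩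
  -- step 1
  have h1 : A (gs R C) (gt R C) M α α 0 f T (goodSq g) =
      ∑ X ∈ D, pw f X * (g X - g (T - X)) ^ 2 := by
    show ∑ X ∈ conf (gs R C) (gt R C) M α, pw f X * goodSq g X (T - X) = _
    rw [hD, Finset.sum_filter]
    refine Finset.sum_congr rfl fun X _ => ?_
    unfold goodSq
    by_cases hg : Good X (T - X)
    · by_cases h0 : pw f X = 0
      · simp [h0]
      · rw [if_pos hg, if_pos ⟨hg, h0⟩]
    · rw [if_neg hg, if_neg (fun h => hg h.1), mul_zero]
  have h2 : ∑ X ∈ D, pw f X * (g X - g (T - X)) ^ 2 ≤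
      (Fintype.card C : ℝ) * ∑ X ∈ D, ∑ s ∈ P X, pw f s.1 * (g s.1 - g (sw T s.2 s.1)) ^ 2 := by
    rw [Finset.mul_sum]
    refine Finset.sum_le_sum fun X hX => ?_
    obtain ⟨hXb, hXg, hX0, hXc⟩ := hDm X hX
    have h := (hP X hXb hXg).2.1 g
    calc pw f X * (g X - g (T - X)) ^ 2
        ≤ pw f X * ((Fintype.card C : ℝ) * ∑ s ∈ P X, (g s.1 - g (sw T s.2 s.1)) ^ 2) :=
          mul_le_mul_of_nonneg_left h (pw_nonneg hnn X)
      _ = (Fintype.card C : ℝ) * ∑ s ∈ P X, pw f X * (g s.1 - g (sw T s.2 s.1)) ^ 2 := by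
          rw [← Finset.mul_sum]; ring
      _ = _ := by
          congr 1
          refine Finset.sum_congr rfl fun s hs => ?_
          rw [(hcol X hX s hs).1]
  set S := D.biUnion P with hS
  have h3 : ∑ X ∈ D, ∑ s ∈ P X, pw f s.1 * (g s.1 - g (sw T s.2 s.1)) ^ 2 =
      ∑ s ∈ S, pw f s.1 * (g s.1 - g (sw T s.2 s.1)) ^ 2 := by
    rw [hS, Finset.sum_biUnion]
    intro X hX X' hX' hne
    obtain ⟨hXb, hXg, -⟩ := hDm X hX
    obtain ⟨hXb', hXg', -⟩ := hDm X' hX'
    exact (hP X hXb hXg).2.2 X' hXb' hXg' hne.symm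
  set H : (R × C → ℤ) × C → ℝ := fun s => pw f s.1 * Gj α w g s.1 s.2 with hH
  have hH0 : ∀ s, 0 ≤ H s := fun s => mul_nonneg (pw_nonneg hnn _) (Gj_nonneg α w g _ _)
  have h4 : ∀ s ∈ S, pw f s.1 * (g s.1 - g (sw T s.2 s.1)) ^ 2 ≤
      H s + H (sw T s.2 s.1, s.2) := by
    intro s hs
    rw [hS, Finset.mem_biUnion] at hs
    obtain ⟨X, hX, hsX⟩ := hs
    obtain ⟨hXb, hXg, hX0, hXc⟩ := hDm X hX
    obtain ⟨n1, n2, -, a, b, hab, hmv⟩ := (hP X hXb hXg).1 s hsX
    have hw := hcol X hX s hsX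
    rcases le_total (pw w s.1) (pw w (sw T s.2 s.1)) with hle | hle
    · have h := le_Gj α w g s.1 s.2 a b (hmv ▸ n2) (hmv ▸ hle)
      rw [← hmv] at h
      have h' := mul_le_mul_of_nonneg_left h (pw_nonneg hnn s.1)
      have := hH0 (sw T s.2 s.1, s.2)
      simp only [hH] at this ⊢
      linarith
    · have hback : mv s.2 b a (sw T s.2 s.1) = s.1 := by
        rw [hmv, mv_mv]
      have h := le_Gj α w g (sw T s.2 s.1) s.2 b a (by rw [hback]; exact n1)
        (by rw [hback]; exact hle)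
      rw [hback] at h
      have h' := mul_le_mul_of_nonneg_left h (pw_nonneg hnn (sw T s.2 s.1))
      have h0 := hH0 s
      have hww : pw f s.1 = pw f (sw T s.2 s.1) := hw.1.trans hw.2.2.1.symm
      have hsq : (g s.1 - g (sw T s.2 s.1)) ^ 2 = (g (sw T s.2 s.1) - g s.1) ^ 2 := by ring
      simp only [hH] at h0 ⊢
      rw [hsq]
      have h5 : pw f s.1 * (g (sw T s.2 s.1) - g s.1) ^ 2 =
          pw f (sw T s.2 s.1) * (g (sw T s.2 s.1) - g s.1) ^ 2 := by rw [hww]
      linarith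
  have hSN : ∀ s ∈ S, s.1 ∈ N ∧ sw T s.2 s.1 ∈ N := by
    intro s hs
    rw [hS, Finset.mem_biUnion] at hs
    obtain ⟨X, hX, hsX⟩ := hs
    have := hcol X hX s hsX
    exact ⟨this.2.1, this.2.2.2⟩
  have h5 : ∑ s ∈ S, H s ≤ ∑ s ∈ N ×ˢ (Finset.univ : Finset C), H s := by
    refine Finset.sum_le_sum_of_subset_of_nonneg (fun s hs => ?_) fun s _ _ => hH0 s
    rw [Finset.mem_product]
    exact ⟨(hSN s hs).1, Finset.mem_univ _⟩
  have h6 : ∑ s ∈ S, H (sw T s.2 s.1, s.2) ≤ ∑ s ∈ N ×ˢ (Finset.univ : Finset C), H s := by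
    have hinj : ∀ s ∈ S, ∀ s' ∈ S, (sw T s.2 s.1, s.2) = (sw T s'.2 s'.1, s'.2) → s = s' := by
      intro s _ s' _ h
      have h2 : s.2 = s'.2 := (Prod.mk.inj h).2
      have h1 : sw T s.2 s.1 = sw T s'.2 s'.1 := (Prod.mk.inj h).1
      have h3 : s.1 = s'.1 := by
        rw [← sw_sw T s.2 s.1, h1, h2, sw_sw]
      exact Prod.ext h3 h2
    rw [← Finset.sum_image (g := fun s : (R × C → ℤ) × C => (sw T s.2 s.1, s.2))
      (f := H) hinj]
    refine Finset.sum_le_sum_of_subset_of_nonneg (fun s hs => ?_) fun s _ _ => hH0 s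
    rw [Finset.mem_image] at hs
    obtain ⟨s', hs', rfl⟩ := hs
    rw [Finset.mem_product]
    exact ⟨(hSN s' hs').2, Finset.mem_univ _⟩
  have h7 : ∑ s ∈ N ×ˢ (Finset.univ : Finset C), H s = ∑ W ∈ N, pw f W * Gam α w g W := by
    rw [Finset.sum_product]
    refine Finset.sum_congr rfl fun W _ => ?_
    rw [Gam_eq, Finset.mul_sum]
  have h8 : ∑ W ∈ N, pw f W * Gam α w g W ≤
      ∑ pq : R × R, A (gs R C) (gt R C) M α (α + dl (Sum.inl pq.1) (Sum.inl pq.2)) 0 f T
          (fun X _ => Gam α w g X) := by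
    have hF0 : ∀ W, 0 ≤ pw f W * Gam α w g W :=
      fun W => mul_nonneg (pw_nonneg hnn W) (Gam_nonneg α w g W)
    have e1 : ∀ pq : R × R, A (gs R C) (gt R C) M α (α + dl (Sum.inl pq.1) (Sum.inl pq.2)) 0 f T
          (fun X _ => Gam α w g X) = ∑ W ∈ N, if bd (gs R C) (gt R C) W =
            α + dl (Sum.inl pq.1) (Sum.inl pq.2) then pw f W * Gam α w g W else 0 := by
      intro pq
      show ∑ W ∈ conf (gs R C) (gt R C) M (α + dl (Sum.inl pq.1) (Sum.inl pq.2)),
        pw f W * Gam α w g W = _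
      rw [← Finset.sum_filter]
      refine Finset.sum_congr ?_ fun _ _ => rfl
      ext W
      unfold conf
      rw [hN, Finset.mem_filter, Finset.mem_filter, Finset.mem_filter]
      constructor
      · rintro ⟨h1, h2⟩
        exact ⟨⟨h1, ⟨pq.1, pq.2, h2⟩⟩, h2⟩
      · rintro ⟨⟨h1, -⟩, h2⟩
        exact ⟨h1, h2⟩
    simp only [e1]
    rw [Finset.sum_comm]
    refine Finset.sum_le_sum fun W hW => ?_
    rw [hN, Finset.mem_filter] at hW
    obtain ⟨-, p, q, hpq⟩ := hW
    calc pw f W * Gam α w g W = (if bd (gs R C) (gt R C) W =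
            α + dl (Sum.inl (p, q).1) (Sum.inl (p, q).2) then pw f W * Gam α w g W else 0) := by
          rw [if_pos hpq]
      _ ≤ _ := by
          refine Finset.single_le_sum (f := fun pq : R × R => if bd (gs R C) (gt R C) W =
            α + dl (Sum.inl pq.1) (Sum.inl pq.2) then pw f W * Gam α w g W else 0)
            (fun pq _ => ?_) (Finset.mem_univ (p, q))
          split_ifs
          · exact hF0 W
          · exact le_rfl
  have h9 : ∑ s ∈ S, pw f s.1 * (g s.1 - g (sw T s.2 s.1)) ^ 2 ≤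
      2 * ∑ pq : R × R, A (gs R C) (gt R C) M α (α + dl (Sum.inl pq.1) (Sum.inl pq.2)) 0 f T
          (fun X _ => Gam α w g X) := by
    have := Finset.sum_le_sum h4
    rw [Finset.sum_add_distrib] at this
    linarith
  rw [h1]
  refine h2.trans ?_
  rw [h3]
  calc _ ≤ (Fintype.card C : ℝ) * (2 * ∑ pq : R × R, A (gs R C) (gt R C) M α
        (α + dl (Sum.inl pq.1) (Sum.inl pq.2)) 0 f T (fun X _ => Gam α w g X)) :=
        mul_le_mul_of_nonneg_left h9 (Nat.cast_nonneg _)
    _ = _ := by ring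

end Vale.Agent.P328R
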