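import Mathlib

/-!
# P328R, fact F8: the abstract block step

`Ω` is the state space (an additive group, in the application `Tab m n`), `val X e` the value of
the block cell `e : ι`, `blk e` the block move. Blocks have length `K * u e`; `K` common offsets
`t * u e`, `t < K`, are used. If a nonnegative pair weight `θ` has marginals at most `c * w`, then
the quadratic form of `g` on pairs with `|val X e - val Y e| ≤ u e` is bounded by the energy of
block moves plus the conditional variance given the block cells.
-/

namespace Vale.Agent.P328R.Block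

open Finset

section arith

/-- The block of `x` for the offset `t * u` inside `[0, M * (K * u))`. -/
noncomputable def Ib (u : ℤ) (K M t : ℕ) (x : ℤ) : Finset ℤ :=
  (Finset.Ico 0 ((M : ℤ) * (K * u))).filter fun y =>
    (y + t * u) / (K * u) = (x + t * u) / (K * u)

theorem mem_Ib {u : ℤ} {K M t : ℕ} {x y : ℤ} :
    y ∈ Ib u K M t x ↔ (0 ≤ y ∧ y < (M : ℤ) * (K * u)) ∧
      (y + t * u) / (K * u) = (x + t * u) / (K * u) := by
  unfold Ib
  rw [Finset.mem_filter, Finset.mem_Ico]

theorem Ib_congr {u : ℤ} {K M t : ℕ} {x y : ℤ}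
    (h : (y + t * u) / (K * u) = (x + t * u) / (K * u)) : Ib u K M t y = Ib u K M t x := by
  unfold Ib
  rw [h]

/-- two points of the same block are at distance less than the block length -/
theorem Ib_dist {u : ℤ} {K t : ℕ} {x y : ℤ} (hl : 0 < (K : ℤ) * u)
    (h : (y + t * u) / (K * u) = (x + t * u) / (K * u)) : |y - x| < K * u := by
  have h1 := Int.emod_add_mul_ediv (y + t * u) (K * u)
  have h2 := Int.emod_add_mul_ediv (x + t * u) (K * u)
  rw [h] at h1
  have h3 := Int.emod_nonneg (y + t * u) hl.ne'
  have h4 := Int.emod_nonneg (x + t * u) hl.ne'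
  have h5 := Int.emod_lt_of_pos (y + t * u) hl
  have h6 := Int.emod_lt_of_pos (x + t * u) hl
  rw [abs_lt]
  constructor <;> linarith

/-- blocks are never short -/
theorem card_Ib {u : ℤ} {K M t : ℕ} {x : ℤ} (hu : 0 < u) (ht : t < K)
    (hx0 : 0 ≤ x) (hx1 : x < (M : ℤ) * (K * u)) : (u : ℝ) ≤ ((Ib u K M t x).card : ℝ) := by
  have hK : (0 : ℤ) < K := by
    have : 0 < K := by omega
    exact_mod_cast this
  set l : ℤ := K * u with hl
  have hlpos : 0 < l := mul_pos hK hu
  set q : ℤ := (x + t * u) / l with hq
  -- the block is `[q l - t u, (q+1) l - t u) ∩ [0, M l)`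
  have hq1 : q * l ≤ x + t * u := by
    have := Int.ediv_mul_le (x + t * u) hlpos.ne'
    exact this
  have hq2 : x + t * u < (q + 1) * l := by
    have := Int.lt_ediv_add_one_mul_self (x + t * u) hlpos
    exact this
  have htK : ((t : ℤ) + 1) ≤ K := by exact_mod_cast ht
  have htu0 : 0 ≤ (t : ℤ) * u := by positivity
  have htl : (t : ℤ) * u + u ≤ l := by
    rw [hl]
    nlinarith
  -- a subinterval of length `u`
  obtain ⟨a, ha0, ha1, ha2, ha3⟩ : ∃ a : ℤ, 0 ≤ a ∧ a + u ≤ M * l ∧ q * l ≤ a + t * u ∧
      a + u + t * u ≤ (q + 1) * l := by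
    have hq0 : 0 ≤ q := Int.ediv_nonneg (by linarith) hlpos.le
    rcases hq0.lt_or_eq with h | h
    · -- q ≥ 1 : take a = q l - t u
      refine ⟨q * l - t * u, ?_, ?_, by linarith, ?_⟩
      · nlinarith
      · -- q l - t u + u ≤ M l
        have hqM : q ≤ M := by
          by_contra hcon
          push Not at hcon
          have h1 : ((M : ℤ) + 1) * l ≤ q * l := mul_le_mul_of_nonneg_right (by omega) hlpos.le
          have h2 : (t : ℤ) * u < l := by linarith
          nlinarith
        rcases eq_or_lt_of_le hqM with h1 | h1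
        · rcases Nat.eq_zero_or_pos t with h2 | h2
          · exfalso
            rw [h2] at hq1
            simp only [Nat.cast_zero, zero_mul, add_zero] at hq1
            rw [h1] at hq1
            linarith
          · have h3 : u ≤ (t : ℤ) * u := by
              have : (1 : ℤ) ≤ t := by exact_mod_cast h2
              nlinarith
            rw [h1]
            linarith
        · have h3 : (q + 1) * l ≤ M * l := mul_le_mul_of_nonneg_right (by omega) hlpos.le
          have h4 : u ≤ l := by linarith
          nlinarith
      · have h4 : u ≤ l := by linarith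
        nlinarith
    · -- q = 0 : take a = 0
      refine ⟨0, le_rfl, ?_, ?_, ?_⟩
      · have hM : (1 : ℤ) ≤ M := by
          by_contra hcon
          have : (M : ℤ) ≤ 0 := by omega
          have h1 : (M : ℤ) * l ≤ 0 := mul_nonpos_of_nonpos_of_nonneg this hlpos.le
          linarith
        have h4 : u ≤ l := by linarith
        nlinarith
      · rw [← h]
        linarith
      · rw [← h]
        linarith
  have hsub : Finset.Ico a (a + u) ⊆ Ib u K M t x := by
    intro y hy
    rw [Finset.mem_Ico] at hy
    rw [mem_Ib]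
    refine ⟨⟨by linarith, by linarith⟩, ?_⟩
    rw [← hl, ← hq]
    rw [Int.ediv_eq_iff_of_pos hlpos]
    constructor
    · linarith
    · linarith
  have h1 := Finset.card_le_card hsub
  rw [Int.card_Ico, add_sub_cancel_left] at h1
  have h2 : u ≤ ((Ib u K M t x).card : ℤ) := by
    have := Int.self_le_toNat u
    calc u ≤ (u.toNat : ℤ) := this
      _ ≤ _ := by exact_mod_cast h1
  exact_mod_cast h2

/-- at most one offset separates two close points -/
theorem sep_unique {u : ℤ} {K : ℕ} {x y : ℤ} (hu : 0 < u) (hxy : |x - y| ≤ u) {s t : ℕ}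
    (hs : s < K) (ht : t < K) (h1 : (x + s * u) / (K * u) ≠ (y + s * u) / (K * u))
    (h2 : (x + t * u) / (K * u) ≠ (y + t * u) / (K * u)) : s = t := by
  wlog hlt : x ≤ y generalizing x y
  · exact this (by rwa [abs_sub_comm]) h1.symm h2.symm (by omega)
  have hK : (0 : ℤ) < K := by
    have : 0 < K := by omega
    exact_mod_cast this
  have hlpos : 0 < (K : ℤ) * u := mul_pos hK hu
  -- a multiple `k` of `u` with `x < k u ≤ y`, `k ≡ -s (mod K)`
  have key : ∀ r : ℕ, r < K → (x + r * u) / (K * u) ≠ (y + r * u) / (K * u) →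
      ∃ q : ℤ, x < (q * K - r) * u ∧ (q * K - r) * u ≤ y := by
    intro r _ hne
    have hle : (x + r * u) / (K * u) ≤ (y + r * u) / (K * u) :=
      Int.ediv_le_ediv hlpos (by linarith)
    have hlt' : (x + r * u) / (K * u) < (y + r * u) / (K * u) := lt_of_le_of_ne hle hne
    refine ⟨(y + r * u) / (K * u), ?_, ?_⟩
    · have h3 := Int.lt_ediv_add_one_mul_self (x + r * u) hlpos
      have h4 : ((x + r * u) / (K * u) + 1) * (K * u) ≤ (y + r * u) / (K * u) * (K * u) :=
        mul_le_mul_of_nonneg_right (by omega) hlpos.le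
      nlinarith
    · have h3 := Int.ediv_mul_le (y + r * u) hlpos.ne'
      nlinarith
  obtain ⟨q, hq1, hq2⟩ := key s hs h1
  obtain ⟨q', hq1', hq2'⟩ := key t ht h2
  rw [abs_le] at hxy
  -- both multiples of `u` lie in `(x, x + u]`
  have h3 : (q * K - s : ℤ) = q' * K - t := by
    have h4 : (q * K - s : ℤ) * u < (q' * K - t) * u + u := by linarith
    have h5 : (q' * K - t : ℤ) * u < (q * K - s) * u + u := by linarith
    have h6 : (q * K - s : ℤ) < (q' * K - t) + 1 := by
      by_contra hcon
      push Not at hcon
      have := mul_le_mul_of_nonneg_right hcon hu.le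
      linarith
    have h7 : (q' * K - t : ℤ) < (q * K - s) + 1 := by
      by_contra hcon
      push Not at hcon
      have := mul_le_mul_of_nonneg_right hcon hu.le
      linarith
    omega
  have h4 : ((s : ℤ) - t) = (q - q') * K := by linarith
  have hs' : (s : ℤ) < K := by exact_mod_cast hs
  have ht' : (t : ℤ) < K := by exact_mod_cast ht
  have hs0 : (0 : ℤ) ≤ s := by positivity
  have ht0 : (0 : ℤ) ≤ t := by positivity
  have h5 : q - q' = 0 := by
    by_contra hcon
    rcases lt_or_gt_of_ne hcon with h | h
    · have : (q - q') * K ≤ (-1) * K := mul_le_mul_of_nonneg_right (by omega) hK.le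
      linarith
    · have : 1 * (K : ℤ) ≤ (q - q') * K := mul_le_mul_of_nonneg_right (by omega) hK.le
      linarith
  rw [h5, zero_mul] at h4
  omega

end arith

end Vale.Agent.P328R.Block
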