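import Vale.Agent.P328R.Block

/-!
# P328R, fact F8: the abstract block step, second part
-/

namespace Vale.Agent.P328R.Block

open Finset

variable {Ω ι : Type} [AddCommGroup Ω] [Fintype ι] [DecidableEq ι]

/-- Give the coordinates in `J` the values `W`. -/
def res (val : Ω → ι → ℤ) (blk : ι → Ω) (J : Finset ι) (W : ι → ℤ) (X : Ω) : Ω :=
  X + ∑ e ∈ J, (W e - val X e) • blk e

/-- The values of `X` in `J`, those of `W` outside. -/
def sw (val : Ω → ι → ℤ) (J : Finset ι) (W : ι → ℤ) (X : Ω) : ι → ℤ :=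
  fun e => if e ∈ J then val X e else W e

/-- The hypotheses of the block step. -/
structure Setup (S : Finset Ω) (w : Ω → ℝ) (val : Ω → ι → ℤ) (blk : ι → Ω) (u : ι → ℤ) (K : ℕ)
    (M : ι → ℕ) (Cw : ℝ) : Prop where
  val_add : ∀ (X : Ω) (e : ι) (d : ℤ) (e' : ι),
    val (X + d • blk e) e' = val X e' + if e' = e then d else 0
  u_pos : ∀ e, 0 < u e
  nonneg : ∀ X, 0 ≤ w X
  one_le : 1 ≤ Cw
  box : ∀ X ∈ S, ∀ e, 0 ≤ val X e ∧ val X e < (M e : ℤ) * (K * u e)
  step : ∀ X ∈ S, ∀ W : ι → ℤ,
    (∀ e, (0 ≤ W e ∧ W e < (M e : ℤ) * (K * u e)) ∧ |W e - val X e| < K * u e) →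
    res val blk univ W X ∈ S ∧ w X ≤ Cw * w (res val blk univ W X)

variable {S : Finset Ω} {w : Ω → ℝ} {val : Ω → ι → ℤ} {blk : ι → Ω} {u : ι → ℤ} {K : ℕ}
  {M : ι → ℕ} {Cw : ℝ}

/-- The product block of `X` for the offset `t`. -/
noncomputable def Blo (val : Ω → ι → ℤ) (u : ι → ℤ) (K : ℕ) (M : ι → ℕ) (t : ℕ) (X : Ω) :
    Finset (ι → ℤ) :=
  Fintype.piFinset fun e => Ib (u e) K (M e) t (val X e)

omit [AddCommGroup Ω] in
theorem mem_Blo {t : ℕ} {X : Ω} {W : ι → ℤ} :
    W ∈ Blo val u K M t X ↔ ∀ e, W e ∈ Ib (u e) K (M e) t (val X e) := Fintype.mem_piFinset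

namespace Setup

theorem val_sum (h : Setup S w val blk u K M Cw) (J : Finset ι) (c : ι → ℤ) (X : Ω) (e' : ι) :
    val (X + ∑ e ∈ J, c e • blk e) e' = val X e' + if e' ∈ J then c e' else 0 := by
  induction J using Finset.induction_on with
  | empty => simp
  | insert a J ha ih =>
    rw [Finset.sum_insert ha]
    have e1 : X + (c a • blk a + ∑ e ∈ J, c e • blk e)
        = (X + ∑ e ∈ J, c e • blk e) + c a • blk a := by abel
    rw [e1, h.val_add, ih]
    by_cases h1 : e' = a
    · subst h1
      simp [ha]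
    · simp [h1]

theorem val_res (h : Setup S w val blk u K M Cw) (J : Finset ι) (W : ι → ℤ) (X : Ω) (e : ι) :
    val (res val blk J W X) e = if e ∈ J then W e else val X e := by
  unfold res
  rw [h.val_sum J (fun e => W e - val X e) X e]
  split_ifs <;> ring

omit [Fintype ι] in
theorem res_univ' [Fintype ι] (J : Finset ι) (W : ι → ℤ) (X : Ω) :
    res val blk J W X = res val blk univ (fun e => if e ∈ J then W e else val X e) X := by
  unfold res
  congr 1
  have : ∀ e : ι, ((if e ∈ J then W e else val X e) - val X e) • blk e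
      = if e ∈ J then (W e - val X e) • blk e else 0 := by
    intro e
    split_ifs
    · rfl
    · rw [sub_self, zero_smul]
  rw [Finset.sum_congr rfl fun e _ => this e, Finset.sum_ite_mem, Finset.univ_inter]

theorem res_res (h : Setup S w val blk u K M Cw) (J : Finset ι) (W : ι → ℤ) (X : Ω) :
    res val blk J (sw val J W X) (res val blk J W X) = X := by
  have h1 : ∀ e ∈ J, (sw val J W X e - val (res val blk J W X) e) • blk e
      = -((W e - val X e) • blk e) := by
    intro e he
    rw [h.val_res, if_pos he]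
    unfold sw
    rw [if_pos he, ← neg_smul]
    congr 1
    ring
  have h2 : res val blk J (sw val J W X) (res val blk J W X)
      = res val blk J W X + ∑ e ∈ J, (sw val J W X e - val (res val blk J W X) e) • blk e := rfl
  rw [h2, Finset.sum_congr rfl h1, Finset.sum_neg_distrib]
  unfold res
  abel

theorem sw_sw (h : Setup S w val blk u K M Cw) (J : Finset ι) (W : ι → ℤ) (X : Ω) :
    sw val J (sw val J W X) (res val blk J W X) = W := by
  funext e
  unfold sw
  rw [h.val_res]
  split_ifs <;> rfl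

theorem K_pos_of (h : Setup S w val blk u K M Cw) {t : ℕ} (ht : t < K) (e : ι) :
    0 < (K : ℤ) * u e := by
  have : 0 < K := by omega
  have h1 : (0 : ℤ) < K := by exact_mod_cast this
  exact mul_pos h1 (h.u_pos e)

/-- resampling inside the block: stays in `S`, the weight is comparable, same blocks -/
theorem res_mem (h : Setup S w val blk u K M Cw) {t : ℕ} (ht : t < K) (J : Finset ι) {X : Ω}
    (hX : X ∈ S) {W : ι → ℤ} (hW : W ∈ Blo val u K M t X) :
    res val blk J W X ∈ S ∧ w X ≤ Cw * w (res val blk J W X) ∧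
      Blo val u K M t (res val blk J W X) = Blo val u K M t X ∧
      sw val J W X ∈ Blo val u K M t X := by
  rw [mem_Blo] at hW
  have h1 : ∀ e, (0 ≤ (if e ∈ J then W e else val X e) ∧
      (if e ∈ J then W e else val X e) < (M e : ℤ) * (K * u e)) ∧
      |(if e ∈ J then W e else val X e) - val X e| < K * u e := by
    intro e
    split_ifs with he
    · have := mem_Ib.1 (hW e)
      exact ⟨this.1, Ib_dist (h.K_pos_of ht e) this.2⟩
    · refine ⟨h.box X hX e, ?_⟩
      rw [sub_self, abs_zero]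
      exact h.K_pos_of ht e
  have h2 := h.step X hX _ h1
  rw [← res_univ'] at h2
  refine ⟨h2.1, h2.2, ?_, ?_⟩
  · unfold Blo
    congr 1
    funext e
    refine Ib_congr ?_
    rw [h.val_res]
    split_ifs
    · exact (mem_Ib.1 (hW e)).2
    · rfl
  · rw [mem_Blo]
    intro e
    unfold sw
    split_ifs
    · rw [mem_Ib]
      exact ⟨h.box X hX e, rfl⟩
    · exact hW e

theorem card_pos (h : Setup S w val blk u K M Cw) {t : ℕ} (ht : t < K) {X : Ω} (hX : X ∈ S)
    (e : ι) : (u e : ℝ) ≤ ((Ib (u e) K (M e) t (val X e)).card : ℝ) :=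
  card_Ib (h.u_pos e) ht (h.box X hX e).1 (h.box X hX e).2

theorem Ib_nonempty (h : Setup S w val blk u K M Cw) (t : ℕ) {X : Ω} (hX : X ∈ S)
    (e : ι) : (Ib (u e) K (M e) t (val X e)).Nonempty :=
  ⟨val X e, mem_Ib.2 ⟨h.box X hX e, rfl⟩⟩

theorem val_mem_Blo (h : Setup S w val blk u K M Cw) (t : ℕ) {X : Ω} (hX : X ∈ S) :
    val X ∈ Blo val u K M t X := mem_Blo.2 fun e => mem_Ib.2 ⟨h.box X hX e, rfl⟩

/-- **Transport.** -/
theorem transport (h : Setup S w val blk u K M Cw) {t : ℕ} (ht : t < K) (J : Finset ι)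
    (Φ : Ω → (ι → ℤ) → ℝ) (hΦ : ∀ Z V, 0 ≤ Φ Z V) :
    ∑ X ∈ S, w X * ((((Blo val u K M t X).card : ℝ))⁻¹ *
        ∑ W ∈ Blo val u K M t X, Φ (res val blk J W X) (sw val J W X)) ≤
      Cw * ∑ Z ∈ S, w Z * ((((Blo val u K M t Z).card : ℝ))⁻¹ *
        ∑ V ∈ Blo val u K M t Z, Φ Z V) := by
  have e1 : ∀ F : Ω → (ι → ℤ) → ℝ,
      ∑ X ∈ S, w X * ((((Blo val u K M t X).card : ℝ))⁻¹ * ∑ W ∈ Blo val u K M t X, F X W)
      = ∑ p ∈ S.sigma fun X => Blo val u K M t X,
        w p.1 * (((Blo val u K M t p.1).card : ℝ))⁻¹ * F p.1 p.2 := by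
    intro F
    rw [Finset.sum_sigma]
    refine Finset.sum_congr rfl fun X _ => ?_
    rw [← mul_assoc, Finset.mul_sum]
  rw [e1 (fun X W => Φ (res val blk J W X) (sw val J W X)), e1 Φ, Finset.mul_sum]
  have e2 : ∑ p ∈ S.sigma fun X => Blo val u K M t X,
        w p.1 * (((Blo val u K M t p.1).card : ℝ))⁻¹ *
          Φ (res val blk J p.2 p.1) (sw val J p.2 p.1)
      = ∑ q ∈ S.sigma fun X => Blo val u K M t X,
        w (res val blk J q.2 q.1) * (((Blo val u K M t (res val blk J q.2 q.1)).card : ℝ))⁻¹ *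
          Φ q.1 q.2 := by
    refine Finset.sum_nbij' (fun p => ⟨res val blk J p.2 p.1, sw val J p.2 p.1⟩)
      (fun p => ⟨res val blk J p.2 p.1, sw val J p.2 p.1⟩) ?_ ?_ ?_ ?_ ?_
    · intro p hp
      rw [Finset.mem_sigma] at hp ⊢
      have h1 := h.res_mem ht J hp.1 hp.2
      exact ⟨h1.1, by rw [h1.2.2.1]; exact h1.2.2.2⟩
    · intro p hp
      rw [Finset.mem_sigma] at hp ⊢
      have h1 := h.res_mem ht J hp.1 hp.2
      exact ⟨h1.1, by rw [h1.2.2.1]; exact h1.2.2.2⟩
    · intro p _
      simp only [h.res_res, h.sw_sw]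
    · intro p _
      simp only [h.res_res, h.sw_sw]
    · intro p _
      simp only [h.res_res]
  rw [e2]
  refine Finset.sum_le_sum fun q hq => ?_
  rw [Finset.mem_sigma] at hq
  obtain ⟨h1, h2, h3, h4⟩ := h.res_mem ht J hq.1 hq.2
  have h5 := (h.res_mem ht J h1 (W := sw val J q.2 q.1) (by rw [h3]; exact h4)).2.1
  rw [h.res_res] at h5
  rw [h3, ← mul_assoc, ← mul_assoc]
  refine mul_le_mul_of_nonneg_right (mul_le_mul_of_nonneg_right h5 (by positivity)) (hΦ _ _)

/-- average of a function of one coordinate over a product -/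
theorem avg_coord (s : ι → Finset ℤ) (hs : ∀ e, (s e).Nonempty) (e : ι) (φ : ℤ → ℝ) :
    ((Fintype.piFinset s).card : ℝ)⁻¹ * ∑ W ∈ Fintype.piFinset s, φ (W e)
      = ((s e).card : ℝ)⁻¹ * ∑ x ∈ s e, φ x := by
  have h1 : ∑ W ∈ Fintype.piFinset s, φ (W e)
      = ∏ e', ∑ x ∈ s e', if e' = e then φ x else 1 := by
    rw [Finset.prod_univ_sum]
    refine Finset.sum_congr rfl fun W _ => ?_
    rw [Finset.prod_ite_eq' Finset.univ e (fun e' => φ (W e')), if_pos (Finset.mem_univ e)]
  have h2 : ∏ e', ∑ x ∈ s e', (if e' = e then φ x else 1)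
      = (∑ x ∈ s e, φ x) * ∏ e' ∈ Finset.univ.erase e, ((s e').card : ℝ) := by
    rw [← Finset.mul_prod_erase Finset.univ _ (Finset.mem_univ e)]
    congr 1
    · simp
    · refine Finset.prod_congr rfl fun e' he' => ?_
      rw [Finset.mem_erase] at he'
      simp [he'.1]
  have h3 : ((Fintype.piFinset s).card : ℝ)
      = ((s e).card : ℝ) * ∏ e' ∈ Finset.univ.erase e, ((s e').card : ℝ) := by
    rw [Fintype.card_piFinset]
    push_cast
    rw [← Finset.mul_prod_erase Finset.univ _ (Finset.mem_univ e)]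
  have h4 : (∏ e' ∈ Finset.univ.erase e, ((s e').card : ℝ)) ≠ 0 := by
    rw [Finset.prod_ne_zero_iff]
    intro e' _
    have := (hs e').card_pos
    positivity
  have h5 : ((s e).card : ℝ) ≠ 0 := by
    have := (hs e).card_pos
    positivity
  rw [h1, h2, h3]
  field_simp

/-- energy of the block resampling of one coordinate -/
noncomputable def EE (S : Finset Ω) (w : Ω → ℝ) (val : Ω → ι → ℤ) (blk : ι → Ω) (u : ι → ℤ)
    (K : ℕ) (M : ι → ℕ) (t : ℕ) (g : Ω → ℝ) (e : ι) : ℝ :=
  ∑ Z ∈ S, w Z * (((Ib (u e) K (M e) t (val Z e)).card : ℝ)⁻¹ *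
    ∑ x ∈ Ib (u e) K (M e) t (val Z e), (g Z - g (Z + (x - val Z e) • blk e)) ^ 2)

theorem one_coord (h : Setup S w val blk u K M Cw) {t : ℕ} (ht : t < K) (g : Ω → ℝ)
    (J : Finset ι) {a : ι} (ha : a ∉ J) :
    ∑ X ∈ S, w X * ((((Blo val u K M t X).card : ℝ))⁻¹ *
        ∑ W ∈ Blo val u K M t X,
          (g (res val blk J W X) - g (res val blk (insert a J) W X)) ^ 2) ≤
      Cw * EE S w val blk u K M t g a := by
  have h1 := h.transport ht J (fun Z V => (g Z - g (Z + (V a - val Z a) • blk a)) ^ 2)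
    (fun Z V => sq_nonneg _)
  have e1 : ∀ (X : Ω) (W : ι → ℤ), res val blk (insert a J) W X
      = res val blk J W X + (sw val J W X a - val (res val blk J W X) a) • blk a := by
    intro X W
    rw [h.val_res, if_neg ha]
    unfold sw
    rw [if_neg ha]
    unfold res
    rw [Finset.sum_insert ha]
    abel
  simp only [e1]
  refine h1.trans (le_of_eq ?_)
  congr 1
  unfold EE
  refine Finset.sum_congr rfl fun Z hZ => ?_
  congr 1
  exact avg_coord (fun e => Ib (u e) K (M e) t (val Z e)) (fun e => h.Ib_nonempty t hZ e) a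
    (fun x => (g Z - g (Z + (x - val Z a) • blk a)) ^ 2)

/-- **Telescoping.** -/
theorem telescope (h : Setup S w val blk u K M Cw) {t : ℕ} (ht : t < K) (g : Ω → ℝ)
    (J : Finset ι) :
    ∑ X ∈ S, w X * ((((Blo val u K M t X).card : ℝ))⁻¹ *
        ∑ W ∈ Blo val u K M t X, (g X - g (res val blk J W X)) ^ 2) ≤
      J.card * ∑ e ∈ J, Cw * EE S w val blk u K M t g e := by
  induction J using Finset.induction_on with
  | empty => simp [res]
  | insert a J ha ih =>
    have h1 := h.one_coord ht g J ha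
    set P : ℝ := ∑ X ∈ S, w X * ((((Blo val u K M t X).card : ℝ))⁻¹ *
        ∑ W ∈ Blo val u K M t X, (g X - g (res val blk J W X)) ^ 2) with hP
    set Q : ℝ := ∑ X ∈ S, w X * ((((Blo val u K M t X).card : ℝ))⁻¹ *
        ∑ W ∈ Blo val u K M t X,
          (g (res val blk J W X) - g (res val blk (insert a J) W X)) ^ 2) with hQ
    rw [Finset.sum_insert ha, Finset.card_insert_of_notMem ha]
    rcases Finset.eq_empty_or_nonempty J with hJ | hJ
    · subst hJ
      have e1 : ∀ (X : Ω) (W : ι → ℤ), res val blk ∅ W X = X := by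
        intro X W
        simp [res]
      simp only [e1] at hQ
      rw [← hQ]
      simp only [Finset.card_empty, Finset.sum_empty, zero_add, add_zero, Nat.cast_one, one_mul]
      exact h1
    · have hk : (0 : ℝ) < J.card := by
        have := hJ.card_pos
        exact_mod_cast this
      set k : ℝ := (J.card : ℝ) with hkdef
      have h2 : ∑ X ∈ S, w X * ((((Blo val u K M t X).card : ℝ))⁻¹ *
          ∑ W ∈ Blo val u K M t X, (g X - g (res val blk (insert a J) W X)) ^ 2)
          ≤ (1 + 1 / k) * P + (1 + k) * Q := by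
        rw [hP, hQ, Finset.mul_sum, Finset.mul_sum, ← Finset.sum_add_distrib]
        refine Finset.sum_le_sum fun X _ => ?_
        have h3 : ∑ W ∈ Blo val u K M t X, (g X - g (res val blk (insert a J) W X)) ^ 2
            ≤ (1 + 1 / k) * ∑ W ∈ Blo val u K M t X, (g X - g (res val blk J W X)) ^ 2
              + (1 + k) * ∑ W ∈ Blo val u K M t X,
                (g (res val blk J W X) - g (res val blk (insert a J) W X)) ^ 2 := by
          rw [Finset.mul_sum, Finset.mul_sum, ← Finset.sum_add_distrib]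
          refine Finset.sum_le_sum fun W _ => ?_
          set x := g X - g (res val blk J W X)
          set y := g (res val blk J W X) - g (res val blk (insert a J) W X)
          have e1 : g X - g (res val blk (insert a J) W X) = x + y := by
            simp only [x, y]
            ring
          rw [e1]
          have h4 : 0 ≤ (x / k - y) ^ 2 * k := by positivity
          have h5 : (x / k - y) ^ 2 * k = 1 / k * x ^ 2 - 2 * x * y + k * y ^ 2 := by
            field_simp
            ring
          nlinarith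
        calc w X * ((((Blo val u K M t X).card : ℝ))⁻¹ *
            ∑ W ∈ Blo val u K M t X, (g X - g (res val blk (insert a J) W X)) ^ 2)
            ≤ w X * ((((Blo val u K M t X).card : ℝ))⁻¹ *
              ((1 + 1 / k) * ∑ W ∈ Blo val u K M t X, (g X - g (res val blk J W X)) ^ 2
              + (1 + k) * ∑ W ∈ Blo val u K M t X,
                (g (res val blk J W X) - g (res val blk (insert a J) W X)) ^ 2)) :=
              mul_le_mul_of_nonneg_left (mul_le_mul_of_nonneg_left h3 (by positivity))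
                (h.nonneg X)
          _ = _ := by ring
      refine h2.trans ?_
      have h3 : (1 + 1 / k) * P ≤ (1 + 1 / k)
          * (k * ∑ e ∈ J, Cw * EE S w val blk u K M t g e) :=
        mul_le_mul_of_nonneg_left ih (by positivity)
      have h4 : (1 + k) * Q ≤ (1 + k) * (Cw * EE S w val blk u K M t g a) :=
        mul_le_mul_of_nonneg_left h1 (by positivity)
      have e1 : (1 + 1 / k) * (k * ∑ e ∈ J, Cw * EE S w val blk u K M t g e)
          = (1 + k) * ∑ e ∈ J, Cw * EE S w val blk u K M t g e := by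
        field_simp
        ring
      rw [e1] at h3
      push_cast
      rw [← hkdef]
      linarith

/-- the energy of the block resampling is controlled by Metropolis moves -/
theorem EE_le (h : Setup S w val blk u K M Cw) {t : ℕ} (ht : t < K) (g : Ω → ℝ) (e : ι) :
    EE S w val blk u K M t g e ≤ Cw * (1 / (u e : ℝ) * ∑ Z ∈ S,
      ∑ d ∈ Finset.Ioo (-((K : ℤ) * u e)) ((K : ℤ) * u e),
        min (w Z) (w (Z + d • blk e)) * (g Z - g (Z + d • blk e)) ^ 2) := by
  unfold EE
  rw [Finset.mul_sum, Finset.mul_sum]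
  refine Finset.sum_le_sum fun Z hZ => ?_
  have hu : (0 : ℝ) < u e := by exact_mod_cast h.u_pos e
  have hCw : 0 < Cw := lt_of_lt_of_le one_pos h.one_le
  have h1 : ((Ib (u e) K (M e) t (val Z e)).card : ℝ)⁻¹ ≤ 1 / (u e : ℝ) := by
    rw [one_div]
    exact inv_anti₀ hu (h.card_pos ht hZ e)
  have h2 : w Z * ∑ x ∈ Ib (u e) K (M e) t (val Z e),
      (g Z - g (Z + (x - val Z e) • blk e)) ^ 2 ≤ Cw *
      ∑ d ∈ Finset.Ioo (-((K : ℤ) * u e)) ((K : ℤ) * u e),
        min (w Z) (w (Z + d • blk e)) * (g Z - g (Z + d • blk e)) ^ 2 := by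
    rw [Finset.mul_sum, Finset.mul_sum]
    have e1 : ∑ x ∈ Ib (u e) K (M e) t (val Z e), w Z *
        (g Z - g (Z + (x - val Z e) • blk e)) ^ 2
        = ∑ d ∈ (Ib (u e) K (M e) t (val Z e)).image (fun x => x - val Z e), w Z *
        (g Z - g (Z + d • blk e)) ^ 2 := by
      rw [Finset.sum_image]
      intro x _ y _ hxy
      simpa using hxy
    rw [e1]
    have hsub : (Ib (u e) K (M e) t (val Z e)).image (fun x => x - val Z e)
        ⊆ Finset.Ioo (-((K : ℤ) * u e)) ((K : ℤ) * u e) := by
      intro d hd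
      rw [Finset.mem_image] at hd
      obtain ⟨x, hx, rfl⟩ := hd
      have := Ib_dist (h.K_pos_of ht e) (mem_Ib.1 hx).2
      rw [abs_lt] at this
      exact Finset.mem_Ioo.2 this
    calc ∑ d ∈ (Ib (u e) K (M e) t (val Z e)).image (fun x => x - val Z e), w Z *
        (g Z - g (Z + d • blk e)) ^ 2
        ≤ ∑ d ∈ (Ib (u e) K (M e) t (val Z e)).image (fun x => x - val Z e),
          Cw * (min (w Z) (w (Z + d • blk e)) * (g Z - g (Z + d • blk e)) ^ 2) := by
          refine Finset.sum_le_sum fun d hd => ?_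
          rw [Finset.mem_image] at hd
          obtain ⟨x, hx, rfl⟩ := hd
          rw [← mul_assoc]
          refine mul_le_mul_of_nonneg_right ?_ (sq_nonneg _)
          rw [mul_min_of_nonneg _ _ hCw.le]
          refine le_min ?_ ?_
          · have := h.nonneg Z
            nlinarith [h.one_le]
          · have h3 := h.res_mem ht {e} hZ (W := fun e' => if e' = e then x else val Z e')
              (mem_Blo.2 fun e' => by
                by_cases he : e' = e
                · rw [if_pos he, he]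
                  exact hx
                · rw [if_neg he]
                  exact mem_Ib.2 ⟨h.box Z hZ e', rfl⟩)
            have h4 := h3.2.1
            have e2 : res val blk {e} (fun e' => if e' = e then x else val Z e') Z
                = Z + (x - val Z e) • blk e := by
              simp [res]
            rwa [e2] at h4
      _ ≤ _ := by
          refine Finset.sum_le_sum_of_subset_of_nonneg hsub fun d _ _ => ?_
          exact mul_nonneg hCw.le (mul_nonneg (le_min (h.nonneg _) (h.nonneg _)) (sq_nonneg _))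
  set A : ℝ := ∑ x ∈ Ib (u e) K (M e) t (val Z e), (g Z - g (Z + (x - val Z e) • blk e)) ^ 2
    with hA
  have hA0 : 0 ≤ A := Finset.sum_nonneg fun x _ => sq_nonneg _
  calc w Z * (((Ib (u e) K (M e) t (val Z e)).card : ℝ)⁻¹ * A)
      ≤ w Z * (1 / (u e : ℝ) * A) :=
        mul_le_mul_of_nonneg_left (mul_le_mul_of_nonneg_right h1 hA0) (h.nonneg Z)
    _ = 1 / (u e : ℝ) * (w Z * A) := by ring
    _ ≤ 1 / (u e : ℝ) * (Cw * _) := mul_le_mul_of_nonneg_left h2 (by positivity)
    _ = _ := by ring

end Setup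

end Vale.Agent.P328R.Block
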