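import Vale.Agent.P328R.Descent

/-! Module M2b: the box lemma (section 1 of the note). -/

namespace Vale.Agent.P328R

open Finset

variable {V E : Type} [Fintype V] [DecidableEq V] [Fintype E] [DecidableEq E]

/-- Number of `k` with `0 ≤ k ≤ τ` and boundary `β`. -/
noncomputable def NB (src tgt : E → V) (τ : E → ℤ) (β : V → ℤ) : ℕ :=
  ((Fintype.piFinset fun e => Finset.Icc 0 (τ e)).filter fun k => bd src tgt k = β).card

theorem cm_NB_eq (src tgt : E → V) (τ : E → ℤ) (β : V → ℤ) :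
    NB src tgt τ β = P328R.CMax.boxN src tgt τ β := by
  unfold NB P328R.CMax.boxN
  congr 1
  ext k
  simp only [Finset.mem_filter, Fintype.mem_piFinset, Finset.mem_Icc, cm_bd_eq, Pi.le_def,
    Pi.zero_apply, forall_and]

theorem box_mono (src tgt : E → V) (hne : ∀ e, src e ≠ tgt e) {u v : V} (huv : u ≠ v)
    (τ : E → ℤ) (hτ : ∀ e, 0 ≤ τ e) (β : V → ℤ) (s : ℤ) (hs : 0 ≤ s)
    (hβ : ∀ x, 2 * β x = bd src tgt τ x + s * dl u v x) :
    NB src tgt τ (β + dl u v) ≤ NB src tgt τ β := by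
  rw [cm_NB_eq, cm_NB_eq, cm_dl_eq]
  refine P328R.CMax.box_lemma src tgt u v _ τ β s le_rfl hs fun z => ?_
  rw [← cm_bd_eq, ← cm_dl_eq]
  exact hβ z

end Vale.Agent.P328R
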