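import Mathlib

namespace P328R.CMax

set_option linter.unusedSectionVars false
set_option linter.unusedSimpArgs false

variable {V E : Type} [Fintype V] [DecidableEq V] [Fintype E] [DecidableEq E]

/-- boundary (divergence) of an integer flow -/
def bd (src tgt : E → V) (X : E → ℤ) (v : V) : ℤ :=
  ∑ e, X e * ((if src e = v then 1 else 0) - (if tgt e = v then 1 else 0))

/-- the vector `1_u - 1_v` -/
def dlt (u v : V) (z : V) : ℤ := (if u = z then 1 else 0) - (if v = z then 1 else 0)

theorem cm_bd_add (src tgt : E → V) (X Y : E → ℤ) :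
    bd src tgt (X + Y) = bd src tgt X + bd src tgt Y := by
  funext v
  simp only [bd, Pi.add_apply, add_mul, Finset.sum_add_distrib]

theorem cm_bd_sub (src tgt : E → V) (X Y : E → ℤ) :
    bd src tgt (X - Y) = bd src tgt X - bd src tgt Y := by
  funext v
  simp only [bd, Pi.sub_apply, sub_mul, Finset.sum_sub_distrib]

theorem cm_bd_neg (src tgt : E → V) (X : E → ℤ) :
    bd src tgt (-X) = - bd src tgt X := by
  funext v
  simp only [bd, Pi.neg_apply, neg_mul, Finset.sum_neg_distrib]

theorem cm_bd_zero (src tgt : E → V) : bd src tgt (0 : E → ℤ) = 0 := by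
  funext v
  simp [bd]

theorem cm_bd_single (src tgt : E → V) (e : E) (c : ℤ) (z : V) :
    bd src tgt (Pi.single e c) z = c * dlt (src e) (tgt e) z := by
  unfold bd dlt
  rw [Finset.sum_eq_single e]
  · simp
  · intro b _ hb
    simp [hb]
  · simp

/-- conformal path extraction -/
theorem cm_path (src tgt : E → V) (v : V) (n : ℕ) : ∀ (D : E → ℤ) (w : V),
    ∑ e, (D e).natAbs ≤ n → (∀ z, z ≠ v → 0 ≤ bd src tgt D z) → (w ≠ v → 1 ≤ bd src tgt D w) →
    ∃ c : E → ℤ, bd src tgt c = dlt w v ∧
      ∀ e, (0 ≤ c e ∧ c e ≤ D e) ∨ (D e ≤ c e ∧ c e ≤ 0) := by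
  induction n with
  | zero =>
    intro D w hn hz hw
    have hD : D = 0 := by
      funext e
      have h1 : (D e).natAbs ≤ 0 :=
        (Finset.single_le_sum (f := fun e => (D e).natAbs) (fun _ _ => Nat.zero_le _)
          (Finset.mem_univ e)).trans hn
      simpa using h1
    by_cases hwv : w = v
    · refine ⟨0, ?_, fun e => ?_⟩
      · rw [cm_bd_zero, hwv]
        funext z
        simp [dlt]
      · subst hD
        simp
    · have := hw hwv
      rw [hD, cm_bd_zero] at this
      simp at this
  | succ n ih =>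
    intro D w hn hz hw
    by_cases hwv : w = v
    · refine ⟨0, ?_, fun e => ?_⟩
      · rw [cm_bd_zero, hwv]
        funext z
        simp [dlt]
      · rcases le_total 0 (D e) with h | h
        · exact Or.inl ⟨le_refl _, h⟩
        · exact Or.inr ⟨h, le_refl _⟩
    · have h1 := hw hwv
      -- an edge with conformal excess
      have hex : ∃ e, 0 < D e * ((if src e = w then 1 else 0) - (if tgt e = w then 1 else 0)) := by
        by_contra hcon
        push Not at hcon
        have : bd src tgt D w ≤ 0 := Finset.sum_nonpos fun e _ => hcon e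
        omega
      obtain ⟨e, he⟩ := hex
      -- sign of the move
      obtain ⟨ε, w', hε, hDε, hdl⟩ : ∃ (ε : ℤ) (w' : V), (ε = 1 ∨ ε = -1) ∧ 0 < ε * D e ∧
          ∀ z, ε * dlt (src e) (tgt e) z = dlt w w' z := by
        by_cases hs : src e = w
        · by_cases ht : tgt e = w
          · simp [hs, ht] at he
          · refine ⟨1, tgt e, Or.inl rfl, ?_, ?_⟩
            · simp only [hs, ht, if_true, if_false, sub_zero, mul_one] at he
              simpa using he
            · intro z
              rw [one_mul, hs]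
        · by_cases ht : tgt e = w
          · refine ⟨-1, src e, Or.inr rfl, ?_, ?_⟩
            · simp only [hs, ht, if_true, if_false, zero_sub, mul_neg, mul_one] at he
              simpa using he
            · intro z
              rw [ht]
              unfold dlt
              ring
          · simp [hs, ht] at he
      obtain ⟨D₁, hD₁⟩ : ∃ D₁ : E → ℤ, D₁ = D - Pi.single e ε := ⟨_, rfl⟩
      have hbd₁ : ∀ z, bd src tgt D₁ z = bd src tgt D z - dlt w w' z := by
        intro z
        rw [hD₁, cm_bd_sub, Pi.sub_apply, cm_bd_single, hdl]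
      have hD₁e : D₁ e = D e - ε := by rw [hD₁]; simp
      have hD₁o : ∀ e', e' ≠ e → D₁ e' = D e' := by
        intro e' h
        rw [hD₁]
        simp [h]
      have hsum : ∑ e, (D₁ e).natAbs ≤ n := by
        have e1 := Finset.add_sum_erase Finset.univ (fun e => (D₁ e).natAbs) (Finset.mem_univ e)
        have e2 := Finset.add_sum_erase Finset.univ (fun e => (D e).natAbs) (Finset.mem_univ e)
        have e3 : ∑ x ∈ Finset.univ.erase e, (D₁ x).natAbs =
            ∑ x ∈ Finset.univ.erase e, (D x).natAbs :=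
          Finset.sum_congr rfl fun x hx => by rw [hD₁o x (Finset.ne_of_mem_erase hx)]
        have e4 : (D₁ e).natAbs + 1 = (D e).natAbs := by
          rw [hD₁e]
          rcases hε with h | h <;> subst h <;> omega
        beta_reduce at e1 e2
        omega
      obtain ⟨c₁, hc₁, hcc⟩ := ih D₁ w' hsum (by
        intro z hzv
        rw [hbd₁]
        have := hz z hzv
        unfold dlt
        by_cases hwz : w = z
        · subst hwz
          have := hw hzv
          split_ifs <;> omega
        · rw [if_neg hwz]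
          split_ifs <;> omega) (by
        intro hw'v
        rw [hbd₁]
        have := hz w' hw'v
        unfold dlt
        rw [if_pos rfl]
        by_cases hww : w = w'
        · rw [if_pos hww, ← hww]
          omega
        · rw [if_neg hww]
          omega)
      refine ⟨c₁ + Pi.single e ε, ?_, fun e' => ?_⟩
      · funext z
        rw [cm_bd_add, Pi.add_apply, hc₁, cm_bd_single, hdl]
        unfold dlt
        ring
      · by_cases he' : e' = e
        · subst he'
          have h2 := hcc e'
          rw [hD₁e] at h2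
          simp only [Pi.add_apply, Pi.single_eq_same]
          rcases hε with h | h <;> subst h
          · left
            constructor <;> omega
          · right
            constructor <;> omega
        · have h2 := hcc e'
          rw [hD₁o e' he'] at h2
          simpa [he'] using h2



/-- number of sub-vectors of `t` with given boundary -/
noncomputable def boxN (src tgt : E → V) (τ : E → ℤ) (β : V → ℤ) : ℕ :=
  ((Finset.Icc (0 : E → ℤ) τ).filter (fun k => bd src tgt k = β)).card

/-- lower corner of the interval of `k` with `k, t - k ∈ [0, τ]` -/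
noncomputable def cmA (τ t : E → ℤ) (e : E) : ℤ := max 0 (t e - τ e)

/-- side lengths of the interval of `k` with `k, t - k ∈ [0, τ]` -/
noncomputable def cmT (τ t : E → ℤ) (e : E) : ℤ := min (τ e) (t e) - max 0 (t e - τ e)

theorem cm_symm (src tgt : E → V) (τ : E → ℤ) (β : V → ℤ) :
    boxN src tgt τ (bd src tgt τ - β) = boxN src tgt τ β := by
  unfold boxN
  refine Finset.card_nbij' (fun k => τ - k) (fun k => τ - k) ?_ ?_ ?_ ?_
  · intro k hk
    simp only [Finset.coe_filter, Finset.mem_Icc, Set.mem_ofPred_eq] at hk ⊢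
    obtain ⟨⟨h1, h2⟩, h3⟩ := hk
    refine ⟨⟨sub_nonneg.mpr h2, sub_le_self _ h1⟩, ?_⟩
    rw [cm_bd_sub, h3]
    abel
  · intro k hk
    simp only [Finset.coe_filter, Finset.mem_Icc, Set.mem_ofPred_eq] at hk ⊢
    obtain ⟨⟨h1, h2⟩, h3⟩ := hk
    refine ⟨⟨sub_nonneg.mpr h2, sub_le_self _ h1⟩, ?_⟩
    rw [cm_bd_sub, h3]
  · intro k _
    simp
  · intro k _
    simp

theorem cm_square (src tgt : E → V) (τ : E → ℤ) (β : V → ℤ) :
    boxN src tgt τ β * boxN src tgt τ β =
      ∑ t ∈ (Finset.Icc (0 : E → ℤ) (τ + τ)).filter (fun t => bd src tgt t = bd src tgt τ),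
        boxN src tgt (cmT τ t) (β - bd src tgt (cmA τ t)) := by
  have h0 : boxN src tgt τ β * boxN src tgt τ β =
      boxN src tgt τ β * boxN src tgt τ (bd src tgt τ - β) := by rw [cm_symm]
  rw [h0]
  unfold boxN
  rw [← Finset.card_product]
  rw [Finset.card_eq_sum_card_fiberwise (f := fun p : (E → ℤ) × (E → ℤ) => p.1 + p.2)
    (t := (Finset.Icc (0 : E → ℤ) (τ + τ)).filter (fun t => bd src tgt t = bd src tgt τ))]
  · refine Finset.sum_congr rfl fun t ht => ?_
    rw [Finset.mem_filter] at ht
    refine Finset.card_nbij' (fun p => p.1 - cmA τ t) (fun k => (k + cmA τ t, t - (k + cmA τ t)))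
      ?_ ?_ ?_ ?_
    · rintro ⟨k, l⟩ hp
      simp only [Finset.coe_filter, Finset.mem_product, Finset.mem_filter, Finset.mem_Icc,
        Set.mem_ofPred_eq] at hp ⊢
      obtain ⟨⟨⟨⟨h1, h2⟩, h3⟩, ⟨h4, h5⟩, h6⟩, h7⟩ := hp
      refine ⟨⟨fun e => ?_, fun e => ?_⟩, ?_⟩
      · have a1 := h1 e
        have a2 := h5 e
        have a3 := congrFun h7 e
        simp only [Pi.zero_apply, Pi.add_apply, Pi.sub_apply, cmA] at *
        omega
      · have a1 := h2 e
        have a2 := h4 e
        have a3 := congrFun h7 e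
        simp only [Pi.zero_apply, Pi.add_apply, Pi.sub_apply, cmA, cmT] at *
        omega
      · rw [cm_bd_sub, h3]
    · intro k hk
      simp only [Finset.coe_filter, Finset.mem_product, Finset.mem_filter, Finset.mem_Icc,
        Set.mem_ofPred_eq] at hk ⊢
      obtain ⟨⟨h1, h2⟩, h3⟩ := hk
      refine ⟨⟨⟨⟨fun e => ?_, fun e => ?_⟩, ?_⟩, ⟨fun e => ?_, fun e => ?_⟩, ?_⟩, ?_⟩
      · have a1 := h1 e
        simp only [Pi.zero_apply, Pi.add_apply, Pi.sub_apply, cmA, cmT] at *
        omega
      · have a1 := h2 e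
        simp only [Pi.zero_apply, Pi.add_apply, Pi.sub_apply, cmA, cmT] at *
        omega
      · rw [cm_bd_add, h3]
        abel
      · have a1 := h2 e
        simp only [Pi.zero_apply, Pi.add_apply, Pi.sub_apply, cmA, cmT] at *
        omega
      · have a1 := h1 e
        simp only [Pi.zero_apply, Pi.add_apply, Pi.sub_apply, cmA, cmT] at *
        omega
      · rw [cm_bd_sub, cm_bd_add, h3, ht.2]
        abel
      · abel
    · rintro ⟨k, l⟩ hp
      simp only [Finset.coe_filter, Finset.mem_product, Finset.mem_filter, Finset.mem_Icc,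
        Set.mem_ofPred_eq] at hp ⊢
      rw [Prod.mk.injEq]
      refine ⟨by abel, ?_⟩
      rw [← hp.2]
      abel
    · intro k _
      simp
  · rintro ⟨k, l⟩ hp
    simp only [Finset.coe_product, Finset.coe_filter, Finset.mem_Icc, Set.mem_prod,
      Set.mem_ofPred_eq] at hp ⊢
    obtain ⟨⟨⟨h1, h2⟩, h3⟩, ⟨h4, h5⟩, h6⟩ := hp
    refine ⟨⟨add_nonneg h1 h4, add_le_add h2 h5⟩, ?_⟩
    rw [cm_bd_add, h3, h6]
    abel

theorem cm_boxN_neg (src tgt : E → V) (τ : E → ℤ) (β : V → ℤ) (h : ¬ 0 ≤ τ) :
    boxN src tgt τ β = 0 := by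
  unfold boxN
  rw [Finset.Icc_eq_empty h]
  rfl

/-- BOX LEMMA -/
theorem box_lemma (src tgt : E → V) (u v : V) (n : ℕ) : ∀ (τ : E → ℤ) (β : V → ℤ) (s : ℤ),
    ∑ e, (τ e).toNat ≤ n → 0 ≤ s → (∀ z, 2 * β z = bd src tgt τ z + s * dlt u v z) →
    boxN src tgt τ (β + dlt u v) ≤ boxN src tgt τ β := by
  induction n using Nat.strong_induction_on with
  | _ n ih =>
    intro τ β s hn hs hβ
    by_cases hτ : 0 ≤ τ
    swap
    · rw [cm_boxN_neg src tgt τ _ hτ]
      exact Nat.zero_le _
    obtain ⟨T, hT⟩ : ∃ T, T = (Finset.Icc (0 : E → ℤ) (τ + τ)).filter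
      (fun t => bd src tgt t = bd src tgt τ) := ⟨_, rfl⟩
    have hτT : τ ∈ T := by
      rw [hT, Finset.mem_filter, Finset.mem_Icc]
      exact ⟨⟨hτ, le_add_of_nonneg_left hτ⟩, rfl⟩
    have hA : cmA τ τ = 0 := by
      funext e
      simp [cmA]
    have hTT : cmT τ τ = τ := by
      funext e
      simp [cmT]
    obtain ⟨x, hx⟩ : ∃ x, x = boxN src tgt τ (β + dlt u v) := ⟨_, rfl⟩
    obtain ⟨y, hy⟩ : ∃ y, y = boxN src tgt τ β := ⟨_, rfl⟩
    have h1 : x * x = x + ∑ t ∈ T.erase τ,
        boxN src tgt (cmT τ t) (β + dlt u v - bd src tgt (cmA τ t)) := by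
      have := cm_square src tgt τ (β + dlt u v)
      rw [← hT, ← Finset.add_sum_erase T _ hτT, hA, hTT, cm_bd_zero, sub_zero, ← hx] at this
      exact this
    have h2 : y * y = y + ∑ t ∈ T.erase τ,
        boxN src tgt (cmT τ t) (β - bd src tgt (cmA τ t)) := by
      have := cm_square src tgt τ β
      rw [← hT, ← Finset.add_sum_erase T _ hτT, hA, hTT, cm_bd_zero, sub_zero, ← hy] at this
      exact this
    have h3 : ∑ t ∈ T.erase τ, boxN src tgt (cmT τ t) (β + dlt u v - bd src tgt (cmA τ t)) ≤
        ∑ t ∈ T.erase τ, boxN src tgt (cmT τ t) (β - bd src tgt (cmA τ t)) := by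
      refine Finset.sum_le_sum fun t ht => ?_
      rw [Finset.mem_erase, hT, Finset.mem_filter, Finset.mem_Icc] at ht
      obtain ⟨htτ, ⟨ht0, ht2⟩, htb⟩ := ht
      have hlt : ∑ e, (cmT τ t e).toNat < ∑ e, (τ e).toNat := by
        have hle : ∀ e, (cmT τ t e).toNat ≤ (τ e).toNat := by
          intro e
          have a1 := ht0 e
          have a2 := ht2 e
          simp only [Pi.zero_apply, Pi.add_apply, cmT] at *
          omega
        refine Finset.sum_lt_sum (fun e _ => hle e) ?_
        by_contra hcon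
        push Not at hcon
        apply htτ
        funext e
        have a1 := ht0 e
        have a2 := ht2 e
        have a3 := hcon e (Finset.mem_univ e)
        have a4 := hτ e
        simp only [Pi.zero_apply, Pi.add_apply, cmT] at *
        omega
      have hcm : cmT τ t = t - (cmA τ t + cmA τ t) := by
        funext e
        simp only [cmT, cmA, Pi.sub_apply, Pi.add_apply]
        omega
      have := ih _ (lt_of_lt_of_le hlt hn) (cmT τ t) (β - bd src tgt (cmA τ t)) s le_rfl hs (by
        intro z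
        rw [Pi.sub_apply, mul_sub, hβ, hcm, cm_bd_sub, cm_bd_add, Pi.sub_apply, Pi.add_apply, htb]
        ring)
      have e1 : β + dlt u v - bd src tgt (cmA τ t) = β - bd src tgt (cmA τ t) + dlt u v := by abel
      rw [e1]
      exact this
    rw [← hx, ← hy]
    rcases Nat.eq_zero_or_pos y with hy0 | hy1
    · -- y = 0
      by_contra hcon
      have hx1 : 0 < x := by omega
      rw [hx] at hx1
      unfold boxN at hx1
      rw [Finset.card_pos] at hx1
      obtain ⟨k, hk⟩ := hx1
      rw [Finset.mem_filter, Finset.mem_Icc] at hk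
      obtain ⟨⟨hk0, hkτ⟩, hkb⟩ := hk
      have hDb : ∀ z, bd src tgt (k + k - τ) z = (s + 2) * dlt u v z := by
        intro z
        rw [cm_bd_sub, cm_bd_add, Pi.sub_apply, Pi.add_apply, hkb, Pi.add_apply]
        have := hβ z
        linear_combination this
      obtain ⟨c, hc, hcc⟩ := cm_path src tgt v _ (k + k - τ) u le_rfl (by
        intro z hz
        rw [hDb]
        unfold dlt
        rw [if_neg (Ne.symm hz)]
        split_ifs <;> simp
        omega) (by
        intro huv
        rw [hDb]
        unfold dlt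
        rw [if_pos rfl, if_neg (Ne.symm huv)]
        omega)
      have hmem : k - c ∈ (Finset.Icc (0 : E → ℤ) τ).filter (fun k => bd src tgt k = β) := by
        rw [Finset.mem_filter, Finset.mem_Icc]
        refine ⟨⟨fun e => ?_, fun e => ?_⟩, ?_⟩
        · have a1 := hcc e
          have a2 := hk0 e
          have a3 := hkτ e
          simp only [Pi.zero_apply, Pi.add_apply, Pi.sub_apply] at *
          omega
        · have a1 := hcc e
          have a2 := hk0 e
          have a3 := hkτ e
          simp only [Pi.zero_apply, Pi.add_apply, Pi.sub_apply] at *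
          omega
        · rw [cm_bd_sub, hkb, hc]
          abel
      have : 0 < y := by
        rw [hy]
        exact Finset.card_pos.mpr ⟨_, hmem⟩
      omega
    · by_contra hcon
      push Not at hcon
      have h4 : x * x + y ≤ y * y + x := by omega
      obtain ⟨d, hd⟩ := Nat.exists_eq_add_of_lt hcon
      subst hd
      nlinarith



/-- partition function: sum of the product weights over the tables with given boundary -/
noncomputable def Zs (src tgt : E → V) (B : Finset (E → ℤ)) (f : E → ℤ → ℝ) (β : V → ℤ) : ℝ :=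
  ∑ X ∈ B.filter (fun X => bd src tgt X = β), ∏ e, f e (X e)

theorem cm_Zs_congr (src tgt : E → V) (B B' : Finset (E → ℤ)) (f : E → ℤ → ℝ) (β : V → ℤ)
    (hB : ∀ X : E → ℤ, (∀ e, f e (X e) ≠ 0) → X ∈ B)
    (hB' : ∀ X : E → ℤ, (∀ e, f e (X e) ≠ 0) → X ∈ B') :
    Zs src tgt B f β = Zs src tgt B' f β := by
  have key : ∀ B : Finset (E → ℤ), (∀ X : E → ℤ, (∀ e, f e (X e) ≠ 0) → X ∈ B) →
      ∀ C : Finset (E → ℤ), B ⊆ C → Zs src tgt B f β = Zs src tgt C f β := by
    intro B hB C hBC
    unfold Zs
    refine Finset.sum_subset (Finset.filter_subset_filter _ hBC) ?_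
    intro X hX hX'
    rw [Finset.mem_filter] at hX hX'
    have : X ∉ B := fun h => hX' ⟨h, hX.2⟩
    by_contra hcon
    exact this (hB X fun e => (Finset.prod_ne_zero_iff.mp hcon) e (Finset.mem_univ e))
  rw [key B hB (B ∪ B') Finset.subset_union_left, key B' hB' (B ∪ B') Finset.subset_union_right]

/-- layer cake decomposition of a symmetric unimodal finitely supported weight -/
theorem cm_layer (f : ℤ → ℝ) (T : ℤ) (hfin : (Function.support f).Finite)
    (hsym : ∀ x, f (T - x) = f x) (huni : ∀ x, T ≤ 2 * x → f (x + 1) ≤ f x) :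
    ∃ (m : ℤ) (J : ℕ) (c : ℕ → ℝ), (T ≤ 2 * m ∧ 2 * m ≤ T + 1) ∧ (∀ j, 0 ≤ c j) ∧
      ∀ x, f x = ∑ j ∈ Finset.range J, c j * (if T - (m + j) ≤ x ∧ x ≤ m + j then 1 else 0) := by
  obtain ⟨m, hm⟩ : ∃ m, m = (T + 1) / 2 := ⟨_, rfl⟩
  have hm1 : T ≤ 2 * m ∧ 2 * m ≤ T + 1 := by omega
  obtain ⟨L, hL⟩ := hfin.bddAbove
  obtain ⟨J, hJ⟩ : ∃ J : ℕ, J = (L - m).toNat + 1 := ⟨_, rfl⟩
  have hz : ∀ x, m + J ≤ x → f x = 0 := by
    intro x hx
    by_contra hcon
    have := hL (Function.mem_support.mpr hcon)
    omega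
  have htel : ∀ i : ℕ, f (m + i) = ∑ j ∈ Finset.range J,
      (f (m + j) - f (m + j + 1)) * (if i ≤ j then 1 else 0) := by
    intro i
    by_cases hi : i < J
    · have h1 : ∀ K : ℕ, i ≤ K → f (m + i) - f (m + K) = ∑ j ∈ Finset.range K,
          (f (m + j) - f (m + j + 1)) * (if i ≤ j then 1 else 0) := by
        intro K hK
        induction K, hK using Nat.le_induction with
        | base =>
          rw [sub_self]
          symm
          refine Finset.sum_eq_zero fun j hj => ?_
          rw [if_neg (by simpa using Finset.mem_range.mp hj), mul_zero]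
        | succ K hK ih =>
          rw [Finset.sum_range_succ, ← ih, if_pos hK]
          push_cast
          rw [← add_assoc]
          ring
      rw [← h1 J hi.le, hz (m + J) le_rfl, sub_zero]
    · push Not at hi
      rw [hz (m + i) (by omega)]
      symm
      refine Finset.sum_eq_zero fun j hj => ?_
      rw [Finset.mem_range] at hj
      rw [if_neg (by omega), mul_zero]
  refine ⟨m, J, fun j => f (m + j) - f (m + j + 1), hm1, fun j => ?_, fun x => ?_⟩
  · have := huni (m + j) (by omega)
    linarith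
  · rcases le_total T (2 * x) with hx | hx
    · obtain ⟨i, hi⟩ : ∃ i : ℕ, x = m + i := ⟨(x - m).toNat, by omega⟩
      rw [hi, htel i]
      refine Finset.sum_congr rfl fun j _ => ?_
      congr 1
      by_cases hij : i ≤ j
      · rw [if_pos hij, if_pos (by omega)]
      · rw [if_neg hij, if_neg (by omega)]
    · obtain ⟨i, hi⟩ : ∃ i : ℕ, T - x = m + i := ⟨(T - x - m).toNat, by omega⟩
      rw [← hsym x, hi, htel i]
      refine Finset.sum_congr rfl fun j _ => ?_
      congr 1
      by_cases hij : i ≤ j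
      · rw [if_pos hij, if_pos (by omega)]
      · rw [if_neg hij, if_neg (by omega)]

/-- the number of tables in a box, in terms of `boxN` -/
theorem cm_box_count (src tgt : E → V) (lo hi : E → ℤ) (B : Finset (E → ℤ))
    (hB : ∀ X : E → ℤ, (∀ e, lo e ≤ X e ∧ X e ≤ hi e) → X ∈ B) (β : V → ℤ) :
    ∑ X ∈ B.filter (fun X => bd src tgt X = β),
      ∏ e, (if lo e ≤ X e ∧ X e ≤ hi e then (1:ℝ) else 0) =
      (boxN src tgt (hi - lo) (β - bd src tgt lo) : ℝ) := by
  have h1 : ∀ X : E → ℤ, ∏ e, (if lo e ≤ X e ∧ X e ≤ hi e then (1:ℝ) else 0) =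
      if (∀ e, lo e ≤ X e ∧ X e ≤ hi e) then 1 else 0 := by
    intro X
    by_cases h : ∀ e, lo e ≤ X e ∧ X e ≤ hi e
    · rw [if_pos h]
      exact Finset.prod_eq_one fun e _ => if_pos (h e)
    · rw [if_neg h]
      push Not at h
      obtain ⟨e, he⟩ := h
      refine Finset.prod_eq_zero (Finset.mem_univ e) (if_neg ?_)
      rintro ⟨h1, h2⟩
      exact absurd h2 (not_le.mpr (he h1))
  rw [Finset.sum_congr rfl fun X _ => h1 X, ← Finset.sum_filter, Finset.sum_const, nsmul_eq_mul,
    mul_one]
  norm_cast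
  unfold boxN
  refine Finset.card_nbij' (fun X => X - lo) (fun k => k + lo) ?_ ?_ ?_ ?_
  · intro X hX
    simp only [Finset.coe_filter, Finset.mem_filter, Finset.mem_Icc, Set.mem_ofPred_eq] at hX ⊢
    obtain ⟨⟨_, h2⟩, h3⟩ := hX
    refine ⟨⟨fun e => ?_, fun e => ?_⟩, ?_⟩
    · have := h3 e
      simp only [Pi.zero_apply, Pi.sub_apply]
      omega
    · have := h3 e
      simp only [Pi.sub_apply]
      omega
    · rw [cm_bd_sub, h2]
  · intro k hk
    simp only [Finset.coe_filter, Finset.mem_filter, Finset.mem_Icc, Set.mem_ofPred_eq] at hk ⊢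
    obtain ⟨⟨h0, h1⟩, h2⟩ := hk
    have h3 : ∀ e, lo e ≤ (k + lo) e ∧ (k + lo) e ≤ hi e := by
      intro e
      have a1 := h0 e
      have a2 := h1 e
      simp only [Pi.zero_apply, Pi.sub_apply, Pi.add_apply] at *
      omega
    refine ⟨⟨hB _ h3, ?_⟩, h3⟩
    rw [cm_bd_add, h2]
    abel
  · intro X _
    simp
  · intro k _
    simp

/-- CENTRE-MAX -/
theorem centre_max (src tgt : E → V) (u v : V) (B : Finset (E → ℤ)) (f : E → ℤ → ℝ) (T : E → ℤ)
    (β : V → ℤ) (s : ℤ) (hs : 0 ≤ s) (hfin : ∀ e, (Function.support (f e)).Finite)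
    (hsym : ∀ e x, f e (T e - x) = f e x) (huni : ∀ e x, T e ≤ 2 * x → f e (x + 1) ≤ f e x)
    (hB : ∀ X : E → ℤ, (∀ e, f e (X e) ≠ 0) → X ∈ B)
    (hβ : ∀ z, 2 * β z = bd src tgt T z + s * dlt u v z) :
    Zs src tgt B f (β + dlt u v) ≤ Zs src tgt B f β := by
  choose m J c hm hc hf using fun e => cm_layer (f e) (T e) (hfin e) (hsym e) (huni e)
  obtain ⟨B', hB'⟩ : ∃ B' : Finset (E → ℤ), B' =
    Finset.Icc (fun e => T e - (m e + J e)) (fun e => m e + J e) := ⟨_, rfl⟩
  have hmemB' : ∀ (a : E → ℕ), (∀ e, a e < J e) → ∀ X : E → ℤ,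
      (∀ e, T e - (m e + a e) ≤ X e ∧ X e ≤ m e + a e) → X ∈ B' := by
    intro a ha X hX
    rw [hB', Finset.mem_Icc]
    refine ⟨fun e => ?_, fun e => ?_⟩
    · have a1 := ha e
      have a2 := hX e
      change T e - (m e + J e) ≤ X e
      omega
    · have a1 := ha e
      have a2 := hX e
      change X e ≤ m e + J e
      omega
  have hB'2 : ∀ X : E → ℤ, (∀ e, f e (X e) ≠ 0) → X ∈ B' := by
    intro X hX
    have : ∀ e, ∃ j, j < J e ∧ T e - (m e + j) ≤ X e ∧ X e ≤ m e + j := by
      intro e
      by_contra hcon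
      push Not at hcon
      apply hX e
      rw [hf e (X e)]
      refine Finset.sum_eq_zero fun j hj => ?_
      rw [Finset.mem_range] at hj
      rw [if_neg, mul_zero]
      rintro ⟨h1, h2⟩
      exact absurd h2 (not_le.mpr (hcon j hj h1))
    choose a ha1 ha2 using this
    exact hmemB' a ha1 X ha2
  have hexp : ∀ γ : V → ℤ, Zs src tgt B f γ =
      ∑ a ∈ Fintype.piFinset (fun e => Finset.range (J e)), (∏ e, c e (a e)) *
        (boxN src tgt (fun e => m e + a e - (T e - (m e + a e)))
          (γ - bd src tgt (fun e => T e - (m e + a e))) : ℝ) := by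
    intro γ
    rw [cm_Zs_congr src tgt B B' f γ hB hB'2]
    unfold Zs
    have h1 : ∀ X : E → ℤ, ∏ e, f e (X e) =
        ∑ a ∈ Fintype.piFinset (fun e => Finset.range (J e)), (∏ e, c e (a e)) *
          ∏ e, (if T e - (m e + a e) ≤ X e ∧ X e ≤ m e + a e then (1:ℝ) else 0) := by
      intro X
      rw [Finset.prod_congr rfl fun e _ => hf e (X e), Finset.prod_univ_sum]
      exact Finset.sum_congr rfl fun a _ => Finset.prod_mul_distrib
    rw [Finset.sum_congr rfl fun X _ => h1 X, Finset.sum_comm]
    refine Finset.sum_congr rfl fun a ha => ?_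
    rw [← Finset.mul_sum]
    congr 1
    have ha' : ∀ e, a e < J e := by
      intro e
      exact Finset.mem_range.mp ((Fintype.mem_piFinset.mp ha) e)
    have := cm_box_count src tgt (fun e => T e - (m e + a e)) (fun e => m e + a e) B'
      (fun X hX => hmemB' a ha' X hX) γ
    exact this
  rw [hexp, hexp]
  refine Finset.sum_le_sum fun a _ => ?_
  refine mul_le_mul_of_nonneg_left ?_ (Finset.prod_nonneg fun e _ => hc e _)
  norm_cast
  obtain ⟨lo, hlo⟩ : ∃ lo : E → ℤ, lo = fun e => T e - (m e + a e) := ⟨_, rfl⟩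
  have e1 : (fun e => m e + a e - (T e - (m e + a e))) = T - lo - lo := by
    funext e
    rw [hlo]
    simp only [Pi.sub_apply]
    ring
  rw [e1, ← hlo]
  have := box_lemma src tgt u v _ (T - lo - lo) (β - bd src tgt lo) s le_rfl hs (by
    intro z
    rw [Pi.sub_apply, mul_sub, hβ, cm_bd_sub, cm_bd_sub, Pi.sub_apply, Pi.sub_apply]
    ring)
  have e2 : β + dlt u v - bd src tgt lo = β - bd src tgt lo + dlt u v := by abel
  rw [e2]
  exact this

end P328R.CMax
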