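import Vale.Agent.P328R.BoxMono

/-! Module M3: centre-max for symmetric unimodal product weights. Layer cake:
`f e x = ∑_{a ≡ T e, 0 ≤ a} (f e ((T e + a)/2) - f e ((T e + a)/2 + 1)) * 1[|2 x - T e| ≤ a]`,
then multilinearity (`Finset.prod_sum`) and `box_mono` for the translated boxes. -/

namespace Vale.Agent.P328R

open Finset

variable {V E : Type} [Fintype V] [DecidableEq V] [Fintype E] [DecidableEq E]

theorem cm_Z_eq (src tgt : E → V) (M : ℤ) (f : E → ℤ → ℝ) (β : V → ℤ) :
    Z src tgt M f β = P328R.CMax.Zs src tgt (box E M) f β := by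
  unfold Z P328R.CMax.Zs conf pw
  refine Finset.sum_congr ?_ fun _ _ => rfl
  ext X
  simp only [Finset.mem_filter, cm_bd_eq]

theorem centre (src tgt : E → V) (hne : ∀ e, src e ≠ tgt e) {u v : V} (huv : u ≠ v) {M : ℤ}
    {f : E → ℤ → ℝ} {T : E → ℤ} (hf : ∀ e, SU (T e) (f e)) (hM : ∀ e, Supp M (f e))
    (β : V → ℤ) (s : ℤ) (hs : 0 ≤ s)
    (hβ : ∀ x, 2 * β x = bd src tgt T x + s * dl u v x) :
    Z src tgt M f (β + dl u v) ≤ Z src tgt M f β := by
  rw [cm_Z_eq, cm_Z_eq, cm_dl_eq]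
  have hmem : ∀ e x, f e x ≠ 0 → x ∈ Finset.Icc (-M) M := by
    intro e x hx
    rw [Finset.mem_Icc, ← abs_le]
    by_contra hcon
    exact hx (hM e x (not_le.mp hcon))
  refine P328R.CMax.centre_max src tgt u v (box E M) f T β s hs (fun e => ?_)
    (fun e => (hf e).2.1) (fun e => (hf e).2.2) (fun X hX => ?_) fun z => ?_
  · exact (Finset.finite_toSet (Finset.Icc (-M) M)).subset fun x hx =>
      Finset.mem_coe.mpr (hmem e x hx)
  · unfold box
    rw [Fintype.mem_piFinset]
    exact fun e => hmem e _ (hX e)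
  · rw [← cm_bd_eq, ← cm_dl_eq]
    exact hβ z

/-- The form used for loads. -/
theorem centre_frame (src tgt : E → V) (hne : ∀ e, src e ≠ tgt e) {u v : V} {M : ℤ} {α : V → ℤ}
    {f : E → ℤ → ℝ} {T : E → ℤ} (hF : Frame src tgt M α f T) :
    Z src tgt M f (α + dl u v) ≤ Z src tgt M f α := by
  by_cases huv : u = v
  · subst huv
    have : dl u u = 0 := by
      funext x
      simp [dl]
    rw [this, add_zero]
  · refine centre src tgt hne huv (fun e => (hF.1 e).su (hF.2.1 e)) hF.2.2.1 α 0 le_rfl fun x => ?_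
    rw [hF.2.2.2 x, zero_mul, add_zero]

end Vale.Agent.P328R
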