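import Vale.Agent.P328R.Algo

/-! # P328R: the proposal kernels are symmetric -/

namespace Vale.Agent.P328R

open Vale.Agent.P328RAM

section gen

variable {σ D ι : Type}

/-- a symmetric kernel -/
def Sym (κ : σ → PMF σ) : Prop := ∀ x y, κ x y = κ y x

theorem Sym.map_draw {δ : PMF D} {F : D → σ → σ} (τ : D ≃ D) (hδ : ∀ d, δ (τ d) = δ d)
    (hF : ∀ d x y, F d x = y ↔ F (τ d) y = x) : Sym fun x => δ.map fun d => F d x := by
  classical
  intro x y
  simp only [PMF.map_apply]
  rw [← τ.tsum_eq]
  refine tsum_congr fun d => ?_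
  rw [hδ]
  have h : (y = F (τ d) x) ↔ (x = F d y) := by
    constructor
    · intro h1
      exact ((hF d y x).2 h1.symm).symm
    · intro h1
      exact ((hF d y x).1 h1.symm).symm
  simp only [h]

theorem Sym.mix {μ : PMF ι} {κ : ι → σ → PMF σ} (h : ∀ i, Sym (κ i)) :
    Sym fun x => μ.bind fun i => κ i x := by
  intro x y
  simp only [PMF.bind_apply]
  exact tsum_congr fun i => by rw [h i x y]

theorem Sym.iter {κ : σ → PMF σ} (h : Sym κ) (k : ℕ) : Sym (iterBind κ k) := by
  induction k with
  | zero =>
    intro x y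
    classical
    simp only [iterBind, PMF.pure_apply]
    by_cases hxy : y = x
    · simp [hxy]
    · simp [hxy, Ne.symm hxy]
  | succ k ih =>
    intro x y
    rw [iterBind_succ' κ k y]
    simp only [iterBind, PMF.bind_apply]
    exact tsum_congr fun z => by rw [h x z, ih z y, mul_comm]

theorem Sym.pure : Sym (PMF.pure : σ → PMF σ) := by
  classical
  intro x y
  simp only [PMF.pure_apply]
  by_cases hxy : y = x
  · simp [hxy]
  · simp [hxy, Ne.symm hxy]

end gen

variable {m n : ℕ}

theorem addc_addc (i j : ℕ) (d e : ℤ) (X : Tab m n) :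
    addc i j d (addc i j e X) = addc i j (d + e) X := by
  funext x
  unfold addc
  split_ifs <;> ring

theorem addc_comm (i j k l : ℕ) (d e : ℤ) (X : Tab m n) :
    addc i j d (addc k l e X) = addc k l e (addc i j d X) := by
  funext x
  unfold addc
  ring

@[simp] theorem addc_zero (i j : ℕ) (X : Tab m n) : addc i j 0 X = X := by
  funext x
  unfold addc
  simp

theorem unitM_inv (a b j : ℕ) (X Y : Tab m n) : unitM a b j X = Y ↔ unitM b a j Y = X := by
  unfold unitM
  by_cases h : a < m ∧ b < m ∧ j < n
  · have h' : b < m ∧ a < m ∧ j < n := ⟨h.2.1, h.1, h.2.2⟩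
    rw [if_pos h, if_pos h']
    constructor
    · rintro rfl
      funext x
      unfold addc
      split_ifs <;> ring
    · rintro rfl
      funext x
      unfold addc
      split_ifs <;> ring
  · have h' : ¬ (b < m ∧ a < m ∧ j < n) := fun h1 => h ⟨h1.2.1, h1.1, h1.2.2⟩
    rw [if_neg h, if_neg h']
    exact eq_comm

theorem unitK_sym (p : Par) : Sym (unitK p (m := m) (n := n)) := by
  unfold unitK
  refine Sym.mix fun j => ?_
  -- the pair of rows
  have h : (fun X : Tab m n => (unif p.B).bind fun a => (unif p.B).map fun b => unitM a b j X) =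
      fun X => ((unif p.B).bind fun a => (unif p.B).map fun b => (a, b)).map
        fun d : ℕ × ℕ => unitM d.1 d.2 j X := by
    funext X
    rw [PMF.map_bind]
    simp only [PMF.map_comp]
    rfl
  rw [h]
  refine Sym.map_draw (Equiv.prodComm ℕ ℕ) ?_ ?_
  · rintro ⟨a, b⟩
    classical
    have key : ∀ a b : ℕ, (((unif p.B).bind fun a => (unif p.B).map fun b => (a, b)) :
        PMF (ℕ × ℕ)) (a, b) = unif p.B a * unif p.B b := by
      intro a b
      rw [PMF.bind_apply, tsum_eq_single a]
      · rw [PMF.map_apply, tsum_eq_single b]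
        · simp
        · intro b' hb'
          simp [Ne.symm hb']
      · intro a' ha'
        rw [PMF.map_apply, ENNReal.tsum_eq_zero.2, mul_zero]
        intro b'
        simp [Ne.symm ha']
    simp only [Equiv.prodComm_apply, Prod.swap_prod_mk]
    rw [key, key, mul_comm]
  · rintro ⟨a, b⟩ X Y
    exact unitM_inv a b j X Y

theorem wormK_sym (p : Par) : Sym (wormK p (m := m) (n := n)) := (unitK_sym p).iter 5

theorem bmv_inv (g : Mg) (i j : ℕ) (d : ℤ) (X Y : Tab m n) :
    bmv g i j d X = Y ↔ bmv g i j (-d) Y = X := by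
  have key : ∀ (d : ℤ) (X : Tab m n), bmv g i j (-d) (bmv g i j d X) = X := by
    intro d X
    funext x
    unfold bmv addc
    split_ifs <;> ring
  constructor
  · rintro rfl
    exact key d X
  · rintro rfl
    have := key (-d) Y
    rwa [neg_neg] at this

theorem blockM_inv (p : Par) (g : Mg) (i j : ℕ) (d : ℤ) (X Y : Tab m n) :
    blockM p g i j d X = Y ↔ blockM p g i j (-d) Y = X := by
  unfold blockM
  by_cases h : (i < m ∧ j < n) ∧ Blk p m n g i j
  · rw [if_pos h, if_pos h]
    exact bmv_inv g i j d X Y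
  · rw [if_neg h, if_neg h]
    exact eq_comm

theorem coin_bind_apply {σ : Type} (f : ℤ → PMF σ) (y : σ) :
    (coin.bind f) y = 2⁻¹ * f 0 y + 2⁻¹ * f 1 y := by
  have h : coin.bind f = (PMF.uniformOfFintype Bool).bind fun b => f (if b then 1 else 0) := by
    unfold coin
    rw [PMF.bind_map]
    rfl
  rw [h, PMF.bind_apply, tsum_fintype, Fintype.sum_bool]
  simp [add_comm]

theorem blockK_sym (p : Par) (g : Mg) : Sym (blockK p g (m := m) (n := n)) := by
  unfold blockK
  refine Sym.mix fun i => Sym.mix fun j => ?_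
  have h : (fun X : Tab m n => coin.bind fun s =>
      (unif (lb p g i j)).map fun d : ℕ =>
        blockM p g i j (if s = 0 then (d : ℤ) else -(d : ℤ)) X) =
      fun X => (unif (lb p g i j)).bind fun d => coin.bind fun s => PMF.pure
        (blockM p g i j (if s = 0 then (d : ℤ) else -(d : ℤ)) X) := by
    funext X
    rw [PMF.bind_comm]
    rfl
  rw [h]
  refine Sym.mix fun d => ?_
  intro X Y
  classical
  rw [coin_bind_apply, coin_bind_apply]
  simp only [PMF.pure_apply]
  have h1 : (Y = blockM p g i j (d : ℤ) X) ↔ (X = blockM p g i j (-(d : ℤ)) Y) := by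
    rw [eq_comm, blockM_inv, eq_comm]
  have h2 : (Y = blockM p g i j (-(d : ℤ)) X) ↔ (X = blockM p g i j (d : ℤ) Y) := by
    rw [eq_comm, blockM_inv, eq_comm, neg_neg]
  norm_num only [if_true, if_false]
  simp only [h1, h2]
  exact add_comm _ _

theorem propK_sym (p : Par) (g : Mg) : Sym (propK p g (m := m) (n := n)) := by
  unfold propK
  refine Sym.mix (κ := fun v X => if v = 0 then wormK p X else blockK p g X) fun v => ?_
  intro X Y
  by_cases hv : v = 0
  · simp only [hv, if_true]
    exact wormK_sym p X Y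
  · simp only [hv, if_false]
    exact blockK_sym p g X Y

end Vale.Agent.P328R
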