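import Mathlib

/-! # P328R, section 3: contraction of the functional `ψ(n) = n²(n²-1)` for symmetric unimodal laws -/

namespace Vale.Agent.P328R.Contr8

open Finset

/-- `ψ(n) = n²(n²-1)` -/
def psi4 (n : ℤ) : ℝ := ((n : ℝ) ^ 2) * ((n : ℝ) ^ 2 - 1)

/-- sum over a symmetric interval grows by two symmetric terms -/
theorem sum_Icc_step (t N : ℤ) (h : t ≤ 2 * N + 1) (f : ℤ → ℝ) :
    ∑ x ∈ Icc (t - (N + 1)) (N + 1), f x =
      ∑ x ∈ Icc (t - N) N, f x + (f (t - (N + 1)) + f (N + 1)) := by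
  have h1 : Icc (t - (N + 1)) (N + 1) = insert (t - (N + 1)) (insert (N + 1) (Icc (t - N) N)) := by
    ext x
    simp only [mem_Icc, mem_insert]
    omega
  rw [h1, sum_insert, sum_insert]
  · ring
  · simp only [mem_Icc]; omega
  · simp only [mem_insert, mem_Icc]; omega

theorem sum_Icc_symm (t N : ℤ) (f : ℤ → ℝ) :
    ∑ x ∈ Icc (t - N) N, f x = ∑ x ∈ Icc (t - N) N, f (t - x) := by
  refine Finset.sum_bij' (fun x _ => t - x) (fun x _ => t - x) ?_ ?_ ?_ ?_ ?_
  · intro x hx; simp only [mem_Icc] at hx ⊢; omega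
  · intro x hx; simp only [mem_Icc] at hx ⊢; omega
  · intro x _; ring
  · intro x _; ring
  · intro x _
    congr 1
    ring

/-- The quadratic form test function. -/
def qq (lam D : ℝ) : ℝ := 5 * D ^ 4 + 4 * D ^ 2 - 18 * lam * D ^ 2 + 9 * lam ^ 2

theorem main_nonneg (t : ℤ) (p : ℤ → ℝ) (hs : ∀ x, p (t - x) = p x)
    (hu : ∀ x, t ≤ 2 * x → p (x + 1) ≤ p x) (lam : ℝ) (N : ℤ) (hN : t ≤ 2 * N) :
    p N * ((2 * N - t + 1 : ℝ) * 9 *
      (((2 * N - t : ℝ) * (2 * N - t + 2)) / 3 - lam) ^ 2) ≤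
      ∑ x ∈ Icc (t - N) N, p x * qq lam (2 * x - t) := by
  obtain ⟨c, hc⟩ : ∃ c : ℤ, t = 2 * c ∨ t = 2 * c - 1 := by
    rcases Int.even_or_odd t with ⟨c, h⟩ | ⟨c, h⟩
    · exact ⟨c, Or.inl (by omega)⟩
    · exact ⟨c + 1, Or.inr (by omega)⟩
  have hcN : c ≤ N := by omega
  induction N, hcN using Int.leInduction with
  | base =>
      rcases hc with h | h
      · have e : Icc (t - c) c = {c} := by
          ext x; simp only [mem_Icc, mem_singleton]; omega
        rw [e, sum_singleton]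
        have ht : (t : ℝ) = 2 * c := by exact_mod_cast h
        rw [ht]
        unfold qq
        apply le_of_eq
        ring
      · have e : Icc (t - c) c = {c - 1, c} := by
          ext x; simp only [mem_Icc, mem_insert, mem_singleton]; omega
        rw [e, sum_pair (by omega)]
        have h2 : p (c - 1) = p c := by
          rw [← hs c]; congr 1; omega
        have ht : (t : ℝ) = 2 * c - 1 := by exact_mod_cast h
        rw [ht, h2]
        unfold qq
        push_cast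
        apply le_of_eq
        ring
  | succ N hN' ih =>
      have htN : t ≤ 2 * N := by omega
      have ih' := ih htN
      rw [sum_Icc_step t N (by omega)]
      have h1 : p (t - (N + 1)) = p (N + 1) := hs _
      have h2 : p (N + 1) ≤ p N := hu N htN
      rw [h1]
      have hQ : (0 : ℝ) ≤ (2 * N - t + 1 : ℝ) * 9 *
          (((2 * N - t : ℝ) * (2 * N - t + 2)) / 3 - lam) ^ 2 := by
        have : (0 : ℝ) ≤ 2 * N - t := by
          have : ((t : ℤ) : ℝ) ≤ ((2 * N : ℤ) : ℝ) := by exact_mod_cast htN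
          push_cast at this
          linarith
        positivity
      have h3 := mul_le_mul_of_nonneg_right h2 hQ
      have h4 : p (N + 1) * ((2 * N - t + 1 : ℝ) * 9 *
          (((2 * N - t : ℝ) * (2 * N - t + 2)) / 3 - lam) ^ 2) +
          (p (N + 1) * qq lam (2 * ((t - (N + 1) : ℤ) : ℝ) - t) +
            p (N + 1) * qq lam (2 * ((N + 1 : ℤ) : ℝ) - t)) =
          p (N + 1) * ((2 * ((N + 1 : ℤ) : ℝ) - t + 1 : ℝ) * 9 *
          (((2 * ((N + 1 : ℤ) : ℝ) - t : ℝ) * (2 * ((N + 1 : ℤ) : ℝ) - t + 2)) / 3 - lam) ^ 2) := by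
        unfold qq
        push_cast
        ring
      linarith

/-- Section 3: contraction. -/
theorem contraction (t : ℤ) (p : ℤ → ℝ) (hp : ∀ x, 0 ≤ p x) (hs : ∀ x, p (t - x) = p x)
    (hu : ∀ x, t ≤ 2 * x → p (x + 1) ≤ p x) (S : Finset ℤ) (hS : ∀ x, x ∉ S → p x = 0) :
    ∑ x ∈ S, ∑ y ∈ S, p x * p y * psi4 (x - y) ≤
      (1 / 3) * (∑ x ∈ S, p x) * ∑ x ∈ S, p x * psi4 (2 * x - t) := by
  -- enlarge to a symmetric interval
  obtain ⟨N, hN1, hN2⟩ : ∃ N : ℤ, t ≤ 2 * N ∧ S ⊆ Icc (t - N) N := by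
    refine ⟨∑ x ∈ S, |x| + |t|, ?_, ?_⟩
    · have h1 : 0 ≤ ∑ x ∈ S, |x| := sum_nonneg fun _ _ => abs_nonneg _
      have h2 := le_abs_self t
      have h3 := abs_nonneg t
      linarith
    · intro x hx
      have h1 : |x| ≤ ∑ x ∈ S, |x| := single_le_sum (f := fun x => |x|)
        (fun _ _ => abs_nonneg _) hx
      have h2 := le_abs_self t
      have h3 := le_abs_self x
      have h4 := neg_abs_le x
      have h5 := abs_nonneg t
      rw [mem_Icc]
      constructor <;> linarith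
  set I := Icc (t - N) N with hI
  have hsum : ∀ f : ℤ → ℝ, (∀ x, p x = 0 → f x = 0) → ∑ x ∈ S, f x = ∑ x ∈ I, f x := by
    intro f hf
    exact sum_subset hN2 fun x _ hx => hf x (hS x hx)
  have e1 : ∑ x ∈ S, ∑ y ∈ S, p x * p y * psi4 (x - y) =
      ∑ x ∈ I, ∑ y ∈ I, p x * p y * psi4 (x - y) := by
    rw [hsum (fun x => ∑ y ∈ S, p x * p y * psi4 (x - y)) (fun x hx => by simp [hx])]
    refine sum_congr rfl fun x _ => ?_
    exact hsum (fun y => p x * p y * psi4 (x - y)) (fun y hy => by simp [hy])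
  rw [e1, hsum (fun x => p x) (fun x hx => hx),
    hsum (fun x => p x * psi4 (2 * x - t)) (fun x hx => by simp [hx])]
  -- moments
  set D : ℤ → ℝ := fun x => 2 * (x : ℝ) - t with hD
  set M0 := ∑ x ∈ I, p x with hM0
  set M2 := ∑ x ∈ I, p x * D x ^ 2 with hM2
  set M4 := ∑ x ∈ I, p x * D x ^ 4 with hM4
  have odd0 : ∀ f : ℤ → ℝ, (∀ x, f (t - x) = - f x) → ∑ x ∈ I, f x = 0 := by
    intro f hf
    have h1 := sum_Icc_symm t N f
    simp only [hf] at h1
    rw [sum_neg_distrib] at h1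
    rw [← hI] at h1
    linarith
  have hDs : ∀ x, D (t - x) = - D x := by
    intro x; simp only [hD]; push_cast; ring
  have M1 : ∑ x ∈ I, p x * D x = 0 := odd0 _ fun x => by rw [hs, hDs]; ring
  have M3 : ∑ x ∈ I, p x * D x ^ 3 = 0 := odd0 _ fun x => by rw [hs, hDs]; ring
  have hL : ∑ x ∈ I, ∑ y ∈ I, p x * p y * psi4 (x - y) =
      M0 * M4 / 8 + 3 * M2 ^ 2 / 8 - M0 * M2 / 2 := by
    have h1 : ∀ x y, p x * p y * psi4 (x - y) =
        (1 / 16) * ((p x * D x ^ 4) * p y) - (1 / 4) * ((p x * D x ^ 3) * (p y * D y)) +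
        (6 / 16) * ((p x * D x ^ 2) * (p y * D y ^ 2)) -
        (1 / 4) * ((p x * D x) * (p y * D y ^ 3)) + (1 / 16) * (p x * (p y * D y ^ 4)) -
        (1 / 4) * ((p x * D x ^ 2) * p y) + (1 / 2) * ((p x * D x) * (p y * D y)) -
        (1 / 4) * (p x * (p y * D y ^ 2)) := by
      intro x y
      unfold psi4
      simp only [hD]
      push_cast
      ring
    simp only [h1]
    simp only [sum_add_distrib, sum_sub_distrib, ← mul_sum, ← sum_mul]
    rw [M1, M3, ← hM0, ← hM2, ← hM4]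
    ring
  have hR : ∑ x ∈ I, p x * psi4 (2 * x - t) = M4 - M2 := by
    rw [hM4, hM2, ← sum_sub_distrib]
    refine sum_congr rfl fun x _ => ?_
    unfold psi4
    simp only [hD]
    push_cast
    ring
  rw [hL, hR]
  have hM0n : 0 ≤ M0 := sum_nonneg fun x _ => hp x
  rcases hM0n.eq_or_lt with h0 | h0
  · -- all weights vanish
    have hz : ∀ x ∈ I, p x = 0 := (sum_eq_zero_iff_of_nonneg fun x _ => hp x).1 h0.symm
    have hM2z : M2 = 0 := sum_eq_zero fun x hx => by rw [hz x hx, zero_mul]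
    rw [← h0, hM2z]
    norm_num
  · have key := main_nonneg t p hs hu (M2 / M0) N hN1
    have hpos : 0 ≤ p N * ((2 * N - t + 1 : ℝ) * 9 *
        (((2 * N - t : ℝ) * (2 * N - t + 2)) / 3 - M2 / M0) ^ 2) := by
      have h1 : (0 : ℝ) ≤ 2 * N - t := by
        have : ((t : ℤ) : ℝ) ≤ ((2 * N : ℤ) : ℝ) := by exact_mod_cast hN1
        push_cast at this
        linarith
      have := hp N
      positivity
    have h2 := hpos.trans key
    have h3 : ∑ x ∈ I, p x * qq (M2 / M0) (2 * x - t) =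
        5 * M4 + 4 * M2 - 18 * (M2 / M0) * M2 + 9 * (M2 / M0) ^ 2 * M0 := by
      rw [hM4, hM0, hM2]
      simp only [mul_sum]
      rw [← sum_add_distrib, ← sum_sub_distrib, ← sum_add_distrib]
      refine sum_congr rfl fun x _ => ?_
      unfold qq
      simp only [hD]
      ring
    rw [← hI, h3] at h2
    have h4 : 0 ≤ M0 * (5 * M4 + 4 * M2 - 18 * (M2 / M0) * M2 + 9 * (M2 / M0) ^ 2 * M0) :=
      mul_nonneg h0.le h2
    have h5 : M0 * (5 * M4 + 4 * M2 - 18 * (M2 / M0) * M2 + 9 * (M2 / M0) ^ 2 * M0) =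
        M0 * (5 * M4 + 4 * M2) - 9 * M2 ^ 2 := by
      field_simp
      ring
    rw [h5] at h4
    nlinarith

end Vale.Agent.P328R.Contr8
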