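import Vale.Agent.P328R.Defs
import Vale.Agent.P328R.Contr

/-! Module M6: the one-dimensional contraction (section 3 of the note). -/

namespace Vale.Agent.P328R

open Finset

theorem contraction {t K : ℤ} {p : ℤ → ℝ} (hp : SU t p) (hK : Supp K p) :
    ∑ x ∈ Finset.Icc (-K) K, ∑ y ∈ Finset.Icc (-K) K, p x * p y * psi (x - y) ≤
      (1 / 3) * (∑ x ∈ Finset.Icc (-K) K, p x) *
        ∑ x ∈ Finset.Icc (-K) K, p x * psi (2 * x - t) := by
  have h := Contr8.contraction t p hp.1 hp.2.1 hp.2.2 (Finset.Icc (-K) K) (fun x hx => by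
    apply hK
    by_contra hc
    push_neg at hc
    exact hx (Finset.mem_Icc.2 (abs_le.1 hc)))
  exact h

theorem psi_nonneg (n : ℤ) : 0 ≤ psi n := by
  unfold psi
  rcases eq_or_ne n 0 with rfl | h
  · simp
  · have h1 : (1 : ℤ) ≤ n ^ 2 := by
      have : 0 < n ^ 2 := by positivity
      omega
    have h2 : (1 : ℝ) ≤ (n : ℝ) ^ 2 := by exact_mod_cast h1
    have h3 : (0 : ℝ) ≤ (n : ℝ) ^ 2 - 1 := by linarith
    positivity

theorem psi_ge {n : ℤ} (h : 1 < |n|) : 12 ≤ psi n := by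
  unfold psi
  have h1 : (2 : ℤ) ≤ |n| := h
  have h2 : (2 : ℝ) ≤ |(n : ℝ)| := by exact_mod_cast h1
  have h3 : (4 : ℝ) ≤ (n : ℝ) ^ 2 := by
    rw [← sq_abs]
    nlinarith
  nlinarith

end Vale.Agent.P328R
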