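import Vale.Agent.P328R.LCBasic
import Vale.Agent.P328R.CM61

/-! Module M2a: conformal descent. Proof: induction on `∑ |a e - b e|`; if `w = v` take `a' = a`;
otherwise `bd (a - b) w ≥ 1`, so there is `e` with `src e = w`, `a e > b e` (replace `a e` by
`a e - 1`, `w` by `tgt e`) or with `tgt e = w`, `a e < b e` (replace `a e` by `a e + 1`, `w` by
`src e`). -/

namespace Vale.Agent.P328R

open Finset

variable {V E : Type} [Fintype V] [DecidableEq V] [Fintype E] [DecidableEq E]

theorem cm_bd_eq (src tgt : E → V) (X : E → ℤ) : bd src tgt X = P328R.CMax.bd src tgt X := by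
  funext v
  unfold bd P328R.CMax.bd
  rw [← Finset.sum_sub_distrib]
  refine Finset.sum_congr rfl fun e _ => ?_
  split_ifs <;> ring

omit [Fintype V] in
theorem cm_dl_eq (u v : V) : dl u v = P328R.CMax.dlt u v := by
  funext x
  unfold dl P328R.CMax.dlt
  congr 1
  · exact if_congr eq_comm rfl rfl
  · exact if_congr eq_comm rfl rfl

theorem descent (src tgt : E → V) (hne : ∀ e, src e ≠ tgt e) (v : V) (a b : E → ℤ) (w : V)
    (h : ∀ x, x ≠ v → (if x = w then 1 else 0) ≤ bd src tgt (a - b) x) :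
    ∃ a' : E → ℤ, (∀ e, min (a e) (b e) ≤ a' e ∧ a' e ≤ max (a e) (b e)) ∧
      ∀ x, bd src tgt a' x = bd src tgt a x - dl w v x := by
  rw [cm_bd_eq] at h
  obtain ⟨c, hc, hcc⟩ := P328R.CMax.cm_path src tgt v _ (a - b) w le_rfl
    (fun z hz => le_trans (by split_ifs <;> norm_num) (h z hz))
    (fun hwv => by
      have := h w hwv
      rwa [if_pos rfl] at this)
  refine ⟨a - c, fun e => ?_, fun x => ?_⟩
  · have := hcc e
    simp only [Pi.sub_apply] at this ⊢
    rcases le_total (a e) (b e) with h1 | h1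
    · rw [min_eq_left h1, max_eq_right h1]
      omega
    · rw [min_eq_right h1, max_eq_left h1]
      omega
  · rw [cm_bd_eq, P328R.CMax.cm_bd_sub, Pi.sub_apply, hc, ← cm_bd_eq, ← cm_dl_eq]

end Vale.Agent.P328R
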