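import Mathlib
import Vale.Agent.P328R.PMFTools
import Vale.Agent.P328RAM.Spec

/-! # P328R: expectations under coins and uniform integers -/

namespace Vale.Agent.P328R

open scoped ENNReal
open Finset
open Vale.Agent.P328RAM (coin unif)

theorem EE_coin (F : ℤ → ℝ≥0∞) : EE coin F = (F 1 + F 0) / 2 := by
  unfold coin
  rw [EE_map]
  unfold EE
  rw [tsum_fintype, Fintype.sum_bool]
  simp only [PMF.uniformOfFintype_apply, Fintype.card_bool, Nat.cast_ofNat, if_true,
    Bool.false_eq_true, if_false]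
  rw [ENNReal.div_eq_inv_mul, mul_add]

theorem EE_unif (B : ℕ) (F : ℕ → ℝ≥0∞) :
    EE (unif B) F = (∑ i ∈ range (2 ^ B), F i) / 2 ^ B := by
  have : Nonempty (Fin (2 ^ B)) := ⟨⟨0, by positivity⟩⟩
  have e : unif B = PMF.map (fun i : Fin (2 ^ B) => (i : ℕ)) (PMF.uniformOfFintype _) :=
    PMF.map_id _
  rw [e, EE_map]
  unfold EE
  rw [tsum_fintype]
  simp only [PMF.uniformOfFintype_apply, Fintype.card_fin]
  rw [← mul_sum, Finset.sum_range, ENNReal.div_eq_inv_mul]
  push_cast
  rfl

end Vale.Agent.P328R
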