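import Vale.Agent.P328R.G5

/-! Module G2: repair of near-tables. -/

set_option linter.unusedSectionVars false

namespace Vale.Agent.P328R

open Finset Vale.Agent.P328RAM

variable {p : Par} {m n μ : ℕ} {g : Mg}

namespace G2

theorem row_mv (j : Fin n) (a b : Fin m) (X : Tab m n) (i : Fin m) :
    rowSum (mv j a b X) i = rowSum X i - (if i = a then 1 else 0) + (if i = b then 1 else 0) := by
  unfold rowSum mv
  rw [sum_add_distrib, sum_sub_distrib]
  congr 1
  · congr 1
    by_cases h : i = a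
    · subst h
      rw [if_pos rfl, sum_eq_single j]
      · rw [if_pos rfl]
      · intro k _ hk
        rw [if_neg]
        intro h
        exact hk (Prod.ext_iff.1 h).2
      · intro h; exact absurd (mem_univ j) h
    · rw [if_neg h]
      refine sum_eq_zero fun k _ => ?_
      rw [if_neg]
      intro h1
      exact h (Prod.ext_iff.1 h1).1
  · by_cases h : i = b
    · subst h
      rw [if_pos rfl, sum_eq_single j]
      · rw [if_pos rfl]
      · intro k _ hk
        rw [if_neg]
        intro h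
        exact hk (Prod.ext_iff.1 h).2
      · intro h; exact absurd (mem_univ j) h
    · rw [if_neg h]
      refine sum_eq_zero fun k _ => ?_
      rw [if_neg]
      intro h1
      exact h (Prod.ext_iff.1 h1).1

theorem col_mv (j : Fin n) (a b : Fin m) (X : Tab m n) (k : Fin n) :
    colSum (mv j a b X) k = colSum X k := by
  unfold colSum mv
  rw [sum_add_distrib, sum_sub_distrib]
  have h : ∀ a : Fin m, ∑ i : Fin m, (if (i, k) = (a, j) then (1 : ℤ) else 0) =
      if k = j then 1 else 0 := by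
    intro a
    by_cases h : k = j
    · subst h
      rw [if_pos rfl, sum_eq_single a]
      · rw [if_pos rfl]
      · intro i _ hi
        rw [if_neg]
        intro h
        exact hi (Prod.ext_iff.1 h).1
      · intro h; exact absurd (mem_univ a) h
    · rw [if_neg h]
      refine sum_eq_zero fun i _ => ?_
      rw [if_neg]
      intro h1
      exact h (Prod.ext_iff.1 h1).2
  rw [h, h]
  ring

theorem mv_self (j : Fin n) (a : Fin m) (X : Tab m n) : mv j a a X = X := by
  funext e
  unfold mv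
  ring

/-- weight comparison -/
theorem core (hP : PV p m n μ) (hG : GV m n g) {X X' : Tab m n} (hX : Near (al m n g) X)
    (h0 : 0 < pw (wR p m n g) X)
    (hX' : bd (gs (Fin m) (Fin n)) (gt (Fin m) (Fin n)) X' = al m n g)
    (hnp : ∀ e : Fin m × Fin n, ¬ Piv p m n g (e.1 : ℕ) (e.2 : ℕ) →
      wR p m n g e (X e) ≤ wR p m n g e (X' e))
    (e0 : Fin m × Fin n)
    (hpiv : ∀ e : Fin m × Fin n, Piv p m n g (e.1 : ℕ) (e.2 : ℕ) → e ≠ e0 → X e ≤ X' e)
    (he0 : X e0 - 1 ≤ X' e0) :
    pw (wR p m n g) X ≤ 2 * pw (wR p m n g) X' := by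
  have hpos : ∀ e : Fin m × Fin n, 0 < wR p m n g e (X e) := by
    intro e
    have h1 := prod_ne_zero_iff.1 h0.ne' e (mem_univ e)
    refine lt_of_le_of_ne ?_ (Ne.symm h1)
    unfold wR
    exact Nat.cast_nonneg _
  have hbox : ∀ e : Fin m × Fin n, ¬ Piv p m n g (e.1 : ℕ) (e.2 : ℕ) →
      0 ≤ X e ∧ X e ≤ sg g (e.1 : ℕ) (e.2 : ℕ) := fun e he => box_of_pw h0.ne' he
  have hbox' : ∀ e : Fin m × Fin n, ¬ Piv p m n g (e.1 : ℕ) (e.2 : ℕ) →
      0 ≤ X' e ∧ X' e ≤ sg g (e.1 : ℕ) (e.2 : ℕ) := by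
    intro e he
    have h1 : 0 < wR p m n g e (X' e) := lt_of_lt_of_le (hpos e) (hnp e he)
    have h2 : cw p m n g (e.1 : ℕ) (e.2 : ℕ) (X' e) ≠ 0 := by
      intro hc
      unfold wR at h1
      rw [hc, Nat.cast_zero] at h1
      exact lt_irrefl _ h1
    unfold cw at h2
    rw [if_neg he] at h2
    by_cases hB : Blk p m n g (e.1 : ℕ) (e.2 : ℕ)
    · rw [if_pos hB] at h2
      by_cases hc : 0 ≤ X' e ∧ X' e < sg g (e.1 : ℕ) (e.2 : ℕ)
      · exact ⟨hc.1, hc.2.le⟩
      · rw [if_neg hc] at h2; exact absurd rfl h2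
    · rw [if_neg hB] at h2
      by_cases hc : 0 ≤ X' e ∧ X' e ≤ sc g (e.1 : ℕ) (e.2 : ℕ)
      · exact ⟨hc.1, hc.2.trans (G5.sc_lt_sg (hc.1.trans hc.2)).le⟩
      · rw [if_neg hc] at h2; exact absurd rfl h2
  have hNear' : Near (al m n g) X' := by
    refine ⟨ri m g hP.hm, ri m g hP.hm, ?_⟩
    rw [hX']
    funext v
    simp [dl]
  have hr := reach_near hP hG hX hbox
  have hr' := reach_near hP hG hNear' hbox'
  have hLle : ∀ e : Fin m × Fin n, Piv p m n g (e.1 : ℕ) (e.2 : ℕ) →
      |X' e| ≤ Ls p m n g (e.1 : ℕ) (e.2 : ℕ) := by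
    intro e he
    have h1 := hr' e he
    have h2 := abs_nonneg (X' e)
    linarith
  have hge : ∀ e : Fin m × Fin n, e ≠ e0 → wR p m n g e (X e) ≤ wR p m n g e (X' e) := by
    intro e he
    by_cases h : Piv p m n g (e.1 : ℕ) (e.2 : ℕ)
    · exact cw_mono hP h (hLle e h) (hpiv e h he)
    · exact hnp e h
  have hge0 : wR p m n g e0 (X e0) ≤ 2 * wR p m n g e0 (X' e0) := by
    have hnn : 0 ≤ wR p m n g e0 (X' e0) := by unfold wR; exact Nat.cast_nonneg _
    by_cases h : Piv p m n g (e0.1 : ℕ) (e0.2 : ℕ)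
    · rcases le_or_gt (X e0) (X' e0) with h1 | h1
      · have := cw_mono hP h (hLle e0 h) h1
        unfold wR at hnn ⊢
        linarith
      · have h2 : X' e0 = X e0 - 1 := by omega
        have h3 := cw_lip hP hG h (hr e0 h) (hr' e0 h) h1.le
        have e1 : (((X e0 - X' e0 : ℤ)) : ℝ) = 1 := by
          have : X e0 - X' e0 = 1 := by omega
          rw [this]; norm_num
        rw [e1] at h3
        have hL := G5.Ls_pos hP g (e0.1 : ℕ) (e0.2 : ℕ)
        have hLr : (0 : ℝ) < (Ls p m n g (e0.1 : ℕ) (e0.2 : ℕ) : ℝ) := by exact_mod_cast hL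
        have h4 : (4 * p.q : ℤ) ≤ Ls p m n g (e0.1 : ℕ) (e0.2 : ℕ) := by
          have h5 : p.Q < sc g (e0.1 : ℕ) (e0.2 : ℕ) := by
            obtain ⟨⟨k1, k2⟩, k3 | k3⟩ := h
            · unfold sc; rw [k3.1]; exact lt_min k1 k3.2
            · unfold sc; rw [k3.1]; exact lt_min k3.2 k2
          have h6 : 0 ≤ sc g (e0.1 : ℕ) (e0.2 : ℕ) := le_min (hG.r0 e0.1) (hG.c0 e0.2)
          have h7 := G5.sc_lt_sg h6
          have h8 := G5.le_Ls hP g (e0.1 : ℕ) (e0.2 : ℕ)
          have h9 := G5.Lp_pos hP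
          have h10 := hP.Q
          have h11 : (p.q : ℤ) ≤ 2 ^ p.k1 := by exact_mod_cast hP.k1
          have h12 : (1 : ℤ) ≤ (μ : ℤ) ^ 2 := by
            have : (1 : ℤ) ≤ (μ : ℤ) := by have := hP.mu; omega
            exact one_le_pow₀ this
          have h13 : (0 : ℤ) < 2 ^ p.k1 := by positivity
          have h14 : (2 : ℤ) ^ p.k1 ≤ 2 ^ p.k1 * (μ : ℤ) ^ 2 := by nlinarith
          have h15 : sg g (e0.1 : ℕ) (e0.2 : ℕ) ≤ p.Lp * sg g (e0.1 : ℕ) (e0.2 : ℕ) := by
            have := G5.sg_pos g (e0.1 : ℕ) (e0.2 : ℕ)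
            nlinarith
          linarith
        have h4' : 4 * (p.q : ℝ) ≤ (Ls p m n g (e0.1 : ℕ) (e0.2 : ℕ) : ℝ) := by exact_mod_cast h4
        have h5 : (1 : ℝ) / 2 ≤ 1 - 2 * (p.q : ℝ) * 1 / (Ls p m n g (e0.1 : ℕ) (e0.2 : ℕ) : ℝ) := by
          have : 2 * (p.q : ℝ) * 1 / (Ls p m n g (e0.1 : ℕ) (e0.2 : ℕ) : ℝ) ≤ 1 / 2 := by
            rw [div_le_iff₀ hLr]
            linarith
          linarith
        have h6 : (0 : ℝ) ≤ (cw p m n g (e0.1 : ℕ) (e0.2 : ℕ) (X e0) : ℝ) := Nat.cast_nonneg _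
        have h7 := mul_le_mul_of_nonneg_right h5 h6
        have h8 := h7.trans h3
        unfold wR
        linarith
    · have := hnp e0 h
      linarith
  unfold pw
  rw [← mul_prod_erase univ _ (mem_univ e0), ← mul_prod_erase univ _ (mem_univ e0)]
  have h1 : ∏ e ∈ univ.erase e0, wR p m n g e (X e) ≤ ∏ e ∈ univ.erase e0, wR p m n g e (X' e) :=
    prod_le_prod (fun e _ => (hpos e).le) fun e he => hge e (ne_of_mem_erase he)
  have h2 : 0 ≤ ∏ e ∈ univ.erase e0, wR p m n g e (X e) := prod_nonneg fun e _ => (hpos e).le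
  calc wR p m n g e0 (X e0) * ∏ e ∈ univ.erase e0, wR p m n g e (X e)
      ≤ (2 * wR p m n g e0 (X' e0)) * ∏ e ∈ univ.erase e0, wR p m n g e (X' e) :=
        mul_le_mul hge0 h1 h2 ((hpos e0).le.trans hge0)
    _ = _ := by ring

theorem cw_small {i j : ℕ} (h1 : ¬ Piv p m n g i j) (h2 : ¬ Blk p m n g i j) (x : ℤ) :
    cw p m n g i j x = if 0 ≤ x ∧ x ≤ sc g i j then 1 else 0 := by
  unfold cw
  rw [if_neg h1, if_neg h2]

/-- one-cell comparison in a small cell -/
theorem small_le {e : Fin m × Fin n} (h1 : ¬ Piv p m n g (e.1 : ℕ) (e.2 : ℕ))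
    (h2 : ¬ Blk p m n g (e.1 : ℕ) (e.2 : ℕ)) {x y : ℤ} (hy : 0 ≤ y)
    (hy' : y ≤ x ∨ y ≤ sc g (e.1 : ℕ) (e.2 : ℕ)) :
    wR p m n g e x ≤ wR p m n g e y := by
  unfold wR
  rw [cw_small h1 h2, cw_small h1 h2]
  by_cases hx : 0 ≤ x ∧ x ≤ sc g (e.1 : ℕ) (e.2 : ℕ)
  · rw [if_pos hx, if_pos]
    refine ⟨hy, ?_⟩
    rcases hy' with h | h
    · exact h.trans hx.2
    · exact h
  · rw [if_neg hx]
    exact Nat.cast_le.2 (Nat.zero_le _)

end G2

/-- **G2.** -/
theorem rep_wR (hP : PV p m n μ) (hG : GV m n g) :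
    Rep (al m n g) (wR p m n g) (DB p m n g) 2 := by
  classical
  intro X hX h0
  obtain ⟨a, b, hab⟩ := id hX
  obtain ⟨hrow, hcol⟩ := bd_eq_near.1 hab
  set I := ri m g hP.hm with hI
  set J := cj n g hP.hn with hJ
  have hIv : (I : ℕ) = is m g := rfl
  have hJv : (J : ℕ) = js n g := rfl
  have hbox : ∀ e : Fin m × Fin n, ¬ Piv p m n g (e.1 : ℕ) (e.2 : ℕ) →
      0 ≤ X e ∧ X e ≤ sg g (e.1 : ℕ) (e.2 : ℕ) := fun e he => box_of_pw h0.ne' he
  have hDB : ∀ e ∈ DB p m n g, Blk p m n g (e.1 : ℕ) (e.2 : ℕ) := by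
    intro e he
    unfold DB at he
    exact (mem_filter.1 he).2
  -- the trivial case
  by_cases hne : a = b
  · subst hne
    refine ⟨(J, I, I), (J, I, I), ?_, ?_, ?_⟩
    · simp only [mvs, G2.mv_self]
      rw [hab]
      funext v
      simp [dl]
    · simp only [mvs, G2.mv_self]
      linarith
    · intro e _
      simp only [mvs, G2.mv_self]
  -- exactness after one move
  have hex : ∀ j : Fin n, bd (gs (Fin m) (Fin n)) (gt (Fin m) (Fin n)) (mv j a b X) = al m n g := by
    intro j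
    rw [bd_eq_al]
    constructor
    · intro i
      rw [G2.row_mv, hrow]
      ring
    · intro k
      rw [G2.col_mv, hcol]
  -- upper bounds
  have hub_row : (∀ k : Fin n, ¬ Piv p m n g (b : ℕ) (k : ℕ)) → ∀ k : Fin n, X (b, k) + 1 ≤ g.r b := by
    intro hnp k
    have h1 := hrow b
    rw [if_neg (Ne.symm hne), if_pos rfl] at h1
    have h2 : X (b, k) ≤ rowSum X b := by
      unfold rowSum
      exact single_le_sum (f := fun k : Fin n => X (b, k)) (fun k _ => (hbox (b, k) (hnp k)).1)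
        (mem_univ k)
    linarith
  have hub_col : ∀ j : Fin n, 1 ≤ X (a, j) → (∀ i : Fin m, ¬ Piv p m n g (i : ℕ) (j : ℕ)) →
      X (b, j) + 1 ≤ g.c j := by
    intro j hj hnp
    have h1 := hcol j
    have h2 : X (a, j) + X (b, j) ≤ colSum X j := by
      unfold colSum
      rw [← add_sum_erase univ _ (mem_univ a)]
      have h3 : X (b, j) ≤ ∑ i ∈ univ.erase a, X (i, j) :=
        single_le_sum (f := fun i : Fin m => X (i, j)) (fun i _ => (hbox (i, j) (hnp i)).1)
          (mem_erase.2 ⟨Ne.symm hne, mem_univ b⟩)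
      linarith
    linarith
  -- values after one move
  have hv1 : ∀ j : Fin n, mv j a b X (a, j) = X (a, j) - 1 := by
    intro j
    unfold mv
    rw [if_pos rfl, if_neg (fun h => hne (Prod.ext_iff.1 h).1)]
    ring
  have hv2 : ∀ j : Fin n, mv j a b X (b, j) = X (b, j) + 1 := by
    intro j
    unfold mv
    rw [if_neg (fun h => hne (Prod.ext_iff.1 h).1.symm), if_pos rfl]
    ring
  have hv3 : ∀ j : Fin n, ∀ e : Fin m × Fin n, e ≠ (a, j) → e ≠ (b, j) → mv j a b X e = X e := by
    intro j e h1 h2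
    unfold mv
    rw [if_neg h1, if_neg h2]
    ring
  by_cases hA : (p.Q < g.r (is m g) ∧ p.Q < g.c (js n g)) ∧ p.Q < g.r a
  · -- row `a` is big and there are pivots
    have hpa : Piv p m n g (a : ℕ) (J : ℕ) := ⟨hA.1, Or.inr ⟨rfl, hA.2⟩⟩
    have hsm : ¬ Piv p m n g (b : ℕ) (J : ℕ) → X (b, J) + 1 ≤ sc g (b : ℕ) (J : ℕ) := by
      intro hp
      have hrb : ¬ p.Q < g.r b := fun h => hp ⟨hA.1, Or.inr ⟨rfl, h⟩⟩
      have hnp : ∀ k : Fin n, ¬ Piv p m n g (b : ℕ) (k : ℕ) := by
        rintro k ⟨_, h | h⟩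
        · apply hrb; rw [h.1]; exact hA.1.1
        · exact hrb h.2
      have h1 := hub_row hnp J
      have h2 : p.Q < g.c (J : ℕ) := hA.1.2
      unfold sc
      refine le_min h1 ?_
      linarith [not_lt.1 hrb]
    refine ⟨(J, a, b), (J, b, b), ?_, ?_, ?_⟩
    · simp only [mvs, G2.mv_self]
      exact hex J
    · simp only [mvs, G2.mv_self]
      refine G2.core hP hG hX h0 (hex J) ?_ (a, J) ?_ ?_
      · intro e he
        by_cases h1 : e = (a, J)
        · subst h1; exact absurd hpa he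
        · by_cases h2 : e = (b, J)
          · subst h2
            rw [hv2]
            refine G2.small_le he (fun h => h.2.1 rfl) ?_ (Or.inr (hsm he))
            have := (hbox _ he).1
            linarith
          · rw [hv3 J e h1 h2]
      · intro e _ he
        by_cases h2 : e = (b, J)
        · subst h2
          rw [hv2]
          linarith
        · rw [hv3 J e he h2]
      · rw [hv1]
    · intro e he
      simp only [mvs, G2.mv_self]
      refine hv3 J e ?_ ?_
      · rintro rfl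
        exact (hDB _ he).2.1 rfl
      · rintro rfl
        exact (hDB _ he).2.1 rfl
  -- row `a` has no pivots
  have hnpa : ∀ k : Fin n, ¬ Piv p m n g (a : ℕ) (k : ℕ) := by
    rintro k ⟨h, h1 | h1⟩
    · apply hA; rw [h1.1]; exact ⟨h, h.1⟩
    · exact hA ⟨h, h1.2⟩
  have hnba : ∀ k : Fin n, ¬ Blk p m n g (a : ℕ) (k : ℕ) := by
    rintro k ⟨h1, h2⟩
    apply hA
    refine ⟨⟨h1.2.trans_le (am_max _ _ _ a.2), h2.2.trans_le (am_max _ _ _ k.2)⟩, h1.2⟩
  obtain ⟨j, hj⟩ : ∃ j : Fin n, 1 ≤ X (a, j) := by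
    by_contra hcon
    push Not at hcon
    have h1 := hrow a
    rw [if_pos rfl, if_neg hne] at h1
    have h2 : rowSum X a ≤ 0 := by
      unfold rowSum
      exact sum_nonpos fun k _ => by have := hcon k; omega
    have := hG.r0 a
    linarith
  by_cases hbj : Blk p m n g (b : ℕ) (j : ℕ)
  · -- two moves
    have hbig : p.Q < g.r (is m g) ∧ p.Q < g.c (js n g) :=
      ⟨hbj.1.2.trans_le (am_max _ _ _ b.2), hbj.2.2.trans_le (am_max _ _ _ j.2)⟩
    have haI : a ≠ I := by
      intro h
      apply hnpa J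
      rw [h]
      exact ⟨hbig, Or.inr ⟨rfl, hbig.1⟩⟩
    have hbI : b ≠ I := by
      intro h
      exact hbj.1.1 (by rw [h]; exact hIv)
    have hjJ : j ≠ J := by
      intro h
      exact hbj.2.1 (by rw [h]; exact hJv)
    set X' := mv J I b (mv j a I X) with hX'def
    have w : ∀ e : Fin m × Fin n, X' e = X e - (if e = (a, j) then 1 else 0) +
        (if e = (I, j) then 1 else 0) - (if e = (I, J) then 1 else 0) +
        (if e = (b, J) then 1 else 0) := by
      intro e
      rw [hX'def]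
      unfold mv
      ring
    have n1 : ((a, j) : Fin m × Fin n) ≠ (I, j) := fun h => haI (Prod.ext_iff.1 h).1
    have n2 : ((a, j) : Fin m × Fin n) ≠ (I, J) := fun h => haI (Prod.ext_iff.1 h).1
    have n3 : ((a, j) : Fin m × Fin n) ≠ (b, J) := fun h => hne (Prod.ext_iff.1 h).1
    have n4 : ((I, j) : Fin m × Fin n) ≠ (I, J) := fun h => hjJ (Prod.ext_iff.1 h).2
    have n5 : ((I, j) : Fin m × Fin n) ≠ (b, J) := fun h => hjJ (Prod.ext_iff.1 h).2
    have n6 : ((I, J) : Fin m × Fin n) ≠ (b, J) := fun h => hbI (Prod.ext_iff.1 h).1.symm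
    have w1 : X' (a, j) = X (a, j) - 1 := by
      rw [w, if_pos rfl, if_neg n1, if_neg n2, if_neg n3]; ring
    have w2 : X' (I, j) = X (I, j) + 1 := by
      rw [w, if_neg n1.symm, if_pos rfl, if_neg n4, if_neg n5]; ring
    have w3 : X' (I, J) = X (I, J) - 1 := by
      rw [w, if_neg n2.symm, if_neg n4.symm, if_pos rfl, if_neg n6]; ring
    have w4 : X' (b, J) = X (b, J) + 1 := by
      rw [w, if_neg n3.symm, if_neg n5.symm, if_neg n6.symm, if_pos rfl]; ring
    have w5 : ∀ e : Fin m × Fin n, e ≠ (a, j) → e ≠ (I, j) → e ≠ (I, J) → e ≠ (b, J) →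
        X' e = X e := by
      intro e h1 h2 h3 h4
      rw [w, if_neg h1, if_neg h2, if_neg h3, if_neg h4]; ring
    have hpIj : Piv p m n g (I : ℕ) (j : ℕ) := ⟨hbig, Or.inl ⟨rfl, hbj.2.2⟩⟩
    have hpIJ : Piv p m n g (I : ℕ) (J : ℕ) := ⟨hbig, Or.inl ⟨rfl, hbig.2⟩⟩
    have hpbJ : Piv p m n g (b : ℕ) (J : ℕ) := ⟨hbig, Or.inr ⟨rfl, hbj.1.2⟩⟩
    have hbd : bd (gs (Fin m) (Fin n)) (gt (Fin m) (Fin n)) X' = al m n g := by
      rw [bd_eq_al, hX'def]
      constructor
      · intro i
        rw [G2.row_mv, G2.row_mv, hrow]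
        ring
      · intro k
        rw [G2.col_mv, G2.col_mv, hcol]
    refine ⟨(j, a, I), (J, I, b), ?_, ?_, ?_⟩
    · simp only [mvs]
      exact hbd
    · simp only [mvs]
      refine G2.core hP hG hX h0 hbd ?_ (I, J) ?_ ?_
      · intro e he
        have h2 : e ≠ (I, j) := by rintro rfl; exact he hpIj
        have h3 : e ≠ (I, J) := by rintro rfl; exact he hpIJ
        have h4 : e ≠ (b, J) := by rintro rfl; exact he hpbJ
        by_cases h1 : e = (a, j)
        · subst h1
          rw [← hX'def, w1]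
          refine G2.small_le he (hnba j) ?_ (Or.inl ?_)
          · linarith
          · linarith
        · rw [← hX'def, w5 e h1 h2 h3 h4]
      · intro e he he0
        rw [← hX'def]
        by_cases h1 : e = (a, j)
        · subst h1; exact absurd he (hnpa j)
        by_cases h2 : e = (I, j)
        · subst h2; rw [w2]; linarith
        by_cases h4 : e = (b, J)
        · subst h4; rw [w4]; linarith
        rw [w5 e h1 h2 he0 h4]
      · rw [← hX'def, w3]
    · intro e he
      simp only [mvs]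
      rw [← hX'def]
      have hB := hDB e he
      refine w5 e ?_ ?_ ?_ ?_
      · rintro rfl; exact hnba j hB
      · rintro rfl; exact hB.1.1 rfl
      · rintro rfl; exact hB.1.1 rfl
      · rintro rfl; exact hB.2.1 rfl
  · -- one move
    have hsm : ¬ Piv p m n g (b : ℕ) (j : ℕ) → X (b, j) + 1 ≤ sc g (b : ℕ) (j : ℕ) := by
      intro hp
      by_cases hbig : p.Q < g.r (is m g) ∧ p.Q < g.c (js n g)
      · by_cases hrb : p.Q < g.r b
        · -- column `j` is small
          have hcj : ¬ p.Q < g.c j := by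
            intro h
            by_cases hb1 : (b : ℕ) = is m g
            · exact hp ⟨hbig, Or.inl ⟨hb1, h⟩⟩
            · by_cases hj1 : (j : ℕ) = js n g
              · exact hp ⟨hbig, Or.inr ⟨hj1, hrb⟩⟩
              · exact hbj ⟨⟨hb1, hrb⟩, ⟨hj1, h⟩⟩
          have hnp : ∀ i : Fin m, ¬ Piv p m n g (i : ℕ) (j : ℕ) := by
            rintro i ⟨_, h | h⟩
            · exact hcj h.2
            · apply hcj; rw [h.1]; exact hbig.2
          have h1 := hub_col j hj hnp
          unfold sc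
          refine le_min ?_ h1
          linarith [not_lt.1 hcj]
        · have hnp : ∀ k : Fin n, ¬ Piv p m n g (b : ℕ) (k : ℕ) := by
            rintro k ⟨_, h | h⟩
            · apply hrb; rw [h.1]; exact hbig.1
            · exact hrb h.2
          have h1 := hub_row hnp j
          by_cases hcj : p.Q < g.c j
          · unfold sc
            refine le_min h1 ?_
            linarith [not_lt.1 hrb]
          · have hnp' : ∀ i : Fin m, ¬ Piv p m n g (i : ℕ) (j : ℕ) := by
              rintro i ⟨_, h | h⟩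
              · exact hcj h.2
              · apply hcj; rw [h.1]; exact hbig.2
            exact le_min h1 (hub_col j hj hnp')
      · exact le_min (hub_row (fun k h => hbig h.1) j) (hub_col j hj fun i h => hbig h.1)
    refine ⟨(j, a, b), (j, b, b), ?_, ?_, ?_⟩
    · simp only [mvs, G2.mv_self]
      exact hex j
    · simp only [mvs, G2.mv_self]
      refine G2.core hP hG hX h0 (hex j) ?_ (a, j) ?_ ?_
      · intro e he
        by_cases h1 : e = (a, j)
        · subst h1
          rw [hv1]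
          refine G2.small_le he (hnba j) ?_ (Or.inl ?_)
          · linarith
          · linarith
        · by_cases h2 : e = (b, j)
          · subst h2
            rw [hv2]
            refine G2.small_le he hbj ?_ (Or.inr (hsm he))
            have := (hbox _ he).1
            linarith
          · rw [hv3 j e h1 h2]
      · intro e _ he
        by_cases h2 : e = (b, j)
        · subst h2
          rw [hv2]
          linarith
        · rw [hv3 j e he h2]
      · rw [hv1]
    · intro e he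
      simp only [mvs, G2.mv_self]
      refine hv3 j e ?_ ?_
      · rintro rfl
        exact hnba j (hDB _ he)
      · rintro rfl
        exact hbj (hDB _ he)

end Vale.Agent.P328R
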