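import Vale.Agent.P328R.G5

/-! Module G3: differences of tables with the same block cells. -/

set_option linter.unusedSectionVars false

namespace Vale.Agent.P328R

open Finset Vale.Agent.P328RAM

variable {p : Par} {m n μ : ℕ} {g : Mg}

/-- **G3.** Exact tables of positive weight with the same block cells differ by at most `m n Q`. -/
theorem diff_wR (hP : PV p m n μ) (_hG : GV m n g) {X Y : Tab m n}
    (hX : bd (gs (Fin m) (Fin n)) (gt (Fin m) (Fin n)) X = al m n g)
    (hY : bd (gs (Fin m) (Fin n)) (gt (Fin m) (Fin n)) Y = al m n g)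
    (h1 : pw (wR p m n g) X ≠ 0) (h2 : pw (wR p m n g) Y ≠ 0)
    (hD : ∀ e ∈ DB p m n g, X e = Y e) (e : Fin m × Fin n) : |X e - Y e| ≤ m * n * p.Q := by
  classical
  have hQ : 0 ≤ p.Q := le_trans (by positivity) hP.Q
  have hm1 : (1 : ℤ) ≤ m := by exact_mod_cast hP.hm
  have hn1 : (1 : ℤ) ≤ n := by exact_mod_cast hP.hn
  obtain ⟨hXr, hXc⟩ := bd_eq_al.1 hX
  obtain ⟨hYr, hYc⟩ := bd_eq_al.1 hY
  set I := ri m g hP.hm with hI
  set J := cj n g hP.hn with hJ
  have hmn : p.Q ≤ m * n * p.Q := by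
    have h3 : (1 : ℤ) ≤ m * n := by nlinarith
    nlinarith
  -- cells which are neither pivots nor block cells
  have hsc : ∀ f : Fin m × Fin n, ¬ Piv p m n g (f.1 : ℕ) (f.2 : ℕ) →
      ¬ Blk p m n g (f.1 : ℕ) (f.2 : ℕ) → sc g (f.1 : ℕ) (f.2 : ℕ) ≤ p.Q := by
    intro f hf hB
    unfold sc
    by_contra hcon
    push Not at hcon
    obtain ⟨h3, h4⟩ := lt_min_iff.1 hcon
    have h5 : p.Q < g.r (is m g) := h3.trans_le (am_max _ _ _ f.1.2)
    have h6 : p.Q < g.c (js n g) := h4.trans_le (am_max _ _ _ f.2.2)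
    by_cases h7 : (f.1 : ℕ) = is m g
    · exact hf ⟨⟨h5, h6⟩, Or.inl ⟨h7, h4⟩⟩
    · by_cases h8 : (f.2 : ℕ) = js n g
      · exact hf ⟨⟨h5, h6⟩, Or.inr ⟨h8, h3⟩⟩
      · exact hB ⟨⟨h7, h3⟩, ⟨h8, h4⟩⟩
  have hval : ∀ {Z : Tab m n}, pw (wR p m n g) Z ≠ 0 → ∀ f : Fin m × Fin n,
      ¬ Piv p m n g (f.1 : ℕ) (f.2 : ℕ) → ¬ Blk p m n g (f.1 : ℕ) (f.2 : ℕ) →
      0 ≤ Z f ∧ Z f ≤ p.Q := by
    intro Z hZ f hf hB
    have h3 := prod_ne_zero_iff.1 hZ f (mem_univ f)
    have h4 : cw p m n g (f.1 : ℕ) (f.2 : ℕ) (Z f) ≠ 0 := by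
      intro hc
      apply h3
      unfold wR
      rw [hc, Nat.cast_zero]
    unfold cw at h4
    rw [if_neg hf, if_neg hB] at h4
    by_cases hc : 0 ≤ Z f ∧ Z f ≤ sc g (f.1 : ℕ) (f.2 : ℕ)
    · exact ⟨hc.1, hc.2.trans (hsc f hf hB)⟩
    · rw [if_neg hc] at h4; exact absurd rfl h4
  have hnp : ∀ f : Fin m × Fin n, ¬ Piv p m n g (f.1 : ℕ) (f.2 : ℕ) → |X f - Y f| ≤ p.Q := by
    intro f hf
    by_cases hB : Blk p m n g (f.1 : ℕ) (f.2 : ℕ)
    · have h3 : f ∈ DB p m n g := by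
        unfold DB
        exact mem_filter.2 ⟨mem_univ f, hB⟩
      rw [hD f h3, sub_self, abs_zero]
      exact hQ
    · have h3 := hval h1 f hf hB
      have h4 := hval h2 f hf hB
      rw [abs_le]
      constructor <;> linarith [h3.1, h3.2, h4.1, h4.2]
  -- the difference of a cell is the sum over the rest of its line
  have hrow : ∀ (i : Fin m) (k : Fin n), |X (i, k) - Y (i, k)| ≤
      ∑ j ∈ univ.erase k, |X (i, j) - Y (i, j)| := by
    intro i k
    have h3 : X (i, k) + ∑ j ∈ univ.erase k, X (i, j) = g.r i := by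
      rw [← hXr i]
      exact add_sum_erase univ (fun j => X (i, j)) (mem_univ k)
    have h4 : Y (i, k) + ∑ j ∈ univ.erase k, Y (i, j) = g.r i := by
      rw [← hYr i]
      exact add_sum_erase univ (fun j => Y (i, j)) (mem_univ k)
    have h5 : X (i, k) - Y (i, k) = -∑ j ∈ univ.erase k, (X (i, j) - Y (i, j)) := by
      rw [sum_sub_distrib]
      linarith
    rw [h5, abs_neg]
    exact abs_sum_le_sum_abs _ _
  have hcol : ∀ (k : Fin m) (j : Fin n), |X (k, j) - Y (k, j)| ≤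
      ∑ i ∈ univ.erase k, |X (i, j) - Y (i, j)| := by
    intro k j
    have h3 : X (k, j) + ∑ i ∈ univ.erase k, X (i, j) = g.c j := by
      rw [← hXc j]
      exact add_sum_erase univ (fun i => X (i, j)) (mem_univ k)
    have h4 : Y (k, j) + ∑ i ∈ univ.erase k, Y (i, j) = g.c j := by
      rw [← hYc j]
      exact add_sum_erase univ (fun i => Y (i, j)) (mem_univ k)
    have h5 : X (k, j) - Y (k, j) = -∑ i ∈ univ.erase k, (X (i, j) - Y (i, j)) := by
      rw [sum_sub_distrib]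
      linarith
    rw [h5, abs_neg]
    exact abs_sum_le_sum_abs _ _
  have hcm : (((univ.erase I).card : ℕ) : ℤ) ≤ m := by
    have : (univ.erase I).card ≤ m := by
      rw [card_erase_of_mem (mem_univ I), card_univ, Fintype.card_fin]
      omega
    exact_mod_cast this
  have hcn : (((univ.erase J).card : ℕ) : ℤ) ≤ n := by
    have : (univ.erase J).card ≤ n := by
      rw [card_erase_of_mem (mem_univ J), card_univ, Fintype.card_fin]
      omega
    exact_mod_cast this
  -- pivots in the largest column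
  have hJc : ∀ i : Fin m, i ≠ I → |X (i, J) - Y (i, J)| ≤ n * p.Q := by
    intro i hi
    refine (hrow i J).trans ?_
    calc ∑ j ∈ univ.erase J, |X (i, j) - Y (i, j)| ≤ ∑ _j ∈ univ.erase J, p.Q := by
          refine sum_le_sum fun j hj => hnp (i, j) ?_
          exact G5.not_piv (fun h => hi (Fin.ext h)) fun h => ne_of_mem_erase hj (Fin.ext h)
      _ = ((univ.erase J).card : ℤ) * p.Q := by rw [sum_const, nsmul_eq_mul]
      _ ≤ n * p.Q := mul_le_mul_of_nonneg_right hcn hQ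
  have hIr : ∀ j : Fin n, j ≠ J → |X (I, j) - Y (I, j)| ≤ m * p.Q := by
    intro j hj
    refine (hcol I j).trans ?_
    calc ∑ i ∈ univ.erase I, |X (i, j) - Y (i, j)| ≤ ∑ _i ∈ univ.erase I, p.Q := by
          refine sum_le_sum fun i hi => hnp (i, j) ?_
          exact G5.not_piv (fun h => ne_of_mem_erase hi (Fin.ext h)) fun h => hj (Fin.ext h)
      _ = ((univ.erase I).card : ℤ) * p.Q := by rw [sum_const, nsmul_eq_mul]
      _ ≤ m * p.Q := mul_le_mul_of_nonneg_right hcm hQ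
  obtain ⟨i, j⟩ := e
  by_cases hi : i = I
  · by_cases hj : j = J
    · rw [hi, hj]
      refine (hrow I J).trans ?_
      calc ∑ j ∈ univ.erase J, |X (I, j) - Y (I, j)| ≤ ∑ _j ∈ univ.erase J, m * p.Q :=
            sum_le_sum fun j hj => hIr j (ne_of_mem_erase hj)
        _ = ((univ.erase J).card : ℤ) * (m * p.Q) := by rw [sum_const, nsmul_eq_mul]
        _ ≤ n * (m * p.Q) := mul_le_mul_of_nonneg_right hcn (by positivity)
        _ = m * n * p.Q := by ring
    · rw [hi]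
      refine (hIr j hj).trans ?_
      nlinarith [mul_nonneg (mul_nonneg (by linarith : (0 : ℤ) ≤ m) hQ) (by linarith : (0 : ℤ) ≤ (n : ℤ) - 1)]
  · by_cases hj : j = J
    · rw [hj]
      refine (hJc i hi).trans ?_
      nlinarith [mul_nonneg (mul_nonneg (by linarith : (0 : ℤ) ≤ n) hQ) (by linarith : (0 : ℤ) ≤ (m : ℤ) - 1)]
    · refine (hnp (i, j) ?_).trans hmn
      exact G5.not_piv (fun h => hi (Fin.ext h)) fun h => hj (Fin.ext h)

end Vale.Agent.P328R
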