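import Vale.Agent.P328R.G5

/-! Module G4: boxes of the block cells, divisibility, and the weight ratio under `upd`. -/

set_option linter.unusedSectionVars false

namespace Vale.Agent.P328R

open Finset Vale.Agent.P328RAM

variable {p : Par} {m n μ : ℕ} {g : Mg}

/-- The length of the block move at `e`. -/
def lamR (p : Par) (g : Mg) (m n : ℕ) (e : Fin m × Fin n) : ℤ := 2 ^ lb p g (e.1 : ℕ) (e.2 : ℕ)

/-- The offset grid. -/
def uR (p : Par) (g : Mg) (m n μ : ℕ) (e : Fin m × Fin n) : ℤ := lamR p g m n e / (μ : ℤ) ^ 2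

namespace G4

theorem mem_DB {e : Fin m × Fin n} : e ∈ DB p m n g ↔ Blk p m n g (e.1 : ℕ) (e.2 : ℕ) := by
  unfold DB
  simp

theorem sc_gt (hP : PV p m n μ) {e : Fin m × Fin n} (he : e ∈ DB p m n g) :
    p.Q < sc g (e.1 : ℕ) (e.2 : ℕ) := by
  obtain ⟨⟨_, h1⟩, ⟨_, h2⟩⟩ := mem_DB.1 he
  exact lt_min h1 h2

theorem sb_ge (hP : PV p m n μ) {a : ℕ} (ha : μ = 2 ^ a) {e : Fin m × Fin n}
    (he : e ∈ DB p m n g) : p.k1 + 2 * a ≤ sb g (e.1 : ℕ) (e.2 : ℕ) := by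
  have h1 := sc_gt hP he
  have h2 := hP.Q
  have hμ : (μ : ℤ) ^ 2 = 2 ^ (2 * a) := by
    rw [ha, pow_mul']
    push_cast
    ring
  have h4 : (2 : ℤ) ^ (p.k1 + 2 * a) ≤ sc g (e.1 : ℕ) (e.2 : ℕ) := by
    have h5 : (16 : ℤ) * 2 ^ p.k1 * (μ : ℤ) ^ 2 = 16 * 2 ^ (p.k1 + 2 * a) := by
      rw [hμ, pow_add]; ring
    have h6 : (0 : ℤ) < 2 ^ (p.k1 + 2 * a) := by positivity
    linarith
  have h5 : (2 : ℕ) ^ (p.k1 + 2 * a) ≤ (sc g (e.1 : ℕ) (e.2 : ℕ)).toNat := by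
    zify
    rw [Int.toNat_of_nonneg (le_trans (by positivity) h4)]
    exact h4
  unfold sb
  have h6 := Nat.lt_size.2 h5
  omega

theorem sg_eq (hP : PV p m n μ) {a : ℕ} (ha : μ = 2 ^ a) {e : Fin m × Fin n}
    (he : e ∈ DB p m n g) :
    sg g (e.1 : ℕ) (e.2 : ℕ) = 2 ^ p.k1 * lamR p g m n e := by
  have h1 := sb_ge hP ha he
  unfold sg lamR lb
  rw [← pow_add]
  congr 1
  omega

theorem lam_eq (hP : PV p m n μ) {a : ℕ} (ha : μ = 2 ^ a) {e : Fin m × Fin n}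
    (he : e ∈ DB p m n g) :
    lamR p g m n e = (μ : ℤ) ^ 2 * 2 ^ (sb g (e.1 : ℕ) (e.2 : ℕ) - p.k1 - 2 * a) := by
  have h1 := sb_ge hP ha he
  have hμ : (μ : ℤ) ^ 2 = 2 ^ (2 * a) := by
    rw [ha, pow_mul']
    push_cast
    ring
  unfold lamR lb
  rw [hμ, ← pow_add]
  congr 1
  omega

theorem u_eq (hP : PV p m n μ) {a : ℕ} (ha : μ = 2 ^ a) {e : Fin m × Fin n}
    (he : e ∈ DB p m n g) :
    uR p g m n μ e = 2 ^ (sb g (e.1 : ℕ) (e.2 : ℕ) - p.k1 - 2 * a) := by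
  unfold uR
  rw [lam_eq hP ha he]
  have h : (μ : ℤ) ^ 2 ≠ 0 := by rw [ha]; positivity
  exact Int.mul_ediv_cancel_left _ h

end G4

theorem DB_off (hP : PV p m n μ) {e : Fin m × Fin n} (he : e ∈ DB p m n g) :
    e.1 ≠ ri m g hP.hm ∧ e.2 ≠ cj n g hP.hn := by
  obtain ⟨⟨h1, _⟩, ⟨h2, _⟩⟩ := G4.mem_DB.1 he
  refine ⟨fun h => h1 ?_, fun h => h2 ?_⟩
  · rw [h]; rfl
  · rw [h]; rfl

theorem uR_pos (hP : PV p m n μ) (hG : GV m n g) {e : Fin m × Fin n} (he : e ∈ DB p m n g) :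
    1 ≤ uR p g m n μ e := by
  obtain ⟨a, ha⟩ := hP.pow
  rw [G4.u_eq hP ha he]
  exact one_le_pow₀ (by norm_num)

theorem lamR_eq (hP : PV p m n μ) (hG : GV m n g) {e : Fin m × Fin n} (he : e ∈ DB p m n g) :
    lamR p g m n e = ((μ ^ 2 : ℕ) : ℤ) * uR p g m n μ e := by
  obtain ⟨a, ha⟩ := hP.pow
  rw [G4.u_eq hP ha he, G4.lam_eq hP ha he]
  push_cast
  ring

theorem lamR_dvd (hP : PV p m n μ) (hG : GV m n g) {e : Fin m × Fin n} (he : e ∈ DB p m n g) :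
    lamR p g m n e ∣ sg g (e.1 : ℕ) (e.2 : ℕ) := by
  obtain ⟨a, ha⟩ := hP.pow
  exact ⟨2 ^ p.k1, by rw [G4.sg_eq hP ha he, mul_comm]⟩

theorem sg_le (hP : PV p m n μ) (hG : GV m n g) {e : Fin m × Fin n} (he : e ∈ DB p m n g) :
    (sg g (e.1 : ℕ) (e.2 : ℕ) : ℝ) ≤ (2 ^ p.k1 * (μ : ℝ) ^ 2) * uR p g m n μ e := by
  obtain ⟨a, ha⟩ := hP.pow
  rw [G4.sg_eq hP ha he, lamR_eq hP hG he]
  push_cast
  exact le_of_eq (by ring)

theorem DB_card (hP : PV p m n μ) : 4 * (DB p m n g).card ≤ μ ^ 2 := by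
  have h1 : (DB p m n g).card ≤ m * n := by
    refine (card_le_univ _).trans ?_
    rw [Fintype.card_prod, Fintype.card_fin, Fintype.card_fin]
  have h2 := hP.mu
  have h3 : (m + n) ^ 2 ≤ μ ^ 2 := Nat.pow_le_pow_left h2.le 2
  zify at h1 h3 ⊢
  nlinarith [sq_nonneg ((m : ℤ) - n)]

theorem box_wR (hP : PV p m n μ) {X : Tab m n} (h : pw (wR p m n g) X ≠ 0)
    {e : Fin m × Fin n} (he : e ∈ DB p m n g) : 0 ≤ X e ∧ X e < sg g (e.1 : ℕ) (e.2 : ℕ) := by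
  have hB := G4.mem_DB.1 he
  have h1 := prod_ne_zero_iff.1 h e (mem_univ e)
  have h2 : cw p m n g (e.1 : ℕ) (e.2 : ℕ) (X e) ≠ 0 := by
    intro hc
    apply h1
    unfold wR
    rw [hc, Nat.cast_zero]
  unfold cw at h2
  rw [if_neg (G5.not_piv hB.1.1 hB.2.1), if_pos hB] at h2
  by_contra hc
  rw [if_neg hc] at h2
  exact h2 rfl

namespace G4

/-- product of factors `1 - δ` -/
theorem one_sub_sum_le {ι : Type*} (s : Finset ι) (δ : ι → ℝ) (h0 : ∀ i ∈ s, 0 ≤ δ i)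
    (h1 : ∀ i ∈ s, δ i ≤ 1) : 1 - ∑ i ∈ s, δ i ≤ ∏ i ∈ s, (1 - δ i) := by
  classical
  induction s using Finset.induction_on with
  | empty => simp
  | insert a s ha ih =>
    rw [sum_insert ha, prod_insert ha]
    have h2 := ih (fun i hi => h0 i (mem_insert_of_mem hi)) (fun i hi => h1 i (mem_insert_of_mem hi))
    have h3 := h0 a (mem_insert_self _ _)
    have h4 := h1 a (mem_insert_self _ _)
    have h5 : ∏ i ∈ s, (1 - δ i) ≤ 1 := by
      refine prod_le_one (fun i hi => ?_) (fun i hi => ?_)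
      · linarith [h1 i (mem_insert_of_mem hi)]
      · linarith [h0 i (mem_insert_of_mem hi)]
    nlinarith

theorem blk_abs_sum (i0 : Fin m) (j0 : Fin n) (e : Fin m × Fin n) :
    ∑ f, |(blk i0 j0 e f : ℝ)| ≤ 4 := by
  calc ∑ f, |(blk i0 j0 e f : ℝ)|
      ≤ ∑ f, ((if f = e then (1 : ℝ) else 0) + (if f = (e.1, j0) then 1 else 0) +
          (if f = (i0, e.2) then 1 else 0) + (if f = (i0, j0) then 1 else 0)) := by
        refine sum_le_sum fun f _ => ?_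
        unfold blk
        push_cast
        split_ifs <;> norm_num [abs_le]
    _ = 4 := by
        rw [sum_add_distrib, sum_add_distrib, sum_add_distrib]
        simp
        norm_num

theorem blk_rel {I : Fin m} {J : Fin n} {e f : Fin m × Fin n} (hI : e.1 ≠ I) (hJ : e.2 ≠ J)
    (hf : ¬ (f.1 ≠ I ∧ f.2 ≠ J)) (hb : blk I J e f ≠ 0) :
    f = (e.1, J) ∨ f = (I, e.2) ∨ f = (I, J) := by
  by_contra hc
  push Not at hc
  obtain ⟨h1, h2, h3⟩ := hc
  apply hb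
  have h4 : f ≠ e := by
    rintro rfl
    exact hf ⟨hI, hJ⟩
  unfold blk
  rw [if_neg h1, if_neg h2, if_neg h3, if_neg h4]
  ring

theorem piv_rel {e : Fin m × Fin n} (he : e ∈ DB p m n g) :
    Piv p m n g (e.1 : ℕ) (js n g) ∧ Piv p m n g (is m g) (e.2 : ℕ) ∧
      Piv p m n g (is m g) (js n g) := by
  obtain ⟨⟨_, h1⟩, ⟨_, h2⟩⟩ := mem_DB.1 he
  have h3 : p.Q < g.r (is m g) := h1.trans_le (am_max _ _ _ e.1.2)
  have h4 : p.Q < g.c (js n g) := h2.trans_le (am_max _ _ _ e.2.2)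
  exact ⟨⟨⟨h3, h4⟩, Or.inr ⟨rfl, h1⟩⟩, ⟨⟨h3, h4⟩, Or.inl ⟨rfl, h2⟩⟩,
    ⟨⟨h3, h4⟩, Or.inl ⟨rfl, h4⟩⟩⟩

theorem piv_of_blk (hP : PV p m n μ) {e f : Fin m × Fin n} (he : e ∈ DB p m n g)
    (hf : ¬ (f.1 ≠ ri m g hP.hm ∧ f.2 ≠ cj n g hP.hn))
    (hb : blk (ri m g hP.hm) (cj n g hP.hn) e f ≠ 0) :
    Piv p m n g (f.1 : ℕ) (f.2 : ℕ) ∧
      sg g (e.1 : ℕ) (e.2 : ℕ) ≤ sg g (f.1 : ℕ) (f.2 : ℕ) := by
  obtain ⟨h1, h2⟩ := DB_off hP he
  obtain ⟨p1, p2, p3⟩ := piv_rel he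
  have hr : g.r (e.1 : ℕ) ≤ g.r (is m g) := am_max _ _ _ e.1.2
  have hc : g.c (e.2 : ℕ) ≤ g.c (js n g) := am_max _ _ _ e.2.2
  rcases blk_rel h1 h2 hf hb with h | h | h
  · subst h
    exact ⟨p1, G5.sg_mono (min_le_min le_rfl hc)⟩
  · subst h
    exact ⟨p2, G5.sg_mono (min_le_min hr le_rfl)⟩
  · subst h
    exact ⟨p3, G5.sg_mono (min_le_min hr hc)⟩

/-- the change of a cell -/
theorem upd_eq (I : Fin m) (J : Fin n) (D : Finset (Fin m × Fin n)) (X W : Tab m n)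
    {f : Fin m × Fin n} (hf : f.1 ≠ I ∧ f.2 ≠ J) :
    upd I J D X W f = if f ∈ D then W f else X f := by
  classical
  unfold upd
  have h1 : ∀ e ∈ D, (W e - X e) * blk I J e f = if f = e then W f - X f else 0 := by
    intro e _
    rw [WB.blk_cell hf]
    split_ifs with h
    · rw [← h]; ring
    · ring
  rw [sum_congr rfl h1, sum_ite_eq]
  split_ifs <;> ring

end G4

/-- **G4.** -/
theorem upd_wR (hP : PV p m n μ) (hG : GV m n g) {X : Tab m n}
    (hX : bd (gs (Fin m) (Fin n)) (gt (Fin m) (Fin n)) X = al m n g)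
    (h : pw (wR p m n g) X ≠ 0) (W : Tab m n)
    (hW : ∀ e ∈ DB p m n g, 0 ≤ W e ∧ W e < sg g (e.1 : ℕ) (e.2 : ℕ) ∧
      |W e - X e| < lamR p g m n e) :
    pw (wR p m n g) X ≤
      2 * pw (wR p m n g) (upd (ri m g hP.hm) (cj n g hP.hn) (DB p m n g) X W) := by
  classical
  obtain ⟨a, ha⟩ := hP.pow
  set I := ri m g hP.hm with hI
  set J := cj n g hP.hn with hJ
  set D := DB p m n g with hD
  set Y := upd I J D X W with hY
  -- cells which are no pivots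
  have hnp : ∀ f : Fin m × Fin n, ¬ Piv p m n g (f.1 : ℕ) (f.2 : ℕ) →
      Y f = X f ∨ (f ∈ D ∧ Y f = W f) := by
    intro f hf
    by_cases hoff : f.1 ≠ I ∧ f.2 ≠ J
    · rw [hY, G4.upd_eq I J D X W hoff]
      split_ifs with h1
      · exact Or.inr ⟨h1, rfl⟩
      · exact Or.inl rfl
    · left
      rw [hY]
      unfold upd
      rw [sum_eq_zero, add_zero]
      intro e he
      by_contra hb
      exact hf (G4.piv_of_blk hP he hoff (right_ne_zero_of_mul hb)).1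
  have hX0 : ∀ e : Fin m × Fin n, ¬ Piv p m n g (e.1 : ℕ) (e.2 : ℕ) →
      0 ≤ X e ∧ X e ≤ sg g (e.1 : ℕ) (e.2 : ℕ) := fun e he => box_of_pw h he
  have hY0 : ∀ e : Fin m × Fin n, ¬ Piv p m n g (e.1 : ℕ) (e.2 : ℕ) →
      0 ≤ Y e ∧ Y e ≤ sg g (e.1 : ℕ) (e.2 : ℕ) := by
    intro e he
    rcases hnp e he with h1 | ⟨h1, h2⟩
    · rw [h1]; exact hX0 e he
    · rw [h2]; exact ⟨(hW e h1).1, (hW e h1).2.1.le⟩
  have hnX : Near (al m n g) X := ⟨I, I, by rw [hX]; funext v; simp [dl]⟩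
  have hnY : Near (al m n g) Y := ⟨I, I, by rw [hY, WB.bd_upd, hX]; funext v; simp [dl]⟩
  have hLp0 : (0 : ℝ) < p.Lp := by
    have := G5.Lp_pos hP
    exact_mod_cast (by linarith : (0 : ℤ) < p.Lp)
  -- the errors
  set δ : Fin m × Fin n → ℝ := fun f => (2 / (p.Lp : ℝ)) * ∑ e ∈ D, |(blk I J e f : ℝ)| with hδ
  have hδ0 : ∀ f, 0 ≤ δ f := fun f =>
    mul_nonneg (by positivity) (sum_nonneg fun e _ => abs_nonneg _)
  have hδs : ∑ f, δ f ≤ 1 / 8 := by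
    rw [hδ, ← mul_sum, sum_comm]
    have h1 : ∑ e ∈ D, ∑ f, |(blk I J e f : ℝ)| ≤ D.card * 4 := by
      refine (sum_le_sum fun e _ => G4.blk_abs_sum I J e).trans ?_
      rw [sum_const, nsmul_eq_mul]
    have h2 : (4 : ℝ) * D.card ≤ (μ : ℝ) ^ 2 := by exact_mod_cast DB_card hP
    have h3 : (16 : ℝ) * (μ : ℝ) ^ 2 ≤ p.Lp := by exact_mod_cast hP.Lp
    rw [div_mul_eq_mul_div, div_le_iff₀ hLp0]
    linarith
  have hδ1 : ∀ f, δ f ≤ 1 := fun f =>
    (single_le_sum (f := δ) (fun f _ => hδ0 f) (mem_univ f)).trans (hδs.trans (by norm_num))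
  have hw0 : ∀ f x, 0 ≤ wR p m n g f x := fun f x => Nat.cast_nonneg _
  -- one cell
  have key : ∀ f, (1 - δ f) * wR p m n g f (X f) ≤ wR p m n g f (Y f) := by
    intro f
    have hle : (1 - δ f) * wR p m n g f (X f) ≤ wR p m n g f (X f) := by
      have := mul_nonneg (hδ0 f) (hw0 f (X f))
      linarith
    by_cases hp : Piv p m n g (f.1 : ℕ) (f.2 : ℕ)
    · have hoff : ¬ (f.1 ≠ I ∧ f.2 ≠ J) := by
        rintro ⟨h1, h2⟩
        exact G5.not_piv (fun h3 => h1 (Fin.ext h3)) (fun h3 => h2 (Fin.ext h3)) hp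
      have hrX := reach_near hP hG hnX hX0 f hp
      have hrY := reach_near hP hG hnY hY0 f hp
      rcases le_total (X f) (Y f) with hxy | hxy
      · refine hle.trans (cw_mono hP hp ?_ hxy)
        have := abs_nonneg (Y f)
        linarith
      · refine le_trans ?_ (cw_lip hP hG hp hrX hrY hxy)
        refine mul_le_mul_of_nonneg_right ?_ (hw0 f (X f))
        have hL := G5.Ls_pos hP g (f.1 : ℕ) (f.2 : ℕ)
        have hL2 := G5.le_Ls hP g (m := m) (n := n) (f.1 : ℕ) (f.2 : ℕ)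
        have hLr : (0 : ℝ) < (Ls p m n g (f.1 : ℕ) (f.2 : ℕ) : ℝ) := by exact_mod_cast hL
        have hL2r : (p.Lp : ℝ) * (sg g (f.1 : ℕ) (f.2 : ℕ) : ℝ) ≤
            (Ls p m n g (f.1 : ℕ) (f.2 : ℕ) : ℝ) := by exact_mod_cast hL2
        have hsg : (0 : ℝ) < (sg g (f.1 : ℕ) (f.2 : ℕ) : ℝ) := by
          exact_mod_cast G5.sg_pos g (f.1 : ℕ) (f.2 : ℕ)
        -- the change
        have h1 : (p.q : ℝ) * ((X f - Y f : ℤ) : ℝ) ≤
            (∑ e ∈ D, |(blk I J e f : ℝ)|) * (sg g (f.1 : ℕ) (f.2 : ℕ) : ℝ) := by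
          have h2 : ((X f - Y f : ℤ) : ℝ) = ∑ e ∈ D, ((X e - W e : ℤ) : ℝ) * (blk I J e f : ℝ) := by
            have : X f - Y f = ∑ e ∈ D, (X e - W e) * blk I J e f := by
              rw [hY]
              unfold upd
              rw [← sub_sub, sub_self, zero_sub, ← sum_neg_distrib]
              exact sum_congr rfl fun e _ => by ring
            rw [this]
            push_cast
            rfl
          rw [h2, mul_sum, sum_mul]
          refine sum_le_sum fun e he => ?_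
          by_cases hb : blk I J e f = 0
          · rw [hb]; simp
          · have h3 := (G4.piv_of_blk hP he hoff hb).2
            have h4 := G4.sg_eq hP ha he
            have h5 : ((p.q : ℤ)) * |X e - W e| ≤ sg g (e.1 : ℕ) (e.2 : ℕ) := by
              rw [h4]
              have h6 := (hW e he).2.2.le
              rw [abs_sub_comm] at h6
              have h7 : (p.q : ℤ) ≤ 2 ^ p.k1 := by exact_mod_cast hP.k1
              exact mul_le_mul h7 h6 (abs_nonneg _) (by positivity)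
            have h6 : (p.q : ℝ) * |((X e - W e : ℤ) : ℝ)| ≤ (sg g (f.1 : ℕ) (f.2 : ℕ) : ℝ) := by
              exact_mod_cast h5.trans h3
            calc (p.q : ℝ) * (((X e - W e : ℤ) : ℝ) * (blk I J e f : ℝ))
                ≤ (p.q : ℝ) * (|((X e - W e : ℤ) : ℝ)| * |(blk I J e f : ℝ)|) := by
                  refine mul_le_mul_of_nonneg_left ?_ (by positivity)
                  rw [← abs_mul]
                  exact le_abs_self _
              _ = |(blk I J e f : ℝ)| * ((p.q : ℝ) * |((X e - W e : ℤ) : ℝ)|) := by ring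
              _ ≤ _ := mul_le_mul_of_nonneg_left h6 (abs_nonneg _)
        have h3 : 2 * (p.q : ℝ) * ((X f - Y f : ℤ) : ℝ) / (Ls p m n g (f.1 : ℕ) (f.2 : ℕ) : ℝ) ≤
            δ f := by
          rw [div_le_iff₀ hLr, hδ]
          have hS : 0 ≤ ∑ e ∈ D, |(blk I J e f : ℝ)| := sum_nonneg fun e _ => abs_nonneg _
          calc 2 * (p.q : ℝ) * ((X f - Y f : ℤ) : ℝ)
              ≤ 2 * ((∑ e ∈ D, |(blk I J e f : ℝ)|) * (sg g (f.1 : ℕ) (f.2 : ℕ) : ℝ)) := by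
                linarith
            _ = (2 / (p.Lp : ℝ)) * (∑ e ∈ D, |(blk I J e f : ℝ)|) *
                  ((p.Lp : ℝ) * (sg g (f.1 : ℕ) (f.2 : ℕ) : ℝ)) := by
                field_simp
            _ ≤ _ := mul_le_mul_of_nonneg_left hL2r (by positivity)
        linarith
    · refine hle.trans (le_of_eq ?_)
      rcases hnp f hp with h1 | ⟨h1, h2⟩
      · rw [h1]
      · have hB := G4.mem_DB.1 h1
        have hx := box_wR hP h h1
        have hw := hW f h1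
        unfold wR cw
        rw [if_neg hp, if_pos hB, if_pos hx, if_neg hp, if_pos hB, h2, if_pos ⟨hw.1, hw.2.1⟩]
  -- the product
  have h1 : (1 / 2 : ℝ) ≤ ∏ f, (1 - δ f) := by
    have := G4.one_sub_sum_le univ δ (fun f _ => hδ0 f) (fun f _ => hδ1 f)
    linarith
  have h2 : (∏ f, (1 - δ f)) * pw (wR p m n g) X ≤ pw (wR p m n g) Y := by
    unfold pw
    rw [← prod_mul_distrib]
    refine prod_le_prod (fun f _ => mul_nonneg (by linarith [hδ1 f]) (hw0 f _)) fun f _ => key f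
  have h3 : 0 ≤ pw (wR p m n g) X := prod_nonneg fun f _ => hw0 f _
  have h4 := mul_le_mul_of_nonneg_right h1 h3
  linarith

end Vale.Agent.P328R
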