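import Vale.Agent.P328R.IdealRev
import Vale.Agent.P328R.WConc

/-!
# P328, arbitrary margins: energies of the ideal chain

Module R4. The energy of the composite worm (`WormE`, weights `wR`) and the energy of the block
moves are bounded by the Dirichlet form of `stepI`.
-/

namespace Vale.Agent.P328R

open scoped ENNReal
open Finset
open Vale.Agent.P328RAM

variable {p : Par} {m n : ℕ} {g : Mg}

/-- the Dirichlet form of the ideal chain (as in `GoodChain.wp`) -/
noncomputable def dirI (p : Par) (g : Mg) (m n : ℕ) (G : Tab m n → ℝ) : ℝ :=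
  (1 / 2) * ∑ X ∈ stF p g m n, ∑ Y ∈ stF p g m n,
    (piF p g m n X).toReal * (stepI p g X Y).toReal * (G X - G Y) ^ 2

theorem dirI_nonneg (G : Tab m n → ℝ) : 0 ≤ dirI p g m n G := by
  unfold dirI
  positivity

theorem piF_mul_stepI_real (h : (stF p g m n).Nonempty) {X Y : Tab m n} (hX : X ∈ stF p g m n)
    (hXY : X ≠ Y) :
    (piF p g m n X).toReal * (stepI p g X Y).toReal =
      (1 / 2) * ((propK p g X Y).toReal * (((min (Wt p g X) (Wt p g Y) : ℕ) : ℝ) /
        (Ztot p g m n : ℝ))) := by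
  have h1 := congrArg ENNReal.toReal (piF_mul_stepI h hX hXY)
  rw [ENNReal.toReal_mul, ENNReal.toReal_mul, ENNReal.toReal_mul, ENNReal.toReal_div,
    ENNReal.toReal_natCast, ENNReal.toReal_natCast, ENNReal.toReal_inv,
    ENNReal.toReal_ofNat] at h1
  rw [h1]
  norm_num

open scoped Classical in
/-- A family of moves, different ones leading to different tables, each proposed with probability
at least `c`. -/
theorem energy_family (hne : (stF p g m n).Nonempty) {ι : Type} (T : Finset ι)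
    (F : ι → Tab m n → Tab m n) {c : ℝ}
    (hinj : ∀ X ∈ stF p g m n, ∀ s ∈ T, ∀ t ∈ T, F s X = F t X → F s X ≠ X → s = t)
    (hc : ∀ X ∈ stF p g m n, ∀ t ∈ T, F t X ∈ stF p g m n → F t X ≠ X →
      c ≤ (propK p g X (F t X)).toReal) (G : Tab m n → ℝ) :
    c * ∑ t ∈ T, ∑ X ∈ stF p g m n, (if F t X ∈ stF p g m n then
      ((min (Wt p g X) (Wt p g (F t X)) : ℕ) : ℝ) * (G X - G (F t X)) ^ 2 else 0) ≤
      4 * (Ztot p g m n : ℝ) * dirI p g m n G := by
  have hZ : (0 : ℝ) < (Ztot p g m n : ℝ) := by exact_mod_cast Ztot_pos hne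
  have h1 : 4 * (Ztot p g m n : ℝ) * dirI p g m n G = ∑ X ∈ stF p g m n,
      ∑ Y ∈ stF p g m n, 2 * (Ztot p g m n : ℝ) *
        ((piF p g m n X).toReal * (stepI p g X Y).toReal * (G X - G Y) ^ 2) := by
    unfold dirI
    simp only [Finset.mul_sum]
    exact Finset.sum_congr rfl fun X _ => Finset.sum_congr rfl fun Y _ => by ring
  rw [h1, Finset.sum_comm, Finset.mul_sum]
  refine Finset.sum_le_sum fun X hX => ?_
  have h2 : ∀ Y ∈ stF p g m n, 0 ≤ 2 * (Ztot p g m n : ℝ) *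
        ((piF p g m n X).toReal * (stepI p g X Y).toReal * (G X - G Y) ^ 2) := fun Y _ => by
    positivity
  have h3 : ∀ t ∈ T.filter (fun t => F t X ∈ stF p g m n ∧ F t X ≠ X),
      c * (((min (Wt p g X) (Wt p g (F t X)) : ℕ) : ℝ) * (G X - G (F t X)) ^ 2) ≤
      2 * (Ztot p g m n : ℝ) *
        ((piF p g m n X).toReal * (stepI p g X (F t X)).toReal * (G X - G (F t X)) ^ 2) := by
    intro t ht
    rw [Finset.mem_filter] at ht
    rw [piF_mul_stepI_real hne hX (fun e => ht.2.2 e.symm)]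
    have h4 : 2 * (Ztot p g m n : ℝ) * (1 / 2 * ((propK p g X (F t X)).toReal *
        (((min (Wt p g X) (Wt p g (F t X)) : ℕ) : ℝ) / (Ztot p g m n : ℝ))) *
          (G X - G (F t X)) ^ 2) = (propK p g X (F t X)).toReal *
        (((min (Wt p g X) (Wt p g (F t X)) : ℕ) : ℝ) * (G X - G (F t X)) ^ 2) := by
      field_simp
    rw [h4]
    exact mul_le_mul_of_nonneg_right (hc X hX t ht.1 ht.2.1 ht.2.2) (by positivity)
  calc c * ∑ t ∈ T, (if F t X ∈ stF p g m n then
      ((min (Wt p g X) (Wt p g (F t X)) : ℕ) : ℝ) * (G X - G (F t X)) ^ 2 else 0)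
      = ∑ t ∈ T.filter (fun t => F t X ∈ stF p g m n ∧ F t X ≠ X),
        c * (((min (Wt p g X) (Wt p g (F t X)) : ℕ) : ℝ) * (G X - G (F t X)) ^ 2) := by
        rw [Finset.mul_sum, Finset.sum_filter]
        refine Finset.sum_congr rfl fun t _ => ?_
        by_cases h5 : F t X ∈ stF p g m n
        · by_cases h6 : F t X = X
          · rw [if_pos h5, if_neg (fun e => e.2 h6), h6, sub_self]
            ring
          · rw [if_pos h5, if_pos ⟨h5, h6⟩]
        · rw [if_neg h5, if_neg (fun e => h5 e.1), mul_zero]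
    _ ≤ ∑ t ∈ T.filter (fun t => F t X ∈ stF p g m n ∧ F t X ≠ X), 2 * (Ztot p g m n : ℝ) *
        ((piF p g m n X).toReal * (stepI p g X (F t X)).toReal * (G X - G (F t X)) ^ 2) :=
        Finset.sum_le_sum h3
    _ = ∑ Y ∈ (T.filter (fun t => F t X ∈ stF p g m n ∧ F t X ≠ X)).image (fun t => F t X),
        2 * (Ztot p g m n : ℝ) *
        ((piF p g m n X).toReal * (stepI p g X Y).toReal * (G X - G Y) ^ 2) := by
        rw [Finset.sum_image]
        intro s hs t ht hst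
        have hs' := Finset.mem_filter.1 (Finset.mem_coe.1 hs)
        have ht' := Finset.mem_filter.1 (Finset.mem_coe.1 ht)
        exact hinj X hX s hs'.1 t ht'.1 hst hs'.2.2
    _ ≤ ∑ Y ∈ stF p g m n, 2 * (Ztot p g m n : ℝ) *
        ((piF p g m n X).toReal * (stepI p g X Y).toReal * (G X - G Y) ^ 2) := by
        refine Finset.sum_le_sum_of_subset_of_nonneg ?_ fun Y hY _ => h2 Y hY
        intro Y hY
        rw [Finset.mem_image] at hY
        obtain ⟨t, ht, rfl⟩ := hY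
        exact (Finset.mem_filter.1 ht).2.1

/-! ### lower bounds for the proposal -/

theorem unif_apply_ie {B k : ℕ} (h : k < 2 ^ B) : unif B k = (2 ^ B)⁻¹ := by
  have : Nonempty (Fin (2 ^ B)) := ⟨⟨0, by positivity⟩⟩
  have e : unif B = PMF.map (fun i : Fin (2 ^ B) => (i : ℕ)) (PMF.uniformOfFintype _) :=
    PMF.map_id _
  rw [e, PMF.map_apply, tsum_eq_single (⟨k, h⟩ : Fin (2 ^ B))]
  · simp
  · intro i hi
    rw [if_neg]
    intro h1
    exact hi (Fin.ext h1.symm)

theorem bind_ge_ie {α β : Type} (μ : PMF α) (κ : α → PMF β) (a : α) (b : β) :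
    μ a * κ a b ≤ (μ.bind κ) b := by
  rw [PMF.bind_apply]
  exact ENNReal.le_tsum a

theorem map_ge_ie {α β : Type} (μ : PMF α) (f : α → β) (a : α) : μ a ≤ (μ.map f) (f a) := by
  classical
  rw [PMF.map_apply]
  refine le_trans ?_ (ENNReal.le_tsum a)
  rw [if_pos rfl]

theorem unitK_ge {a b j : ℕ} (ha : a < 2 ^ p.B) (hb : b < 2 ^ p.B) (hj : j < 2 ^ p.B)
    (X : Tab m n) : (2 ^ p.B)⁻¹ * ((2 ^ p.B)⁻¹ * (2 ^ p.B)⁻¹) ≤ unitK p X (unitM a b j X) := by
  unfold unitK
  refine le_trans ?_ (bind_ge_ie _ _ j _)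
  rw [unif_apply_ie hj]
  refine mul_le_mul_right ?_ _
  refine le_trans ?_ (bind_ge_ie _ _ a _)
  rw [unif_apply_ie ha]
  refine mul_le_mul_right ?_ _
  refine le_trans ?_ (map_ge_ie _ _ b)
  rw [unif_apply_ie hb]

theorem mv_eq_unitM (j : Fin n) (a b : Fin m) (X : Tab m n) :
    mv j a b X = unitM (a : ℕ) (b : ℕ) (j : ℕ) X := by
  unfold unitM
  rw [if_pos ⟨a.2, b.2, j.2⟩]
  funext e
  unfold mv addc
  have h1 : ∀ c : Fin m, (e = (c, j)) ↔ ((e.1 : ℕ) = c ∧ (e.2 : ℕ) = j) := by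
    intro c
    rw [Prod.ext_iff, Fin.ext_iff, Fin.ext_iff]
  by_cases ha : e = (a, j)
  · by_cases hb : e = (b, j)
    · rw [if_pos ha, if_pos hb, if_pos ((h1 a).1 ha), if_pos ((h1 b).1 hb)]; ring
    · rw [if_pos ha, if_neg hb, if_pos ((h1 a).1 ha), if_neg (fun h => hb ((h1 b).2 h))]; ring
  · by_cases hb : e = (b, j)
    · rw [if_neg ha, if_pos hb, if_neg (fun h => ha ((h1 a).2 h)), if_pos ((h1 b).1 hb)]; ring
    · rw [if_neg ha, if_neg hb, if_neg (fun h => ha ((h1 a).2 h)),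
        if_neg (fun h => hb ((h1 b).2 h))]; ring

theorem iter_unitK_ge (hm : m ≤ 2 ^ p.B) (hn : n ≤ 2 ^ p.B) (l : List (Fin n × Fin m × Fin m)) :
    ∀ X : Tab m n, ((2 ^ p.B)⁻¹ * ((2 ^ p.B)⁻¹ * (2 ^ p.B)⁻¹) : ℝ≥0∞) ^ l.length ≤
      iterBind (unitK p) l.length X (mvs l X) := by
  induction l with
  | nil =>
      intro X
      simp only [List.length_nil, pow_zero, iterBind, mvs]
      rw [PMF.pure_apply, if_pos rfl]
  | cons s l ih =>
      intro X
      simp only [List.length_cons, iterBind, mvs]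
      refine le_trans ?_ (bind_ge_ie _ _ (mv s.1 s.2.1 s.2.2 X) _)
      rw [pow_succ']
      refine mul_le_mul' ?_ (ih _)
      rw [mv_eq_unitM]
      have h1 := s.1.2
      have h2 := s.2.1.2
      have h3 := s.2.2.2
      exact unitK_ge (by omega) (by omega) (by omega) X

theorem wormK_ge (hm : m ≤ 2 ^ p.B) (hn : n ≤ 2 ^ p.B) (s : Fin 5 → Fin n × Fin m × Fin m)
    (X : Tab m n) : ((2 ^ p.B)⁻¹ * ((2 ^ p.B)⁻¹ * (2 ^ p.B)⁻¹) : ℝ≥0∞) ^ 5 ≤
      wormK p X (mvs (List.ofFn s) X) := by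
  have h := iter_unitK_ge (p := p) hm hn (List.ofFn s) X
  rw [List.length_ofFn] at h
  exact h

theorem propK_ge_worm (hm : m ≤ 2 ^ p.B) (hn : n ≤ 2 ^ p.B) (s : Fin 5 → Fin n × Fin m × Fin m)
    (X : Tab m n) : 1 / (2 * (2 : ℝ) ^ (15 * p.B)) ≤
      (propK p g X (mvs (List.ofFn s) X)).toReal := by
  have h : (2⁻¹ * ((2 ^ p.B)⁻¹ * ((2 ^ p.B)⁻¹ * (2 ^ p.B)⁻¹)) ^ 5 : ℝ≥0∞) ≤
      propK p g X (mvs (List.ofFn s) X) := by
    unfold propK
    rw [coin_bind_apply, if_pos rfl]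
    exact le_add_right (mul_le_mul_right (wormK_ge hm hn s X) _)
  have h1 := ENNReal.toReal_mono (PMF.apply_ne_top _ _) h
  refine le_trans (le_of_eq ?_) h1
  simp only [ENNReal.toReal_mul, ENNReal.toReal_pow, ENNReal.toReal_inv, ENNReal.toReal_ofNat]
  rw [one_div, mul_inv, ← inv_pow, ← inv_pow]
  ring

theorem blockK_ge {i j : ℕ} (hi : i < 2 ^ p.B) (hj : j < 2 ^ p.B) {d : ℤ}
    (hd : |d| < 2 ^ lb p g i j) (X : Tab m n) :
    (2 ^ p.B)⁻¹ * ((2 ^ p.B)⁻¹ * (2⁻¹ * (2 ^ lb p g i j)⁻¹)) ≤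
      blockK p g X (blockM p g i j d X) := by
  unfold blockK
  refine le_trans ?_ (bind_ge_ie _ _ i _)
  rw [unif_apply_ie hi]
  refine mul_le_mul_right ?_ _
  refine le_trans ?_ (bind_ge_ie _ _ j _)
  rw [unif_apply_ie hj]
  refine mul_le_mul_right ?_ _
  rw [coin_bind_apply]
  have hd' : d.natAbs < 2 ^ lb p g i j := by
    have h1 : ((d.natAbs : ℕ) : ℤ) < ((2 ^ lb p g i j : ℕ) : ℤ) := by
      push_cast
      exact hd
    exact_mod_cast h1
  rcases le_or_gt 0 d with h0 | h0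
  · refine le_add_right (mul_le_mul_right ?_ _)
    have h1 := map_ge_ie (unif (lb p g i j)) (fun d : ℕ =>
      blockM p g i j (if (0 : ℤ) = 0 then (d : ℤ) else -(d : ℤ)) X) d.natAbs
    rw [unif_apply_ie hd'] at h1
    have h2 : (if (0 : ℤ) = 0 then ((d.natAbs : ℕ) : ℤ) else -((d.natAbs : ℕ) : ℤ)) = d := by
      rw [if_pos rfl]
      exact Int.natAbs_of_nonneg h0
    rw [h2] at h1
    exact h1
  · refine le_add_left (mul_le_mul_right ?_ _)
    have h1 := map_ge_ie (unif (lb p g i j)) (fun d : ℕ =>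
      blockM p g i j (if (1 : ℤ) = 0 then (d : ℤ) else -(d : ℤ)) X) d.natAbs
    rw [unif_apply_ie hd'] at h1
    have h2 : (if (1 : ℤ) = 0 then ((d.natAbs : ℕ) : ℤ) else -((d.natAbs : ℕ) : ℤ)) = d := by
      rw [if_neg one_ne_zero]
      omega
    rw [h2] at h1
    exact h1

theorem propK_ge_block {i j : ℕ} (hi : i < 2 ^ p.B) (hj : j < 2 ^ p.B) {d : ℤ}
    (hd : |d| < 2 ^ lb p g i j) (X : Tab m n) :
    1 / (4 * (2 : ℝ) ^ (2 * p.B + lb p g i j)) ≤
      (propK p g X (blockM p g i j d X)).toReal := by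
  have h : (2⁻¹ * ((2 ^ p.B)⁻¹ * ((2 ^ p.B)⁻¹ * (2⁻¹ * (2 ^ lb p g i j)⁻¹))) : ℝ≥0∞) ≤
      propK p g X (blockM p g i j d X) := by
    unfold propK
    rw [coin_bind_apply, if_neg one_ne_zero]
    exact le_add_left (mul_le_mul_right (blockK_ge hi hj hd X) _)
  have h1 := ENNReal.toReal_mono (PMF.apply_ne_top _ _) h
  refine le_trans (le_of_eq ?_) h1
  simp only [ENNReal.toReal_mul, ENNReal.toReal_pow, ENNReal.toReal_inv, ENNReal.toReal_ofNat]
  rw [one_div, mul_inv, ← inv_pow, ← inv_pow, ← inv_pow]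
  ring

/-! ### the bridge to networks -/

theorem wR_nonneg' (e : Fin m × Fin n) (x : ℤ) : 0 ≤ wR p m n g e x := Nat.cast_nonneg _

theorem bdE_inl (X : Tab m n) (i : Fin m) :
    bd (gs (Fin m) (Fin n)) (gt (Fin m) (Fin n)) X (Sum.inl i) = rowSum X i := by
  unfold bd gs gt rowSum
  have h1 : (∑ e : Fin m × Fin n, if (Sum.inr e.2 : Fin m ⊕ Fin n) = Sum.inl i then X e else 0) =
      0 := Finset.sum_eq_zero fun e _ => if_neg (by simp)
  rw [h1, sub_zero, Fintype.sum_prod_type]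
  rw [Finset.sum_eq_single i]
  · simp
  · intro b _ hb
    refine Finset.sum_eq_zero fun j _ => if_neg ?_
    simpa using hb
  · intro h
    exact absurd (Finset.mem_univ _) h

theorem bdE_inr (X : Tab m n) (j : Fin n) :
    bd (gs (Fin m) (Fin n)) (gt (Fin m) (Fin n)) X (Sum.inr j) = -colSum X j := by
  unfold bd gs gt colSum
  have h1 : (∑ e : Fin m × Fin n, if (Sum.inl e.1 : Fin m ⊕ Fin n) = Sum.inr j then X e else 0) =
      0 := Finset.sum_eq_zero fun e _ => if_neg (by simp)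
  rw [h1, zero_sub, Fintype.sum_prod_type]
  congr 1
  refine Finset.sum_congr rfl fun i _ => ?_
  rw [Finset.sum_eq_single j]
  · simp
  · intro b _ hb
    refine if_neg ?_
    simpa using hb
  · intro h
    exact absurd (Finset.mem_univ _) h

theorem bd_eq_al' (X : Tab m n) :
    bd (gs (Fin m) (Fin n)) (gt (Fin m) (Fin n)) X = al m n g ↔
      (∀ i : Fin m, rowSum X i = g.r i) ∧ ∀ j : Fin n, colSum X j = g.c j := by
  constructor
  · intro h
    refine ⟨fun i => ?_, fun j => ?_⟩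
    · have := congrFun h (Sum.inl i)
      rw [bdE_inl] at this
      exact this
    · have := congrFun h (Sum.inr j)
      rw [bdE_inr] at this
      exact neg_injective this
  · rintro ⟨h1, h2⟩
    funext v
    rcases v with i | j
    · rw [bdE_inl, h1]
      rfl
    · rw [bdE_inr, h2]
      rfl

theorem pw_wR' {X : Tab m n} (h : ∀ i : Fin m, rowSum X i = g.r i) :
    pw (wR p m n g) X = (Wt p g X : ℝ) := by
  unfold pw wR Wt
  rw [if_pos h]
  push_cast
  rfl

theorem wR_supp' (hQ : 0 ≤ p.Q) (hLp : 0 ≤ p.Lp) (hLc : 0 ≤ p.Lc) (hr : ∀ i : Fin m, 0 ≤ g.r i)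
    (e : Fin m × Fin n) : Supp (rad p m g) (wR p m n g e) := by
  intro x hx
  unfold wR
  by_contra h
  have h1 : cw p m n g (e.1 : ℕ) (e.2 : ℕ) x ≠ 0 := fun h1 => h (by rw [h1]; simp)
  have h2 := abs_le_of_cw hQ hLp hLc (hr e.1) h1
  have h3 : g.r (e.1 : ℕ) ≤ ∑ i : Fin m, g.r i :=
    Finset.single_le_sum (f := fun i : Fin m => g.r i) (fun i _ => hr i) (Finset.mem_univ e.1)
  have h4 : 2 * (p.Lc + p.Lp + 1) * g.r (e.1 : ℕ) ≤ rad p m g :=
    mul_le_mul_of_nonneg_left h3 (by omega)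
  omega

theorem mem_conf_wR (hQ : 0 ≤ p.Q) (hLp : 0 ≤ p.Lp) (hLc : 0 ≤ p.Lc)
    (hr : ∀ i : Fin m, 0 ≤ g.r i) (X : Tab m n) :
    X ∈ stF p g m n ↔
      X ∈ conf (gs (Fin m) (Fin n)) (gt (Fin m) (Fin n)) (rad p m g) (al m n g) ∧
        pw (wR p m n g) X ≠ 0 := by
  rw [mem_stF_iff hQ hLp hLc hr]
  unfold conf
  rw [Finset.mem_filter, bd_eq_al']
  constructor
  · rintro ⟨h1, h2⟩
    have h3 := fun i => rowSum_of_Wt h2 i
    refine ⟨⟨mem_box_of_Wt hQ hLp hLc hr h2, h3, h1⟩, ?_⟩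
    rw [pw_wR' h3]
    exact_mod_cast h2
  · rintro ⟨⟨_, h2, h3⟩, h4⟩
    refine ⟨h3, ?_⟩
    rw [pw_wR' h2] at h4
    exact_mod_cast h4

/-- sums over the state space -/
theorem sum_conf_wR (hQ : 0 ≤ p.Q) (hLp : 0 ≤ p.Lp) (hLc : 0 ≤ p.Lc)
    (hr : ∀ i : Fin m, 0 ≤ g.r i) (F : Tab m n → ℝ) :
    ∑ X ∈ conf (gs (Fin m) (Fin n)) (gt (Fin m) (Fin n)) (rad p m g) (al m n g),
      pw (wR p m n g) X * F X = ∑ X ∈ stF p g m n, (Wt p g X : ℝ) * F X := by
  classical
  symm
  have h1 : stF p g m n ⊆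
      conf (gs (Fin m) (Fin n)) (gt (Fin m) (Fin n)) (rad p m g) (al m n g) := fun X hX =>
    ((mem_conf_wR hQ hLp hLc hr X).1 hX).1
  rw [← Finset.sum_subset h1 (fun X hX hX' => by
    have : pw (wR p m n g) X = 0 := by
      by_contra h
      exact hX' ((mem_conf_wR hQ hLp hLc hr X).2 ⟨hX, h⟩)
    rw [this, zero_mul])]
  refine Finset.sum_congr rfl fun X hX => ?_
  rw [pw_wR' fun i => rowSum_of_Wt (Wt_ne_of_mem hX) i]

theorem Z_wR (hQ : 0 ≤ p.Q) (hLp : 0 ≤ p.Lp) (hLc : 0 ≤ p.Lc) (hr : ∀ i : Fin m, 0 ≤ g.r i) :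
    Z (gs (Fin m) (Fin n)) (gt (Fin m) (Fin n)) (rad p m g) (wR p m n g) (al m n g) =
      (Ztot p g m n : ℝ) := by
  unfold Z
  have h := sum_conf_wR (p := p) (g := g) (m := m) (n := n) hQ hLp hLc hr (fun _ => 1)
  simp only [mul_one] at h
  rw [h]
  unfold Ztot
  push_cast
  rfl

/-- **The composite worm.** -/
theorem WormE_le (hne : (stF p g m n).Nonempty) (hQ : 0 ≤ p.Q) (hLp : 0 ≤ p.Lp) (hLc : 0 ≤ p.Lc)
    (hr : ∀ i : Fin m, 0 ≤ g.r i) (hm : m ≤ 2 ^ p.B) (hn : n ≤ 2 ^ p.B) (G : Tab m n → ℝ) :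
    WormE (al m n g) (rad p m g) (wR p m n g) 5 G ≤
      ((n : ℝ) * (m : ℝ) ^ 2) ^ 5 * (8 * 2 ^ (15 * p.B)) * (Ztot p g m n : ℝ) *
        dirI p g m n G := by
  classical
  have hone : ∀ s : Fin 5 → Fin n × Fin m × Fin m, ∑ X ∈ stF p g m n,
      (if mvs (List.ofFn s) X ∈ stF p g m n then
        ((min (Wt p g X) (Wt p g (mvs (List.ofFn s) X)) : ℕ) : ℝ) *
          (G X - G (mvs (List.ofFn s) X)) ^ 2 else 0) ≤
      8 * 2 ^ (15 * p.B) * (Ztot p g m n : ℝ) * dirI p g m n G := by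
    intro s
    have h := energy_family hne (Finset.univ : Finset Unit)
      (fun _ X => mvs (List.ofFn s) X) (c := 1 / (2 * (2 : ℝ) ^ (15 * p.B)))
      (fun _ _ _ _ _ _ _ _ => rfl) (fun X _ _ _ _ _ => propK_ge_worm hm hn s X) G
    simp only [Finset.univ_unique, Finset.sum_singleton] at h
    have h2 : (0 : ℝ) < 2 * (2 : ℝ) ^ (15 * p.B) := by positivity
    rw [div_mul_eq_mul_div, one_mul, div_le_iff₀ h2] at h
    refine le_trans ?_ (h.trans (le_of_eq (by ring)))
    refine le_of_eq (Finset.sum_congr rfl fun X _ => ?_)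
    split_ifs <;> rfl
  have hswap : WormE (al m n g) (rad p m g) (wR p m n g) 5 G ≤
      ∑ s : Fin 5 → Fin n × Fin m × Fin m, ∑ X ∈ stF p g m n,
      (if mvs (List.ofFn s) X ∈ stF p g m n then
        ((min (Wt p g X) (Wt p g (mvs (List.ofFn s) X)) : ℕ) : ℝ) *
          (G X - G (mvs (List.ofFn s) X)) ^ 2 else 0) := by
    rw [Finset.sum_comm]
    unfold WormE
    have h1 : stF p g m n ⊆
        conf (gs (Fin m) (Fin n)) (gt (Fin m) (Fin n)) (rad p m g) (al m n g) := fun X hX =>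
      ((mem_conf_wR hQ hLp hLc hr X).1 hX).1
    refine le_of_eq ?_
    rw [← Finset.sum_subset h1]
    · refine Finset.sum_congr rfl fun X hX => Finset.sum_congr rfl fun s _ => ?_
      set Y := mvs (List.ofFn s) X with hY
      have hX1 : pw (wR p m n g) X = (Wt p g X : ℝ) :=
        pw_wR' fun i => rowSum_of_Wt (Wt_ne_of_mem hX) i
      by_cases h2 : bd (gs (Fin m) (Fin n)) (gt (Fin m) (Fin n)) Y = al m n g
      · rw [if_pos h2, hX1, pw_wR' ((bd_eq_al' Y).1 h2).1]
        by_cases h3 : Y ∈ stF p g m n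
        · rw [if_pos h3, Nat.cast_min]
        · rw [if_neg h3]
          have h4 : Wt p g Y = 0 := by
            by_contra h5
            exact h3 ((mem_stF_iff hQ hLp hLc hr).2 ⟨((bd_eq_al' Y).1 h2).2, h5⟩)
          rw [h4, Nat.cast_zero, min_eq_right (Nat.cast_nonneg _), zero_mul]
      · rw [if_neg h2, if_neg]
        intro h3
        have h4 := (mem_stF_iff hQ hLp hLc hr).1 h3
        exact h2 ((bd_eq_al' Y).2 ⟨fun i => rowSum_of_Wt h4.2 i, h4.1⟩)
    · intro X hX hX'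
      have h0 : pw (wR p m n g) X = 0 := by
        by_contra h
        exact hX' ((mem_conf_wR hQ hLp hLc hr X).2 ⟨hX, h⟩)
      refine Finset.sum_eq_zero fun s _ => ?_
      have h9 : 0 ≤ pw (wR p m n g) (mvs (List.ofFn s) X) :=
        Finset.prod_nonneg fun e _ => wR_nonneg' e _
      rw [h0, min_eq_left h9, zero_mul, ite_self]
  refine hswap.trans ((Finset.sum_le_card_nsmul _ _ _ fun s _ => hone s).trans (le_of_eq ?_))
  rw [nsmul_eq_mul, Finset.card_univ, Fintype.card_fun, Fintype.card_prod, Fintype.card_prod,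
    Fintype.card_fin, Fintype.card_fin, Fintype.card_fin]
  push_cast
  ring

/-! ### the block moves -/

theorem blockM_cell {i j : ℕ} (hi : i < m) (hj : j < n) (hB : Blk p m n g i j) (d : ℤ)
    (X : Tab m n) : blockM p g i j d X (⟨i, hi⟩, ⟨j, hj⟩) = X (⟨i, hi⟩, ⟨j, hj⟩) + d := by
  rw [blockM_eq, if_pos ⟨⟨hi, hj⟩, hB⟩]
  have h1 : ¬(i = is m g) := hB.1.1
  have h2 : ¬(j = js n g) := hB.2.1
  simp [ce, h1, h2]

open scoped Classical in
/-- **The block moves** at the cell `(i, j)`. -/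
theorem BlockE_le (hne : (stF p g m n).Nonempty) {i j : ℕ} (hi : i < m) (hj : j < n)
    (hm : m ≤ 2 ^ p.B) (hn : n ≤ 2 ^ p.B) (hB : Blk p m n g i j) (G : Tab m n → ℝ) :
    ∑ d ∈ Finset.Ioo (-(2 : ℤ) ^ lb p g i j) (2 ^ lb p g i j), ∑ X ∈ stF p g m n,
      (if blockM p g i j d X ∈ stF p g m n then
        ((min (Wt p g X) (Wt p g (blockM p g i j d X)) : ℕ) : ℝ) *
          (G X - G (blockM p g i j d X)) ^ 2 else 0) ≤
      16 * 2 ^ (2 * p.B + lb p g i j) * (Ztot p g m n : ℝ) * dirI p g m n G := by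
  have h := energy_family hne (Finset.Ioo (-(2 : ℤ) ^ lb p g i j) (2 ^ lb p g i j))
    (fun d X => blockM p g i j d X) (c := 1 / (4 * (2 : ℝ) ^ (2 * p.B + lb p g i j)))
    (fun X _ s _ t _ hst _ => by
      have h1 := congrFun hst (⟨i, hi⟩, ⟨j, hj⟩)
      rw [blockM_cell hi hj hB, blockM_cell hi hj hB] at h1
      omega)
    (fun X _ d hd _ _ => propK_ge_block (by omega) (by omega)
      (abs_lt.2 (Finset.mem_Ioo.1 hd)) X) G
  have h2 : (0 : ℝ) < 4 * (2 : ℝ) ^ (2 * p.B + lb p g i j) := by positivity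
  rw [div_mul_eq_mul_div, one_mul, div_le_iff₀ h2] at h
  exact h.trans (le_of_eq (by ring))

/-! ### the weights are log-concave -/

theorem LC_indicator_ie (P : ℤ → Prop) [DecidablePred P]
    (hP : ∀ a b x, P a → P b → a ≤ x → x ≤ b → P x) : LC fun x => if P x then (1 : ℝ) else 0 := by
  constructor
  · intro x
    simp only
    split_ifs <;> norm_num
  · intro a b hab
    simp only
    by_cases ha : P a
    · by_cases hb : P b
      · rw [if_pos ha, if_pos hb, if_pos (hP a b _ ha hb (by omega) (by omega)),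
          if_pos (hP a b _ ha hb (by omega) (by omega))]
      · rw [if_neg hb, mul_zero]
        split_ifs <;> norm_num
    · rw [if_neg ha, zero_mul]
      split_ifs <;> norm_num

theorem LC_soft_ie (L : ℤ) (q : ℕ) :
    LC fun x => if |x| ≤ L then (((L + min 0 x).toNat ^ q : ℕ) : ℝ) else 0 := by
  constructor
  · intro x
    simp only
    split_ifs <;> positivity
  · intro a b hab
    simp only
    by_cases ha : |a| ≤ L
    · by_cases hb : |b| ≤ L
      · have ha' := abs_le.1 ha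
        have hb' := abs_le.1 hb
        have h1 : |a + 1| ≤ L := abs_le.2 ⟨by omega, by omega⟩
        have h2 : |b - 1| ≤ L := abs_le.2 ⟨by omega, by omega⟩
        rw [if_pos ha, if_pos hb, if_pos h1, if_pos h2]
        rw [← Nat.cast_mul, ← Nat.cast_mul, ← mul_pow, ← mul_pow]
        have key : (L + min 0 a) * (L + min 0 b) ≤ (L + min 0 (a + 1)) * (L + min 0 (b - 1)) := by
          rcases le_or_gt b 0 with h3 | h3
          · rw [min_eq_right (by omega : a ≤ 0), min_eq_right h3,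
              min_eq_right (by omega : a + 1 ≤ 0), min_eq_right (by omega : b - 1 ≤ 0)]
            nlinarith
          · rcases le_or_gt 0 a with h4 | h4
            · rw [min_eq_left h4, min_eq_left h3.le, min_eq_left (by omega : 0 ≤ a + 1),
                min_eq_left (by omega : 0 ≤ b - 1)]
            · rw [min_eq_right h4.le, min_eq_left h3.le, min_eq_right (by omega : a + 1 ≤ 0),
                min_eq_left (by omega : 0 ≤ b - 1)]
              exact mul_le_mul_of_nonneg_right (by omega) (by omega)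
        have h3 : (L + min 0 a).toNat * (L + min 0 b).toNat ≤
            (L + min 0 (a + 1)).toNat * (L + min 0 (b - 1)).toNat := by
          zify
          rw [Int.toNat_of_nonneg (by omega), Int.toNat_of_nonneg (by omega),
            Int.toNat_of_nonneg (by omega), Int.toNat_of_nonneg (by omega)]
          exact key
        exact_mod_cast Nat.pow_le_pow_left h3 q
      · rw [if_neg hb, mul_zero]
        split_ifs <;> positivity
    · rw [if_neg ha, zero_mul]
      split_ifs <;> positivity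

theorem wR_LC' (e : Fin m × Fin n) : LC (wR p m n g e) := by
  by_cases h1 : Piv p m n g (e.1 : ℕ) (e.2 : ℕ)
  · have h := LC_soft_ie (Ls p m n g (e.1 : ℕ) (e.2 : ℕ)) p.q
    have h2 : wR p m n g e = fun x => if |x| ≤ Ls p m n g (e.1 : ℕ) (e.2 : ℕ) then
        (((Ls p m n g (e.1 : ℕ) (e.2 : ℕ) + min 0 x).toNat ^ p.q : ℕ) : ℝ) else 0 := by
      funext x
      unfold wR cw
      rw [if_pos h1]
      split_ifs <;> simp
    rw [h2]
    exact h
  · by_cases h3 : Blk p m n g (e.1 : ℕ) (e.2 : ℕ)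
    · have h := LC_indicator_ie (fun x => 0 ≤ x ∧ x < sg g (e.1 : ℕ) (e.2 : ℕ))
        (fun a b x ha hb h4 h5 => ⟨ha.1.trans h4, h5.trans_lt hb.2⟩)
      have h2 : wR p m n g e = fun x => if 0 ≤ x ∧ x < sg g (e.1 : ℕ) (e.2 : ℕ) then
          (1 : ℝ) else 0 := by
        funext x
        unfold wR cw
        rw [if_neg h1, if_pos h3]
        split_ifs <;> simp
      rw [h2]
      exact h
    · have h := LC_indicator_ie (fun x => 0 ≤ x ∧ x ≤ sc g (e.1 : ℕ) (e.2 : ℕ))
        (fun a b x ha hb h4 h5 => ⟨ha.1.trans h4, h5.trans hb.2⟩)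
      have h2 : wR p m n g e = fun x => if 0 ≤ x ∧ x ≤ sc g (e.1 : ℕ) (e.2 : ℕ) then
          (1 : ℝ) else 0 := by
        funext x
        unfold wR cw
        rw [if_neg h1, if_neg h3]
        split_ifs <;> simp
      rw [h2]
      exact h

end Vale.Agent.P328R
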