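import Vale.Agent.P328R.WAsm
import Vale.Agent.P328R.IdealEnergy
import Vale.Agent.P328R.G2
import Vale.Agent.P328R.G3
import Vale.Agent.P328R.G4
import Vale.Agent.P328R.MixPMF

/-! The per-phase theorem: the ideal chain satisfies a weak Poincaré inequality with polynomial
constants. -/

set_option linter.unusedSectionVars false

namespace Vale.Agent.P328R

open Finset Vale.Agent.P328RAM

variable {p : Par} {m n μ : ℕ} {g : Mg}

theorem Valid.gv (h : Valid m n g) : GV m n g where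
  r0 := fun i => h.r_nonneg i i.2
  c0 := fun j => h.c_nonneg j j.2
  tot := h.sum_eq

theorem PV.Qpos (hP : PV p m n μ) : 0 ≤ p.Q := by
  refine le_trans ?_ hP.Q
  positivity

theorem PV.Lppos (hP : PV p m n μ) : 0 ≤ p.Lp := by
  refine le_trans ?_ hP.Lp
  positivity

theorem PV.Lcpos (hP : PV p m n μ) : 0 ≤ p.Lc := hP.Lppos.trans hP.Lc

/-- The block move in terms of `blk`. -/
theorem blockM_blk (hP : PV p m n μ) {e : Fin m × Fin n} (he : e ∈ DB p m n g) (d : ℤ)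
    (X : Tab m n) :
    blockM p g (e.1 : ℕ) (e.2 : ℕ) d X = X + d • blk (ri m g hP.hm) (cj n g hP.hn) e := by
  have hB : Blk p m n g (e.1 : ℕ) (e.2 : ℕ) := by
    classical
    unfold DB at he
    exact (Finset.mem_filter.1 he).2
  unfold blockM
  rw [if_pos ⟨⟨e.1.2, e.2.2⟩, hB⟩]
  funext f
  unfold bmv addc
  have h1 : ∀ (a : Fin m) (b : Fin n), (f = (a, b)) ↔ ((f.1 : ℕ) = a ∧ (f.2 : ℕ) = b) := by
    intro a b
    constructor
    · rintro rfl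
      exact ⟨rfl, rfl⟩
    · rintro ⟨h1, h2⟩
      exact Prod.ext (Fin.ext h1) (Fin.ext h2)
  have h2 : f = e ↔ ((f.1 : ℕ) = e.1 ∧ (f.2 : ℕ) = e.2) := h1 e.1 e.2
  simp only [Pi.add_apply, Pi.smul_apply, smul_eq_mul, blk, h1, h2]
  have h3 : ((ri m g hP.hm : Fin m) : ℕ) = is m g := rfl
  have h4 : ((cj n g hP.hn : Fin n) : ℕ) = js n g := rfl
  rw [h3, h4]
  split_ifs <;> ring

/-- The energy of all block moves. -/
theorem BlockE_le' (hP : PV p m n μ) (hG : GV m n g) (hne : (stF p g m n).Nonempty)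
    (hm : m ≤ 2 ^ p.B) (hn : n ≤ 2 ^ p.B) (G : Tab m n → ℝ) :
    BlockE (al m n g) (rad p m g) (wR p m n g) (ri m g hP.hm) (cj n g hP.hn) (DB p m n g)
        (lamR p g m n) G ≤
      ((DB p m n g).card : ℝ) * (16 * 2 ^ (2 * p.B)) * (Ztot p g m n : ℝ) * dirI p g m n G := by
  classical
  have hr := hG.r0
  unfold BlockE
  rw [Finset.sum_comm]
  refine (Finset.sum_le_card_nsmul _ _ (16 * 2 ^ (2 * p.B) * (Ztot p g m n : ℝ) * dirI p g m n G)
    fun e he => ?_).trans (le_of_eq ?_)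
  · have hB : Blk p m n g (e.1 : ℕ) (e.2 : ℕ) := by
      unfold DB at he
      exact (Finset.mem_filter.1 he).2
    have h0 := BlockE_le hne e.1.2 e.2.2 hm hn hB G
    have hl : (lamR p g m n e : ℝ) = (2 : ℝ) ^ lb p g (e.1 : ℕ) (e.2 : ℕ) := by
      unfold lamR; push_cast; rfl
    have hpos : (0 : ℝ) < (2 : ℝ) ^ lb p g (e.1 : ℕ) (e.2 : ℕ) := by positivity
    rw [← Finset.mul_sum, hl, one_div, inv_mul_le_iff₀ hpos]
    have h1 : (2 : ℝ) ^ lb p g (e.1 : ℕ) (e.2 : ℕ) *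
        (16 * 2 ^ (2 * p.B) * (Ztot p g m n : ℝ) * dirI p g m n G) =
        16 * 2 ^ (2 * p.B + lb p g (e.1 : ℕ) (e.2 : ℕ)) * (Ztot p g m n : ℝ) *
          dirI p g m n G := by
      rw [pow_add]; ring
    rw [h1]
    refine le_trans (le_of_eq ?_) h0
    rw [Finset.sum_comm]
    refine Finset.sum_congr rfl fun d _ => ?_
    have hsub : stF p g m n ⊆
        conf (gs (Fin m) (Fin n)) (gt (Fin m) (Fin n)) (rad p m g) (al m n g) := fun X hX =>
      ((mem_conf_wR hP.Qpos hP.Lppos hP.Lcpos hr X).1 hX).1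
    rw [← Finset.sum_subset hsub]
    · refine Finset.sum_congr rfl fun X hX => ?_
      rw [← blockM_blk hP he]
      have hX1 := (mem_stF_iff hP.Qpos hP.Lppos hP.Lcpos hr).1 hX
      have hrow : ∀ i, rowSum (blockM p g (e.1 : ℕ) (e.2 : ℕ) d X) i = g.r i := by
        intro i
        rw [rowSum_blockM]
        exact rowSum_of_Wt hX1.2 i
      rw [pw_wR' (fun i => rowSum_of_Wt hX1.2 i), pw_wR' hrow]
      by_cases h3 : blockM p g (e.1 : ℕ) (e.2 : ℕ) d X ∈ stF p g m n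
      · rw [if_pos h3, Nat.cast_min]
      · rw [if_neg h3]
        have h4 : Wt p g (blockM p g (e.1 : ℕ) (e.2 : ℕ) d X) = 0 := by
          by_contra h5
          refine h3 ((mem_stF_iff hP.Qpos hP.Lppos hP.Lcpos hr).2 ⟨fun j => ?_, h5⟩)
          rw [colSum_blockM]
          exact hX1.1 j
        rw [h4, Nat.cast_zero, min_eq_right (Nat.cast_nonneg _), zero_mul]
    · intro X hX hX'
      have h5 : pw (wR p m n g) X = 0 := by
        by_contra h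
        exact hX' ((mem_conf_wR hP.Qpos hP.Lppos hP.Lcpos hr X).2 ⟨hX, h⟩)
      have h9 : 0 ≤ pw (wR p m n g) (X + d • blk (ri m g hP.hm) (cj n g hP.hn) e) :=
        Finset.prod_nonneg fun e _ => wR_nonneg' e _
      rw [h5, min_eq_left h9, zero_mul]
  · rw [nsmul_eq_mul]; ring

/-- The constant of the per-phase theorem. -/
noncomputable def GA (p : Par) (m n μ : ℕ) (ε : ℝ) : ℝ :=
  cA m n (m * n) (2 ^ p.k1 * (μ : ℝ) ^ 2) 2 2 ((μ : ℝ) ^ 2) (m * n * p.Q) ε *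
    (((n : ℝ) * (m : ℝ) ^ 2) ^ 5 * (8 * 2 ^ (15 * p.B)) + (m * n) * (16 * 2 ^ (2 * p.B))) + 1

theorem cx_mono {D D' S ε : ℝ} (hε : 0 < ε) (h : D ≤ D') (hS : 0 ≤ S) :
    cx D S ε ≤ cx D' S ε := by
  unfold cx
  have : 8 * D * S ^ 4 / ε ≤ 8 * D' * S ^ 4 / ε := by gcongr
  linarith

theorem cx_nonneg {D S ε : ℝ} (hε : 0 < ε) (hD : 0 ≤ D) : 0 ≤ cx D S ε := by
  unfold cx
  positivity

theorem cy_mono {m n D D' S K1 Kd ε : ℝ} (hε : 0 < ε) (hD : 0 ≤ D) (h : D ≤ D') (hS : 0 ≤ S)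
    (hm : 0 ≤ m) (hn : 0 ≤ n) (hK1 : 0 ≤ K1) :
    cy m n D S K1 Kd ε ≤ cy m n D' S K1 Kd ε := by
  unfold cy
  have h1 := cx_mono (S := S) hε h hS
  have h2 := cx_nonneg (S := S) hε hD
  have h3 : 0 ≤ 48 * K1 * (3 * m * n * (m + n) * Kd ^ 4) := by positivity
  gcongr

theorem cy_nonneg {m n D S K1 Kd ε : ℝ} (hε : 0 < ε) 
    (hm : 0 ≤ m) (hn : 0 ≤ n) (hK1 : 0 ≤ K1) : 0 ≤ cy m n D S K1 Kd ε := by
  unfold cy
  positivity

theorem cA_mono {m n D D' S K K1 K2 Kd ε : ℝ} (hε : 0 < ε) (hD : 0 ≤ D) (h : D ≤ D') (hS : 0 ≤ S)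
    (hm : 0 ≤ m) (hn : 0 ≤ n) (hK1 : 0 ≤ K1) (hK2 : 0 ≤ K2) (hK : 0 ≤ K) :
    cA m n D S K K1 K2 Kd ε ≤ cA m n D' S K K1 K2 Kd ε := by
  unfold cA
  have h1 := cx_mono (S := S) hε h hS
  have h2 := cx_nonneg (S := S) hε hD
  have h4 := cy_mono (Kd := Kd) hε hD h hS hm hn hK1
  have h5 := cy_nonneg (D := D) (S := S) (Kd := Kd) hε hm hn hK1
  have h2' : 0 ≤ cx D' S ε := h2.trans h1
  have h5' : 0 ≤ cy m n D' S K1 Kd ε := h5.trans h4
  gcongr

theorem cA_nonneg {m n D S K K1 K2 Kd ε : ℝ} (hD : 0 ≤ D)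
    (hm : 0 ≤ m) (hn : 0 ≤ n) (hK1 : 0 ≤ K1) (hK2 : 0 ≤ K2) (hK : 0 ≤ K) :
    0 ≤ cA m n D S K K1 K2 Kd ε := by
  unfold cA
  positivity

/-- Variance from pairs. -/
theorem var_pairs {ι : Type} (S : Finset ι) (w G : ι → ℝ) {Zt : ℝ} (hZ : 0 < Zt)
    (hw : ∑ x ∈ S, w x = Zt) :
    ∑ x ∈ S, w x / Zt * (G x - ∑ z ∈ S, w z / Zt * G z) ^ 2 =
      (1 / (2 * Zt ^ 2)) * ∑ x ∈ S, ∑ y ∈ S, w x * w y * (G x - G y) ^ 2 := by
  set a := ∑ z ∈ S, w z * G z with ha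
  set b := ∑ z ∈ S, w z * G z ^ 2 with hb
  have h1 : ∑ z ∈ S, w z / Zt * G z = a / Zt := by
    rw [ha, Finset.sum_div]
    exact Finset.sum_congr rfl fun z _ => by ring
  have h2 : ∑ x ∈ S, w x / Zt * (G x - a / Zt) ^ 2 = b / Zt - a ^ 2 / Zt ^ 2 := by
    have : ∀ x ∈ S, w x / Zt * (G x - a / Zt) ^ 2 =
        (w x * G x ^ 2) / Zt - (w x * G x) * (2 * a / Zt ^ 2) + w x * (a ^ 2 / Zt ^ 3) := by
      intro x _
      field_simp
      ring
    rw [Finset.sum_congr rfl this, Finset.sum_add_distrib, Finset.sum_sub_distrib,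
      ← Finset.sum_div, ← Finset.sum_mul, ← Finset.sum_mul, ← ha, ← hb, hw]
    field_simp
    ring
  have h3 : ∑ x ∈ S, ∑ y ∈ S, w x * w y * (G x - G y) ^ 2 = 2 * Zt * b - 2 * a ^ 2 := by
    have : ∀ x ∈ S, ∑ y ∈ S, w x * w y * (G x - G y) ^ 2 =
        (w x * G x ^ 2) * Zt - (w x * G x) * (2 * a) + w x * b := by
      intro x _
      have h4 : ∀ y ∈ S, w x * w y * (G x - G y) ^ 2 =
          (w x * G x ^ 2) * w y - (w x * G x) * 2 * (w y * G y) + w x * (w y * G y ^ 2) := by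
        intro y _; ring
      rw [Finset.sum_congr rfl h4, Finset.sum_add_distrib, Finset.sum_sub_distrib,
        ← Finset.mul_sum, ← Finset.mul_sum, ← Finset.mul_sum, ← ha, ← hb, hw]
      ring
    rw [Finset.sum_congr rfl this, Finset.sum_add_distrib, Finset.sum_sub_distrib,
      ← Finset.sum_mul, ← Finset.sum_mul, ← Finset.sum_mul, ← ha, ← hb, hw]
    ring
  rw [h1, h2, h3]
  field_simp

theorem fin_alg {Sp cD c0 Zt Wo Bl w1 d b1 mn dir ε B : ℝ} (hZ : 0 < Zt) (hε : 0 < ε)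
    (hwp : Sp ≤ cD * (Zt * (Wo + Bl)) + ε * B ^ 2 * Zt ^ 2) (hc : cD ≤ c0) (hc0 : 0 ≤ c0)
    (hWo0 : 0 ≤ Wo) (hBl0 : 0 ≤ Bl) (hdir : 0 ≤ dir) (hw1 : 0 ≤ w1) (hb1 : 0 ≤ b1)
    (hmn : 0 ≤ mn)
    (hWo : Wo ≤ w1 * Zt * dir) (hBl : Bl ≤ d * b1 * Zt * dir) (hd : d ≤ mn) :
    (1 / (2 * Zt ^ 2)) * Sp ≤ (c0 * (w1 + mn * b1) + 1) * dir + ε * B ^ 2 := by
  have h1 : d * b1 * Zt * dir ≤ mn * b1 * Zt * dir := by gcongr
  have hE : Wo + Bl ≤ (w1 + mn * b1) * Zt * dir := by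
    calc Wo + Bl ≤ _ := add_le_add hWo (hBl.trans h1)
      _ = _ := by ring
  have h2 : cD * (Zt * (Wo + Bl)) ≤ c0 * (Zt * ((w1 + mn * b1) * Zt * dir)) :=
    mul_le_mul hc (mul_le_mul_of_nonneg_left hE hZ.le) (by positivity) hc0
  have h3 : (1 / (2 * Zt ^ 2)) * Sp ≤
      (1 / (2 * Zt ^ 2)) * (c0 * (Zt * ((w1 + mn * b1) * Zt * dir)) + ε * B ^ 2 * Zt ^ 2) :=
    mul_le_mul_of_nonneg_left (by linarith) (by positivity)
  refine h3.trans ?_
  have h4 : (1 / (2 * Zt ^ 2)) * (c0 * (Zt * ((w1 + mn * b1) * Zt * dir)) + ε * B ^ 2 * Zt ^ 2) =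
      (1 / 2) * (c0 * (w1 + mn * b1) * dir) + (1 / 2) * (ε * B ^ 2) := by
    field_simp
  rw [h4]
  have h5 : 0 ≤ c0 * (w1 + mn * b1) * dir := by positivity
  have h6 : 0 ≤ ε * B ^ 2 := by positivity
  have h7 : (c0 * (w1 + mn * b1) + 1) * dir = c0 * (w1 + mn * b1) * dir + dir := by ring
  rw [h7]
  linarith

theorem GA_one_le {ε : ℝ} (hQ : 0 ≤ p.Q) : 1 ≤ GA p m n μ ε := by
  unfold GA
  have hQ0 : (0 : ℝ) ≤ p.Q := by exact_mod_cast hQ
  have := cA_nonneg (m := (m : ℝ)) (n := n) (D := (m : ℝ) * n) (S := 2 ^ p.k1 * (μ : ℝ) ^ 2)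
    (K := 2) (K1 := 2) (K2 := (μ : ℝ) ^ 2) (Kd := (m : ℝ) * n * p.Q) (ε := ε) (by positivity)
    (by positivity) (by positivity) (by norm_num) (by positivity) (by norm_num)
  have h2 : (0 : ℝ) ≤ ((n : ℝ) * (m : ℝ) ^ 2) ^ 5 * (8 * 2 ^ (15 * p.B)) +
      (m * n) * (16 * 2 ^ (2 * p.B)) := by positivity
  linarith [mul_nonneg this h2]

/-- The weak Poincaré inequality on the exact tables of the box. -/
theorem wp_conf (hP : PV p m n μ) (hG : GV m n g) (G' : Tab m n → ℝ) {B : ℝ} (hB0 : 0 ≤ B)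
    (hB : ∀ X ∈ conf (gs (Fin m) (Fin n)) (gt (Fin m) (Fin n)) (rad p m g) (al m n g),
        |G' X| ≤ B) {ε : ℝ} (hε : 0 < ε) :
    ∑ X ∈ conf (gs (Fin m) (Fin n)) (gt (Fin m) (Fin n)) (rad p m g) (al m n g),
      ∑ Y ∈ conf (gs (Fin m) (Fin n)) (gt (Fin m) (Fin n)) (rad p m g) (al m n g),
        pw (wR p m n g) X * pw (wR p m n g) Y * (G' X - G' Y) ^ 2 ≤
      cA (m : ℝ) n (DB p m n g).card (2 ^ p.k1 * (μ : ℝ) ^ 2) 2 2 ((μ : ℝ) ^ 2) (m * n * p.Q) ε *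
        ((Ztot p g m n : ℝ) * (WormE (al m n g) (rad p m g) (wR p m n g) 5 G' +
          BlockE (al m n g) (rad p m g) (wR p m n g) (ri m g hP.hm) (cj n g hP.hn)
            (DB p m n g) (lamR p g m n) G')) + ε * B ^ 2 * (Ztot p g m n : ℝ) ^ 2 := by
  have hr := hG.r0
  have hQ0 : (0 : ℝ) ≤ p.Q := by exact_mod_cast hP.Qpos
  have hwp := soft_wp (α := al m n g) (M := rad p m g) (w := wR p m n g)
    (fun e => wR_LC' e) (fun e => wR_supp' hP.Qpos hP.Lppos hP.Lcpos hr e)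
    (i0 := ri m g hP.hm) (j0 := cj n g hP.hn) (D := DB p m n g)
    (fun e he => DB_off hP he) (sig := fun e => sg g (e.1 : ℕ) (e.2 : ℕ))
    (lam := lamR p g m n) (u := uR p g m n μ) (K2 := μ ^ 2) (K1 := 2)
    (S := 2 ^ p.k1 * (μ : ℝ) ^ 2)
    (fun e he => uR_pos hP hG he) (fun e he => lamR_eq hP hG he)
    (fun e he => lamR_dvd hP hG he) (DB_card hP) (by positivity)
    (fun e he => sg_le hP hG he) (fun X hX e he => box_wR hP hX he) (by norm_num)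
    (fun X hX h W hW => by
      refine upd_wR hP hG (?_ : bd _ _ X = al m n g) h W hW
      exact (Finset.mem_filter.1 hX).2)
    (K := 2) (by norm_num) (rep_wR hP hG) (Kd := (m : ℝ) * n * p.Q) (by positivity)
    (fun X hX Y hY h1 h2 h3 e => by
      have := diff_wR hP hG (Finset.mem_filter.1 hX).2 (Finset.mem_filter.1 hY).2 h1 h2 h3 e
      rw [← Int.cast_abs]
      exact_mod_cast this)
    G' hB0 hB hε
  rw [Z_wR hP.Qpos hP.Lppos hP.Lcpos hr, Fintype.card_fin, Fintype.card_fin] at hwp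
  push_cast at hwp
  exact hwp

theorem pairs_conf (hP : PV p m n μ) (hG : GV m n g) (G G' : Tab m n → ℝ)
    (hGG : ∀ X ∈ stF p g m n, G' X = G X) :
    ∑ X ∈ conf (gs (Fin m) (Fin n)) (gt (Fin m) (Fin n)) (rad p m g) (al m n g),
        ∑ Y ∈ conf (gs (Fin m) (Fin n)) (gt (Fin m) (Fin n)) (rad p m g) (al m n g),
          pw (wR p m n g) X * pw (wR p m n g) Y * (G' X - G' Y) ^ 2 =
        ∑ X ∈ stF p g m n, ∑ Y ∈ stF p g m n,
          (Wt p g X : ℝ) * (Wt p g Y : ℝ) * (G X - G Y) ^ 2 := by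
  have hr := hG.r0
  have h1 : ∀ X : Tab m n,
      ∑ Y ∈ conf (gs (Fin m) (Fin n)) (gt (Fin m) (Fin n)) (rad p m g) (al m n g),
      pw (wR p m n g) X * pw (wR p m n g) Y * (G' X - G' Y) ^ 2 =
      pw (wR p m n g) X * ∑ Y ∈ stF p g m n, (Wt p g Y : ℝ) * (G' X - G' Y) ^ 2 := by
    intro X
    rw [← sum_conf_wR hP.Qpos hP.Lppos hP.Lcpos hr, Finset.mul_sum]
    exact Finset.sum_congr rfl fun Y _ => by ring
  rw [Finset.sum_congr rfl fun X _ => h1 X,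
    sum_conf_wR hP.Qpos hP.Lppos hP.Lcpos hr
      (fun X => ∑ Y ∈ stF p g m n, (Wt p g Y : ℝ) * (G' X - G' Y) ^ 2)]
  refine Finset.sum_congr rfl fun X hX => ?_
  rw [Finset.mul_sum]
  refine Finset.sum_congr rfl fun Y hY => ?_
  rw [hGG X hX, hGG Y hY]
  ring

/-- The weak Poincaré inequality on the state space, in terms of pairs. -/
theorem wp_pairs (hP : PV p m n μ) (hG : GV m n g) (hmB : m ≤ 2 ^ p.B) (hnB : n ≤ 2 ^ p.B)
    (hne : (stF p g m n).Nonempty) {ε : ℝ} (hε : 0 < ε) (G : Tab m n → ℝ) {B : ℝ}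
    (hB : ∀ X ∈ stF p g m n, |G X| ≤ B) :
    (1 / (2 * (Ztot p g m n : ℝ) ^ 2)) * ∑ X ∈ stF p g m n, ∑ Y ∈ stF p g m n,
          (Wt p g X : ℝ) * (Wt p g Y : ℝ) * (G X - G Y) ^ 2 ≤
      GA p m n μ ε * dirI p g m n G + ε * B ^ 2 := by
  classical
  have hr := hG.r0
  have hZ : (0 : ℝ) < (Ztot p g m n : ℝ) := by exact_mod_cast Ztot_pos hne
  have hQ0 : (0 : ℝ) ≤ p.Q := by exact_mod_cast hP.Qpos
  obtain ⟨x0, hx0⟩ := hne
  have hB0 : 0 ≤ B := (abs_nonneg _).trans (hB x0 hx0)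
  have hne : (stF p g m n).Nonempty := ⟨x0, hx0⟩
  obtain ⟨G', hGG, hG'B⟩ : ∃ G' : Tab m n → ℝ, (∀ X ∈ stF p g m n, G' X = G X) ∧
      ∀ X, |G' X| ≤ B := by
    refine ⟨fun X => if X ∈ stF p g m n then G X else 0, fun X hX => if_pos hX, fun X => ?_⟩
    by_cases h : X ∈ stF p g m n
    · simp only [if_pos h]; exact hB X h
    · simp only [if_neg h, abs_zero]; exact hB0
  have hwp := wp_conf hP hG G' hB0 (fun X _ => hG'B X) hε
  rw [pairs_conf hP hG G G' hGG] at hwp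
  have hdir : dirI p g m n G' = dirI p g m n G := by
    unfold dirI
    congr 1
    exact Finset.sum_congr rfl fun X hX => Finset.sum_congr rfl fun Y hY => by
      rw [hGG X hX, hGG Y hY]
  have hWo := WormE_le hne hP.Qpos hP.Lppos hP.Lcpos hr hmB hnB G'
  have hBl := BlockE_le' hP hG hne hmB hnB G'
  rw [hdir] at hWo hBl
  have hcard : ((DB p m n g).card : ℝ) ≤ (m : ℝ) * n := by
    have h1 : (DB p m n g).card ≤ m * n := by
      refine (Finset.card_le_univ _).trans ?_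
      simp
    exact_mod_cast h1
  have hcA := cA_mono (m := (m : ℝ)) (n := n) (S := 2 ^ p.k1 * (μ : ℝ) ^ 2) (K := 2) (K1 := 2)
    (K2 := (μ : ℝ) ^ 2) (Kd := (m : ℝ) * n * p.Q) hε (by positivity) hcard (by positivity)
    (by positivity) (by positivity) (by norm_num) (by positivity) (by norm_num)
  have hcA0 := cA_nonneg (m := (m : ℝ)) (n := n) (D := (m : ℝ) * n)
    (S := 2 ^ p.k1 * (μ : ℝ) ^ 2)
    (K := 2) (K1 := 2) (K2 := (μ : ℝ) ^ 2) (Kd := (m : ℝ) * n * p.Q) (ε := ε) (by positivity)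
    (by positivity) (by positivity) (by norm_num) (by positivity) (by norm_num)
  exact fin_alg hZ hε hwp hcA hcA0 (WormE_nonneg (fun e x => wR_nonneg' e x) 5 G')
    (BlockE_nonneg (fun e x => wR_nonneg' e x) (fun e _ => by unfold lamR; positivity) G')
    (dirI_nonneg G) (by positivity) (by positivity) (by positivity) hWo hBl hcard

/-- **The per-phase theorem.** -/
theorem goodChain (hP : PV p m n μ) (hV : Valid m n g) (hmB : m ≤ 2 ^ p.B) (hnB : n ≤ 2 ^ p.B)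
    (hne : (stF p g m n).Nonempty) {ε : ℝ} (hε : 0 < ε) :
    GoodChain (stF p g m n) (piF p g m n) (stepI p g) (GA p m n μ ε) ε := by
  have hG := hV.gv
  have hZ : (0 : ℝ) < (Ztot p g m n : ℝ) := by exact_mod_cast Ztot_pos hne
  refine ⟨fun x hx => piF_apply_not_mem hne hx,
    fun x hx y hy => ideal_closed hP.Qpos hP.Lppos hP.Lcpos hG.r0 x hx y hy,
    fun x hx y hy => ideal_rev hne x hx y hy, fun x _ => stepI_lazy_real x,
    GA_one_le hP.Qpos, ?_⟩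
  intro G B hB
  have hpi : ∀ X ∈ stF p g m n, (piF p g m n X).toReal = (Wt p g X : ℝ) / (Ztot p g m n : ℝ) := by
    intro X hX
    rw [piF_apply_mem hne hX, ENNReal.toReal_div, ENNReal.toReal_natCast,
      ENNReal.toReal_natCast]
  have hmean : ∑ z ∈ stF p g m n, (piF p g m n z).toReal * G z =
      ∑ z ∈ stF p g m n, (Wt p g z : ℝ) / (Ztot p g m n : ℝ) * G z :=
    Finset.sum_congr rfl fun z hz => by rw [hpi z hz]
  have hv := var_pairs (stF p g m n) (fun X => (Wt p g X : ℝ)) G hZ (by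
    unfold Ztot; push_cast; rfl)
  have hvar : ∑ x ∈ stF p g m n, (piF p g m n x).toReal *
      (G x - ∑ z ∈ stF p g m n, (piF p g m n z).toReal * G z) ^ 2 =
      (1 / (2 * (Ztot p g m n : ℝ) ^ 2)) * ∑ X ∈ stF p g m n, ∑ Y ∈ stF p g m n,
          (Wt p g X : ℝ) * (Wt p g Y : ℝ) * (G X - G Y) ^ 2 := by
    rw [hmean, ← hv]
    exact Finset.sum_congr rfl fun x hx => by rw [hpi x hx]
  rw [hvar]
  exact wp_pairs hP hG hmB hnB hne hε G hB

end Vale.Agent.P328R
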