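import Vale.Agent.P328R.Centre

/-! Module M7: the replica functional (section 4 of the note). -/

namespace Vale.Agent.P328R

open Finset

variable {V E : Type} [Fintype V] [DecidableEq V] [Fintype E] [DecidableEq E]

theorem A_lvl_zero (src tgt : E → V) (M : ℤ) (α β : V → ℤ) (f : E → ℤ → ℝ) (T : E → ℤ)
    (G : (E → ℤ) → (E → ℤ) → ℝ) :
    A src tgt M α β 0 f T G = ∑ X ∈ conf src tgt M β, pw f X * G X (T - X) := rfl

theorem A_lvl_succ (src tgt : E → V) (M : ℤ) (α β : V → ℤ) (k : ℕ) (f : E → ℤ → ℝ) (T : E → ℤ)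
    (G : (E → ℤ) → (E → ℤ) → ℝ) :
    A src tgt M α β (k + 1) f T G = (Z src tgt M f α)⁻¹ *
        ∑ T' ∈ conf src tgt (2 * M) (fun v => 2 * α v), A src tgt M α β k (cut f T') T' G := rfl

theorem Z_nonneg (src tgt : E → V) (M : ℤ) {f : E → ℤ → ℝ} (h : ∀ e x, 0 ≤ f e x)
    (β : V → ℤ) : 0 ≤ Z src tgt M f β :=
  Finset.sum_nonneg fun X _ => pw_nonneg h X

theorem Frame.nonneg {src tgt : E → V} {M : ℤ} {α : V → ℤ} {f : E → ℤ → ℝ} {T : E → ℤ}
    (hF : Frame src tgt M α f T) : ∀ e x, 0 ≤ f e x := fun e => (hF.1 e).1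

theorem Frame.cut {src tgt : E → V} {M : ℤ} {α : V → ℤ} {f : E → ℤ → ℝ} {T : E → ℤ}
    (hF : Frame src tgt M α f T) {T' : E → ℤ}
    (hT : T' ∈ conf src tgt (2 * M) (fun v => 2 * α v)) :
    Frame src tgt M α (P328R.cut f T') T' :=
  Frame.of_cut hF.1 hF.2.2.1 hT

/-- Generic iteration: a bound valid for one step in all frames iterates. -/
theorem A_iter_le (src tgt : E → V) {M : ℤ} {α β : V → ℤ} {c : ℝ} (hc : 0 ≤ c)
    {G : (E → ℤ) → (E → ℤ) → ℝ} (hG : ∀ X Y, 0 ≤ G X Y)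
    (h : ∀ f T, Frame src tgt M α f T → A src tgt M α β 1 f T G ≤ c * A src tgt M α β 0 f T G)
    (k : ℕ) {f : E → ℤ → ℝ} {T : E → ℤ} (hF : Frame src tgt M α f T) :
    A src tgt M α β k f T G ≤ c ^ k * A src tgt M α β 0 f T G := by
  induction k generalizing f T with
  | zero => simp
  | succ k ih =>
    rw [A_lvl_succ]
    have h1 : ∑ T' ∈ conf src tgt (2 * M) (fun v => 2 * α v),
        A src tgt M α β k (cut f T') T' G ≤
        ∑ T' ∈ conf src tgt (2 * M) (fun v => 2 * α v),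
          c ^ k * A src tgt M α β 0 (cut f T') T' G :=
      Finset.sum_le_sum fun T' hT' => ih (hF.cut hT')
    rw [← Finset.mul_sum] at h1
    have h2 := h f T hF
    rw [A_lvl_succ] at h2
    have hZ : 0 ≤ (Z src tgt M f α)⁻¹ := inv_nonneg.2 (Z_nonneg src tgt M hF.nonneg α)
    calc (Z src tgt M f α)⁻¹ * ∑ T' ∈ conf src tgt (2 * M) (fun v => 2 * α v),
          A src tgt M α β k (cut f T') T' G
        ≤ (Z src tgt M f α)⁻¹ * (c ^ k * ∑ T' ∈ conf src tgt (2 * M) (fun v => 2 * α v),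
            A src tgt M α β 0 (cut f T') T' G) := mul_le_mul_of_nonneg_left h1 hZ
      _ = c ^ k * ((Z src tgt M f α)⁻¹ * ∑ T' ∈ conf src tgt (2 * M) (fun v => 2 * α v),
            A src tgt M α β 0 (cut f T') T' G) := by ring
      _ ≤ c ^ k * (c * A src tgt M α β 0 f T G) := mul_le_mul_of_nonneg_left h2 (pow_nonneg hc k)
      _ = c ^ (k + 1) * A src tgt M α β 0 f T G := by ring

theorem A_iter_ge (src tgt : E → V) {M : ℤ} {α β : V → ℤ} {c : ℝ} (hc : 0 ≤ c)
    {G : (E → ℤ) → (E → ℤ) → ℝ} (hG : ∀ X Y, 0 ≤ G X Y)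
    (h : ∀ f T, Frame src tgt M α f T → A src tgt M α β 0 f T G ≤ c * A src tgt M α β 1 f T G)
    (k : ℕ) {f : E → ℤ → ℝ} {T : E → ℤ} (hF : Frame src tgt M α f T) :
    A src tgt M α β 0 f T G ≤ c ^ k * A src tgt M α β k f T G := by
  induction k generalizing f T with
  | zero => simp
  | succ k ih =>
    have h1 : ∑ T' ∈ conf src tgt (2 * M) (fun v => 2 * α v),
          A src tgt M α β 0 (cut f T') T' G ≤
        ∑ T' ∈ conf src tgt (2 * M) (fun v => 2 * α v),
          c ^ k * A src tgt M α β k (cut f T') T' G :=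
      Finset.sum_le_sum fun T' hT' => ih (hF.cut hT')
    rw [← Finset.mul_sum] at h1
    have h2 := h f T hF
    rw [A_lvl_succ] at h2
    have hZ : 0 ≤ (Z src tgt M f α)⁻¹ := inv_nonneg.2 (Z_nonneg src tgt M hF.nonneg α)
    calc A src tgt M α β 0 f T G
        ≤ c * ((Z src tgt M f α)⁻¹ * ∑ T' ∈ conf src tgt (2 * M) (fun v => 2 * α v),
            A src tgt M α β 0 (cut f T') T' G) := h2
      _ ≤ c * ((Z src tgt M f α)⁻¹ * (c ^ k * ∑ T' ∈ conf src tgt (2 * M) (fun v => 2 * α v),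
            A src tgt M α β k (cut f T') T' G)) :=
          mul_le_mul_of_nonneg_left (mul_le_mul_of_nonneg_left h1 hZ) hc
      _ = c ^ (k + 1) * A src tgt M α β (k + 1) f T G := by
          rw [A_lvl_succ]; ring

/-- Comparison of two functionals (possibly with different boundaries) iterates. -/
theorem A_mono_iter (src tgt : E → V) {M : ℤ} {α : V → ℤ} {ι : Type} (I : Finset ι)
    (β : ι → V → ℤ) (H : ι → (E → ℤ) → (E → ℤ) → ℝ)
    {G : (E → ℤ) → (E → ℤ) → ℝ}
    (h : ∀ f T, Frame src tgt M α f T →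
      A src tgt M α α 0 f T G ≤ ∑ i ∈ I, A src tgt M α (β i) 0 f T (H i))
    (k : ℕ) {f : E → ℤ → ℝ} {T : E → ℤ} (hF : Frame src tgt M α f T) :
    A src tgt M α α k f T G ≤ ∑ i ∈ I, A src tgt M α (β i) k f T (H i) := by
  induction k generalizing f T with
  | zero => exact h f T hF
  | succ k ih =>
    simp only [A_lvl_succ]
    rw [← Finset.mul_sum, Finset.sum_comm]
    exact mul_le_mul_of_nonneg_left (Finset.sum_le_sum fun T' hT' => ih (hF.cut hT'))
      (inv_nonneg.2 (Z_nonneg src tgt M hF.nonneg α))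

/-- Nonzero weight puts both a point and its reflection in the box. -/
theorem Frame.refl_mem {src tgt : E → V} {M : ℤ} {α : V → ℤ} {f : E → ℤ → ℝ} {T : E → ℤ}
    (hF : Frame src tgt M α f T) {X : E → ℤ} (hX : X ∈ conf src tgt M α) (h : pw f X ≠ 0) :
    T - X ∈ conf src tgt M α := by
  have hb : bd src tgt X = α := (Finset.mem_filter.1 hX).2
  unfold conf
  rw [Finset.mem_filter]
  constructor
  · unfold box
    rw [Fintype.mem_piFinset]
    intro e
    rw [Finset.mem_Icc, ← abs_le]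
    by_contra hc
    push Not at hc
    have h1 : f e ((T - X) e) = 0 := hF.2.2.1 e _ hc
    have h2 : f e (X e) = 0 := by
      rw [← hF.2.1 e (X e)]
      simpa using h1
    exact h (Finset.prod_eq_zero (Finset.mem_univ e) h2)
  · funext v
    rw [bd_sub, hb, hF.2.2.2 v]
    ring

theorem Frame.pw_refl {src tgt : E → V} {M : ℤ} {α : V → ℤ} {f : E → ℤ → ℝ} {T : E → ℤ}
    (hF : Frame src tgt M α f T) (X : E → ℤ) : pw f (T - X) = pw f X := by
  unfold pw
  refine Finset.prod_congr rfl fun e _ => ?_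
  simpa using hF.2.1 e (X e)

/-- Reflection invariance of sums over a frame. -/
theorem Frame.sum_refl {src tgt : E → V} {M : ℤ} {α : V → ℤ} {f : E → ℤ → ℝ} {T : E → ℤ}
    (hF : Frame src tgt M α f T) (F : (E → ℤ) → ℝ) :
    ∑ X ∈ conf src tgt M α, pw f X * F (T - X) = ∑ X ∈ conf src tgt M α, pw f X * F X := by
  refine Finset.sum_bij_ne_zero (fun X _ _ => T - X) ?_ ?_ ?_ ?_
  · intro X hX h
    exact hF.refl_mem hX (left_ne_zero_of_mul h)
  · intro X _ _ Y _ _ hXY
    exact sub_right_injective hXY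
  · intro Y hY h
    have h1 : pw f Y ≠ 0 := left_ne_zero_of_mul h
    refine ⟨T - Y, hF.refl_mem hY h1, ?_, by simp⟩
    rw [hF.pw_refl]
    simpa using h
  · intro X _ _
    rw [hF.pw_refl]

/-- If the partition function vanishes, so do all weights. -/
theorem pw_eq_zero_of_Z (src tgt : E → V) (M : ℤ) {f : E → ℤ → ℝ} (h : ∀ e x, 0 ≤ f e x)
    {β : V → ℤ} (hZ : Z src tgt M f β = 0) {X : E → ℤ} (hX : X ∈ conf src tgt M β) :
    pw f X = 0 :=
  (Finset.sum_eq_zero_iff_of_nonneg fun X _ => pw_nonneg h X).1 hZ X hX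

/-- The first level written as a pair sum. -/
theorem A_one_pairs (src tgt : E → V) {M : ℤ} {α β γ : V → ℤ}
    (hβ : ∀ v, β v + γ v = 2 * α v) {f : E → ℤ → ℝ} {T : E → ℤ} (hF : Frame src tgt M α f T)
    (G : (E → ℤ) → (E → ℤ) → ℝ) :
    A src tgt M α β 1 f T G = (Z src tgt M f α)⁻¹ *
      ∑ X ∈ conf src tgt M β, ∑ Y ∈ conf src tgt M γ, pw f X * pw f Y * G X Y := by
  rw [sum_pairs src tgt hβ hF.2.2.1 G]
  rfl

/-- (a) the replica inequality. -/
theorem A_zero_le_two (src tgt : E → V) {M : ℤ} {α : V → ℤ} (g : (E → ℤ) → ℝ)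
    {f : E → ℤ → ℝ} {T : E → ℤ} (hF : Frame src tgt M α f T) :
    A src tgt M α α 0 f T (fun X Y => (g X - g Y) ^ 2) ≤
      2 * A src tgt M α α 1 f T (fun X Y => (g X - g Y) ^ 2) := by
  rw [A_one_pairs src tgt (fun v => by ring) hF, A_lvl_zero]
  have hnn := hF.nonneg
  rcases (Z_nonneg src tgt M hnn α).eq_or_lt with hZ | hZ
  · rw [← hZ]
    refine le_of_eq ?_
    rw [Finset.sum_eq_zero]
    · simp
    · intro X hX
      rw [pw_eq_zero_of_Z src tgt M hnn hZ.symm hX, zero_mul]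
  · set S := conf src tgt M α with hS
    set φ : (E → ℤ) → ℝ := fun X => g X - g (T - X) with hφ
    have hodd : ∑ X ∈ S, pw f X * φ X = 0 := by
      have h1 := hF.sum_refl φ
      have h2 : ∑ X ∈ S, pw f X * φ (T - X) = - ∑ X ∈ S, pw f X * φ X := by
        rw [← Finset.sum_neg_distrib]
        refine Finset.sum_congr rfl fun X _ => ?_
        simp only [hφ, sub_sub_cancel]
        ring
      rw [← hS] at h1
      linarith
    have e1 : ∑ X ∈ S, ∑ Y ∈ S, pw f X * pw f Y * (φ X - φ Y) ^ 2 =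
        2 * (Z src tgt M f α * ∑ X ∈ S, pw f X * φ X ^ 2) := by
      have hZS : Z src tgt M f α = ∑ X ∈ S, pw f X := rfl
      have e2 : ∀ X Y, pw f X * pw f Y * (φ X - φ Y) ^ 2 =
          (pw f X * φ X ^ 2) * pw f Y + pw f X * (pw f Y * φ Y ^ 2)
            - 2 * (pw f X * φ X) * (pw f Y * φ Y) := by
        intro X Y; ring
      simp only [e2, Finset.sum_add_distrib, Finset.sum_sub_distrib, ← Finset.mul_sum,
        ← Finset.sum_mul, hodd, ← hZS]
      ring
    have e3 : ∑ X ∈ S, ∑ Y ∈ S, pw f X * pw f Y * (g (T - X) - g (T - Y)) ^ 2 =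
        ∑ X ∈ S, ∑ Y ∈ S, pw f X * pw f Y * (g X - g Y) ^ 2 := by
      have h1 : ∀ X, ∑ Y ∈ S, pw f X * pw f Y * (g (T - X) - g (T - Y)) ^ 2 =
          pw f X * ∑ Y ∈ S, pw f Y * (g (T - X) - g Y) ^ 2 := by
        intro X
        have h2 := hF.sum_refl (fun Y => (g (T - X) - g Y) ^ 2)
        rw [← hS] at h2
        rw [← h2, Finset.mul_sum]
        exact Finset.sum_congr rfl fun Y _ => by ring
      simp only [h1]
      have h3 := hF.sum_refl (fun X => ∑ Y ∈ S, pw f Y * (g X - g Y) ^ 2)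
      rw [← hS] at h3
      rw [h3]
      refine Finset.sum_congr rfl fun X _ => ?_
      rw [Finset.mul_sum]
      exact Finset.sum_congr rfl fun Y _ => by ring
    have e4 : ∑ X ∈ S, ∑ Y ∈ S, pw f X * pw f Y * (φ X - φ Y) ^ 2 ≤
        4 * ∑ X ∈ S, ∑ Y ∈ S, pw f X * pw f Y * (g X - g Y) ^ 2 := by
      have h1 : ∑ X ∈ S, ∑ Y ∈ S, pw f X * pw f Y * (φ X - φ Y) ^ 2 ≤
          ∑ X ∈ S, ∑ Y ∈ S, (2 * (pw f X * pw f Y * (g X - g Y) ^ 2) +
            2 * (pw f X * pw f Y * (g (T - X) - g (T - Y)) ^ 2)) := by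
        refine Finset.sum_le_sum fun X _ => Finset.sum_le_sum fun Y _ => ?_
        have hp : 0 ≤ pw f X * pw f Y := mul_nonneg (pw_nonneg hnn X) (pw_nonneg hnn Y)
        have hq : (φ X - φ Y) ^ 2 ≤ 2 * (g X - g Y) ^ 2 + 2 * (g (T - X) - g (T - Y)) ^ 2 := by
          simp only [hφ]
          nlinarith [sq_nonneg ((g X - g Y) + (g (T - X) - g (T - Y)))]
        calc pw f X * pw f Y * (φ X - φ Y) ^ 2
            ≤ pw f X * pw f Y * (2 * (g X - g Y) ^ 2 + 2 * (g (T - X) - g (T - Y)) ^ 2) :=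
              mul_le_mul_of_nonneg_left hq hp
          _ = _ := by ring
      simp only [Finset.sum_add_distrib, ← Finset.mul_sum] at h1
      rw [e3] at h1
      linarith
    rw [e1] at e4
    have e5 : ∑ X ∈ S, pw f X * (g X - g (T - X)) ^ 2 = ∑ X ∈ S, pw f X * φ X ^ 2 := rfl
    rw [e5]
    have e6 : Z src tgt M f α * ∑ X ∈ S, pw f X * φ X ^ 2 ≤
        2 * ∑ X ∈ S, ∑ Y ∈ S, pw f X * pw f Y * (g X - g Y) ^ 2 := by linarith
    calc ∑ X ∈ S, pw f X * φ X ^ 2
        = (Z src tgt M f α)⁻¹ * (Z src tgt M f α * ∑ X ∈ S, pw f X * φ X ^ 2) := by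
          rw [← mul_assoc, inv_mul_cancel₀ hZ.ne', one_mul]
      _ ≤ (Z src tgt M f α)⁻¹ *
          (2 * ∑ X ∈ S, ∑ Y ∈ S, pw f X * pw f Y * (g X - g Y) ^ 2) :=
          mul_le_mul_of_nonneg_left e6 (inv_nonneg.2 hZ.le)
      _ = _ := by ring

/-- The step common to the two marginal statements. -/
theorem marg_step (src tgt : E → V) {M : ℤ} {α β γ : V → ℤ} (hβ : ∀ v, β v + γ v = 2 * α v)
    (u : (E → ℤ) → ℝ) {f : E → ℤ → ℝ} {T : E → ℤ} (hF : Frame src tgt M α f T) :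
    A src tgt M α β 1 f T (fun X _ => u X) = (Z src tgt M f α)⁻¹ * Z src tgt M f γ *
      ∑ X ∈ conf src tgt M β, pw f X * u X := by
  rw [A_one_pairs src tgt hβ hF, mul_assoc]
  congr 1
  rw [Finset.mul_sum]
  refine Finset.sum_congr rfl fun X _ => ?_
  unfold Z
  rw [Finset.sum_mul]
  exact Finset.sum_congr rfl fun Y _ => by ring

theorem inv_Z_mul (src tgt : E → V) {M : ℤ} {α : V → ℤ} (u : (E → ℤ) → ℝ)
    {f : E → ℤ → ℝ} (hnn : ∀ e x, 0 ≤ f e x) :
    (Z src tgt M f α)⁻¹ * Z src tgt M f α * ∑ X ∈ conf src tgt M α, pw f X * u X =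
      ∑ X ∈ conf src tgt M α, pw f X * u X := by
  rcases eq_or_ne (Z src tgt M f α) 0 with hZ | hZ
  · have : ∑ X ∈ conf src tgt M α, pw f X * u X = 0 :=
      Finset.sum_eq_zero fun X hX => by rw [pw_eq_zero_of_Z src tgt M hnn hZ hX, zero_mul]
    rw [this, mul_zero]
  · rw [inv_mul_cancel₀ hZ, one_mul]

/-- (b) marginals. -/
theorem A_marg_left (src tgt : E → V) {M : ℤ} {α : V → ℤ} (u : (E → ℤ) → ℝ) (k : ℕ)
    {f : E → ℤ → ℝ} {T : E → ℤ} (hF : Frame src tgt M α f T) :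
    A src tgt M α α k f T (fun X _ => u X) = ∑ X ∈ conf src tgt M α, pw f X * u X := by
  induction k generalizing f T with
  | zero => rfl
  | succ k ih =>
    have h1 := marg_step src tgt (α := α) (β := α) (γ := α) (fun v => by ring) u hF
    rw [A_lvl_succ] at h1 ⊢
    rw [inv_Z_mul src tgt u hF.nonneg] at h1
    rw [← h1]
    congr 1
    refine Finset.sum_congr rfl fun T' hT' => ?_
    rw [ih (hF.cut hT')]
    rfl

theorem A_marg_right (src tgt : E → V) {M : ℤ} {α : V → ℤ} (u : (E → ℤ) → ℝ) (k : ℕ)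
    {f : E → ℤ → ℝ} {T : E → ℤ} (hF : Frame src tgt M α f T) :
    A src tgt M α α k f T (fun _ Y => u Y) = ∑ X ∈ conf src tgt M α, pw f X * u X := by
  induction k generalizing f T with
  | zero => exact hF.sum_refl u
  | succ k ih =>
    have h1 := marg_step src tgt (α := α) (β := α) (γ := α) (fun v => by ring) u hF
    rw [A_lvl_succ] at h1 ⊢
    rw [inv_Z_mul src tgt u hF.nonneg] at h1
    rw [← h1]
    congr 1
    refine Finset.sum_congr rfl fun T' hT' => ?_
    rw [ih (hF.cut hT')]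
    rfl

theorem dl_add_swap (u v : V) (x : V) : dl u v x + dl v u x = 0 := by
  unfold dl; ring

/-- (d) loads do not grow. -/
theorem A_load (src tgt : E → V) (hne : ∀ e, src e ≠ tgt e) {M : ℤ} {α : V → ℤ} (u v : V)
    {Γ : (E → ℤ) → ℝ} (hΓ : ∀ X, 0 ≤ Γ X) (k : ℕ)
    {f : E → ℤ → ℝ} {T : E → ℤ} (hF : Frame src tgt M α f T) :
    A src tgt M α (α + dl u v) k f T (fun X _ => Γ X) ≤
      A src tgt M α (α + dl u v) 0 f T (fun X _ => Γ X) := by
  have h := A_iter_le src tgt (α := α) (β := α + dl u v) (c := 1) zero_le_one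
    (G := fun X _ => Γ X) (fun X _ => hΓ X) (fun f T hF => by
      rw [marg_step src tgt (γ := α + dl v u) (fun x => by
        have := dl_add_swap u v x
        simp only [Pi.add_apply]
        linarith) Γ hF, A_lvl_zero, one_mul]
      have h0 : 0 ≤ ∑ X ∈ conf src tgt M (α + dl u v), pw f X * Γ X :=
        Finset.sum_nonneg fun X _ => mul_nonneg (pw_nonneg hF.nonneg X) (hΓ X)
      have h1 := centre_frame src tgt hne (u := v) (v := u) hF
      have h2 := Z_nonneg src tgt M hF.nonneg α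
      have h3 : (Z src tgt M f α)⁻¹ * Z src tgt M f (α + dl v u) ≤ 1 := by
        rcases h2.eq_or_lt with h4 | h4
        · rw [← h4]; simp
        · rw [inv_mul_le_iff₀ h4]
          linarith
      calc _ ≤ 1 * ∑ X ∈ conf src tgt M (α + dl u v), pw f X * Γ X :=
            mul_le_mul_of_nonneg_right h3 h0
        _ = _ := one_mul _) k hF
  simpa using h

/-- top level, pairs -/
theorem top_pairs (src tgt : E → V) {M : ℤ} {α : V → ℤ} {w : E → ℤ → ℝ}
    (h2 : ∀ e, Supp M (w e)) (G : (E → ℤ) → (E → ℤ) → ℝ) :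
    ∑ X ∈ conf src tgt M α, ∑ Y ∈ conf src tgt M α, pw w X * pw w Y * G X Y =
      ∑ T' ∈ conf src tgt (2 * M) (fun v => 2 * α v), A src tgt M α α 0 (cut w T') T' G :=
  sum_pairs src tgt (fun v => by ring) h2 G

/-- top level, loads -/
theorem top_load (src tgt : E → V) {M : ℤ} {α : V → ℤ} {w : E → ℤ → ℝ}
    (h2 : ∀ e, Supp M (w e)) (u v : V) (Γ : (E → ℤ) → ℝ) :
    ∑ T' ∈ conf src tgt (2 * M) (fun v => 2 * α v),
        A src tgt M α (α + dl u v) 0 (cut w T') T' (fun X _ => Γ X) =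
      Z src tgt M w (α + dl v u) * ∑ X ∈ conf src tgt M (α + dl u v), pw w X * Γ X := by
  have h := sum_pairs src tgt (α := α) (β := α + dl u v) (γ := α + dl v u) (fun x => by
        have := dl_add_swap u v x
        simp only [Pi.add_apply]
        linarith) h2 (fun X _ => Γ X)
  simp only [A_lvl_zero]
  rw [← h, Finset.mul_sum]
  refine Finset.sum_congr rfl fun X _ => ?_
  unfold Z
  rw [Finset.sum_mul]
  exact Finset.sum_congr rfl fun Y _ => by ring

end Vale.Agent.P328R
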