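import Vale.Agent.P328R.IdealEnergy

/-! Module G1: log-concavity and support of the concrete weights; boundary versus margins. -/

set_option linter.unusedSectionVars false

namespace Vale.Agent.P328R

open Finset Vale.Agent.P328RAM

variable {p : Par} {m n μ : ℕ} {g : Mg}

theorem G1.Q0 (hP : PV p m n μ) : 0 ≤ p.Q := by
  refine le_trans ?_ hP.Q
  positivity

theorem G1.Lp0 (hP : PV p m n μ) : 0 ≤ p.Lp := by
  refine le_trans ?_ hP.Lp
  positivity

theorem G1.Lc0 (hP : PV p m n μ) : 0 ≤ p.Lc := (G1.Lp0 hP).trans hP.Lc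

theorem wR_lc (hP : PV p m n μ) (e : Fin m × Fin n) : LC (wR p m n g e) := wR_LC' e

theorem wR_supp (hP : PV p m n μ) (hG : GV m n g) (e : Fin m × Fin n) :
    Supp (rad p m g) (wR p m n g e) :=
  wR_supp' (G1.Q0 hP) (G1.Lp0 hP) (G1.Lc0 hP) hG.r0 e

theorem bd_eq_al {X : Tab m n} :
    bd (gs (Fin m) (Fin n)) (gt (Fin m) (Fin n)) X = al m n g ↔
      (∀ i, rowSum X i = g.r i) ∧ ∀ j, colSum X j = g.c j := bd_eq_al' X

/-- near-tables: exact column sums, row sums off by `1_a - 1_b` -/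
theorem bd_eq_near {X : Tab m n} {a b : Fin m} :
    bd (gs (Fin m) (Fin n)) (gt (Fin m) (Fin n)) X = al m n g + dl (Sum.inl a) (Sum.inl b) ↔
      (∀ i, rowSum X i = g.r i + (if i = a then 1 else 0) - (if i = b then 1 else 0)) ∧
        ∀ j, colSum X j = g.c j := by
  constructor
  · intro h
    refine ⟨fun i => ?_, fun j => ?_⟩
    · have h1 := congrFun h (Sum.inl i)
      rw [bdE_inl] at h1
      rw [h1]
      simp only [Pi.add_apply, al, Sum.elim_inl, dl, Sum.inl.injEq]
      ring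
    · have h1 := congrFun h (Sum.inr j)
      rw [bdE_inr] at h1
      simp only [Pi.add_apply, al, Sum.elim_inr, dl] at h1
      simp at h1
      exact h1
  · rintro ⟨h1, h2⟩
    funext v
    rcases v with i | j
    · rw [bdE_inl, h1]
      simp only [Pi.add_apply, al, Sum.elim_inl, dl, Sum.inl.injEq]
      ring
    · rw [bdE_inr, h2]
      simp only [Pi.add_apply, al, Sum.elim_inr, dl]
      simp

/-- Exact tables: the real weight is `Wt`. -/
theorem pw_wR {X : Tab m n} (h : ∀ i, rowSum X i = g.r i) :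
    pw (wR p m n g) X = (Wt p g X : ℝ) := pw_wR' h

/-- The state space. -/
theorem mem_stF (hP : PV p m n μ) (hG : GV m n g) {X : Tab m n} :
    X ∈ stF p g m n ↔
      X ∈ conf (gs (Fin m) (Fin n)) (gt (Fin m) (Fin n)) (rad p m g) (al m n g) ∧
        pw (wR p m n g) X ≠ 0 :=
  mem_conf_wR (G1.Q0 hP) (G1.Lp0 hP) (G1.Lc0 hP) hG.r0 X

end Vale.Agent.P328R
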