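import Vale.Agent.P328R.G1

/-! Module G5: the reachable range of the pivots. -/

set_option linter.unusedSectionVars false

namespace Vale.Agent.P328R

open Finset Vale.Agent.P328RAM

variable {p : Par} {m n μ : ℕ} {g : Mg}

namespace G5

theorem sg_pos (g : Mg) (i j : ℕ) : 0 < sg g i j := by unfold sg; positivity

theorem sc_lt_sg {i j : ℕ} (h : 0 ≤ sc g i j) : sc g i j < sg g i j := by
  have h1 : (sc g i j).toNat < 2 ^ sb g i j := Nat.lt_size_self _
  have h2 : ((sc g i j).toNat : ℤ) < 2 ^ sb g i j := by exact_mod_cast h1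
  rw [Int.toNat_of_nonneg h] at h2
  exact h2

theorem sg_mono {i j i' j' : ℕ} (h : sc g i j ≤ sc g i' j') : sg g i j ≤ sg g i' j' := by
  unfold sg sb
  apply pow_le_pow_right₀ (by norm_num)
  exact Nat.size_le_size (Int.toNat_le_toNat h)

theorem Lp_pos (hP : PV p m n μ) : 1 ≤ p.Lp := by
  have h1 : (1 : ℤ) ≤ (μ : ℤ) := by have := hP.mu; omega
  have h2 : (1 : ℤ) ≤ (μ : ℤ) ^ 2 := one_le_pow₀ h1
  have := hP.Lp
  linarith

theorem le_Ls (hP : PV p m n μ) (g : Mg) (i j : ℕ) : p.Lp * sg g i j ≤ Ls p m n g i j := by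
  unfold Ls
  split_ifs
  · exact mul_le_mul_of_nonneg_right hP.Lc (sg_pos g i j).le
  · exact le_rfl

theorem Ls_pos (hP : PV p m n μ) (g : Mg) (i j : ℕ) : 0 < Ls p m n g i j := by
  have h1 := le_Ls hP g i j
  have h2 := Lp_pos hP
  have h3 := sg_pos g i j
  have : 0 < p.Lp * sg g i j := mul_pos (by linarith) h3
  linarith

theorem mn_le (hP : PV p m n μ) : 8 * ((m : ℤ) * n) ≤ p.Lp := by
  have h1 : (m : ℤ) + n < μ := by exact_mod_cast hP.mu
  have h2 := hP.Lp
  have h3 : (0 : ℤ) ≤ m := by positivity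
  have h4 : (0 : ℤ) ≤ n := by positivity
  nlinarith [sq_nonneg ((m : ℤ) - n)]

/-- the cells outside the pivot row and column are no pivots -/
theorem not_piv {i j : ℕ} (hi : i ≠ is m g) (hj : j ≠ js n g) : ¬ Piv p m n g i j := by
  rintro ⟨_, h | h⟩
  · exact hi h.1
  · exact hj h.1

theorem row_bound (hP : PV p m n μ) (hG : GV m n g) {X : Tab m n} {d : ℤ} (hd : |d| ≤ 1)
    {i : Fin m} (hX : rowSum X i = g.r i + d) (hi : i ≠ ri m g hP.hm)
    (h0 : ∀ e : Fin m × Fin n, ¬ Piv p m n g (e.1 : ℕ) (e.2 : ℕ) →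
      0 ≤ X e ∧ X e ≤ sg g (e.1 : ℕ) (e.2 : ℕ)) :
    |X (i, cj n g hP.hn)| ≤ n * sg g i (js n g) := by
  set J := cj n g hP.hn with hJ
  have hJv : (J : ℕ) = js n g := rfl
  have hiv : (i : ℕ) ≠ is m g := fun h => hi (Fin.ext h)
  have hn1 : (1 : ℤ) ≤ n := by exact_mod_cast hP.hn
  have hmax : ∀ j : Fin n, g.c j ≤ g.c J := fun j => am_max _ _ _ j.2
  have hs0 : ∀ j : Fin n, 0 ≤ sc g i j := fun j => le_min (hG.r0 i) (hG.c0 j)
  have hmon : ∀ j : Fin n, sg g i j ≤ sg g i (js n g) := fun j =>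
    sg_mono (min_le_min le_rfl (hmax j))
  have hlt := sc_lt_sg (hs0 J)
  rw [hJv] at hlt
  have hr : g.r i ≤ n * sc g i (js n g) := by
    have htot : ∑ i : Fin m, g.r i ≤ n * g.c J := by
      rw [hG.tot]
      calc ∑ j : Fin n, g.c j ≤ ∑ _j : Fin n, g.c J := sum_le_sum fun j _ => hmax j
        _ = _ := by rw [sum_const, card_univ, nsmul_eq_mul, Fintype.card_fin]
    have h1 : g.r i ≤ ∑ i : Fin m, g.r i :=
      single_le_sum (f := fun i : Fin m => g.r i) (fun i _ => hG.r0 i) (mem_univ i)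
    have e : sc g i (js n g) = min (g.r i) (g.c J) := rfl
    have h2 := hG.r0 i
    rcases le_total (g.r i) (g.c J) with h3 | h3
    · rw [e, min_eq_left h3]; nlinarith
    · rw [e, min_eq_right h3]; linarith
  have hsplit : X (i, J) + ∑ j ∈ univ.erase J, X (i, j) = g.r i + d := by
    rw [← hX]
    exact add_sum_erase univ (fun j => X (i, j)) (mem_univ J)
  have hnp : ∀ j ∈ univ.erase J, ¬ Piv p m n g (i : ℕ) (j : ℕ) := fun j hj =>
    not_piv hiv fun h => ne_of_mem_erase hj (Fin.ext h)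
  have h2 : 0 ≤ ∑ j ∈ univ.erase J, X (i, j) := sum_nonneg fun j hj => (h0 (i, j) (hnp j hj)).1
  have h3 : ∑ j ∈ univ.erase J, X (i, j) ≤ ∑ _j ∈ univ.erase J, sg g i (js n g) :=
    sum_le_sum fun j hj => (h0 (i, j) (hnp j hj)).2.trans (hmon j)
  rw [sum_const, nsmul_eq_mul, card_erase_of_mem (mem_univ J), card_univ, Fintype.card_fin,
    Nat.cast_sub (by exact_mod_cast hn1)] at h3
  have hr0 := hG.r0 i
  have hd' := abs_le.1 hd
  have hlt' : sc g i (js n g) + 1 ≤ sg g i (js n g) := hlt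
  have h5 : (n : ℤ) * (sc g i (js n g) + 1) ≤ n * sg g i (js n g) :=
    mul_le_mul_of_nonneg_left hlt' (by linarith)
  have hpos := sg_pos g i (js n g)
  have h6 : ((n : ℤ) - ((1 : ℕ) : ℤ)) * sg g i (js n g) =
      n * sg g i (js n g) - sg g i (js n g) := by push_cast; ring
  rw [h6] at h3
  rw [abs_le]
  constructor <;> linarith

theorem col_bound (hP : PV p m n μ) (hG : GV m n g) {X : Tab m n}
    {j : Fin n} (hX : colSum X j = g.c j) (hj : j ≠ cj n g hP.hn)
    (h0 : ∀ e : Fin m × Fin n, ¬ Piv p m n g (e.1 : ℕ) (e.2 : ℕ) →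
      0 ≤ X e ∧ X e ≤ sg g (e.1 : ℕ) (e.2 : ℕ)) :
    |X (ri m g hP.hm, j)| ≤ m * sg g (is m g) j := by
  set I := ri m g hP.hm with hI
  have hIv : (I : ℕ) = is m g := rfl
  have hjv : (j : ℕ) ≠ js n g := fun h => hj (Fin.ext h)
  have hm1 : (1 : ℤ) ≤ m := by exact_mod_cast hP.hm
  have hmax : ∀ i : Fin m, g.r i ≤ g.r I := fun i => am_max _ _ _ i.2
  have hs0 : ∀ i : Fin m, 0 ≤ sc g i j := fun i => le_min (hG.r0 i) (hG.c0 j)
  have hmon : ∀ i : Fin m, sg g i j ≤ sg g (is m g) j := fun i =>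
    sg_mono (min_le_min (hmax i) le_rfl)
  have hlt := sc_lt_sg (hs0 I)
  rw [hIv] at hlt
  have hc : g.c j ≤ m * sc g (is m g) j := by
    have htot : ∑ j : Fin n, g.c j ≤ m * g.r I := by
      rw [← hG.tot]
      calc ∑ i : Fin m, g.r i ≤ ∑ _i : Fin m, g.r I := sum_le_sum fun i _ => hmax i
        _ = _ := by rw [sum_const, card_univ, nsmul_eq_mul, Fintype.card_fin]
    have h1 : g.c j ≤ ∑ j : Fin n, g.c j :=
      single_le_sum (f := fun j : Fin n => g.c j) (fun j _ => hG.c0 j) (mem_univ j)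
    have e : sc g (is m g) j = min (g.r I) (g.c j) := rfl
    have h2 := hG.c0 j
    rcases le_total (g.r I) (g.c j) with h3 | h3
    · rw [e, min_eq_left h3]; linarith
    · rw [e, min_eq_right h3]; nlinarith
  have hsplit : X (I, j) + ∑ i ∈ univ.erase I, X (i, j) = g.c j := by
    rw [← hX]
    exact add_sum_erase univ (fun i => X (i, j)) (mem_univ I)
  have hnp : ∀ i ∈ univ.erase I, ¬ Piv p m n g (i : ℕ) (j : ℕ) := fun i hi =>
    not_piv (fun h => ne_of_mem_erase hi (Fin.ext h)) hjv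
  have h2 : 0 ≤ ∑ i ∈ univ.erase I, X (i, j) := sum_nonneg fun i hi => (h0 (i, j) (hnp i hi)).1
  have h3 : ∑ i ∈ univ.erase I, X (i, j) ≤ ∑ _i ∈ univ.erase I, sg g (is m g) j :=
    sum_le_sum fun i hi => (h0 (i, j) (hnp i hi)).2.trans (hmon i)
  rw [sum_const, nsmul_eq_mul, card_erase_of_mem (mem_univ I), card_univ, Fintype.card_fin,
    Nat.cast_sub (by exact_mod_cast hm1)] at h3
  have hc0 := hG.c0 j
  have hlt' : sc g (is m g) j + 1 ≤ sg g (is m g) j := hlt
  have h5 : (m : ℤ) * (sc g (is m g) j + 1) ≤ m * sg g (is m g) j :=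
    mul_le_mul_of_nonneg_left hlt' (by linarith)
  have hpos := sg_pos g (is m g) j
  have h6 : ((m : ℤ) - ((1 : ℕ) : ℤ)) * sg g (is m g) j =
      m * sg g (is m g) j - sg g (is m g) j := by push_cast; ring
  rw [h6] at h3
  rw [abs_le]
  constructor <;> linarith

theorem cor_bound (hP : PV p m n μ) (hG : GV m n g) {X : Tab m n} {a b : Fin m}
    (hrow : ∀ i, rowSum X i = g.r i + (if i = a then 1 else 0) - (if i = b then 1 else 0))
    (hcol : ∀ j, colSum X j = g.c j)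
    (h0 : ∀ e : Fin m × Fin n, ¬ Piv p m n g (e.1 : ℕ) (e.2 : ℕ) →
      0 ≤ X e ∧ X e ≤ sg g (e.1 : ℕ) (e.2 : ℕ)) :
    |X (ri m g hP.hm, cj n g hP.hn)| ≤ 2 * (m * n) * sg g (is m g) (js n g) := by
  set I := ri m g hP.hm with hI
  set J := cj n g hP.hn with hJ
  have hm1 : (1 : ℤ) ≤ m := by exact_mod_cast hP.hm
  have hn1 : (1 : ℤ) ≤ n := by exact_mod_cast hP.hn
  have hmaxr : ∀ i : Fin m, g.r i ≤ g.r I := fun i => am_max _ _ _ i.2
  have hpos := sg_pos g (is m g) (js n g)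
  set σ := sg g (is m g) (js n g) with hσ
  have hmon : ∀ i : Fin m, sg g i (js n g) ≤ σ := fun i =>
    sg_mono (min_le_min (hmaxr i) le_rfl)
  have hlt : sc g (is m g) (js n g) < σ := sc_lt_sg (le_min (hG.r0 I) (hG.c0 J))
  have hc : g.c J ≤ m * sc g (is m g) (js n g) := by
    have htot : ∑ j : Fin n, g.c j ≤ m * g.r I := by
      rw [← hG.tot]
      calc ∑ i : Fin m, g.r i ≤ ∑ _i : Fin m, g.r I := sum_le_sum fun i _ => hmaxr i
        _ = _ := by rw [sum_const, card_univ, nsmul_eq_mul, Fintype.card_fin]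
    have h1 : g.c J ≤ ∑ j : Fin n, g.c j :=
      single_le_sum (f := fun j : Fin n => g.c j) (fun j _ => hG.c0 j) (mem_univ J)
    have e : sc g (is m g) (js n g) = min (g.r I) (g.c J) := rfl
    have h2 := hG.c0 J
    rcases le_total (g.r I) (g.c J) with h3 | h3
    · rw [e, min_eq_left h3]; linarith
    · rw [e, min_eq_right h3]; nlinarith
  have hsplit : X (I, J) + ∑ i ∈ univ.erase I, X (i, J) = g.c J := by
    rw [← hcol J]
    exact add_sum_erase univ (fun i => X (i, J)) (mem_univ I)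
  have h2 : |∑ i ∈ univ.erase I, X (i, J)| ≤ ∑ _i ∈ univ.erase I, n * σ := by
    refine (abs_sum_le_sum_abs _ _).trans (sum_le_sum fun i hi => ?_)
    have h3 := row_bound hP hG (d := (if i = a then 1 else 0) - (if i = b then 1 else 0))
      (by split_ifs <;> simp) (by rw [hrow i]; ring) (ne_of_mem_erase hi) h0
    exact h3.trans (mul_le_mul_of_nonneg_left (hmon i) (by linarith))
  rw [sum_const, nsmul_eq_mul, card_erase_of_mem (mem_univ I), card_univ, Fintype.card_fin,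
    Nat.cast_sub (by exact_mod_cast hm1)] at h2
  have h6 : ((m : ℤ) - ((1 : ℕ) : ℤ)) * (n * σ) = m * n * σ - n * σ := by push_cast; ring
  rw [h6] at h2
  have h7 := abs_le.1 h2
  have h8 : (m : ℤ) * sc g (is m g) (js n g) ≤ m * σ :=
    mul_le_mul_of_nonneg_left hlt.le (by linarith)
  have h9 : (m : ℤ) * σ ≤ m * n * σ := by
    apply mul_le_mul_of_nonneg_right _ hpos.le
    nlinarith
  have h10 : 0 ≤ (n : ℤ) * σ := mul_nonneg (by linarith) hpos.le
  have h11 : 0 ≤ (m : ℤ) * n * σ := by positivity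
  have h12 := hG.c0 J
  rw [abs_le]
  constructor <;> linarith [h7.1, h7.2]

end G5

/-- Non-pivot cells are nonnegative and at most `sg`. -/
theorem box_of_pw {X : Tab m n} (h : pw (wR p m n g) X ≠ 0) {e : Fin m × Fin n}
    (he : ¬ Piv p m n g (e.1 : ℕ) (e.2 : ℕ)) : 0 ≤ X e ∧ X e ≤ sg g (e.1 : ℕ) (e.2 : ℕ) := by
  have h1 := prod_ne_zero_iff.1 h e (mem_univ e)
  have h2 : cw p m n g (e.1 : ℕ) (e.2 : ℕ) (X e) ≠ 0 := by
    intro hc
    apply h1
    unfold wR
    rw [hc, Nat.cast_zero]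
  unfold cw at h2
  rw [if_neg he] at h2
  by_cases hB : Blk p m n g (e.1 : ℕ) (e.2 : ℕ)
  · rw [if_pos hB] at h2
    by_cases hc : 0 ≤ X e ∧ X e < sg g (e.1 : ℕ) (e.2 : ℕ)
    · exact ⟨hc.1, hc.2.le⟩
    · rw [if_neg hc] at h2; exact absurd rfl h2
  · rw [if_neg hB] at h2
    by_cases hc : 0 ≤ X e ∧ X e ≤ sc g (e.1 : ℕ) (e.2 : ℕ)
    · exact ⟨hc.1, hc.2.trans (G5.sc_lt_sg (hc.1.trans hc.2)).le⟩
    · rw [if_neg hc] at h2; exact absurd rfl h2

/-- Reachable range of the pivots on exact tables and on near-tables, only the non-pivot cells are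
assumed to be in their boxes. -/
theorem reach_near (hP : PV p m n μ) (hG : GV m n g) {X : Tab m n} (hX : Near (al m n g) X)
    (h0 : ∀ e : Fin m × Fin n, ¬ Piv p m n g (e.1 : ℕ) (e.2 : ℕ) →
      0 ≤ X e ∧ X e ≤ sg g (e.1 : ℕ) (e.2 : ℕ)) (e : Fin m × Fin n)
    (he : Piv p m n g (e.1 : ℕ) (e.2 : ℕ)) : 4 * |X e| ≤ Ls p m n g (e.1 : ℕ) (e.2 : ℕ) := by
  obtain ⟨a, b, hab⟩ := hX
  obtain ⟨hrow, hcol⟩ := bd_eq_near.1 hab
  have hm1 : (1 : ℤ) ≤ m := by exact_mod_cast hP.hm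
  have hn1 : (1 : ℤ) ≤ n := by exact_mod_cast hP.hn
  have hL := G5.le_Ls hP g (e.1 : ℕ) (e.2 : ℕ)
  have hmn := G5.mn_le hP
  have hσ := G5.sg_pos g (e.1 : ℕ) (e.2 : ℕ)
  have key : |X e| ≤ 2 * (m * n) * sg g (e.1 : ℕ) (e.2 : ℕ) := by
    obtain ⟨i, j⟩ := e
    by_cases hi : i = ri m g hP.hm
    · by_cases hj : j = cj n g hP.hn
      · subst hi; subst hj
        exact G5.cor_bound hP hG hrow hcol h0
      · subst hi
        have h1 := G5.col_bound hP hG (hcol j) hj h0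
        refine h1.trans (mul_le_mul_of_nonneg_right ?_ hσ.le)
        nlinarith
    · have hj : j = cj n g hP.hn := by
        rcases he.2 with h | h
        · exact absurd (Fin.ext h.1) hi
        · exact Fin.ext h.1
      subst hj
      have h1 := G5.row_bound hP hG (d := (if i = a then 1 else 0) - (if i = b then 1 else 0))
        (by split_ifs <;> simp) (by rw [hrow i]; ring) hi h0
      refine h1.trans (mul_le_mul_of_nonneg_right ?_ hσ.le)
      nlinarith
  have h2 : 8 * ((m : ℤ) * n) * sg g (e.1 : ℕ) (e.2 : ℕ) ≤ p.Lp * sg g (e.1 : ℕ) (e.2 : ℕ) :=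
    mul_le_mul_of_nonneg_right hmn hσ.le
  linarith

/-- Lipschitz bound for the pivot weights on the reachable range, together with positivity. -/
theorem cw_lip (hP : PV p m n μ) (hG : GV m n g) {i j : ℕ} (he : Piv p m n g i j) {x y : ℤ}
    (hx : 4 * |x| ≤ Ls p m n g i j) (hy : 4 * |y| ≤ Ls p m n g i j) (hxy : y ≤ x) :
    (1 - 2 * (p.q : ℝ) * ((x - y : ℤ) : ℝ) / (Ls p m n g i j : ℝ)) * (cw p m n g i j x : ℝ) ≤
      (cw p m n g i j y : ℝ) := by
  have hL := G5.Ls_pos hP g i j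
  have hLr : (0 : ℝ) < (Ls p m n g i j : ℝ) := by exact_mod_cast hL
  have hx1 : |x| ≤ Ls p m n g i j := by have := abs_nonneg x; linarith
  have hy1 : |y| ≤ Ls p m n g i j := by have := abs_nonneg y; linarith
  have hx2 := abs_le.1 (show |x| ≤ |x| from le_rfl)
  have hy2 := abs_le.1 (show |y| ≤ |y| from le_rfl)
  unfold cw
  simp only [if_pos he, if_pos hx1, if_pos hy1]
  set L := Ls p m n g i j with hLd
  push_cast
  have e1 : (((L + min 0 x).toNat : ℕ) : ℝ) = ((L + min 0 x : ℤ) : ℝ) := by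
    have : (((L + min 0 x).toNat : ℕ) : ℤ) = L + min 0 x := Int.toNat_of_nonneg (by omega)
    exact_mod_cast this
  have e2 : (((L + min 0 y).toNat : ℕ) : ℝ) = ((L + min 0 y : ℤ) : ℝ) := by
    have : (((L + min 0 y).toNat : ℕ) : ℤ) = L + min 0 y := Int.toNat_of_nonneg (by omega)
    exact_mod_cast this
  rw [e1, e2]
  set u : ℝ := ((L + min 0 x : ℤ) : ℝ) with hu
  set v : ℝ := ((L + min 0 y : ℤ) : ℝ) with hv
  have hu1 : 3 * L ≤ 4 * (L + min 0 x) := by omega
  have hu1' : 3 * (L : ℝ) ≤ 4 * u := by rw [hu]; exact_mod_cast hu1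
  have hv1 : 3 * L ≤ 4 * (L + min 0 y) := by omega
  have hv1' : 3 * (L : ℝ) ≤ 4 * v := by rw [hv]; exact_mod_cast hv1
  have hvu : L + min 0 y ≤ L + min 0 x := by omega
  have hvu' : v ≤ u := by rw [hv, hu]; exact_mod_cast hvu
  have hd : (L + min 0 x) - (L + min 0 y) ≤ x - y := by omega
  have hd' : u - v ≤ (x : ℝ) - y := by
    rw [hu, hv]
    have : (((L + min 0 x) - (L + min 0 y) : ℤ) : ℝ) ≤ ((x - y : ℤ) : ℝ) := by exact_mod_cast hd
    push_cast at this ⊢
    exact this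
  have hu0 : 0 < u := by linarith
  have hv0 : 0 < v := by linarith
  have hB := one_add_mul_le_pow (a := -((u - v) / u)) (by
    have : (u - v) / u ≤ 1 := (div_le_one hu0).2 (by linarith)
    linarith) p.q
  have e3 : 1 + -((u - v) / u) = v / u := by field_simp; ring
  rw [e3, div_pow, le_div_iff₀ (by positivity)] at hB
  refine le_trans (mul_le_mul_of_nonneg_right ?_ (by positivity)) hB
  have h3 : (u - v) / u ≤ 2 * (((x : ℝ) - y) / L) := by
    rw [div_le_iff₀ hu0]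
    have h4 : 2 * (((x : ℝ) - y) / L) * u = ((x : ℝ) - y) * (2 * u / L) := by ring
    rw [h4]
    have h5 : 1 ≤ 2 * u / L := by rw [le_div_iff₀ hLr]; linarith
    have h6 : 0 ≤ (x : ℝ) - y := by
      have : (y : ℝ) ≤ x := by exact_mod_cast hxy
      linarith
    nlinarith
  have h7 : (p.q : ℝ) * ((u - v) / u) ≤ p.q * (2 * (((x : ℝ) - y) / L)) :=
    mul_le_mul_of_nonneg_left h3 (by positivity)
  have h8 : 2 * (p.q : ℝ) * ((x : ℝ) - y) / L = p.q * (2 * (((x : ℝ) - y) / L)) := by ring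
  rw [h8]
  linarith

/-- Monotonicity of the pivot weights on the reachable range. -/
theorem cw_mono (hP : PV p m n μ) {i j : ℕ} (he : Piv p m n g i j) {x y : ℤ}
    (hy : |y| ≤ Ls p m n g i j) (hxy : x ≤ y) :
    (cw p m n g i j x : ℝ) ≤ (cw p m n g i j y : ℝ) := by
  have hL := G5.Ls_pos hP g i j
  unfold cw
  simp only [if_pos he]
  by_cases hx : |x| ≤ Ls p m n g i j
  · rw [if_pos hx, if_pos hy]
    have h1 : (Ls p m n g i j + min 0 x).toNat ≤ (Ls p m n g i j + min 0 y).toNat := by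
      apply Int.toNat_le_toNat
      have : min 0 x ≤ min 0 y := min_le_min le_rfl hxy
      linarith
    exact_mod_cast Nat.pow_le_pow_left h1 p.q
  · rw [if_neg hx, Nat.cast_zero]
    exact Nat.cast_nonneg _

end Vale.Agent.P328R
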