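import Vale.Agent.P328R.Algo

/-! # P328R: the explicit parameters of the final program (definitions) -/

namespace Vale.Agent.P328R

/-- the base of all polynomial quantities; `a = ⌈1/ε⌉`, `D` = number of bits of `⌈1/δ⌉` -/
def baseX (m n N a D : ℕ) : ℕ := m + n + Nat.size N + a + D + 2

/-- number of bits for the choice of a line; `μ = 2 ^ bitB m n` -/
def bitB (m n : ℕ) : ℕ := Nat.size (m + n)

/-- number of bits of the base -/
def bitX (m n N a D : ℕ) : ℕ := Nat.size (baseX m n N a D)

/-- `2 ^ expq` is the exponent of the pivot weights -/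
def expq (m n N a D : ℕ) : ℕ := 12 + 16 * bitB m n + 56 * bitX m n N a D

/-- the parameters of the chain -/
def parOf (kT m n N a D : ℕ) : Par where
  Q := 2 ^ (expq m n N a D + 10 + 2 * bitB m n)
  q := 2 ^ expq m n N a D
  Lp := 2 ^ (4 + 2 * bitB m n)
  Lc := 2 ^ (10 + 10 * bitB m n + 28 * bitX m n N a D)
  k1 := expq m n N a D
  B := bitB m n
  b := (kT + 14) * bitX m n N a D

/-- number of steps in a phase -/
def numT (kT m n N a D : ℕ) : ℕ := baseX m n N a D ^ kT

/-- number of phases -/
def numP (m n N : ℕ) : ℕ := 2 * (max m n) ^ 2 * Nat.size N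

/-- number of passes -/
def numS (m n N a D : ℕ) : ℕ := baseX m n N a D ^ 22

end Vale.Agent.P328R
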