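import Vale.Agent.P328R.Soft9
import Vale.Agent.P328R.ParDef

/-!
P328R (helper6): the total variation bound for the explicit parameters.
-/

namespace Vale.Agent.P328R

open scoped ENNReal

/-- field `tv` of `PhaseFacts` -/
theorem tv_parOf (kT m n N a D : ℕ) (g : Mg) (hv : Valid m n g) :
    TVle (piF (parOf kT m n N a D) g m n) (uniF g m n)
      (ENNReal.ofReal (1 / (baseX m n N a D : ℝ) ^ 14)) := by
  have hlt : baseX m n N a D < 2 ^ bitX m n N a D := Nat.lt_size_self _
  have hX : (2 : ℝ) ≤ (baseX m n N a D : ℝ) := by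
    have : 2 ≤ baseX m n N a D := by unfold baseX; omega
    exact_mod_cast this
  refine SB.tv_pow hv (μ := 2 ^ bitB m n) (E := 2 ^ (14 * bitX m n N a D))
    (Nat.lt_size_self (m + n)).le Nat.one_le_two_pow ?_ ?_ ?_ ?_ ?_
  · apply one_div_le_one_div_of_le (by positivity)
    have h1 : baseX m n N a D ^ 14 ≤ 2 ^ (14 * bitX m n N a D) := by
      rw [mul_comm, pow_mul]
      exact Nat.pow_le_pow_left hlt.le 14
    exact_mod_cast h1
  · show (2 : ℤ) ^ (4 + 2 * bitB m n) = _
    push_cast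
    rw [pow_add, ← pow_mul]
    congr 2
    ring
  · show (2 : ℤ) ^ (10 + 10 * bitB m n + 28 * bitX m n N a D) = _
    push_cast
    rw [pow_add, pow_add, ← pow_mul, ← pow_mul]
    congr 2
    · congr 1
      ring
    · ring
  · show 2 ^ (12 + 16 * bitB m n + 56 * bitX m n N a D) = _
    rw [pow_add, pow_add, ← pow_mul, ← pow_mul]
    congr 2
    · congr 1
      ring
    · ring
  · show 2 ^ 10 * (((2 ^ expq m n N a D : ℕ) : ℤ)) * (((2 ^ bitB m n : ℕ) : ℤ)) ^ 2 ≤
      2 ^ (expq m n N a D + 10 + 2 * bitB m n)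
    push_cast
    apply le_of_eq
    rw [pow_add, pow_add, ← pow_mul]
    ring

end Vale.Agent.P328R
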