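import Vale.Agent.P328R.Soft7

/-!
P328R (helper6): the two facts about the phases used by `counts_valid`:
`tv_piF_uniF` (the stationary law is within `1/k` of the uniform law) and `card_down`.
-/

namespace Vale.Agent.P328R.SB

open Finset
open scoped ENNReal
open Vale.Agent.P328RAM (Tab rowSum colSum)

set_option linter.unusedSectionVars false

variable {p : Par} {m n : ℕ} {g : Mg} {k : ℕ}

theorem inc_bounds (hm : 0 < m) (h : 0 < sc g (is m g) (js n g)) :
    inc m n g ≤ sc g (is m g) (js n g) ∧ 1 ≤ inc m n g ∧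
      ((max m n : ℕ) : ℤ) * (inc m n g - 1) < sc g (is m g) (js n g) := by
  have hM : (0 : ℤ) < ((max m n : ℕ) : ℤ) := by
    have : 0 < max m n := lt_of_lt_of_le hm (le_max_left _ _)
    exact_mod_cast this
  set s := sc g (is m g) (js n g) with hs
  set M : ℤ := ((max m n : ℕ) : ℤ) with hMd
  have e : inc m n g = max 1 (s / M) := by unfold inc; rw [if_pos h]
  have h1 : M * (s / M) ≤ s := Int.mul_ediv_self_le hM.ne'
  have h0 : 0 ≤ s / M := Int.ediv_nonneg h.le hM.le
  rw [e]
  refine ⟨?_, le_max_left _ _, ?_⟩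
  · apply max_le (by omega)
    have : 1 * (s / M) ≤ M * (s / M) := mul_le_mul_of_nonneg_right (by omega) h0
    linarith
  · rcases le_total 1 (s / M) with h2 | h2
    · rw [max_eq_right h2, mul_sub, mul_one]; linarith
    · rw [max_eq_left h2]; simpa using h

theorem inc_zero (h : sc g (is m g) (js n g) ≤ 0) : inc m n g = 0 := by
  unfold inc; rw [if_neg (not_lt.2 h)]

/-- the corner cell -/
def ce (g : Mg) (hm : 0 < m) (hn : 0 < n) : Fin m × Fin n :=
  (⟨is m g, am_lt _ _ hm⟩, ⟨js n g, am_lt _ _ hn⟩)

theorem OmegaF_Om : OmegaF g m n =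
    _root_.P328R.Soft.Om (fun i : Fin m => g.r i) (fun j : Fin n => g.c j) := by
  ext X
  rw [mem_OmegaF, _root_.P328R.Soft.mem_Om]
  rfl

theorem down_Om (hm : 0 < m) (hn : 0 < n) : OmegaF (down m n g) m n = _root_.P328R.Soft.Om
    (fun i : Fin m => g.r i - if i = (ce g hm hn).1 then inc m n g else 0)
    (fun j : Fin n => g.c j - if j = (ce g hm hn).2 then inc m n g else 0) := by
  rw [OmegaF_Om]
  congr 1
  · funext i
    show g.r i - (if (i : ℕ) = is m g then inc m n g else 0) = _
    congr 1
    apply if_congr _ rfl rfl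
    rw [Fin.ext_iff]; rfl
  · funext j
    show g.c j - (if (j : ℕ) = js n g then inc m n g else 0) = _
    congr 1
    apply if_congr _ rfl rfl
    rw [Fin.ext_iff]; rfl

/-- **(iii)** the number of tables drops at most by the factor `mn` -/
theorem card_down (hv : Valid m n g) :
    (OmegaF g m n).card ≤ m * n * (OmegaF (down m n g) m n).card := by
  have hm := hv.m_pos
  have hn := hv.n_pos
  rcases le_or_gt (sc g (is m g) (js n g)) 0 with h | h
  · have e : OmegaF (down m n g) m n = OmegaF g m n := by
      rw [down_Om hm hn, OmegaF_Om, inc_zero h]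
      simp
    rw [e]
    exact Nat.le_mul_of_pos_left _ (Nat.mul_pos hm hn)
  · obtain ⟨_, h1, h2⟩ := inc_bounds hm h
    have hmx : (m : ℤ) ≤ ((max m n : ℕ) : ℤ) := by exact_mod_cast le_max_left _ _
    have hnx : (n : ℤ) ≤ ((max m n : ℕ) : ℤ) := by exact_mod_cast le_max_right _ _
    have h3 := _root_.P328R.Soft.corner_ratio (r := fun i : Fin m => g.r i)
      (c := fun j : Fin n => g.c j) (ce g hm hn).1 (ce g hm hn).2 (a := inc m n g) inc_nonneg
      (by
        rw [Fintype.card_fin]
        have h4 : (n : ℤ) * (inc m n g - 1) ≤ ((max m n : ℕ) : ℤ) * (inc m n g - 1) :=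
          mul_le_mul_of_nonneg_right hnx (by linarith)
        have h5 : sc g (is m g) (js n g) ≤ g.r (is m g) := min_le_left _ _
        show (n : ℤ) * (inc m n g - 1) < g.r (is m g)
        linarith)
      (by
        rw [Fintype.card_fin]
        have h4 : (m : ℤ) * (inc m n g - 1) ≤ ((max m n : ℕ) : ℤ) * (inc m n g - 1) :=
          mul_le_mul_of_nonneg_right hmx (by linarith)
        have h5 : sc g (is m g) (js n g) ≤ g.c (js n g) := min_le_right _ _
        show (m : ℤ) * (inc m n g - 1) < g.c (js n g)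
        linarith)
    rw [Fintype.card_fin, Fintype.card_fin, _root_.P328R.Soft.corner_shift (ce g hm hn).1
      (ce g hm hn).2 inc_nonneg, ← OmegaF_Om, ← down_Om hm hn] at h3
    exact h3

theorem card_down_real (hv : Valid m n g) :
    1 / ((m : ℝ) * n) * (OmegaF g m n).card ≤ (OmegaF (down m n g) m n).card := by
  have h1 := card_down hv
  have h2 : ((OmegaF g m n).card : ℝ) ≤ (m : ℝ) * n * (OmegaF (down m n g) m n).card := by
    exact_mod_cast h1
  have hm : (0 : ℝ) < m := by exact_mod_cast hv.m_pos
  have hn : (0 : ℝ) < n := by exact_mod_cast hv.n_pos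
  rw [one_div, inv_mul_le_iff₀ (mul_pos hm hn)]
  exact h2

/-- **(ii)** the stationary law is within `1/k` of the uniform law -/
theorem tv_piF_uniF (hv : Valid m n g) (hp : Good p m n k) :
    TVle (piF p g m n) (uniF g m n) (ENNReal.ofReal (1 / k)) :=
  tv_pi_uni hp hv.m_pos hv.n_pos hv hv.nonempty

end Vale.Agent.P328R.SB
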