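import Vale.Agent.P328R.Final
import Vale.Agent.P328R.FinalPar
import Vale.Agent.P328R.Soft8
import Vale.Agent.P328R.Soft10

/-!
# The constants are polynomially bounded; the per-phase facts
-/

namespace Vale.Agent.P328R

open scoped ENNReal
open Vale.Agent.P328RAM

/-- `0 ≤ a ≤ x ^ k` -/
def PB (x : ℝ) (k : ℕ) (a : ℝ) : Prop := 0 ≤ a ∧ a ≤ x ^ k

namespace PB

variable {x : ℝ} {k l : ℕ} {a b : ℝ}

theorem mono (hx : 4 ≤ x) (h : PB x k a) (hkl : k ≤ l) : PB x l a :=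
  ⟨h.1, h.2.trans (pow_le_pow_right₀ (by linarith) hkl)⟩

theorem mul (hx : 4 ≤ x) (ha : PB x k a) (hb : PB x l b) : PB x (k + l) (a * b) := by
  refine ⟨mul_nonneg ha.1 hb.1, ?_⟩
  rw [pow_add]
  exact mul_le_mul ha.2 hb.2 hb.1 (by positivity)

theorem pow (ha : PB x k a) (n : ℕ) : PB x (k * n) (a ^ n) := by
  refine ⟨pow_nonneg ha.1 n, ?_⟩
  rw [pow_mul]
  exact pow_le_pow_left₀ ha.1 ha.2 n

theorem add (hx : 4 ≤ x) (ha : PB x k a) (hb : PB x l b) : PB x (max k l + 1) (a + b) := by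
  refine ⟨add_nonneg ha.1 hb.1, ?_⟩
  have h1 := (ha.mono hx (le_max_left k l)).2
  have h2 := (hb.mono hx (le_max_right k l)).2
  have h3 : 0 ≤ x ^ max k l := by positivity
  rw [pow_succ]
  nlinarith

theorem const (hx : 4 ≤ x) {c : ℝ} (hc : 0 ≤ c) (k : ℕ) (hck : c ≤ 4 ^ k) : PB x k c :=
  ⟨hc, hck.trans (pow_le_pow_left₀ (by norm_num) hx k)⟩

end PB

theorem GA_PB {x : ℝ} (hx : 4 ≤ x) {p : Par} {m n μ : ℕ} {ε : ℝ} (hm : PB x 1 m) (hn : PB x 1 n)
    (hμ : PB x 2 μ) (hB : PB x 2 ((2 : ℝ) ^ p.B)) (hk1 : PB x 150 ((2 : ℝ) ^ p.k1))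
    (hQ : PB x 159 (p.Q : ℝ)) (hε : ε = 1 / x ^ 34) : PB x 5400 (GA p m n μ ε) := by
  have hε' : PB x 34 (1 / ε) := by
    rw [hε, one_div_one_div]
    exact ⟨by positivity, le_rfl⟩
  have hS : PB x 154 ((2 : ℝ) ^ p.k1 * (μ : ℝ) ^ 2) := (hk1.mul hx (hμ.pow 2))
  have hmn : PB x 2 ((m : ℝ) * n) := hm.mul hx hn
  have hKd : PB x 161 ((m : ℝ) * n * p.Q) := hmn.mul hx hQ
  have h1 : PB x 0 (1 : ℝ) := ⟨zero_le_one, by simp⟩
  -- cx
  have hcx : PB x 655 (cx (m * n) ((2 : ℝ) ^ p.k1 * (μ : ℝ) ^ 2) ε) := by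
    have e : cx (m * n) ((2 : ℝ) ^ p.k1 * (μ : ℝ) ^ 2) ε =
        8 * (m * n) * ((2 : ℝ) ^ p.k1 * (μ : ℝ) ^ 2) ^ 4 * (1 / ε) + 1 := by
      unfold cx; ring
    rw [e]
    have h8 : PB x 2 (8 : ℝ) := PB.const hx (by norm_num) 2 (by norm_num)
    exact ((((h8.mul hx hmn).mul hx (hS.pow 4)).mul hx hε').add hx h1).mono hx (by norm_num)
  have hmn3 : PB x 4 ((m : ℝ) + n) := (hm.add hx hn).mono hx (by norm_num)
  have h94 : PB x 1 ((9 : ℝ) / 4) := PB.const hx (by norm_num) 1 (by norm_num)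
  -- cy
  have hcy : PB x 2010 (cy m n (m * n) ((2 : ℝ) ^ p.k1 * (μ : ℝ) ^ 2) 2 (m * n * p.Q) ε) := by
    have e : cy m n (m * n) ((2 : ℝ) ^ p.k1 * (μ : ℝ) ^ 2) 2 (m * n * p.Q) ε =
        (9 / 4) * cx (m * n) ((2 : ℝ) ^ p.k1 * (μ : ℝ) ^ 2) ε ^ 2 *
          (288 * ((m * n) * (m + n)) * (m * n * p.Q) ^ 4) * 2 * (1 / ε) + 1 := by
      unfold cy; ring
    rw [e]
    have h288 : PB x 5 (288 : ℝ) := PB.const hx (by norm_num) 5 (by norm_num)
    have h2 : PB x 1 (2 : ℝ) := PB.const hx (by norm_num) 1 (by norm_num)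
    exact ((((((h94.mul hx (hcx.pow 2)).mul hx
      ((h288.mul hx (hmn.mul hx hmn3)).mul hx (hKd.pow 4))).mul hx h2).mul hx hε').add hx
      h1)).mono hx (by norm_num)
  -- cA
  have hcA : PB x 5350 (cA m n (m * n) (2 ^ p.k1 * (μ : ℝ) ^ 2) 2 2 ((μ : ℝ) ^ 2)
      (m * n * p.Q) ε) := by
    have e : cA m n (m * n) (2 ^ p.k1 * (μ : ℝ) ^ 2) 2 2 ((μ : ℝ) ^ 2) (m * n * p.Q) ε =
        (9 / 4) * cx (m * n) ((2 : ℝ) ^ p.k1 * (μ : ℝ) ^ 2) ε ^ 2 *
          (192 * (μ : ℝ) ^ 2 * (m * n + 1) + 384 * ((9 / 4) *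
            cy m n (m * n) ((2 : ℝ) ^ p.k1 * (μ : ℝ) ^ 2) 2 (m * n * p.Q) ε ^ 2 *
              ((m * n) * (n * m ^ 2) ^ 2))) := by
      unfold cA; ring
    rw [e]
    have h192 : PB x 4 (192 : ℝ) := PB.const hx (by norm_num) 4 (by norm_num)
    have h384 : PB x 5 (384 : ℝ) := PB.const hx (by norm_num) 5 (by norm_num)
    exact ((h94.mul hx (hcx.pow 2)).mul hx (((h192.mul hx (hμ.pow 2)).mul hx
      (hmn.add hx h1)).add hx (h384.mul hx ((h94.mul hx (hcy.pow 2)).mul hx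
        (hmn.mul hx ((hn.mul hx (hm.pow 2)).pow 2)))))).mono hx (by norm_num)
  have hlast : PB x 48 (((n : ℝ) * (m : ℝ) ^ 2) ^ 5 * (8 * 2 ^ (15 * p.B)) +
      (m * n) * (16 * 2 ^ (2 * p.B))) := by
    have h8 : PB x 2 (8 : ℝ) := PB.const hx (by norm_num) 2 (by norm_num)
    have h16 : PB x 2 (16 : ℝ) := PB.const hx (by norm_num) 2 (by norm_num)
    rw [mul_comm 15, mul_comm 2, pow_mul, pow_mul]
    exact ((((hn.mul hx (hm.pow 2)).pow 5).mul hx (h8.mul hx (hB.pow 15))).add hx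
      (hmn.mul hx (h16.mul hx (hB.pow 2)))).mono hx (by norm_num)
  unfold GA
  exact ((hcA.mul hx hlast).add hx h1).mono hx (by norm_num)

theorem GoodChain.mono_A {σ : Type} [DecidableEq σ] {S : Finset σ} {π : PMF σ} {κ : σ → PMF σ}
    {A A' ε : ℝ} (h : GoodChain S π κ A ε) (hA : A ≤ A') : GoodChain S π κ A' ε := by
  refine ⟨h.supp, h.closed, h.rev, h.lazy, h.one_le.trans hA, fun g B hB => ?_⟩
  refine (h.wp g B hB).trans (add_le_add (mul_le_mul_of_nonneg_right hA ?_) le_rfl)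
  refine mul_nonneg (by norm_num) (Finset.sum_nonneg fun x _ => Finset.sum_nonneg fun y _ => ?_)
  exact mul_nonneg (mul_nonneg ENNReal.toReal_nonneg ENNReal.toReal_nonneg) (sq_nonneg _)

section
variable {kT m n N a D : ℕ}

theorem pow_bitX_le (hm : 0 < m) (hn : 0 < n) :
    (2 : ℝ) ^ bitX m n N a D ≤ (baseX m n N a D : ℝ) ^ 2 := by
  have hX : 4 ≤ baseX m n N a D := four_le_baseX hm hn
  have h0 : 0 < bitX m n N a D := Nat.size_pos.2 (by omega)
  have h1 : ¬ baseX m n N a D < 2 ^ (bitX m n N a D - 1) := by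
    intro h2
    have : bitX m n N a D ≤ bitX m n N a D - 1 := Nat.size_le.2 h2
    omega
  push Not at h1
  have h2 : 2 ^ bitX m n N a D = 2 ^ (bitX m n N a D - 1) * 2 := by
    rw [← pow_succ]; congr 1; omega
  have h3 : 2 ^ bitX m n N a D ≤ baseX m n N a D ^ 2 := by
    rw [h2, sq]
    exact Nat.mul_le_mul h1 (by omega)
  exact_mod_cast h3

theorem pow_bitB_le (hm : 0 < m) (hn : 0 < n) :
    (2 : ℝ) ^ bitB m n ≤ (baseX m n N a D : ℝ) ^ 2 := by
  have h0 : 0 < bitB m n := Nat.size_pos.2 (by omega)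
  have h1 : ¬ m + n < 2 ^ (bitB m n - 1) := by
    intro h2
    have : bitB m n ≤ bitB m n - 1 := Nat.size_le.2 h2
    omega
  push Not at h1
  have h2 : 2 ^ bitB m n = 2 ^ (bitB m n - 1) * 2 := by
    rw [← pow_succ]; congr 1; omega
  have h3 : 2 ^ bitB m n ≤ baseX m n N a D ^ 2 := by
    rw [h2, sq]
    refine Nat.mul_le_mul (h1.trans ?_) ?_
    · unfold baseX; omega
    · unfold baseX; omega
  exact_mod_cast h3

theorem GA_le (hm : 0 < m) (hn : 0 < n) :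
    GA (parOf kT m n N a D) m n (2 ^ bitB m n) (1 / (baseX m n N a D : ℝ) ^ 34) ≤
      (baseX m n N a D : ℝ) ^ 5400 := by
  have hX4 : (4 : ℝ) ≤ (baseX m n N a D : ℝ) := by exact_mod_cast four_le_baseX hm hn
  have hB : PB (baseX m n N a D : ℝ) 2 ((2 : ℝ) ^ bitB m n) :=
    ⟨by positivity, pow_bitB_le hm hn⟩
  have hZ : PB (baseX m n N a D : ℝ) 2 ((2 : ℝ) ^ bitX m n N a D) :=
    ⟨by positivity, pow_bitX_le hm hn⟩
  have hk1 : PB (baseX m n N a D : ℝ) 150 ((2 : ℝ) ^ expq m n N a D) := by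
    have e : (2 : ℝ) ^ expq m n N a D =
        4096 * ((2 : ℝ) ^ bitB m n) ^ 16 * ((2 : ℝ) ^ bitX m n N a D) ^ 56 := by
      unfold expq
      rw [pow_add, pow_add, mul_comm 16, mul_comm 56, pow_mul, pow_mul]
      norm_num
    rw [e]
    exact (((PB.const hX4 (by norm_num) 6 (by norm_num)).mul hX4 (hB.pow 16)).mul hX4
      (hZ.pow 56)).mono hX4 (by norm_num)
  refine (GA_PB hX4 (p := parOf kT m n N a D) ?_ ?_ ?_ ?_ ?_ ?_ rfl).2
  · refine ⟨Nat.cast_nonneg _, ?_⟩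
    rw [pow_one]
    have : m ≤ baseX m n N a D := by unfold baseX; omega
    exact_mod_cast this
  · refine ⟨Nat.cast_nonneg _, ?_⟩
    rw [pow_one]
    have : n ≤ baseX m n N a D := by unfold baseX; omega
    exact_mod_cast this
  · push_cast
    exact hB
  · exact hB
  · exact hk1
  · have e : (((parOf kT m n N a D).Q : ℤ) : ℝ) =
        (2 : ℝ) ^ expq m n N a D * (1024 * ((2 : ℝ) ^ bitB m n) ^ 2) := by
      show (((2 : ℤ) ^ (expq m n N a D + 10 + 2 * bitB m n) : ℤ) : ℝ) = _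
      push_cast
      rw [pow_add, pow_add, mul_comm 2, pow_mul]
      norm_num
      ring
    rw [e]
    exact (hk1.mul hX4 ((PB.const hX4 (by norm_num) 5 (by norm_num)).mul hX4
      (hB.pow 2))).mono hX4 (by norm_num)

end

/-- **The per-phase facts.** -/
theorem phaseFacts (kT : ℕ) : PhaseFacts 5400 kT where
  good := by
    intro m n N a D hm hn g hv
    have hne := hv.stF_nonempty (p := parOf kT m n N a D) parOf_Q parOf_Lp parOf_Lc
    have h := goodChain (parOf_PV (kT := kT) (N := N) (a := a) (D := D) hm hn) hv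
      (by show m ≤ 2 ^ bitB m n
          exact (Nat.le_add_right m n).trans (Nat.lt_size_self (m + n)).le)
      (by show n ≤ 2 ^ bitB m n
          exact (Nat.le_add_left n m).trans (Nat.lt_size_self (m + n)).le) hne
      (ε := 1 / (baseX m n N a D : ℝ) ^ 34) (by
        have : (0 : ℝ) < (baseX m n N a D : ℝ) := by
          have := four_le_baseX (N := N) (a := a) (D := D) hm hn
          exact_mod_cast (by omega : 0 < baseX m n N a D)
        positivity)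
    exact h.mono_A (GA_le hm hn)
  tv := by
    intro m n N a D _ _ g hv
    exact tv_parOf kT m n N a D g hv
  ratio := by
    intro m n g hv
    exact SB.card_down hv

end Vale.Agent.P328R
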