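import Vale.Agent.P328R.IdealEnergy

/-!
# P328, arbitrary margins: the energy `BlockE` is bounded by the Dirichlet form of `stepI`
-/

namespace Vale.Agent.P328R

open scoped ENNReal
open Finset
open Vale.Agent.P328RAM

variable {p : Par} {m n : ℕ} {g : Mg}

theorem mem_DB {e : Fin m × Fin n} : e ∈ DB p m n g ↔ Blk p m n g (e.1 : ℕ) (e.2 : ℕ) := by
  classical
  unfold DB
  simp

theorem ce_eq (i : Fin m) (j : Fin n) (f : Fin m × Fin n) :
    ce m n (i : ℕ) (j : ℕ) f = if f = (i, j) then 1 else 0 := by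
  unfold ce
  have h : (f = (i, j)) ↔ ((f.1 : ℕ) = i ∧ (f.2 : ℕ) = j) := by
    rw [Prod.ext_iff, Fin.ext_iff, Fin.ext_iff]
  by_cases h1 : f = (i, j)
  · rw [if_pos h1, if_pos (h.1 h1)]
  · rw [if_neg h1, if_neg (fun h2 => h1 (h.2 h2))]

theorem add_blk_eq (hm : 0 < m) (hn : 0 < n) {e : Fin m × Fin n} (he : e ∈ DB p m n g) (d : ℤ)
    (X : Tab m n) :
    X + d • blk (ri m g hm) (cj n g hn) e = blockM p g (e.1 : ℕ) (e.2 : ℕ) d X := by
  rw [blockM_eq, if_pos ⟨⟨e.1.2, e.2.2⟩, mem_DB.1 he⟩]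
  congr 2
  funext f
  have h1 := ce_eq e.1 e.2 f
  have h2 := ce_eq e.1 (cj n g hn) f
  have h3 := ce_eq (ri m g hm) e.2 f
  have h4 := ce_eq (ri m g hm) (cj n g hn) f
  simp only [Pi.add_apply, Pi.sub_apply]
  unfold blk
  rw [show (ce m n (e.1 : ℕ) (js n g) f) = ce m n (e.1 : ℕ) ((cj n g hn : Fin n) : ℕ) f from rfl,
    show (ce m n (is m g) (e.2 : ℕ) f) = ce m n ((ri m g hm : Fin m) : ℕ) (e.2 : ℕ) f from rfl,
    show (ce m n (is m g) (js n g) f) =
      ce m n ((ri m g hm : Fin m) : ℕ) ((cj n g hn : Fin n) : ℕ) f from rfl, h1, h2, h3, h4]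

/-- **The block energy.** -/
theorem BlockE_wR_le (hne : (stF p g m n).Nonempty) (hQ : 0 ≤ p.Q) (hLp : 0 ≤ p.Lp)
    (hLc : 0 ≤ p.Lc) (hr : ∀ i : Fin m, 0 ≤ g.r i) (hm : m ≤ 2 ^ p.B) (hn : n ≤ 2 ^ p.B)
    (hm0 : 0 < m) (hn0 : 0 < n) (G : Tab m n → ℝ) :
    BlockE (al m n g) (rad p m g) (wR p m n g) (ri m g hm0) (cj n g hn0) (DB p m n g)
      (fun e => 2 ^ lb p g (e.1 : ℕ) (e.2 : ℕ)) G ≤
      ((m : ℝ) * n) * (16 * 2 ^ (2 * p.B)) * (Ztot p g m n : ℝ) * dirI p g m n G := by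
  classical
  have hZ : (0 : ℝ) ≤ (Ztot p g m n : ℝ) := Nat.cast_nonneg _
  have hd := dirI_nonneg (p := p) (g := g) (m := m) (n := n) G
  have h1 : stF p g m n ⊆
      conf (gs (Fin m) (Fin n)) (gt (Fin m) (Fin n)) (rad p m g) (al m n g) := fun X hX =>
    ((mem_conf_wR hQ hLp hLc hr X).1 hX).1
  -- every cell
  have hcell : ∀ e ∈ DB p m n g, ∑ X ∈ conf (gs (Fin m) (Fin n)) (gt (Fin m) (Fin n))
      (rad p m g) (al m n g), (1 / (((2 : ℤ) ^ lb p g (e.1 : ℕ) (e.2 : ℕ) : ℤ) : ℝ)) *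
        ∑ d ∈ Finset.Ioo (-(2 : ℤ) ^ lb p g (e.1 : ℕ) (e.2 : ℕ)) (2 ^ lb p g (e.1 : ℕ) (e.2 : ℕ)),
          min (pw (wR p m n g) X)
            (pw (wR p m n g) (X + d • blk (ri m g hm0) (cj n g hn0) e)) *
          (G X - G (X + d • blk (ri m g hm0) (cj n g hn0) e)) ^ 2 ≤
      16 * 2 ^ (2 * p.B) * (Ztot p g m n : ℝ) * dirI p g m n G := by
    intro e he
    have h := BlockE_le (p := p) (g := g) hne e.1.2 e.2.2 hm hn (mem_DB.1 he) G
    rw [← Finset.mul_sum, Finset.sum_comm]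
    have hL : (0 : ℝ) < (((2 : ℤ) ^ lb p g (e.1 : ℕ) (e.2 : ℕ) : ℤ) : ℝ) := by
      push_cast
      positivity
    rw [one_div, inv_mul_le_iff₀ hL]
    refine le_trans (le_of_eq ?_) (h.trans (le_of_eq ?_))
    · refine Finset.sum_congr rfl fun d _ => ?_
      rw [← Finset.sum_subset h1]
      · refine Finset.sum_congr rfl fun X hX => ?_
        rw [add_blk_eq hm0 hn0 he]
        set Y := blockM p g (e.1 : ℕ) (e.2 : ℕ) d X with hY
        have hX1 := (mem_stF_iff hQ hLp hLc hr).1 hX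
        have hXr : ∀ i : Fin m, rowSum X i = g.r i := fun i => rowSum_of_Wt hX1.2 i
        have hYr : ∀ i : Fin m, rowSum Y i = g.r i := fun i => by
          rw [hY, rowSum_blockM]; exact hXr i
        have hYc : ∀ j : Fin n, colSum Y j = g.c j := fun j => by
          rw [hY, colSum_blockM]; exact hX1.1 j
        rw [pw_wR' hXr, pw_wR' hYr]
        by_cases h3 : Y ∈ stF p g m n
        · rw [if_pos h3, Nat.cast_min]
        · rw [if_neg h3]
          have h4 : Wt p g Y = 0 := by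
            by_contra h5
            exact h3 ((mem_stF_iff hQ hLp hLc hr).2 ⟨hYc, h5⟩)
          rw [h4, Nat.cast_zero, min_eq_right (Nat.cast_nonneg _), zero_mul]
      · intro X hX hX'
        have h0 : pw (wR p m n g) X = 0 := by
          by_contra h
          exact hX' ((mem_conf_wR hQ hLp hLc hr X).2 ⟨hX, h⟩)
        have h9 : 0 ≤ pw (wR p m n g) (X + d • blk (ri m g hm0) (cj n g hn0) e) :=
          Finset.prod_nonneg fun e _ => wR_nonneg' e _
        rw [h0, min_eq_left h9, zero_mul]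
    · push_cast
      rw [pow_add]
      ring
  unfold BlockE
  rw [Finset.sum_comm]
  refine (Finset.sum_le_card_nsmul _ _ _ fun e he => hcell e he).trans ?_
  rw [nsmul_eq_mul]
  have hcard : ((DB p m n g).card : ℝ) ≤ (m : ℝ) * n := by
    have h2 : (DB p m n g).card ≤ m * n := by
      refine (Finset.card_le_univ _).trans (le_of_eq ?_)
      rw [Fintype.card_prod, Fintype.card_fin, Fintype.card_fin]
    exact_mod_cast h2
  calc ((DB p m n g).card : ℝ) * (16 * 2 ^ (2 * p.B) * (Ztot p g m n : ℝ) * dirI p g m n G)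
      ≤ ((m : ℝ) * n) * (16 * 2 ^ (2 * p.B) * (Ztot p g m n : ℝ) * dirI p g m n G) :=
        mul_le_mul_of_nonneg_right hcard (by positivity)
    _ = _ := by ring

end Vale.Agent.P328R
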