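import Vale.Agent.P328R.ChainSym
import Vale.Agent.P328R.MixPMF

/-!
# P328, arbitrary margins: the ideal chain is lazy and reversible

Module R1. For the ideal kernel `stepI` of `Algo.lean` on the state space `stF` with the law `piF`:
the fields `supp`, `closed`, `rev`, `lazy` of `GoodChain`, the symmetry of the proposal, and lower
bounds for the transition probabilities.
-/

namespace Vale.Agent.P328R

open scoped ENNReal
open Finset
open Vale.Agent.P328RAM

/-! ### unit moves -/

variable {p : Par} {m n : ℕ} {g : Mg}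

theorem addc_apply (i j : ℕ) (d : ℤ) (X : Tab m n) (e : Fin m × Fin n) :
    addc i j d X e = X e + if (e.1 : ℕ) = i ∧ (e.2 : ℕ) = j then d else 0 := rfl

theorem addc_add (i j : ℕ) (d : ℤ) (X : Tab m n) (D : Tab m n) :
    addc i j d (X + D) = addc i j d X + D := by
  funext e
  simp only [addc, Pi.add_apply]
  ring

/-- the displacement of a cell -/
def ce (m n : ℕ) (i j : ℕ) : Tab m n := fun e => if (e.1 : ℕ) = i ∧ (e.2 : ℕ) = j then 1 else 0

theorem addc_eq (i j : ℕ) (d : ℤ) (X : Tab m n) : addc i j d X = X + d • ce m n i j := by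
  funext e
  simp only [addc, ce, Pi.add_apply, Pi.smul_apply, smul_eq_mul, mul_ite, mul_one, mul_zero]

theorem unitM_eq (a b j : ℕ) (X : Tab m n) :
    unitM a b j X = X + if a < m ∧ b < m ∧ j < n then ce m n b j - ce m n a j else 0 := by
  unfold unitM
  split_ifs with h
  · rw [addc_eq, addc_eq]
    simp only [neg_smul, one_smul]
    abel
  · simp

theorem bmv_eq (i j : ℕ) (d : ℤ) (X : Tab m n) :
    bmv g i j d X = X + d • (ce m n i j - ce m n i (js n g) - ce m n (is m g) j +
      ce m n (is m g) (js n g)) := by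
  unfold bmv
  rw [addc_eq, addc_eq, addc_eq, addc_eq]
  simp only [neg_smul, smul_add, smul_sub]
  abel

theorem blockM_eq (i j : ℕ) (d : ℤ) (X : Tab m n) :
    blockM p g i j d X = X + if (i < m ∧ j < n) ∧ Blk p m n g i j then
      d • (ce m n i j - ce m n i (js n g) - ce m n (is m g) j + ce m n (is m g) (js n g)) else 0 := by
  unfold blockM
  split_ifs with h
  · exact bmv_eq i j d X
  · simp

/-! ### the step -/

theorem bern_map_apply {β : Type} (a : NNReal) (ha : a ≤ 1) (f : Bool → β) (y : β)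
    [Decidable (y = f true)] [Decidable (y = f false)] :
    ((bern a ha).map f) y = (if y = f true then (a : ℝ≥0∞) else 0) +
      if y = f false then ((1 - a : NNReal) : ℝ≥0∞) else 0 := by
  classical
  rw [PMF.map_apply, tsum_fintype, Fintype.sum_bool, bern_true, bern_false]
  congr

theorem accI_apply (X Y Z : Tab m n) :
    accI p g X Z Y = (if Y = Z then (accP p g X Z : ℝ≥0∞) else 0) +
      if Y = X then ((1 - accP p g X Z : NNReal) : ℝ≥0∞) else 0 := by
  exact bern_map_apply _ _ _ _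

/-- transition probabilities off the diagonal -/
theorem stepI_apply {X Y : Tab m n} (h : X ≠ Y) :
    stepI p g X Y = 2⁻¹ * (propK p g X Y * (accP p g X Y : ℝ≥0∞)) := by
  unfold stepI
  rw [coin_bind_apply]
  rw [if_pos rfl, if_neg one_ne_zero, PMF.pure_apply, if_neg (fun e => h e.symm), mul_zero,
    zero_add, PMF.bind_apply]
  congr 1
  rw [tsum_eq_single Y]
  · rw [accI_apply, if_pos rfl, if_neg (fun e => h e.symm), add_zero]
  · intro Z hZ
    rw [accI_apply, if_neg (fun e => hZ e.symm), if_neg (fun e => h e.symm), add_zero, mul_zero]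

theorem stepI_lazy (X : Tab m n) : 2⁻¹ ≤ stepI p g X X := by
  unfold stepI
  rw [coin_bind_apply]
  rw [if_pos rfl, PMF.pure_apply, if_pos rfl, mul_one]
  exact le_self_add

theorem stepI_lazy_real (X : Tab m n) : 1 / 2 ≤ (stepI p g X X).toReal := by
  have h := ENNReal.toReal_mono (PMF.apply_ne_top _ _) (stepI_lazy (p := p) (g := g) X)
  rw [ENNReal.toReal_inv, ENNReal.toReal_ofNat] at h
  rw [one_div]
  exact h

theorem Wt_mul_accP (X Y : Tab m n) (h : Wt p g X ≠ 0) :
    (Wt p g X : ℝ≥0∞) * (accP p g X Y : ℝ≥0∞) = ((min (Wt p g X) (Wt p g Y) : ℕ) : ℝ≥0∞) := by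
  have h1 : (Wt p g X : NNReal) * accP p g X Y = ((min (Wt p g X) (Wt p g Y) : ℕ) : NNReal) := by
    unfold accP
    have h0 : (0 : NNReal) < (Wt p g X : NNReal) := by
      exact_mod_cast Nat.pos_of_ne_zero h
    rw [mul_min_of_nonneg _ _ h0.le, mul_one, mul_div_cancel₀ _ h0.ne']
    rw [Nat.cast_min]
  rw [show ((Wt p g X : ℕ) : ℝ≥0∞) = ((Wt p g X : NNReal) : ℝ≥0∞) by simp, ← ENNReal.coe_mul, h1]
  exact ENNReal.coe_natCast _

/-- the total weight of the state space -/
noncomputable def Ztot (p : Par) (g : Mg) (m n : ℕ) : ℕ := ∑ X ∈ stF p g m n, Wt p g X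

theorem Wt_ne_of_mem {X : Tab m n} (h : X ∈ stF p g m n) : Wt p g X ≠ 0 := by
  classical
  unfold stF at h
  exact (Finset.mem_filter.1 h).2.2

theorem Ztot_pos (h : (stF p g m n).Nonempty) : 0 < Ztot p g m n := by
  obtain ⟨X, hX⟩ := h
  exact Finset.sum_pos' (fun _ _ => Nat.zero_le _) ⟨X, hX, Nat.pos_of_ne_zero (Wt_ne_of_mem hX)⟩

theorem piF_apply_mem (h : (stF p g m n).Nonempty) {X : Tab m n} (hX : X ∈ stF p g m n) :
    piF p g m n X = (Wt p g X : ℝ≥0∞) / ((Ztot p g m n : ℕ) : ℝ≥0∞) := by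
  classical
  unfold piF
  rw [lawOf_apply (Ztot_pos h).ne', if_pos hX]
  rfl

theorem piF_apply_not_mem (h : (stF p g m n).Nonempty) {X : Tab m n} (hX : X ∉ stF p g m n) :
    piF p g m n X = 0 := by
  classical
  unfold piF
  rw [lawOf_apply (Ztot_pos h).ne', if_neg hX]

/-- the conductance off the diagonal -/
theorem piF_mul_stepI (h : (stF p g m n).Nonempty) {X Y : Tab m n} (hX : X ∈ stF p g m n)
    (hXY : X ≠ Y) :
    piF p g m n X * stepI p g X Y =
      2⁻¹ * (propK p g X Y * (((min (Wt p g X) (Wt p g Y) : ℕ) : ℝ≥0∞) /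
        ((Ztot p g m n : ℕ) : ℝ≥0∞))) := by
  rw [piF_apply_mem h hX, stepI_apply hXY, ← Wt_mul_accP X Y (Wt_ne_of_mem hX)]
  simp only [div_eq_mul_inv]
  ring

theorem ideal_rev (h : (stF p g m n).Nonempty) :
    ∀ X ∈ stF p g m n, ∀ Y ∈ stF p g m n,
      piF p g m n X * stepI p g X Y = piF p g m n Y * stepI p g Y X := by
  intro X hX Y hY
  by_cases hXY : X = Y
  · rw [hXY]
  · rw [piF_mul_stepI h hX hXY, piF_mul_stepI h hY (fun e => hXY e.symm),
      propK_sym p g X Y, min_comm]

/-! ### row and column sums -/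

theorem am_lt_ir (r : ℕ → ℤ) {k : ℕ} (h : 0 < k) : am r k < k := by
  induction k with
  | zero => omega
  | succ k ih =>
      simp only [am]
      split_ifs with h1
      · omega
      · rcases Nat.eq_zero_or_pos k with h2 | h2
        · subst h2
          simp [am]
        · have := ih h2
          omega

theorem colSum_add (X Y : Tab m n) (k : Fin n) : colSum (X + Y) k = colSum X k + colSum Y k := by
  unfold colSum
  rw [← Finset.sum_add_distrib]
  rfl

theorem colSum_smul (d : ℤ) (X : Tab m n) (k : Fin n) : colSum (d • X) k = d * colSum X k := by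
  unfold colSum
  rw [Finset.mul_sum]
  rfl

theorem rowSum_add (X Y : Tab m n) (k : Fin m) : rowSum (X + Y) k = rowSum X k + rowSum Y k := by
  unfold rowSum
  rw [← Finset.sum_add_distrib]
  rfl

theorem rowSum_smul (d : ℤ) (X : Tab m n) (k : Fin m) : rowSum (d • X) k = d * rowSum X k := by
  unfold rowSum
  rw [Finset.mul_sum]
  rfl

theorem colSum_ce (i j : ℕ) (k : Fin n) :
    colSum (ce m n i j) k = if i < m ∧ (k : ℕ) = j then 1 else 0 := by
  unfold colSum ce
  by_cases h : i < m ∧ (k : ℕ) = j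
  · rw [if_pos h, Finset.sum_eq_single (⟨i, h.1⟩ : Fin m)]
    · simp [h.2]
    · intro b _ hb
      rw [if_neg]
      rintro ⟨h1, _⟩
      exact hb (Fin.ext h1)
    · intro h1
      exact absurd (Finset.mem_univ _) h1
  · rw [if_neg h]
    refine Finset.sum_eq_zero fun b _ => ?_
    rw [if_neg]
    rintro ⟨h1, h2⟩
    exact h ⟨by have := b.2; simp only at h1; omega, h2⟩

theorem rowSum_ce (i j : ℕ) (k : Fin m) :
    rowSum (ce m n i j) k = if j < n ∧ (k : ℕ) = i then 1 else 0 := by
  unfold rowSum ce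
  by_cases h : j < n ∧ (k : ℕ) = i
  · rw [if_pos h, Finset.sum_eq_single (⟨j, h.1⟩ : Fin n)]
    · simp [h.2]
    · intro b _ hb
      rw [if_neg]
      rintro ⟨_, h1⟩
      exact hb (Fin.ext h1)
    · intro h1
      exact absurd (Finset.mem_univ _) h1
  · rw [if_neg h]
    refine Finset.sum_eq_zero fun b _ => ?_
    rw [if_neg]
    rintro ⟨h1, h2⟩
    exact h ⟨by have := b.2; simp only at h2; omega, h1⟩

theorem colSum_unitM (a b j : ℕ) (X : Tab m n) (k : Fin n) :
    colSum (unitM a b j X) k = colSum X k := by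
  rw [unitM_eq]
  split_ifs with h
  · rw [show ce m n b j - ce m n a j = ce m n b j + (-1 : ℤ) • ce m n a j by
      rw [neg_smul, one_smul, sub_eq_add_neg], colSum_add, colSum_add, colSum_smul, colSum_ce,
      colSum_ce]
    by_cases hk : (k : ℕ) = j
    · rw [if_pos ⟨h.2.1, hk⟩, if_pos ⟨h.1, hk⟩]; ring
    · rw [if_neg (fun e => hk e.2), if_neg (fun e => hk e.2)]; ring
  · rw [add_zero]

theorem colSum_blockM (i j : ℕ) (d : ℤ) (X : Tab m n) (k : Fin n) :
    colSum (blockM p g i j d X) k = colSum X k := by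
  rw [blockM_eq]
  split_ifs with h
  · have hm : is m g < m := am_lt_ir _ (by have := h.1.1; omega)
    have hi := h.1.1
    rw [show ce m n i j - ce m n i (js n g) - ce m n (is m g) j + ce m n (is m g) (js n g) =
      ce m n i j + (-1 : ℤ) • ce m n i (js n g) + (-1 : ℤ) • ce m n (is m g) j +
        ce m n (is m g) (js n g) by
      rw [neg_smul, one_smul, neg_smul, one_smul]; abel]
    simp only [colSum_add, colSum_smul, colSum_ce, hm, hi, true_and]
    ring
  · rw [add_zero]

theorem rowSum_blockM (i j : ℕ) (d : ℤ) (X : Tab m n) (k : Fin m) :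
    rowSum (blockM p g i j d X) k = rowSum X k := by
  rw [blockM_eq]
  split_ifs with h
  · have hn : js n g < n := am_lt_ir _ (by have := h.1.2; omega)
    have hj := h.1.2
    rw [show ce m n i j - ce m n i (js n g) - ce m n (is m g) j + ce m n (is m g) (js n g) =
      ce m n i j + (-1 : ℤ) • ce m n i (js n g) + (-1 : ℤ) • ce m n (is m g) j +
        ce m n (is m g) (js n g) by
      rw [neg_smul, one_smul, neg_smul, one_smul]; abel]
    simp only [rowSum_add, rowSum_smul, rowSum_ce, hn, hj, true_and]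
    ring
  · rw [add_zero]

/-! ### the support of the proposal -/

theorem unitK_colSum {X Y : Tab m n} (h : Y ∈ (unitK p X).support) (k : Fin n) :
    colSum Y k = colSum X k := by
  unfold unitK at h
  simp only [PMF.mem_support_bind_iff, PMF.mem_support_map_iff] at h
  obtain ⟨j, _, a, _, b, _, rfl⟩ := h
  exact colSum_unitM a b j X k

theorem iter_colSum {κ : Tab m n → PMF (Tab m n)}
    (hκ : ∀ X Y, Y ∈ (κ X).support → ∀ k, colSum Y k = colSum X k) (t : ℕ) :
    ∀ X Y, Y ∈ (iterBind κ t X).support → ∀ k, colSum Y k = colSum X k := by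
  induction t with
  | zero =>
      intro X Y h k
      simp only [iterBind, PMF.support_pure, Set.mem_singleton_iff] at h
      rw [h]
  | succ t ih =>
      intro X Y h k
      simp only [iterBind, PMF.mem_support_bind_iff] at h
      obtain ⟨Z, h1, h2⟩ := h
      rw [ih Z Y h2 k, hκ X Z h1 k]

theorem wormK_colSum {X Y : Tab m n} (h : Y ∈ (wormK p X).support) (k : Fin n) :
    colSum Y k = colSum X k :=
  iter_colSum (fun _ _ h => unitK_colSum h) 5 X Y h k

theorem blockK_colSum {X Y : Tab m n} (h : Y ∈ (blockK p g X).support) (k : Fin n) :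
    colSum Y k = colSum X k := by
  unfold blockK at h
  simp only [PMF.mem_support_bind_iff, PMF.mem_support_map_iff] at h
  obtain ⟨i, _, j, _, s, _, d, _, rfl⟩ := h
  exact colSum_blockM i j _ X k

theorem propK_colSum {X Y : Tab m n} (h : Y ∈ (propK p g X).support) (k : Fin n) :
    colSum Y k = colSum X k := by
  unfold propK at h
  simp only [PMF.mem_support_bind_iff] at h
  obtain ⟨v, _, h⟩ := h
  split_ifs at h
  · exact wormK_colSum h k
  · exact blockK_colSum h k

/-! ### positive weight implies the box -/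

theorem sg_le_two_sc (g : Mg) (i j : ℕ) (h : 0 < sc g i j) : sg g i j ≤ 2 * sc g i j := by
  unfold sg sb
  set t := (sc g i j).toNat with ht
  have ht0 : 0 < t := by omega
  have h1 : 2 ^ (Nat.size t - 1) ≤ t := by
    refine Nat.lt_size.1 ?_
    have : 0 < Nat.size t := Nat.size_pos.2 ht0
    omega
  have h2 : 2 ^ Nat.size t ≤ 2 * t := by
    have : 0 < Nat.size t := Nat.size_pos.2 ht0
    calc 2 ^ Nat.size t = 2 * 2 ^ (Nat.size t - 1) := by
          rw [← pow_succ']; congr 1; omega
      _ ≤ 2 * t := by omega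
  have h3 : (t : ℤ) = sc g i j := by omega
  rw [← h3]
  exact_mod_cast h2

theorem sc_lt_sg (g : Mg) (i j : ℕ) : sc g i j < sg g i j := by
  unfold sg sb
  set t := (sc g i j).toNat with ht
  have h1 : t < 2 ^ Nat.size t := Nat.lt_size_self t
  have h2 : sc g i j ≤ t := by omega
  have h3 : (t : ℤ) < 2 ^ Nat.size t := by exact_mod_cast h1
  omega

theorem cw_ne_of_Wt {X : Tab m n} (h : Wt p g X ≠ 0) (e : Fin m × Fin n) :
    cw p m n g (e.1 : ℕ) (e.2 : ℕ) (X e) ≠ 0 := by
  unfold Wt at h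
  split_ifs at h with h1
  · exact Finset.prod_ne_zero_iff.1 h e (Finset.mem_univ e)
  · exact absurd rfl h

theorem rowSum_of_Wt {X : Tab m n} (h : Wt p g X ≠ 0) (i : Fin m) : rowSum X i = g.r i := by
  unfold Wt at h
  split_ifs at h with h1
  · exact h1 i
  · exact absurd rfl h

theorem abs_le_of_cw {i j : ℕ} {x : ℤ} (hQ : 0 ≤ p.Q) (hLp : 0 ≤ p.Lp) (hLc : 0 ≤ p.Lc)
    (hr : 0 ≤ g.r i) (h : cw p m n g i j x ≠ 0) : |x| ≤ 2 * (p.Lc + p.Lp + 1) * g.r i := by
  have hsr : sc g i j ≤ g.r i := min_le_left _ _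
  have hA : 0 ≤ (p.Lc + p.Lp) * g.r i := mul_nonneg (by omega) hr
  unfold cw at h
  split_ifs at h with h1 h2 h2 h3 h3
  · have hs : 0 < sc g i j := by
      unfold Piv at h1
      unfold sc
      rcases h1.2 with h4 | h4
      · have h5 := h1.1.1
        rw [← h4.1] at h5
        have h6 := h4.2
        omega
      · have h5 := h1.1.2
        rw [← h4.1] at h5
        have h6 := h4.2
        omega
    have h5 := sg_le_two_sc g i j hs
    have h6 : Ls p m n g i j ≤ (p.Lc + p.Lp) * sg g i j := by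
      unfold Ls
      have h7 : 0 ≤ sg g i j := by unfold sg; positivity
      split_ifs
      · exact mul_le_mul_of_nonneg_right (by omega) h7
      · exact mul_le_mul_of_nonneg_right (by omega) h7
    have h7 : (p.Lc + p.Lp) * sg g i j ≤ (p.Lc + p.Lp) * (2 * g.r i) :=
      mul_le_mul_of_nonneg_left (by omega) (by omega)
    have h8 : 2 * (p.Lc + p.Lp + 1) * g.r i = (p.Lc + p.Lp) * (2 * g.r i) + 2 * g.r i := by ring
    rw [h8]
    omega
  · exact absurd rfl h
  · have hs : 0 < sc g i j := by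
      unfold Blk at h2
      unfold sc
      have := h2.1.2
      have := h2.2.2
      omega
    have h5 := sg_le_two_sc g i j hs
    rw [abs_of_nonneg h3.1]
    have h8 : 2 * (p.Lc + p.Lp + 1) * g.r i = 2 * ((p.Lc + p.Lp) * g.r i) + 2 * g.r i := by ring
    rw [h8]
    omega
  · exact absurd rfl h
  · rw [abs_of_nonneg h3.1]
    have h8 : 2 * (p.Lc + p.Lp + 1) * g.r i = 2 * ((p.Lc + p.Lp) * g.r i) + 2 * g.r i := by ring
    rw [h8]
    omega
  · exact absurd rfl h

theorem mem_box_of_Wt {X : Tab m n} (hQ : 0 ≤ p.Q) (hLp : 0 ≤ p.Lp) (hLc : 0 ≤ p.Lc)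
    (hr : ∀ i : Fin m, 0 ≤ g.r i) (h : Wt p g X ≠ 0) :
    X ∈ box (Fin m × Fin n) (2 * (p.Lc + p.Lp + 1) * ∑ i : Fin m, g.r i) := by
  unfold box
  rw [Fintype.mem_piFinset]
  intro e
  rw [Finset.mem_Icc, ← abs_le]
  refine (abs_le_of_cw hQ hLp hLc (hr e.1) (cw_ne_of_Wt h e)).trans ?_
  refine mul_le_mul_of_nonneg_left ?_ (by omega)
  exact Finset.single_le_sum (f := fun i : Fin m => g.r i) (fun i _ => hr i) (Finset.mem_univ e.1)

theorem mem_stF_iff {X : Tab m n} (hQ : 0 ≤ p.Q) (hLp : 0 ≤ p.Lp) (hLc : 0 ≤ p.Lc)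
    (hr : ∀ i : Fin m, 0 ≤ g.r i) :
    X ∈ stF p g m n ↔ (∀ j, colSum X j = g.c j) ∧ Wt p g X ≠ 0 := by
  classical
  unfold stF
  rw [Finset.mem_filter]
  constructor
  · exact fun h => h.2
  · exact fun h => ⟨mem_box_of_Wt hQ hLp hLc hr h.2, h⟩

theorem ideal_closed (hQ : 0 ≤ p.Q) (hLp : 0 ≤ p.Lp) (hLc : 0 ≤ p.Lc)
    (hr : ∀ i : Fin m, 0 ≤ g.r i) :
    ∀ X ∈ stF p g m n, ∀ Y, Y ∉ stF p g m n → stepI p g X Y = 0 := by
  intro X hX Y hY
  have hXY : X ≠ Y := fun e => hY (e ▸ hX)
  rw [stepI_apply hXY]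
  by_contra h
  have h1 : propK p g X Y ≠ 0 := fun e => h (by rw [e]; simp)
  have h2 : (accP p g X Y : ℝ≥0∞) ≠ 0 := fun e => h (by rw [e]; simp)
  refine hY ((mem_stF_iff hQ hLp hLc hr).2 ⟨?_, ?_⟩)
  · intro j
    rw [propK_colSum ((PMF.mem_support_iff _ _).2 h1) j]
    exact ((mem_stF_iff hQ hLp hLc hr).1 hX).1 j
  · intro h3
    refine h2 ?_
    unfold accP
    rw [h3]
    simp

end Vale.Agent.P328R
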