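import Vale.Agent.P328R.Defs

/-! Module M1: log-concave weights, cuts, frames. -/

namespace Vale.Agent.P328R

open Finset

theorem LC.cut1 {w : ℤ → ℝ} (h : LC w) (t : ℤ) : LC (fun x => w x * w (t - x)) := by
  refine ⟨fun x => mul_nonneg (h.1 x) (h.1 _), fun a b hab => ?_⟩
  have h1 := h.2 a b hab
  have h2 := h.2 (t - b) (t - a) (by omega)
  have e1 : t - (a + 1) = t - a - 1 := by ring
  have e2 : t - (b - 1) = t - b + 1 := by ring
  show w a * w (t - a) * (w b * w (t - b)) ≤
    w (a + 1) * w (t - (a + 1)) * (w (b - 1) * w (t - (b - 1)))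
  rw [e1, e2]
  calc w a * w (t - a) * (w b * w (t - b)) = (w a * w b) * (w (t - b) * w (t - a)) := by ring
    _ ≤ (w (a + 1) * w (b - 1)) * (w (t - b + 1) * w (t - a - 1)) :=
        mul_le_mul h1 h2 (mul_nonneg (h.1 _) (h.1 _)) (mul_nonneg (h.1 _) (h.1 _))
    _ = _ := by ring

theorem LC.su {f : ℤ → ℝ} (h : LC f) {t : ℤ} (hs : ∀ x, f (t - x) = f x) : SU t f := by
  refine ⟨h.1, hs, fun x hx => ?_⟩
  have h1 := h.2 (t - (x + 1)) (x + 1) (by omega)
  have e1 : t - (x + 1) + 1 = t - x := by ring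
  have e2 : x + 1 - 1 = x := by ring
  rw [hs, e1, hs, e2] at h1
  exact le_of_sq_le_sq (by nlinarith) (h.1 x)
where
  le_of_sq_le_sq {a b : ℝ} (hab : a * a ≤ b * b) (hb : 0 ≤ b) : a ≤ b := by
    nlinarith [abs_le_of_sq_le_sq (by nlinarith : a ^ 2 ≤ b ^ 2) hb]

variable {V E : Type} [Fintype V] [DecidableEq V] [Fintype E] [DecidableEq E]

theorem pw_nonneg {f : E → ℤ → ℝ} (h : ∀ e x, 0 ≤ f e x) (X : E → ℤ) : 0 ≤ pw f X :=
  Finset.prod_nonneg fun e _ => h e _

theorem pw_cut (f : E → ℤ → ℝ) (T X : E → ℤ) : pw (cut f T) X = pw f X * pw f (T - X) := by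
  unfold pw cut
  rw [← Finset.prod_mul_distrib]
  rfl

theorem bd_add (src tgt : E → V) (X Y : E → ℤ) (v : V) :
    bd src tgt (X + Y) v = bd src tgt X v + bd src tgt Y v := by
  have h : ∀ s : E → V, (∑ e, if s e = v then (X + Y) e else 0) =
      (∑ e, if s e = v then X e else 0) + ∑ e, if s e = v then Y e else 0 := by
    intro s
    rw [← Finset.sum_add_distrib]
    refine Finset.sum_congr rfl fun e _ => ?_
    by_cases hs : s e = v <;> simp [hs]
  unfold bd
  rw [h src, h tgt]
  ring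

theorem bd_sub (src tgt : E → V) (X Y : E → ℤ) (v : V) :
    bd src tgt (X - Y) v = bd src tgt X v - bd src tgt Y v := by
  have h := bd_add src tgt (X - Y) Y v
  rw [sub_add_cancel] at h
  rw [h]
  ring

/-- The cut of a frame (or of any log-concave family) at `T'` with boundary `2 α` is a frame. -/
theorem Frame.of_cut {src tgt : E → V} {M : ℤ} {α : V → ℤ} {f : E → ℤ → ℝ}
    (h1 : ∀ e, LC (f e)) (h2 : ∀ e, Supp M (f e)) {T' : E → ℤ}
    (hT : T' ∈ conf src tgt (2 * M) (fun v => 2 * α v)) :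
    Frame src tgt M α (cut f T') T' := by
  refine ⟨fun e => (h1 e).cut1 (T' e), fun e x => ?_, fun e x hx => ?_, fun v => ?_⟩
  · unfold cut
    rw [sub_sub_cancel, mul_comm]
  · unfold cut
    rw [h2 e x hx, zero_mul]
  · exact congrFun (Finset.mem_filter.1 hT).2 v

/-- Grouping pairs by their sum. `β + γ = 2 α`. -/
theorem sum_pairs (src tgt : E → V) {M : ℤ} {α β γ : V → ℤ} (hβ : ∀ v, β v + γ v = 2 * α v)
    {f : E → ℤ → ℝ} (h2 : ∀ e, Supp M (f e)) (G : (E → ℤ) → (E → ℤ) → ℝ) :
    ∑ X ∈ conf src tgt M β, ∑ Y ∈ conf src tgt M γ, pw f X * pw f Y * G X Y =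
      ∑ T' ∈ conf src tgt (2 * M) (fun v => 2 * α v),
        ∑ X ∈ conf src tgt M β, pw (cut f T') X * G X (T' - X) := by
  rw [Finset.sum_comm (s := conf src tgt (2 * M) (fun v => 2 * α v))]
  refine Finset.sum_congr rfl fun X hX => ?_
  have hXb : ∀ e, |X e| ≤ M := by
    have h := (Finset.mem_filter.1 hX).1
    unfold box at h
    rw [Fintype.mem_piFinset] at h
    intro e
    exact abs_le.2 (Finset.mem_Icc.1 (h e))
  have hXbd : bd src tgt X = β := (Finset.mem_filter.1 hX).2
  refine Finset.sum_bij_ne_zero (fun Y _ _ => X + Y) ?_ ?_ ?_ ?_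
  · intro Y hY _
    have hYb : ∀ e, |Y e| ≤ M := by
      have h := (Finset.mem_filter.1 hY).1
      unfold box at h
      rw [Fintype.mem_piFinset] at h
      intro e
      exact abs_le.2 (Finset.mem_Icc.1 (h e))
    have hYbd : bd src tgt Y = γ := (Finset.mem_filter.1 hY).2
    unfold conf
    rw [Finset.mem_filter]
    constructor
    · unfold box
      rw [Fintype.mem_piFinset]
      intro e
      rw [Finset.mem_Icc, ← abs_le]
      calc |(X + Y) e| = |X e + Y e| := rfl
        _ ≤ |X e| + |Y e| := abs_add_le _ _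
        _ ≤ M + M := add_le_add (hXb e) (hYb e)
        _ = 2 * M := by ring
    · funext v
      rw [bd_add, hXbd, hYbd, hβ]
  · intro Y _ _ Y' _ _ h
    exact add_left_cancel h
  · intro T' hT' h
    have h0 : pw f (T' - X) ≠ 0 := by
      intro hc
      apply h
      rw [pw_cut, hc, mul_zero, zero_mul]
    have hTbd : bd src tgt T' = fun v => 2 * α v := (Finset.mem_filter.1 hT').2
    refine ⟨T' - X, ?_, ?_, by simp⟩
    · unfold conf
      rw [Finset.mem_filter]
      constructor
      · unfold box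
        rw [Fintype.mem_piFinset]
        intro e
        rw [Finset.mem_Icc, ← abs_le]
        by_contra hc
        push Not at hc
        exact h0 (Finset.prod_eq_zero (Finset.mem_univ e) (h2 e _ hc))
      · funext v
        rw [bd_sub, hTbd, hXbd]
        have := hβ v
        linarith
    · rw [pw_cut] at h
      exact h
  · intro Y _ _
    rw [pw_cut, add_sub_cancel_left]

end Vale.Agent.P328R
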