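import Vale.Agent.P328R.Centre

/-! Modules M4, M5: marginals of frames are symmetric and unimodal. -/

namespace Vale.Agent.P328R

open Finset

variable {V E : Type} [Fintype V] [DecidableEq V] [Fintype E] [DecidableEq E]

/-- `centre` for networks that may contain loops. -/
theorem centreL (src tgt : E → V) {u v : V} {M : ℤ}
    {f : E → ℤ → ℝ} {T : E → ℤ} (hf : ∀ e, SU (T e) (f e)) (hM : ∀ e, Supp M (f e))
    (β : V → ℤ) (s : ℤ) (hs : 0 ≤ s)
    (hβ : ∀ x, 2 * β x = bd src tgt T x + s * dl u v x) :
    Z src tgt M f (β + dl u v) ≤ Z src tgt M f β := by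
  rw [cm_Z_eq, cm_Z_eq, cm_dl_eq]
  have hmem : ∀ e x, f e x ≠ 0 → x ∈ Finset.Icc (-M) M := by
    intro e x hx
    rw [Finset.mem_Icc, ← abs_le]
    by_contra hcon
    exact hx (hM e x (not_le.mp hcon))
  refine P328R.CMax.centre_max src tgt u v (box E M) f T β s hs (fun e => ?_)
    (fun e => (hf e).2.1) (fun e => (hf e).2.2) (fun X hX => ?_) fun z => ?_
  · exact (Finset.finite_toSet (Finset.Icc (-M) M)).subset fun x hx =>
      Finset.mem_coe.mpr (hmem e x hx)
  · unfold box
    rw [Fintype.mem_piFinset]
    exact fun e => hmem e _ (hX e)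
  · rw [← cm_bd_eq, ← cm_dl_eq]
    exact hβ z

theorem mg_mem_conf (src tgt : E → V) (M : ℤ) (α : V → ℤ) (X : E → ℤ) :
    X ∈ conf src tgt M α ↔ (∀ e, |X e| ≤ M) ∧ bd src tgt X = α := by
  unfold conf box
  rw [Finset.mem_filter, Fintype.mem_piFinset]
  simp only [Finset.mem_Icc, abs_le]

/-- reflection `X ↦ T - X` -/
theorem mg_reflect (src tgt : E → V) {M : ℤ} {α : V → ℤ}
    {f : E → ℤ → ℝ} {T : E → ℤ} (hf : ∀ e, SU (T e) (f e)) (hM : ∀ e, Supp M (f e))
    (hT : ∀ v, bd src tgt T v = 2 * α v) (p p' : (E → ℤ) → Prop) [DecidablePred p] [DecidablePred p']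
    (hp : ∀ X, p X ↔ p' (T - X)) :
    ∑ X ∈ (conf src tgt M α).filter p, pw f X = ∑ X ∈ (conf src tgt M α).filter p', pw f X := by
  have hpw : ∀ X, pw f (T - X) = pw f X := by
    intro X
    unfold pw
    exact Finset.prod_congr rfl fun e _ => (hf e).2.1 (X e)
  have hne : ∀ X, pw f X ≠ 0 → ∀ e, |X e| ≤ M := by
    intro X hX e
    by_contra hcon
    exact hX (Finset.prod_eq_zero (Finset.mem_univ e) (hM e _ (not_le.mp hcon)))
  have hbd : ∀ X, bd src tgt X = α → bd src tgt (T - X) = α := by
    intro X hX
    funext v
    rw [bd_sub, hT, hX]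
    ring
  have haux : ∀ X, bd src tgt X = α → pw f X ≠ 0 → T - X ∈ conf src tgt M α := by
    intro X h1 h2
    rw [mg_mem_conf]
    refine ⟨hne _ ?_, hbd X h1⟩
    rw [hpw]
    exact h2
  refine Finset.sum_bij_ne_zero (fun X _ _ => T - X) ?_ ?_ ?_ ?_
  · intro X hX h
    rw [Finset.mem_filter] at hX ⊢
    exact ⟨haux X ((mg_mem_conf _ _ _ _ _).mp hX.1).2 h, (hp X).mp hX.2⟩
  · intro X _ _ Y _ _ h
    exact sub_right_injective h
  · intro Y hY h
    rw [Finset.mem_filter] at hY
    have e1 : T - (T - Y) = Y := sub_sub_cancel T Y
    refine ⟨T - Y, ?_, ?_, e1⟩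
    · rw [Finset.mem_filter]
      refine ⟨haux Y ((mg_mem_conf _ _ _ _ _).mp hY.1).2 h, (hp (T - Y)).mpr ?_⟩
      rw [e1]
      exact hY.2
    · rw [hpw]
      exact h
  · intro X _ _
    rw [hpw]

theorem mg_sum_split (s : E → V) (X : E → ℤ) (e0 : E) (w : V) :
    (∑ e, if s e = w then X e else 0) =
      (if s e0 = w then X e0 else 0) + ∑ e ∈ Finset.univ.erase e0, if s e = w then X e else 0 :=
  (Finset.add_sum_erase _ _ (Finset.mem_univ e0)).symm

/-- removing the edge `e0` (it becomes a loop with flow `0`) -/
theorem mg_bd_upd (src tgt : E → V) (e0 : E) (X : E → ℤ) (w : V) :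
    bd src (Function.update tgt e0 (src e0)) (Function.update X e0 0) w =
      bd src tgt X w - X e0 * dl (src e0) (tgt e0) w := by
  have h1 : ∀ s s' : E → V, (∀ e, e ≠ e0 → s' e = s e) →
      ∑ e ∈ Finset.univ.erase e0, (if s' e = w then (Function.update X e0 0) e else 0) =
      ∑ e ∈ Finset.univ.erase e0, (if s e = w then X e else 0) := by
    intro s s' h
    refine Finset.sum_congr rfl fun e he => ?_
    have hne : e ≠ e0 := Finset.ne_of_mem_erase he
    rw [h e hne, Function.update_of_ne hne]
  have hdl : dl (src e0) (tgt e0) w = (if src e0 = w then 1 else 0) - (if tgt e0 = w then 1 else 0) := by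
    unfold dl
    rw [if_congr (eq_comm (a := w) (b := src e0)) rfl rfl, if_congr (eq_comm (a := w) (b := tgt e0)) rfl rfl]
  rw [hdl]
  unfold bd
  rw [mg_sum_split src _ e0, mg_sum_split (Function.update tgt e0 (src e0)) _ e0, mg_sum_split src X e0,
    mg_sum_split tgt X e0, h1 src src (fun _ _ => rfl),
    h1 tgt (Function.update tgt e0 (src e0)) (fun e he => Function.update_of_ne he _ _), Function.update_self]
  simp only [ite_self, zero_add]
  split_ifs <;> ring

/-- M4. One edge. `p x = f e0 x * Z_rest (α - x ∂ e0)`; apply `centre` to the network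
`{e // e ≠ e0}` (or to `E` with the weight of `e0` replaced by a point mass). -/
theorem marg_SU (src tgt : E → V) (hne : ∀ e, src e ≠ tgt e) {M : ℤ} {α : V → ℤ}
    {f : E → ℤ → ℝ} {T : E → ℤ} (hf : ∀ e, SU (T e) (f e)) (hM : ∀ e, Supp M (f e))
    (hT : ∀ v, bd src tgt T v = 2 * α v) (e0 : E) :
    SU (T e0) (fun x => ∑ X ∈ (conf src tgt M α).filter (fun X => X e0 = x), pw f X) := by
  have hnn : ∀ X, 0 ≤ pw f X := pw_nonneg fun e x => (hf e).1 x
  refine ⟨fun x => Finset.sum_nonneg fun X _ => hnn X, fun x => ?_, fun x hx => ?_⟩
  · refine mg_reflect src tgt hf hM hT _ _ fun X => ?_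
    rw [Pi.sub_apply]
    constructor <;> intro h <;> linarith
  -- unimodality
  set tgt' := Function.update tgt e0 (src e0) with htgt'
  set f' : E → ℤ → ℝ := Function.update f e0 (fun x => if x = 0 then 1 else 0) with hf'
  set T' : E → ℤ := Function.update T e0 0 with hT'
  by_cases hM0 : M < 0
  · have hz : ∀ y, ∑ X ∈ (conf src tgt M α).filter (fun X => X e0 = y), pw f X = 0 := by
      intro y
      refine Finset.sum_eq_zero fun X hX => ?_
      have h1 := ((mg_mem_conf _ _ _ _ _).mp (Finset.mem_filter.mp hX).1).1 e0
      have h2 := abs_nonneg (X e0)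
      omega
    simp only [hz, le_refl]
  push Not at hM0
  have hSU : ∀ e, SU (T' e) (f' e) := by
    intro e
    by_cases he : e = e0
    · subst he
      rw [hT', hf', Function.update_self, Function.update_self]
      refine ⟨fun x => ?_, fun x => ?_, fun x hx => ?_⟩
      · show (0 : ℝ) ≤ if x = 0 then 1 else 0
        split_ifs <;> norm_num
      · rw [zero_sub]
        refine if_congr ?_ rfl rfl
        exact neg_eq_zero
      · have h1 : x + 1 ≠ 0 := by omega
        show (if x + 1 = 0 then (1 : ℝ) else 0) ≤ if x = 0 then 1 else 0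
        rw [if_neg h1]
        split_ifs <;> norm_num
    · rw [hT', hf', Function.update_of_ne he, Function.update_of_ne he]
      exact hf e
  have hSupp : ∀ e, Supp M (f' e) := by
    intro e
    by_cases he : e = e0
    · subst he
      intro x hx
      rw [hf', Function.update_self, if_neg]
      rintro rfl
      rw [abs_zero] at hx
      omega
    · rw [hf', Function.update_of_ne he]
      exact hM e
  have hpw : ∀ X : E → ℤ, pw f X = f e0 (X e0) * pw f' (Function.update X e0 0) := by
    intro X
    unfold pw
    rw [← Finset.mul_prod_erase Finset.univ _ (Finset.mem_univ e0),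
      ← Finset.mul_prod_erase Finset.univ (fun e => f' e (Function.update X e0 0 e)) (Finset.mem_univ e0)]
    rw [hf', Function.update_self, Function.update_self, if_pos rfl, one_mul]
    congr 1
    refine Finset.prod_congr rfl fun e he => ?_
    have hne : e ≠ e0 := Finset.ne_of_mem_erase he
    rw [Function.update_of_ne hne, Function.update_of_ne hne]
  -- the formula
  have hform : ∀ y : ℤ, ∑ X ∈ (conf src tgt M α).filter (fun X => X e0 = y), pw f X =
      f e0 y * Z src tgt' M f' (fun v => α v - y * dl (src e0) (tgt e0) v) := by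
    intro y
    by_cases hy : M < |y|
    · rw [hM e0 y hy, zero_mul]
      refine Finset.sum_eq_zero fun X hX => ?_
      have h1 := ((mg_mem_conf _ _ _ _ _).mp (Finset.mem_filter.mp hX).1).1 e0
      rw [(Finset.mem_filter.mp hX).2] at h1
      omega
    push Not at hy
    unfold Z
    rw [Finset.mul_sum]
    refine Finset.sum_bij_ne_zero (fun X _ _ => Function.update X e0 0) ?_ ?_ ?_ ?_
    · intro X hX _
      rw [Finset.mem_filter, mg_mem_conf] at hX
      rw [mg_mem_conf]
      refine ⟨fun e => ?_, ?_⟩
      · by_cases he : e = e0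
        · subst he
          rw [Function.update_self, abs_zero]
          exact hM0
        · rw [Function.update_of_ne he]
          exact hX.1.1 e
      · funext v
        rw [htgt', mg_bd_upd, hX.1.2, hX.2]
    · intro X hX _ Y hY _ h
      funext e
      by_cases he : e = e0
      · subst he
        rw [(Finset.mem_filter.mp hX).2, (Finset.mem_filter.mp hY).2]
      · have := congrFun h e
        rwa [Function.update_of_ne he, Function.update_of_ne he] at this
    · intro X' hX' h
      rw [mg_mem_conf] at hX'
      have h0 : X' e0 = 0 := by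
        by_contra hcon
        apply h
        have : pw f' X' = 0 := by
          unfold pw
          refine Finset.prod_eq_zero (Finset.mem_univ e0) ?_
          rw [hf', Function.update_self, if_neg hcon]
        rw [this, mul_zero]
      have e1 : Function.update (Function.update X' e0 y) e0 0 = X' := by
        rw [Function.update_idem, ← h0, Function.update_eq_self]
      refine ⟨Function.update X' e0 y, ?_, ?_, e1⟩
      · rw [Finset.mem_filter, mg_mem_conf]
        refine ⟨⟨fun e => ?_, ?_⟩, Function.update_self _ _ _⟩
        · by_cases he : e = e0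
          · subst he
            rw [Function.update_self]
            exact hy
          · rw [Function.update_of_ne he]
            exact hX'.1 e
        · funext v
          have h2 := mg_bd_upd src tgt e0 (Function.update X' e0 y) v
          rw [e1, ← htgt', hX'.2, Function.update_self] at h2
          linarith
      · rw [hpw, e1, Function.update_self]
        exact h
    · intro X hX _
      rw [hpw, (Finset.mem_filter.mp hX).2]
  simp only [hform]
  have hZ := centreL src tgt' (u := tgt e0) (v := src e0) hSU hSupp
    (fun v => α v - x * dl (src e0) (tgt e0) v) (2 * x - T e0) (by omega) (by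
      intro w
      rw [htgt', hT', mg_bd_upd, hT]
      unfold dl
      ring)
  have e2 : ((fun v => α v - x * dl (src e0) (tgt e0) v) + dl (tgt e0) (src e0)) =
      fun v => α v - (x + 1) * dl (src e0) (tgt e0) v := by
    funext w
    rw [Pi.add_apply]
    unfold dl
    ring
  rw [e2] at hZ
  have hZ0 : 0 ≤ Z src tgt' M f' (fun v => α v - (x + 1) * dl (src e0) (tgt e0) v) :=
    Finset.sum_nonneg fun X _ => pw_nonneg (fun e x => (hSU e).1 x) X
  exact mul_le_mul ((hf e0).2.2 x hx) hZ hZ0 ((hf e0).1 x)

/-- M5. Two edges with the same source. Apply M4 to the network with a new vertex `none` and a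
new edge `none` (from the common source to the new vertex), `e1` and `e2` re-attached to the new
vertex, weight of the new edge = indicator of `{y | |2 y - (T e1 + T e2)| ≤ K}` for a huge `K`. -/
theorem marg2_SU_src (src tgt : E → V) (hne : ∀ e, src e ≠ tgt e) {M : ℤ} {α : V → ℤ}
    {f : E → ℤ → ℝ} {T : E → ℤ} (hf : ∀ e, SU (T e) (f e)) (hM : ∀ e, Supp M (f e))
    (hT : ∀ v, bd src tgt T v = 2 * α v) (e1 e2 : E) (h12 : e1 ≠ e2) (hs : src e1 = src e2) :
    SU (T e1 + T e2)
      (fun y => ∑ X ∈ (conf src tgt M α).filter (fun X => X e1 + X e2 = y), pw f X) := by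
  have hnn : ∀ X, 0 ≤ pw f X := pw_nonneg fun e x => (hf e).1 x
  refine ⟨fun x => Finset.sum_nonneg fun X _ => hnn X, fun x => ?_, fun x hx => ?_⟩
  · refine mg_reflect src tgt hf hM hT _ _ fun X => ?_
    rw [Pi.sub_apply, Pi.sub_apply]
    constructor <;> intro h <;> linarith
  -- the network with the extra vertex `none`
  let src' : E → Option V := fun e => if e = e1 ∨ e = e2 then none else some (src e)
  let tgt' : E → Option V := fun e => some (tgt e)
  have hbn : ∀ X : E → ℤ, bd src' tgt' X none = X e1 + X e2 := by
    intro X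
    unfold bd
    have h1 : (∑ e, if tgt' e = none then X e else 0) = 0 := by
      refine Finset.sum_eq_zero fun e _ => ?_
      simp [tgt']
    have h2 : (∑ e, if src' e = none then X e else 0) = ∑ e ∈ ({e1, e2} : Finset E), X e := by
      rw [← Finset.sum_filter]
      congr 1
      ext e
      simp only [src', Finset.mem_filter, Finset.mem_univ, true_and, Finset.mem_insert, Finset.mem_singleton]
      by_cases he : e = e1 ∨ e = e2 <;> simp [he]
    rw [h1, h2, Finset.sum_pair h12, sub_zero]
  have hbs : ∀ (X : E → ℤ) (w : V), bd src' tgt' X (some w) =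
      bd src tgt X w - (if src e1 = w then X e1 + X e2 else 0) := by
    intro X w
    unfold bd
    have h1 : (∑ e, if tgt' e = some w then X e else 0) = ∑ e, if tgt e = w then X e else 0 := by
      refine Finset.sum_congr rfl fun e _ => ?_
      simp [tgt']
    have h2 : (∑ e, if src e = w then X e else 0) = (∑ e, if src' e = some w then X e else 0) +
        (if src e1 = w then X e1 + X e2 else 0) := by
      have h3 : ∀ e, (if src e = w then X e else 0) = (if src' e = some w then X e else 0) +
          (if e ∈ ({e1, e2} : Finset E) then (if src e1 = w then X e else 0) else 0) := by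
        intro e
        by_cases h4 : e = e1
        · subst h4
          simp [src']
        · by_cases h5 : e = e2
          · subst h5
            simp [src', hs]
          · simp [src', h4, h5]
      rw [Finset.sum_congr rfl fun e _ => h3 e, Finset.sum_add_distrib]
      congr 1
      rw [Finset.sum_ite_mem, Finset.univ_inter, Finset.sum_pair h12]
      split_ifs <;> simp
    rw [h1, h2]
    ring
  let β : ℤ → Option V → ℤ := fun y o => match o with
    | none => y
    | some w => α w - (if src e1 = w then y else 0)
  have hform : ∀ y : ℤ, ∑ X ∈ (conf src tgt M α).filter (fun X => X e1 + X e2 = y), pw f X =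
      Z src' tgt' M f (β y) := by
    intro y
    unfold Z
    refine Finset.sum_congr ?_ fun _ _ => rfl
    ext X
    rw [Finset.mem_filter, mg_mem_conf, mg_mem_conf]
    constructor
    · rintro ⟨⟨h1, h2⟩, h3⟩
      refine ⟨h1, ?_⟩
      funext o
      cases o with
      | none => rw [hbn, h3]
      | some w => rw [hbs, h2, h3]
    · rintro ⟨h1, h2⟩
      have h3 : X e1 + X e2 = y := by
        rw [← hbn, h2]
      refine ⟨⟨h1, ?_⟩, h3⟩
      funext w
      have h4 := congrFun h2 (some w)
      rw [hbs, h3] at h4
      have h5 : β y (some w) = α w - (if src e1 = w then y else 0) := rfl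
      rw [h5] at h4
      linarith
  simp only [hform]
  have hZ := centreL src' tgt' (u := none) (v := some (src e1)) hf hM (β x) (2 * x - (T e1 + T e2))
    (by omega) (by
      intro o
      cases o with
      | none =>
        rw [hbn]
        have h5 : β x none = x := rfl
        rw [h5]
        unfold dl
        simp
      | some w =>
        rw [hbs, hT]
        have h5 : β x (some w) = α w - (if src e1 = w then x else 0) := rfl
        rw [h5]
        unfold dl
        by_cases hw : src e1 = w
        · simp [hw]
          ring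
        · have hw' : ¬ w = src e1 := fun h => hw h.symm
          simp [hw, hw'])
  have e2 : β x + dl none (some (src e1)) = β (x + 1) := by
    funext o
    rw [Pi.add_apply]
    cases o with
    | none =>
      show x + dl none (some (src e1)) none = x + 1
      unfold dl
      simp
    | some w =>
      show (α w - (if src e1 = w then x else 0)) + dl none (some (src e1)) (some w) =
        α w - (if src e1 = w then x + 1 else 0)
      unfold dl
      by_cases hw : src e1 = w
      · simp [hw]
        ring
      · have hw' : ¬ w = src e1 := fun h => hw h.symm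
        simp [hw, hw']
  rw [e2] at hZ
  exact hZ

/-- M5'. Two edges with the same target (from M5 by exchanging `src` and `tgt`). -/
theorem marg2_SU_tgt (src tgt : E → V) (hne : ∀ e, src e ≠ tgt e) {M : ℤ} {α : V → ℤ}
    {f : E → ℤ → ℝ} {T : E → ℤ} (hf : ∀ e, SU (T e) (f e)) (hM : ∀ e, Supp M (f e))
    (hT : ∀ v, bd src tgt T v = 2 * α v) (e1 e2 : E) (h12 : e1 ≠ e2) (hs : tgt e1 = tgt e2) :
    SU (T e1 + T e2)
      (fun y => ∑ X ∈ (conf src tgt M α).filter (fun X => X e1 + X e2 = y), pw f X) := by
  have hbd : ∀ X v, bd tgt src X v = -bd src tgt X v := by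
    intro X v
    unfold bd
    ring
  have h := marg2_SU_src tgt src (fun e => (hne e).symm) (M := M) (α := fun v => -α v) hf hM
    (fun v => by rw [hbd, hT]; ring) e1 e2 h12 hs
  have hc : conf tgt src M (fun v => -α v) = conf src tgt M α := by
    ext X
    rw [mg_mem_conf, mg_mem_conf]
    refine and_congr_right fun _ => ?_
    constructor
    · intro h1
      funext v
      have := congrFun h1 v
      rw [hbd] at this
      linarith
    · intro h1
      funext v
      rw [hbd, h1]
  rw [hc] at h
  exact h

end Vale.Agent.P328R
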