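import Vale.Agent.P328R.Functional
import Vale.Agent.P328R.Marginal
import Vale.Agent.P328R.Contraction

/-! Module M8: contraction of the moment functionals (section 4 (c) of the note). -/

namespace Vale.Agent.P328R

open Finset

variable {V E : Type} [Fintype V] [DecidableEq V] [Fintype E] [DecidableEq E]

/-- Abstract form: if the law of the integer functional `l` is symmetric unimodal about
`l T / 2` in every frame, then one replica step contracts by `1/3`. -/
theorem A_psi_step (src tgt : E → V) {M : ℤ} {α : V → ℤ} (l : (E → ℤ) → ℤ)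
    (hl : ∀ X Y, l (X - Y) = l X - l Y)
    {f : E → ℤ → ℝ} {T : E → ℤ} (hF : Frame src tgt M α f T)
    (hSU : SU (l T) (fun y => ∑ X ∈ (conf src tgt M α).filter (fun X => l X = y), pw f X)) :
    A src tgt M α α 1 f T (fun X Y => psi (l (X - Y))) ≤
      (1 / 3) * A src tgt M α α 0 f T (fun X Y => psi (l (X - Y))) := by
  obtain ⟨hLC, -, hSupp, -⟩ := hF
  set S := conf src tgt M α with hS
  set p : ℤ → ℝ := fun y => ∑ X ∈ S.filter (fun X => l X = y), pw f X with hp
  set K : ℤ := ∑ X ∈ S, |l X| with hK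
  have hmem : ∀ X ∈ S, l X ∈ Icc (-K) K := by
    intro X hX
    have h1 : |l X| ≤ K := single_le_sum (f := fun X => |l X|) (fun _ _ => abs_nonneg _) hX
    rw [mem_Icc]
    exact abs_le.1 h1
  -- sums against the law of `l`
  have hlaw : ∀ F : ℤ → ℝ, ∑ x ∈ Icc (-K) K, p x * F x = ∑ X ∈ S, pw f X * F (l X) := by
    intro F
    rw [← sum_fiberwise_of_maps_to hmem]
    refine sum_congr rfl fun x _ => ?_
    rw [hp]
    simp only
    rw [sum_mul]
    refine sum_congr rfl fun X hX => ?_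
    rw [(mem_filter.1 hX).2]
  have hsupp : Supp K p := by
    intro x hx
    rw [hp]
    simp only
    have : S.filter (fun X => l X = x) = ∅ := by
      rw [filter_eq_empty_iff]
      intro X hX h
      have h1 := hmem X hX
      rw [mem_Icc] at h1
      have h2 := abs_le.2 h1
      rw [h] at h2
      omega
    rw [this, sum_empty]
  -- the one step functional
  have hA1 : A src tgt M α α 1 f T (fun X Y => psi (l (X - Y))) =
      (Z src tgt M f α)⁻¹ * ∑ x ∈ Icc (-K) K, ∑ y ∈ Icc (-K) K, p x * p y * psi (x - y) := by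
    have e1 : A src tgt M α α 1 f T (fun X Y => psi (l (X - Y))) =
        (Z src tgt M f α)⁻¹ * ∑ T' ∈ conf src tgt (2 * M) (fun v => 2 * α v),
          ∑ X ∈ conf src tgt M α, pw (cut f T') X * psi (l (X - (T' - X))) := rfl
    rw [e1]
    congr 1
    have e2 := sum_pairs src tgt (M := M) (α := α) (β := α) (γ := α)
      (fun v => by ring) (f := f) hSupp (fun X Y => psi (l (X - Y)))
    rw [← e2]
    have e3 : ∀ X ∈ conf src tgt M α, ∑ Y ∈ conf src tgt M α, pw f X * pw f Y * psi (l (X - Y)) =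
        pw f X * ∑ y ∈ Icc (-K) K, p y * psi (l X - y) := by
      intro X _
      rw [hlaw (fun y => psi (l X - y)), mul_sum]
      refine sum_congr rfl fun Y _ => ?_
      rw [hl, mul_assoc]
    rw [sum_congr rfl e3, ← hS, ← hlaw (fun x => ∑ y ∈ Icc (-K) K, p y * psi (x - y))]
    refine sum_congr rfl fun x _ => ?_
    rw [mul_sum]
    exact sum_congr rfl fun y _ => by ring
  have hA0 : A src tgt M α α 0 f T (fun X Y => psi (l (X - Y))) =
      ∑ x ∈ Icc (-K) K, p x * psi (2 * x - l T) := by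
    rw [hlaw (fun x => psi (2 * x - l T))]
    change ∑ X ∈ conf src tgt M α, pw f X * psi (l (X - (T - X))) = _
    rw [← hS]
    refine sum_congr rfl fun X _ => ?_
    rw [hl, hl]
    congr 2
    ring
  have hZ : ∑ x ∈ Icc (-K) K, p x = Z src tgt M f α := by
    have := hlaw (fun _ => 1)
    simp only [mul_one] at this
    rw [this]
    rfl
  have hA0n : 0 ≤ A src tgt M α α 0 f T (fun X Y => psi (l (X - Y))) := by
    change 0 ≤ ∑ X ∈ conf src tgt M α, pw f X * psi (l (X - (T - X)))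
    exact sum_nonneg fun X _ => mul_nonneg (pw_nonneg (fun e x => (hLC e).1 x) X) (psi_nonneg _)
  have hZn : 0 ≤ Z src tgt M f α :=
    sum_nonneg fun X _ => pw_nonneg (fun e x => (hLC e).1 x) X
  have key := contraction hSU hsupp
  rw [hZ, ← hA0] at key
  rw [hA1]
  rcases hZn.eq_or_lt with h0 | h0
  · rw [← h0, inv_zero, zero_mul]
    positivity
  · calc (Z src tgt M f α)⁻¹ * ∑ x ∈ Icc (-K) K, ∑ y ∈ Icc (-K) K, p x * p y * psi (x - y)
        ≤ (Z src tgt M f α)⁻¹ * ((1 / 3) * Z src tgt M f α *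
          A src tgt M α α 0 f T (fun X Y => psi (l (X - Y)))) :=
          mul_le_mul_of_nonneg_left key (inv_nonneg.2 h0.le)
      _ = _ := by field_simp

theorem A_psi_one (src tgt : E → V) (hne : ∀ e, src e ≠ tgt e) {M : ℤ} {α : V → ℤ} (e0 : E)
    (k : ℕ) {f : E → ℤ → ℝ} {T : E → ℤ} (hF : Frame src tgt M α f T) :
    A src tgt M α α k f T (fun X Y => psi (X e0 - Y e0)) ≤
      (1 / 3) ^ k * A src tgt M α α 0 f T (fun X Y => psi (X e0 - Y e0)) := by
  refine A_iter_le src tgt (by norm_num) (fun _ _ => psi_nonneg _) ?_ k hF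
  intro f' T' hF'
  exact A_psi_step src tgt (fun X => X e0) (fun _ _ => rfl) hF'
    (marg_SU src tgt hne (fun e => (hF'.1 e).su (hF'.2.1 e)) hF'.2.2.1 hF'.2.2.2 e0)

theorem A_psi_two_src (src tgt : E → V) (hne : ∀ e, src e ≠ tgt e) {M : ℤ} {α : V → ℤ}
    (e1 e2 : E) (h12 : e1 ≠ e2) (hs : src e1 = src e2)
    (k : ℕ) {f : E → ℤ → ℝ} {T : E → ℤ} (hF : Frame src tgt M α f T) :
    A src tgt M α α k f T (fun X Y => psi ((X e1 - Y e1) + (X e2 - Y e2))) ≤
      (1 / 3) ^ k * A src tgt M α α 0 f T (fun X Y => psi ((X e1 - Y e1) + (X e2 - Y e2))) := by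
  refine A_iter_le src tgt (by norm_num) (fun _ _ => psi_nonneg _) ?_ k hF
  intro f' T' hF'
  exact A_psi_step src tgt (fun X => X e1 + X e2)
    (fun X Y => by simp only [Pi.sub_apply]; ring) hF'
    (marg2_SU_src src tgt hne (fun e => (hF'.1 e).su (hF'.2.1 e)) hF'.2.2.1 hF'.2.2.2
      e1 e2 h12 hs)

theorem A_psi_two_tgt (src tgt : E → V) (hne : ∀ e, src e ≠ tgt e) {M : ℤ} {α : V → ℤ}
    (e1 e2 : E) (h12 : e1 ≠ e2) (hs : tgt e1 = tgt e2)
    (k : ℕ) {f : E → ℤ → ℝ} {T : E → ℤ} (hF : Frame src tgt M α f T) :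
    A src tgt M α α k f T (fun X Y => psi ((X e1 - Y e1) + (X e2 - Y e2))) ≤
      (1 / 3) ^ k * A src tgt M α α 0 f T (fun X Y => psi ((X e1 - Y e1) + (X e2 - Y e2))) := by
  refine A_iter_le src tgt (by norm_num) (fun _ _ => psi_nonneg _) ?_ k hF
  intro f' T' hF'
  exact A_psi_step src tgt (fun X => X e1 + X e2)
    (fun X Y => by simp only [Pi.sub_apply]; ring) hF'
    (marg2_SU_tgt src tgt hne (fun e => (hF'.1 e).su (hF'.2.1 e)) hF'.2.2.1 hF'.2.2.2
      e1 e2 h12 hs)

end Vale.Agent.P328R
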