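import Vale.Agent.P328R.Defs

/-! Module M9, part A: signed vectors and the greedy order of the columns. -/

namespace Vale.Agent.P328R

open Finset

/-- A zero-sum vector with entries and pairwise sums in `[-1, 1]` is `0` or `1_a - 1_b`. -/
theorem vec_struct {ι : Type} [Fintype ι] [DecidableEq ι] (v : ι → ℤ) (h0 : ∑ i, v i = 0)
    (h1 : ∀ i, |v i| ≤ 1) (h2 : ∀ i i', i ≠ i' → |v i + v i'| ≤ 1) :
    (∀ i, v i = 0) ∨
      ∃ a b, a ≠ b ∧ ∀ i, v i = (if i = a then 1 else 0) - (if i = b then 1 else 0) := by
  by_cases hz : ∀ i, v i = 0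
  · exact Or.inl hz
  · right
    push Not at hz
    obtain ⟨c, hc⟩ := hz
    have hpos : ∃ a, 0 < v a := by
      by_contra hcon
      push Not at hcon
      have : ∑ i, v i < ∑ i : ι, (0 : ℤ) :=
        Finset.sum_lt_sum (fun i _ => hcon i) ⟨c, mem_univ c, lt_of_le_of_ne (hcon c) hc⟩
      rw [h0] at this
      simp at this
    have hneg : ∃ b, v b < 0 := by
      by_contra hcon
      push Not at hcon
      have : ∑ i : ι, (0 : ℤ) < ∑ i, v i :=
        Finset.sum_lt_sum (fun i _ => hcon i) ⟨c, mem_univ c, lt_of_le_of_ne (hcon c) (Ne.symm hc)⟩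
      rw [h0] at this
      simp at this
    obtain ⟨a, ha⟩ := hpos
    obtain ⟨b, hb⟩ := hneg
    have hab : a ≠ b := by
      intro h
      rw [h] at ha
      omega
    refine ⟨a, b, hab, fun i => ?_⟩
    have ea := abs_le.1 (h1 a)
    have eb := abs_le.1 (h1 b)
    by_cases hia : i = a
    · subst hia
      rw [if_pos rfl, if_neg hab]
      omega
    · by_cases hib : i = b
      · subst hib
        rw [if_neg hia, if_pos rfl]
        omega
      · have e1 := abs_le.1 (h2 i a hia)
        have e2 := abs_le.1 (h2 i b hib)
        rw [if_neg hia, if_neg hib]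
        omega

variable {R C : Type} [Fintype R] [DecidableEq R] [Fintype C] [DecidableEq C]

/-- Differences of good pairs. -/
structure GD (D : R × C → ℤ) : Prop where
  row : ∀ i, ∑ j, D (i, j) = 0
  col : ∀ j, ∑ i, D (i, j) = 0
  abs : ∀ e, |D e| ≤ 1
  rp : ∀ i j j', j ≠ j' → |D (i, j) + D (i, j')| ≤ 1
  cp : ∀ j i i', i ≠ i' → |D (i, j) + D (i', j)| ≤ 1

/-- Sum of the columns in `S`. -/
def cSum (D : R × C → ℤ) (S : Finset C) (i : R) : ℤ := ∑ j ∈ S, D (i, j)

/-- `0` or `1_p - 1_q`. -/
def nVec (v : R → ℤ) : Prop :=
  (∀ i, v i = 0) ∨ ∃ p q, p ≠ q ∧ ∀ i, v i = (if i = p then 1 else 0) - (if i = q then 1 else 0)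

omit [DecidableEq C] in
theorem GD.colS {D : R × C → ℤ} (hD : GD D) (j : C) :
    (∀ i, D (i, j) = 0) ∨
      ∃ a b, a ≠ b ∧ ∀ i, D (i, j) = (if i = a then 1 else 0) - (if i = b then 1 else 0) :=
  vec_struct (fun i => D (i, j)) (hD.col j) (fun i => hD.abs (i, j)) (fun i i' h => hD.cp j i i' h)

/-- One greedy step. -/
theorem greedy_step {D : R × C → ℤ} (hD : GD D) (S : Finset C) (hS : nVec (cSum D S))
    (hne : S ≠ univ) : ∃ j, j ∉ S ∧ nVec (cSum D (insert j S)) := by
  have hins : ∀ j, j ∉ S → ∀ i, cSum D (insert j S) i = D (i, j) + cSum D S i := by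
    intro j hj i
    unfold cSum
    rw [sum_insert hj]
  rcases hS with h0 | ⟨p, q, hpq, hv⟩
  · have : ∃ j, j ∉ S := by
      by_contra hcon
      push Not at hcon
      exact hne (eq_univ_iff_forall.2 hcon)
    obtain ⟨j, hj⟩ := this
    refine ⟨j, hj, ?_⟩
    rcases hD.colS j with hc | ⟨a, b, hab, hc⟩
    · left
      intro i
      rw [hins j hj i, hc i, h0 i]
      norm_num
    · right
      refine ⟨a, b, hab, fun i => ?_⟩
      rw [hins j hj i, hc i, h0 i, add_zero]
  · have hrow := hD.row p
    have hp : cSum D S p = 1 := by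
      rw [hv p, if_pos rfl, if_neg hpq]
      norm_num
    have hsplit : ∑ j ∈ S, D (p, j) + ∑ j ∈ Sᶜ, D (p, j) = 0 := by
      rw [sum_add_sum_compl]
      exact hrow
    have hV : ∑ j ∈ S, D (p, j) = 1 := hp
    have hneg : ∃ j ∈ Sᶜ, D (p, j) < 0 := by
      by_contra hcon
      push Not at hcon
      have := sum_nonneg hcon
      omega
    obtain ⟨j, hj, hjn⟩ := hneg
    have hj' : j ∉ S := mem_compl.1 hj
    refine ⟨j, hj', ?_⟩
    rcases hD.colS j with hc | ⟨a, b, hab, hc⟩
    · rw [hc p] at hjn
      omega
    · have hpb : p = b := by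
        by_contra hcon
        rw [hc p, if_neg hcon] at hjn
        split_ifs at hjn <;> omega
      subst hpb
      by_cases haq : a = q
      · left
        intro i
        rw [hins j hj' i, hc i, hv i, haq]
        ring
      · right
        refine ⟨a, q, haq, fun i => ?_⟩
        rw [hins j hj' i, hc i, hv i]
        ring

/-- Greedy order starting from `S`. -/
theorem exists_ord_aux {D : R × C → ℤ} (hD : GD D) (n : ℕ) : ∀ S : Finset C, Sᶜ.card = n →
    nVec (cSum D S) → ∃ ord : C → ℕ, (∀ c, c ∉ S → ∀ c', c' ∉ S → ord c = ord c' → c = c') ∧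
      ∀ t, nVec (cSum D (S ∪ univ.filter fun c => c ∉ S ∧ ord c < t)) := by
  induction n with
  | zero =>
    intro S hS hV
    have hS' : S = univ := by
      rw [card_eq_zero] at hS
      exact (compl_eq_empty_iff S).1 hS
    refine ⟨fun _ => 0, ?_, ?_⟩
    · intro c hc
      rw [hS'] at hc
      exact absurd (mem_univ c) hc
    · intro t
      have : S ∪ (univ.filter fun c => c ∉ S ∧ (fun _ : C => 0) c < t) = S := by
        rw [hS']
        exact union_eq_left.2 (subset_univ _)
      rw [this]
      exact hV
  | succ n ih =>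
    intro S hS hV
    have hne : S ≠ univ := by
      intro h
      rw [h, compl_univ, card_empty] at hS
      omega
    obtain ⟨j, hj, hjV⟩ := greedy_step hD S hV hne
    have hc : (insert j S)ᶜ.card = n := by
      have h1 := card_compl (insert j S)
      have h2 := card_compl S
      have h3 := card_insert_of_notMem hj
      have h4 : S.card ≤ Fintype.card C := card_le_univ S
      omega
    obtain ⟨ord, hinj, ho⟩ := ih (insert j S) hc hjV
    refine ⟨fun c => if c = j then 0 else ord c + 1, ?_, ?_⟩
    · intro c hcS c' hcS' he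
      by_cases h1 : c = j
      · by_cases h2 : c' = j
        · rw [h1, h2]
        · simp only [if_pos h1, if_neg h2] at he
          omega
      · by_cases h2 : c' = j
        · simp only [if_pos h2, if_neg h1] at he
          omega
        · simp only [if_neg h1, if_neg h2] at he
          exact hinj c (by simp [h1, hcS]) c' (by simp [h2, hcS']) (by omega)
    · intro t
      cases t with
      | zero =>
        have : S ∪ (univ.filter fun c => c ∉ S ∧ (if c = j then 0 else ord c + 1) < 0) = S := by
          simp
        rw [this]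
        exact hV
      | succ t =>
        have : S ∪ (univ.filter fun c => c ∉ S ∧ (if c = j then 0 else ord c + 1) < t + 1) =
            insert j S ∪ univ.filter fun c => c ∉ insert j S ∧ ord c < t := by
          ext c
          simp only [mem_union, mem_filter, mem_univ, true_and, mem_insert, not_or]
          by_cases h1 : c = j
          · subst h1
            simp [hj]
          · simp only [h1, if_false, false_or, not_false_eq_true, true_and]
            constructor
            · rintro (h | ⟨h, h'⟩)
              · exact Or.inl h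
              · exact Or.inr ⟨h, by omega⟩
            · rintro (h | ⟨h, h'⟩)
              · exact Or.inl h
              · exact Or.inr ⟨h, by omega⟩
        rw [this]
        exact ho t

theorem exists_ord {D : R × C → ℤ} (hD : GD D) : ∃ ord : C → ℕ, Function.Injective ord ∧
    ∀ t, nVec (cSum D (univ.filter fun c => ord c < t)) := by
  obtain ⟨ord, h1, h2⟩ := exists_ord_aux hD (∅ : Finset C)ᶜ.card ∅ rfl (Or.inl fun i => by
    unfold cSum
    simp)
  refine ⟨ord, fun c c' h => h1 c (by simp) c' (by simp) h, fun t => ?_⟩
  have := h2 t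
  simpa using this

omit [DecidableEq R] in
/-- Two good differences with the same absolute values: rows agree up to sign. -/
theorem row_sign {D D0 : R × C → ℤ} (hD : GD D) (hD0 : GD D0) (h : ∀ e, |D e| = |D0 e|) (i : R) :
    (∀ j, D (i, j) = D0 (i, j)) ∨ ∀ j, D (i, j) = -D0 (i, j) := by
  have s1 := vec_struct (fun j => D (i, j)) (hD.row i) (fun j => hD.abs (i, j))
    (fun j j' h => hD.rp i j j' h)
  have s0 := vec_struct (fun j => D0 (i, j)) (hD0.row i) (fun j => hD0.abs (i, j))
    (fun j j' h => hD0.rp i j j' h)
  rcases s1 with hz | ⟨a, b, hab, hc⟩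
  · left
    intro j
    have := h (i, j)
    rw [hz j, abs_zero] at this
    rw [hz j, abs_eq_zero.1 this.symm]
  · rcases s0 with hz | ⟨a', b', hab', hc'⟩
    · left
      intro j
      have := h (i, j)
      rw [hz j, abs_zero] at this
      rw [hz j, abs_eq_zero.1 this]
    · have ha := h (i, a)
      have hb := h (i, b)
      rw [hc a, hc' a, if_pos rfl, if_neg hab] at ha
      rw [hc b, hc' b, if_pos rfl, if_neg hab.symm] at hb
      by_cases e1 : a = a'
      · left
        have e2 : b = b' := by
          by_contra hcon
          rw [if_neg hcon, if_neg (by rw [← e1]; exact hab.symm)] at hb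
          norm_num at hb
        intro j
        rw [hc j, hc' j, e1, e2]
      · right
        have e2 : a = b' := by
          by_contra hcon
          rw [if_neg hcon, if_neg e1] at ha
          norm_num at ha
        have e3 : b = a' := by
          by_contra hcon
          rw [if_neg hcon, if_neg (by rw [← e2]; exact hab.symm)] at hb
          norm_num at hb
        intro j
        rw [hc j, hc' j, e2, e3]
        ring

omit [DecidableEq R] [DecidableEq C] in
theorem sum_V {D : R × C → ℤ} (hD : GD D) (S : Finset C) : ∑ i, cSum D S i = 0 := by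
  unfold cSum
  rw [sum_comm]
  exact sum_eq_zero fun j _ => hD.col j

/-- The order found for `D0` works for every good `D` with the same absolute values. -/
theorem nVec_transfer {D D0 : R × C → ℤ} (hD : GD D) (hD0 : GD D0) (h : ∀ e, |D e| = |D0 e|)
    (S : Finset C) (hS : nVec (cSum D0 S)) : nVec (cSum D S) := by
  have hr : ∀ i, cSum D S i = cSum D0 S i ∨ cSum D S i = -cSum D0 S i := by
    intro i
    rcases row_sign hD hD0 h i with h1 | h1
    · left
      unfold cSum
      exact sum_congr rfl fun j _ => h1 j
    · right
      unfold cSum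
      rw [← sum_neg_distrib]
      exact sum_congr rfl fun j _ => h1 j
  rcases hS with h0 | ⟨p, q, hpq, hv⟩
  · left
    intro i
    rcases hr i with h1 | h1 <;> rw [h1, h0 i]
    norm_num
  · have hoff : ∀ i, i ≠ p → i ≠ q → cSum D S i = 0 := by
      intro i h1 h2
      have h3 : cSum D0 S i = 0 := by rw [hv i, if_neg h1, if_neg h2]; norm_num
      rcases hr i with h4 | h4 <;> rw [h4, h3]
      norm_num
    have hsum := sum_V hD S
    have h2 : ∑ i, cSum D S i = cSum D S p + cSum D S q := by
      have hsub : ({p, q} : Finset R) ⊆ univ := subset_univ _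
      rw [← sum_subset hsub, sum_pair hpq]
      intro i _ hi
      simp only [mem_insert, mem_singleton, not_or] at hi
      exact hoff i hi.1 hi.2
    rw [h2] at hsum
    have hp : cSum D0 S p = 1 := by rw [hv p, if_pos rfl, if_neg hpq]; norm_num
    rcases hr p with h4 | h4
    · right
      refine ⟨p, q, hpq, fun i => ?_⟩
      by_cases h5 : i = p
      · rw [h5, if_pos rfl, if_neg hpq, h4, hp]
        norm_num
      · by_cases h6 : i = q
        · rw [h6, if_pos rfl, if_neg hpq.symm]
          rw [h4, hp] at hsum
          omega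
        · rw [if_neg h5, if_neg h6, hoff i h5 h6]
          norm_num
    · right
      refine ⟨q, p, hpq.symm, fun i => ?_⟩
      by_cases h5 : i = p
      · rw [h5, if_pos rfl, if_neg hpq, h4, hp]
        norm_num
      · by_cases h6 : i = q
        · rw [h6, if_pos rfl, if_neg hpq.symm]
          rw [h4, hp] at hsum
          omega
        · rw [if_neg h5, if_neg h6, hoff i h5 h6]
          norm_num

end Vale.Agent.P328R
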