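import Mathlib

/-!
P328R, section 6 preliminaries (helper6): the soft pivot weight and the abstract tail comparison.
-/

namespace P328R.Soft

open Finset

/-- the soft weight: `1` on `[0, L]`, `(1 + x/L)^q` on `[-L, 0]`, `0` outside `[-L, L]` -/
noncomputable def softw (L q : ℕ) (x : ℤ) : ℝ :=
  if -(L : ℤ) ≤ x ∧ x ≤ L then min 1 ((1 + (x : ℝ) / L) ^ q) else 0

theorem base_nonneg {L : ℕ} {x : ℤ} (h : -(L : ℤ) ≤ x) : 0 ≤ 1 + (x : ℝ) / L := by
  rcases Nat.eq_zero_or_pos L with h0 | h0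
  · subst h0; simp
  · have hL : (0 : ℝ) < L := by exact_mod_cast h0
    have h1 : (-(L : ℝ)) ≤ x := by exact_mod_cast h
    have : 1 + (x : ℝ) / L = (L + x) / L := by field_simp
    rw [this]
    exact div_nonneg (by linarith) hL.le

theorem softw_nonneg (L q : ℕ) (x : ℤ) : 0 ≤ softw L q x := by
  unfold softw
  split_ifs with h
  · exact le_min zero_le_one (pow_nonneg (base_nonneg h.1) q)
  · exact le_rfl

theorem softw_le_one (L q : ℕ) (x : ℤ) : softw L q x ≤ 1 := by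
  unfold softw
  split_ifs with h
  · exact min_le_left _ _
  · exact zero_le_one

theorem softw_of_nonneg {L q : ℕ} {x : ℤ} (h0 : 0 ≤ x) (h1 : x ≤ L) : softw L q x = 1 := by
  unfold softw
  rw [if_pos ⟨by omega, h1⟩]
  apply min_eq_left
  apply one_le_pow₀
  have : 0 ≤ (x : ℝ) / L := div_nonneg (by exact_mod_cast h0) (by positivity)
  linarith

theorem softw_of_neg {L q : ℕ} {x : ℤ} (h0 : -(L : ℤ) ≤ x) (h1 : x ≤ 0) :
    softw L q x = (1 + (x : ℝ) / L) ^ q := by
  unfold softw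
  rw [if_pos ⟨h0, by omega⟩]
  apply min_eq_right
  apply pow_le_one₀ (base_nonneg h0)
  have : (x : ℝ) / L ≤ 0 := div_nonpos_of_nonpos_of_nonneg (by exact_mod_cast h1) (by positivity)
  linarith

theorem softw_of_not {L q : ℕ} {x : ℤ} (h : ¬ (-(L : ℤ) ≤ x ∧ x ≤ L)) : softw L q x = 0 := by
  unfold softw; rw [if_neg h]

theorem softw_mono {L q : ℕ} {x y : ℤ} (h : x ≤ y) (hy : y ≤ L) : softw L q x ≤ softw L q y := by
  by_cases hx : -(L : ℤ) ≤ x
  · rcases le_or_gt 0 y with h0 | h0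
    · rw [softw_of_nonneg h0 hy]; exact softw_le_one _ _ _
    · rw [softw_of_neg hx (by omega), softw_of_neg (by omega) (by omega)]
      apply pow_le_pow_left₀ (base_nonneg hx)
      have : (x : ℝ) ≤ y := by exact_mod_cast h
      have : (x : ℝ) / L ≤ y / L := div_le_div_of_nonneg_right this (by positivity)
      linarith
  · rw [softw_of_not (fun h => hx h.1)]; exact softw_nonneg _ _ _

/-- log-concavity -/
theorem softw_lc {L q : ℕ} {a b : ℤ} (hab : a < b) :
    softw L q a * softw L q b ≤ softw L q (a + 1) * softw L q (b - 1) := by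
  by_cases ha : -(L : ℤ) ≤ a ∧ a ≤ L
  swap
  · rw [softw_of_not ha, zero_mul]; exact mul_nonneg (softw_nonneg _ _ _) (softw_nonneg _ _ _)
  by_cases hb : -(L : ℤ) ≤ b ∧ b ≤ L
  swap
  · rw [softw_of_not hb, mul_zero]; exact mul_nonneg (softw_nonneg _ _ _) (softw_nonneg _ _ _)
  rcases le_or_gt 1 b with h1 | h1
  · rw [softw_of_nonneg (x := b) (by omega) hb.2, softw_of_nonneg (x := b - 1) (by omega)
      (by omega), mul_one, mul_one]
    exact softw_mono (by omega) (by omega)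
  · have hL : (0 : ℝ) < L := by
      have : 0 < L := by omega
      exact_mod_cast this
    rw [softw_of_neg ha.1 (by omega), softw_of_neg hb.1 (by omega),
      softw_of_neg (x := a + 1) (by omega) (by omega),
      softw_of_neg (x := b - 1) (by omega) (by omega), ← mul_pow, ← mul_pow]
    apply pow_le_pow_left₀ (mul_nonneg (base_nonneg ha.1) (base_nonneg hb.1))
    push_cast
    have e1 : (1 + (a : ℝ) / L) * (1 + b / L) = ((L + a) * (L + b)) / (L * L) := by field_simp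
    have e2 : (1 + ((a : ℝ) + 1) / L) * (1 + (b - 1) / L) =
        ((L + a + 1) * (L + b - 1)) / (L * L) := by field_simp; ring
    rw [e1, e2]
    apply div_le_div_of_nonneg_right _ (by positivity)
    have : (a : ℝ) + 1 ≤ b := by exact_mod_cast hab
    nlinarith

/-- decay for negative arguments -/
theorem softw_shift {L q : ℕ} {y t : ℤ} (ht : 0 ≤ t) (hy : y ≤ -t) (hyL : -(L : ℤ) ≤ y) :
    softw L q y ≤ (1 - (t : ℝ) / L) ^ q * softw L q (y + t) := by
  rcases Nat.eq_zero_or_pos L with h0 | h0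
  · subst h0
    have : y = 0 := by simp at hyL; omega
    have : t = 0 := by omega
    subst this; subst y; simp
  have hL : (0 : ℝ) < L := by exact_mod_cast h0
  rw [softw_of_neg hyL (by omega), softw_of_neg (by omega) (by omega), ← mul_pow]
  apply pow_le_pow_left₀ (base_nonneg hyL)
  push_cast
  have e1 : 1 + (y : ℝ) / L = ((L + y) * L) / (L * L) := by field_simp
  have e2 : (1 - (t : ℝ) / L) * (1 + (y + t) / L) = ((L - t) * (L + y + t)) / (L * L) := by
    field_simp; ring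
  rw [e1, e2]
  apply div_le_div_of_nonneg_right _ (by positivity)
  have h1 : (y : ℝ) ≤ -t := by exact_mod_cast hy
  have h2 : (0 : ℝ) ≤ t := by exact_mod_cast ht
  nlinarith

/-- Lipschitz bound in the upper half of the range -/
theorem softw_lip {L q : ℕ} {x t : ℤ} (ht : 0 ≤ t) (hx : x ≤ L) (h : -(L : ℤ) ≤ 2 * (x - t)) :
    (1 - 2 * q * t / L) * softw L q x ≤ softw L q (x - t) := by
  rcases Nat.eq_zero_or_pos L with h0 | h0
  · subst h0
    have h3 : x = t := by simp at hx h; omega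
    have : t = 0 := by simp at hx; omega
    subst this; subst x; simp
  have hL : (0 : ℝ) < L := by exact_mod_cast h0
  have ht' : (0 : ℝ) ≤ t := by exact_mod_cast ht
  rcases le_or_gt 0 (x - t) with h1 | h1
  · rw [softw_of_nonneg h1 (by omega), softw_of_nonneg (by omega) hx]
    have : 0 ≤ 2 * (q : ℝ) * t / L := by positivity
    linarith
  · have hxt : -(L : ℝ) ≤ 2 * (x - t) := by exact_mod_cast h
    have hpos : (0 : ℝ) < L + x := by linarith
    have hb : (0 : ℝ) < 1 + x / L := by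
      have : 1 + (x : ℝ) / L = (L + x) / L := by field_simp
      rw [this]; exact div_pos hpos hL
    rw [softw_of_neg (x := x - t) (by omega) (by omega)]
    have e1 : (1 + (((x - t : ℤ)) : ℝ) / L) = (1 + x / L) * (1 + (-(t / (L + x)))) := by
      push_cast; field_simp; ring
    rw [e1, mul_pow]
    have hle : t / (L + x) ≤ (2 : ℝ) * t / L := by
      rw [div_le_div_iff₀ hpos hL]; nlinarith
    have h2 : (-2 : ℝ) ≤ -(t / (L + x)) := by
      have : t / (L + x) ≤ (2 : ℝ) := by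
        rw [div_le_iff₀ hpos]; linarith
      linarith
    have h3 := one_add_mul_le_pow h2 q
    have h4 : 1 - 2 * q * t / L ≤ (1 + (-(t / (L + x : ℝ)))) ^ q := by
      have : (q : ℝ) * (t / (L + x)) ≤ q * (2 * t / L) :=
        mul_le_mul_of_nonneg_left hle (by positivity)
      have e : 2 * q * t / (L : ℝ) = q * (2 * t / L) := by ring
      rw [e]; linarith
    have h5 : softw L q x ≤ (1 + (x : ℝ) / L) ^ q := by
      unfold softw
      split_ifs with h6
      · exact min_le_right _ _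
      · positivity
    have h6 : 0 ≤ (1 + (-(t / (L + x : ℝ)))) ^ q := by
      apply pow_nonneg
      have : t / (L + x) ≤ (1 : ℝ) := by
        rw [div_le_one hpos]; linarith
      linarith
    calc (1 - 2 * q * t / L) * softw L q x ≤ (1 + (-(t / (L + x : ℝ)))) ^ q * softw L q x :=
          mul_le_mul_of_nonneg_right h4 (softw_nonneg _ _ _)
      _ ≤ (1 + (-(t / (L + x : ℝ)))) ^ q * (1 + (x : ℝ) / L) ^ q :=
          mul_le_mul_of_nonneg_left h5 h6
      _ = _ := by ring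

/-- abstract comparison of the negative and the nonnegative part -/
theorem tail_aux {L q : ℕ} {H : ℤ → ℝ} (hH0 : ∀ y, 0 ≤ H y) {K : ℝ} (hK : 0 ≤ K) {x1 x2 : ℕ}
    (h1 : 1 ≤ x2) (h2 : x2 ≤ x1) (h3 : x1 ≤ L)
    (hH : ∀ y : ℤ, y ≤ 0 → ∀ x : ℤ, 0 ≤ x → x ≤ x1 → H y ≤ K * H (y + x)) :
    ∑ y ∈ Icc (-(L : ℤ)) (-1), softw L q y * H y ≤
      K * (1 - (x2 : ℝ) / L) ^ q *
        (∑ y ∈ Icc (-(L : ℤ)) (-1), softw L q y * H y + ∑ y ∈ Icc (0 : ℤ) L, H y) +
      x2 * K / (x1 - x2 + 1) * ∑ y ∈ Icc (0 : ℤ) L, H y := by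
  have hL0 : 0 < L := by omega
  have hL : (0 : ℝ) < L := by exact_mod_cast hL0
  have hx2L : (x2 : ℝ) / L ≤ 1 := by
    rw [div_le_one hL]; exact_mod_cast h2.trans h3
  have hp0 : 0 ≤ (1 - (x2 : ℝ) / L) ^ q := pow_nonneg (by linarith) q
  set S := ∑ y ∈ Icc (0 : ℤ) L, H y with hS
  have hS0 : 0 ≤ S := sum_nonneg fun y _ => hH0 y
  -- the whole sum
  have hall : ∑ y ∈ Icc (-(L : ℤ)) L, softw L q y * H y =
      ∑ y ∈ Icc (-(L : ℤ)) (-1), softw L q y * H y + S := by
    have hd : Icc (-(L : ℤ)) L = Icc (-(L : ℤ)) (-1) ∪ Icc (0 : ℤ) L := by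
      ext y; simp only [mem_union, mem_Icc]; omega
    rw [hd, sum_union]
    · congr 1
      refine sum_congr rfl fun y hy => ?_
      obtain ⟨a, b⟩ := mem_Icc.1 hy
      rw [softw_of_nonneg a b, one_mul]
    · rw [disjoint_left]; intro y; simp only [mem_Icc]; omega
  -- split the negative range
  have hsplit : Icc (-(L : ℤ)) (-1) = Icc (-(L : ℤ)) (-(x2 : ℤ)) ∪ Icc (-(x2 : ℤ) + 1) (-1) := by
    ext y; simp only [mem_union, mem_Icc]; omega
  have hdisj : Disjoint (Icc (-(L : ℤ)) (-(x2 : ℤ))) (Icc (-(x2 : ℤ) + 1) (-1)) := by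
    rw [disjoint_left]; intro y; simp only [mem_Icc]; omega
  have hfar : ∑ y ∈ Icc (-(L : ℤ)) (-(x2 : ℤ)), softw L q y * H y ≤
      K * (1 - (x2 : ℝ) / L) ^ q *
        (∑ y ∈ Icc (-(L : ℤ)) (-1), softw L q y * H y + S) := by
    rw [← hall]
    have a1 : ∑ y ∈ Icc (-(L : ℤ)) (-(x2 : ℤ)), softw L q y * H y ≤
        ∑ y ∈ Icc (-(L : ℤ)) (-(x2 : ℤ)), K * (1 - (x2 : ℝ) / L) ^ q *
          (softw L q (y + x2) * H (y + x2)) := by
      refine sum_le_sum fun y hy => ?_
      obtain ⟨a, b⟩ := mem_Icc.1 hy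
      have b1 := softw_shift (L := L) (q := q) (y := y) (t := (x2 : ℤ)) (by omega) b a
      have b2 := hH y (by omega) x2 (by omega) (by exact_mod_cast h2)
      push_cast at b1
      calc softw L q y * H y ≤ ((1 - (x2 : ℝ) / L) ^ q * softw L q (y + x2)) *
            (K * H (y + x2)) :=
            mul_le_mul b1 b2 (hH0 y) (mul_nonneg hp0 (softw_nonneg _ _ _))
        _ = _ := by ring
    refine a1.trans ?_
    rw [← mul_sum]
    apply mul_le_mul_of_nonneg_left _ (mul_nonneg hK hp0)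
    have a2 : ∑ y ∈ Icc (-(L : ℤ)) (-(x2 : ℤ)), softw L q (y + x2) * H (y + x2) =
        ∑ z ∈ (Icc (-(L : ℤ)) (-(x2 : ℤ))).image (fun y => y + (x2 : ℤ)),
          softw L q z * H z := by
      rw [sum_image]
      intro a _ b _ hab
      simpa using hab
    rw [a2]
    apply sum_le_sum_of_subset_of_nonneg
    · intro z hz
      obtain ⟨y, hy, rfl⟩ := mem_image.1 hz
      obtain ⟨a, b⟩ := mem_Icc.1 hy
      rw [mem_Icc]; constructor <;> omega
    · intro z _ _
      exact mul_nonneg (softw_nonneg _ _ _) (hH0 z)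
  have hnear : ∑ y ∈ Icc (-(x2 : ℤ) + 1) (-1), softw L q y * H y ≤
      x2 * K / (x1 - x2 + 1) * S := by
    have hden : (0 : ℝ) < (x1 : ℝ) - x2 + 1 := by
      have : (x2 : ℝ) ≤ x1 := by exact_mod_cast h2
      linarith
    have a1 : ∀ y ∈ Icc (-(x2 : ℤ) + 1) (-1), softw L q y * H y ≤ K / (x1 - x2 + 1) * S := by
      intro y hy
      obtain ⟨a, b⟩ := mem_Icc.1 hy
      have b1 : softw L q y * H y ≤ H y := by
        have := mul_le_mul_of_nonneg_right (softw_le_one L q y) (hH0 y)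
        linarith
      have b2 : ∑ x ∈ Icc (x2 : ℤ) x1, H y ≤ ∑ x ∈ Icc (x2 : ℤ) x1, K * H (y + x) := by
        refine sum_le_sum fun x hx => ?_
        obtain ⟨c, d⟩ := mem_Icc.1 hx
        exact hH y (by omega) x (by omega) d
      have b3 : ∑ x ∈ Icc (x2 : ℤ) x1, H y = ((x1 : ℝ) - x2 + 1) * H y := by
        rw [sum_const, nsmul_eq_mul, Int.card_Icc]
        congr 1
        have : (((x1 : ℤ) + 1 - x2).toNat : ℤ) = (x1 : ℤ) + 1 - x2 :=
          Int.toNat_of_nonneg (by omega)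
        have h' : ((((x1 : ℤ) + 1 - x2).toNat : ℤ) : ℝ) = (((x1 : ℤ) + 1 - x2 : ℤ) : ℝ) := by
          rw [this]
        push_cast at h'
        rw [h']; ring
      have b4 : ∑ x ∈ Icc (x2 : ℤ) x1, H (y + x) ≤ S := by
        have e1 : ∑ x ∈ Icc (x2 : ℤ) x1, H (y + x) =
            ∑ z ∈ (Icc (x2 : ℤ) x1).image (fun x => y + x), H z := by
          rw [sum_image]
          intro a _ b _ hab
          simpa using hab
        rw [e1, hS]
        apply sum_le_sum_of_subset_of_nonneg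
        · intro z hz
          obtain ⟨x, hx, rfl⟩ := mem_image.1 hz
          obtain ⟨c, d⟩ := mem_Icc.1 hx
          rw [mem_Icc]; constructor <;> omega
        · intro z _ _; exact hH0 z
      rw [b3, ← mul_sum] at b2
      have b5 : ((x1 : ℝ) - x2 + 1) * H y ≤ K * S :=
        b2.trans (mul_le_mul_of_nonneg_left b4 hK)
      have b6 : H y ≤ K / (x1 - x2 + 1) * S := by
        rw [div_mul_eq_mul_div, le_div_iff₀ hden]; linarith
      linarith
    refine (sum_le_sum a1).trans ?_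
    rw [sum_const, nsmul_eq_mul]
    have hc : ((Icc (-(x2 : ℤ) + 1) (-1)).card : ℝ) ≤ x2 := by
      have : (Icc (-(x2 : ℤ) + 1) (-1)).card ≤ x2 := by
        rw [Int.card_Icc]; omega
      exact_mod_cast this
    calc ((Icc (-(x2 : ℤ) + 1) (-1)).card : ℝ) * (K / (x1 - x2 + 1) * S) ≤
          x2 * (K / (x1 - x2 + 1) * S) := by
            apply mul_le_mul_of_nonneg_right hc
            positivity
      _ = _ := by ring
  calc ∑ y ∈ Icc (-(L : ℤ)) (-1), softw L q y * H y =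
        ∑ y ∈ Icc (-(L : ℤ)) (-(x2 : ℤ)), softw L q y * H y +
        ∑ y ∈ Icc (-(x2 : ℤ) + 1) (-1), softw L q y * H y := by
          rw [hsplit, sum_union hdisj]
    _ ≤ _ := by
        rw [← hsplit] at *
        linarith

/-- `(1 - t)^q ≤ 1/(1 + q t)` -/
theorem pow_le_inv {t : ℝ} (h0 : 0 ≤ t) (h1 : t ≤ 1) (q : ℕ) : (1 - t) ^ q ≤ 1 / (1 + q * t) := by
  have hq : 0 < 1 + q * t := by positivity
  rw [le_div_iff₀ hq]
  have h2 : 1 + q * t ≤ (1 + t) ^ q := one_add_mul_le_pow (by linarith) q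
  calc (1 - t) ^ q * (1 + q * t) ≤ (1 - t) ^ q * (1 + t) ^ q :=
        mul_le_mul_of_nonneg_left h2 (pow_nonneg (by linarith) q)
    _ = (1 - t ^ 2) ^ q := by rw [← mul_pow]; ring
    _ ≤ 1 := pow_le_one₀ (by nlinarith) (by nlinarith)

/-- the tail bound with a parameter `a` -/
theorem tail {L q : ℕ} {H : ℤ → ℝ} (hH0 : ∀ y, 0 ≤ H y) {K : ℝ} (hK : 0 ≤ K) {x1 x2 : ℕ}
    (h1 : 1 ≤ x2) (h2 : x2 ≤ x1) (h3 : x1 ≤ L)
    (hH : ∀ y : ℤ, y ≤ 0 → ∀ x : ℤ, 0 ≤ x → x ≤ x1 → H y ≤ K * H (y + x))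
    {a : ℝ} (ha0 : 0 ≤ a) (hA : K * L ≤ a * (q * x2))
    (hB : x2 * K ≤ a * (x1 - x2 + 1)) :
    ∑ y ∈ Icc (-(L : ℤ)) (-1), softw L q y * H y ≤
      2 * a * (∑ y ∈ Icc (-(L : ℤ)) (-1), softw L q y * H y + ∑ y ∈ Icc (0 : ℤ) L, H y) := by
  have hL0 : 0 < L := by omega
  have hL : (0 : ℝ) < L := by exact_mod_cast hL0
  have hx2L : (x2 : ℝ) / L ≤ 1 := by
    rw [div_le_one hL]; exact_mod_cast h2.trans h3
  have hx20 : (0 : ℝ) ≤ (x2 : ℝ) / L := by positivity
  have h := tail_aux (q := q) hH0 hK h1 h2 h3 hH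
  have hG0 : 0 ≤ ∑ y ∈ Icc (-(L : ℤ)) (-1), softw L q y * H y :=
    sum_nonneg fun y _ => mul_nonneg (softw_nonneg _ _ _) (hH0 y)
  have hS0 : 0 ≤ ∑ y ∈ Icc (0 : ℤ) L, H y := sum_nonneg fun y _ => hH0 y
  generalize ∑ y ∈ Icc (-(L : ℤ)) (-1), softw L q y * H y = G at *
  generalize ∑ y ∈ Icc (0 : ℤ) L, H y = S at *
  have hd : K * (1 - (x2 : ℝ) / L) ^ q ≤ a := by
    have b1 := pow_le_inv hx20 hx2L q
    have b2 : K * (1 - (x2 : ℝ) / L) ^ q ≤ K * (1 / (1 + q * ((x2 : ℝ) / L))) :=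
      mul_le_mul_of_nonneg_left b1 hK
    have b3 : K * (1 / (1 + q * ((x2 : ℝ) / L))) ≤ a := by
      rw [mul_one_div, div_le_iff₀ (by positivity)]
      have b4 : K ≤ a * (q * ((x2 : ℝ) / L)) := by
        have : a * (q * ((x2 : ℝ) / L)) = (a * (q * x2)) / L := by ring
        rw [this, le_div_iff₀ hL]; exact hA
      nlinarith
    linarith
  have hden : (0 : ℝ) < (x1 : ℝ) - x2 + 1 := by
    have : (x2 : ℝ) ≤ x1 := by exact_mod_cast h2
    linarith
  have he : x2 * K / (x1 - x2 + 1) ≤ a := by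
    rw [div_le_iff₀ hden]; exact hB
  have k1 : K * (1 - (x2 : ℝ) / L) ^ q * (G + S) ≤ a * (G + S) :=
    mul_le_mul_of_nonneg_right hd (by linarith)
  have k2 : x2 * K / (x1 - x2 + 1) * S ≤ a * S := mul_le_mul_of_nonneg_right he hS0
  nlinarith

end P328R.Soft
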