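import Vale.Agent.P328R.Soft

/-!
P328R, section 6 preliminaries (helper6): the soft model. Pivot cells (large margins, in the
distinguished row or column) may be negative, with the weight `softw`; all other cells `e` carry
the indicator of `[0, s e]`, `s (i,j) = min (r i) (c j)`.
-/

namespace P328R.Soft

open Finset

set_option linter.unusedSectionVars false

/-- parameters of the soft model -/
structure Par (R C : Type) where
  r : R → ℤ
  c : C → ℤ
  i0 : R
  j0 : C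
  Q : ℤ
  q : ℕ
  /-- the nonpivot cell `e` lives in `[0, bx e]` -/
  bx : R × C → ℤ
  /-- length scale of the soft weight -/
  L : R × C → ℕ

namespace Par

variable {R C : Type} [Fintype R] [Fintype C] [DecidableEq R] [DecidableEq C] (P : Par R C)

/-- number of cells -/
def M (_ : Par R C) : ℕ := Fintype.card R * Fintype.card C

/-- scale of a cell -/
def s (e : R × C) : ℤ := min (P.r e.1) (P.c e.2)

/-- pivot cells -/
def piv (e : R × C) : Prop := P.Q < P.r e.1 ∧ P.Q < P.c e.2 ∧ (e.1 = P.i0 ∨ e.2 = P.j0)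

instance : DecidablePred P.piv := fun e => by unfold piv; infer_instance

/-- the corner cell -/
def cor : R × C := (P.i0, P.j0)

noncomputable def w (e : R × C) (x : ℤ) : ℝ :=
  if P.piv e then softw (P.L e) P.q x else if 0 ≤ x ∧ x ≤ P.bx e then 1 else 0

/-- exact margins -/
def Bal (X : R × C → ℤ) : Prop := (∀ i, ∑ j, X (i, j) = P.r i) ∧ ∀ j, ∑ i, X (i, j) = P.c j

instance : DecidablePred P.Bal := fun X => by unfold Bal; infer_instance

noncomputable def Tb : Finset (R × C → ℤ) :=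
  (Fintype.piFinset fun e => Icc (-(P.L e : ℤ)) (P.L e)).filter P.Bal

noncomputable def pw (X : R × C → ℤ) : ℝ := ∏ e, P.w e (X e)

/-- product over the other cells -/
noncomputable def G (e : R × C) (X : R × C → ℤ) : ℝ := ∏ e' ∈ univ.erase e, P.w e' (X e')

noncomputable def H (e : R × C) (y : ℤ) : ℝ := ∑ X ∈ P.Tb with X e = y, P.G e X

/-- admissibility of the parameters -/
structure Ok : Prop where
  r0 : ∀ i, 0 ≤ P.r i
  c0 : ∀ j, 0 ≤ P.c j
  tot : ∑ i, P.r i = ∑ j, P.c j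
  ri : ∀ i, P.r i ≤ P.r P.i0
  cj : ∀ j, P.c j ≤ P.c P.j0
  hQ0 : 0 ≤ P.Q
  hbx1 : ∀ e, P.s e ≤ P.bx e
  hbx2 : ∀ e, P.bx e ≤ 2 * P.s e
  hL : ∀ e, 4 * P.M * P.s e ≤ (P.L e : ℤ)

/-! ### elementary facts -/

theorem M_pos : 1 ≤ P.M := by
  have : Nonempty R := ⟨P.i0⟩
  have : Nonempty C := ⟨P.j0⟩
  exact Nat.mul_pos Fintype.card_pos Fintype.card_pos

variable {P}

theorem w_nonneg (e : R × C) (x : ℤ) : 0 ≤ P.w e x := by
  unfold w
  split_ifs
  · exact softw_nonneg _ _ _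
  · exact zero_le_one
  · exact le_rfl

theorem w_le_one (e : R × C) (x : ℤ) : P.w e x ≤ 1 := by
  unfold w
  split_ifs
  · exact softw_le_one _ _ _
  · exact le_rfl
  · exact zero_le_one

theorem w_lc (e : R × C) {a b : ℤ} (hab : a < b) :
    P.w e a * P.w e b ≤ P.w e (a + 1) * P.w e (b - 1) := by
  unfold w
  by_cases hp : P.piv e
  · simp only [if_pos hp]; exact softw_lc hab
  · simp only [if_neg hp]
    by_cases ha : 0 ≤ a ∧ a ≤ P.bx e
    · by_cases hb : 0 ≤ b ∧ b ≤ P.bx e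
      · rw [if_pos ha, if_pos hb, if_pos ⟨by omega, by omega⟩, if_pos ⟨by omega, by omega⟩]
      · rw [if_neg hb, mul_zero]; positivity
    · rw [if_neg ha, zero_mul]; positivity

theorem s_nonneg (h : P.Ok) (e : R × C) : 0 ≤ P.s e := le_min (h.r0 _) (h.c0 _)

theorem bx_le_L (h : P.Ok) (e : R × C) : P.bx e ≤ P.L e := by
  have h1 : (1 : ℤ) ≤ P.M := by exact_mod_cast P.M_pos
  have := s_nonneg h e
  have := h.hL e
  have := h.hbx2 e
  nlinarith

theorem s_le_L (h : P.Ok) (e : R × C) : P.s e ≤ P.L e := (h.hbx1 e).trans (bx_le_L h e)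

theorem w_of_nonpiv {e : R × C} (hp : ¬ P.piv e) {x : ℤ} (hx : 0 ≤ x ∧ x ≤ P.bx e) :
    P.w e x = 1 := by
  unfold w; rw [if_neg hp, if_pos hx]

theorem w_nonpiv_ne {e : R × C} (hp : ¬ P.piv e) {x : ℤ} (hx : P.w e x ≠ 0) :
    0 ≤ x ∧ x ≤ P.bx e := by
  by_contra h
  apply hx
  unfold w; rw [if_neg hp, if_neg h]

theorem w_piv {e : R × C} (hp : P.piv e) (x : ℤ) : P.w e x = softw (P.L e) P.q x := by
  unfold w; rw [if_pos hp]

theorem w_of_nonneg (h : P.Ok) {e : R × C} {x : ℤ} (h0 : 0 ≤ x) (h1 : x ≤ P.s e) :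
    P.w e x = 1 := by
  by_cases hp : P.piv e
  · rw [w_piv hp]; exact softw_of_nonneg h0 (h1.trans (s_le_L h e))
  · exact w_of_nonpiv hp ⟨h0, h1.trans (h.hbx1 e)⟩

/-- a pivot exists only when both largest margins are large -/
theorem piv_cor {e : R × C} (h : P.Ok) (hp : P.piv e) : P.piv P.cor :=
  ⟨lt_of_lt_of_le hp.1 (h.ri _), lt_of_lt_of_le hp.2.1 (h.cj _), Or.inl rfl⟩

theorem not_piv {i : R} {j : C} (hi : i ≠ P.i0) (hj : j ≠ P.j0) : ¬ P.piv (i, j) := by
  rintro ⟨-, -, h | h⟩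
  · exact hi h
  · exact hj h

theorem s_mono_col (h : P.Ok) (i : R) (j : C) : P.s (i, j) ≤ P.s (i, P.j0) :=
  min_le_min le_rfl (h.cj j)

theorem s_mono_row (h : P.Ok) (i : R) (j : C) : P.s (i, j) ≤ P.s (P.i0, j) :=
  min_le_min (h.ri i) le_rfl

theorem s_le_cor (h : P.Ok) (e : R × C) : P.s e ≤ P.s P.cor :=
  min_le_min (h.ri _) (h.cj _)

theorem r_le_tot (h : P.Ok) (i : R) : P.r i ≤ ∑ i, P.r i :=
  single_le_sum (fun i _ => h.r0 i) (mem_univ i)

theorem c_le_tot (h : P.Ok) (j : C) : P.c j ≤ ∑ i, P.r i := by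
  rw [h.tot]; exact single_le_sum (fun j _ => h.c0 j) (mem_univ j)

theorem tot_le_row (h : P.Ok) : ∑ i, P.r i ≤ Fintype.card R * P.r P.i0 := by
  calc ∑ i, P.r i ≤ ∑ _i : R, P.r P.i0 := sum_le_sum fun i _ => h.ri i
    _ = _ := by rw [sum_const, card_univ, nsmul_eq_mul]

theorem tot_le_col (h : P.Ok) : ∑ i, P.r i ≤ Fintype.card C * P.c P.j0 := by
  rw [h.tot]
  calc ∑ j, P.c j ≤ ∑ _j : C, P.c P.j0 := sum_le_sum fun j _ => h.cj j
    _ = _ := by rw [sum_const, card_univ, nsmul_eq_mul]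

theorem cardR_pos (P : Par R C) : (1 : ℤ) ≤ Fintype.card R := by
  have : Nonempty R := ⟨P.i0⟩
  exact_mod_cast (Fintype.card_pos : 0 < Fintype.card R)

theorem cardC_pos (P : Par R C) : (1 : ℤ) ≤ Fintype.card C := by
  have : Nonempty C := ⟨P.j0⟩
  exact_mod_cast (Fintype.card_pos : 0 < Fintype.card C)

theorem M_eq (P : Par R C) : (P.M : ℤ) = Fintype.card R * Fintype.card C := by
  unfold M; push_cast; rfl

theorem cardR_le_M (P : Par R C) : (Fintype.card R : ℤ) ≤ P.M := by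
  rw [M_eq]; nlinarith [P.cardR_pos, P.cardC_pos]

theorem cardC_le_M (P : Par R C) : (Fintype.card C : ℤ) ≤ P.M := by
  rw [M_eq]; nlinarith [P.cardR_pos, P.cardC_pos]

/-- the total is at most `M s_c` -/
theorem tot_le (h : P.Ok) : ∑ i, P.r i ≤ P.M * P.s P.cor := by
  have h1 := tot_le_row h
  have h2 := tot_le_col h
  have hr := h.r0 P.i0
  have hc := h.c0 P.j0
  have a1 := P.cardR_le_M
  have a2 := P.cardC_le_M
  have e : P.s P.cor = min (P.r P.i0) (P.c P.j0) := rfl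
  rcases le_total (P.r P.i0) (P.c P.j0) with h3 | h3
  · rw [e, min_eq_left h3]; nlinarith
  · rw [e, min_eq_right h3]; nlinarith

/-- `r i ≤ n s(i,j0)` -/
theorem r_le (h : P.Ok) (i : R) : P.r i ≤ Fintype.card C * P.s (i, P.j0) := by
  have h2 := tot_le_col h
  have h3 := r_le_tot h i
  have a2 := P.cardC_pos
  have hr := h.r0 i
  have e : P.s (i, P.j0) = min (P.r i) (P.c P.j0) := rfl
  rcases le_total (P.r i) (P.c P.j0) with h4 | h4
  · rw [e, min_eq_left h4]; nlinarith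
  · rw [e, min_eq_right h4]; linarith

theorem c_le (h : P.Ok) (j : C) : P.c j ≤ Fintype.card R * P.s (P.i0, j) := by
  have h2 := tot_le_row h
  have h3 := c_le_tot h j
  have a2 := P.cardR_pos
  have hc := h.c0 j
  have e : P.s (P.i0, j) = min (P.r P.i0) (P.c j) := rfl
  rcases le_total (P.r P.i0) (P.c j) with h4 | h4
  · rw [e, min_eq_left h4]; linarith
  · rw [e, min_eq_right h4]; nlinarith

/-- nonpivot cells in their box -/
def NB (P : Par R C) (X : R × C → ℤ) : Prop := ∀ e, ¬ P.piv e → 0 ≤ X e ∧ X e ≤ P.bx e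

theorem G_nonneg (e : R × C) (X : R × C → ℤ) : 0 ≤ P.G e X := prod_nonneg fun _ _ => w_nonneg _ _

theorem pw_nonneg (X : R × C → ℤ) : 0 ≤ P.pw X := prod_nonneg fun _ _ => w_nonneg _ _

theorem pw_eq (e : R × C) (X : R × C → ℤ) : P.pw X = P.w e (X e) * P.G e X := by
  unfold pw G
  rw [mul_prod_erase univ (fun e => P.w e (X e)) (mem_univ e)]

theorem H_nonneg (e : R × C) (y : ℤ) : 0 ≤ P.H e y := sum_nonneg fun _ _ => G_nonneg _ _

theorem NB_of_G {e : R × C} (he : P.piv e) {X : R × C → ℤ} (h : P.G e X ≠ 0) : P.NB X := by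
  intro e' he'
  have hne : e' ≠ e := fun h => he' (h ▸ he)
  exact w_nonpiv_ne he' (prod_ne_zero_iff.1 h e' (mem_erase.2 ⟨hne, mem_univ _⟩))

theorem NB_of_pw {X : R × C → ℤ} (h : P.pw X ≠ 0) : P.NB X := by
  intro e' he'
  exact w_nonpiv_ne he' (prod_ne_zero_iff.1 h e' (mem_univ _))

/-! ### reachable range of the pivots -/

theorem row_bound (h : P.Ok) {X : R × C → ℤ} (hB : P.Bal X) (hN : P.NB X) {i : R}
    (hi : i ≠ P.i0) :
    -(2 * Fintype.card C * P.s (i, P.j0)) ≤ X (i, P.j0) ∧ X (i, P.j0) ≤ P.r i := by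
  have h1 := hB.1 i
  rw [← add_sum_erase univ (fun j => X (i, j)) (mem_univ P.j0)] at h1
  have h2 : 0 ≤ ∑ j ∈ univ.erase P.j0, X (i, j) :=
    sum_nonneg fun j hj => (hN (i, j) (not_piv hi (ne_of_mem_erase hj))).1
  have h3 : ∑ j ∈ univ.erase P.j0, X (i, j) ≤ ∑ _j ∈ univ.erase P.j0, 2 * P.s (i, P.j0) :=
    sum_le_sum fun j hj => ((hN (i, j) (not_piv hi (ne_of_mem_erase hj))).2.trans
      (h.hbx2 _)).trans (by linarith [s_mono_col h i j])
  rw [sum_const, nsmul_eq_mul] at h3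
  have h4 : (((univ.erase P.j0).card : ℕ) : ℤ) ≤ Fintype.card C := by
    exact_mod_cast card_le_univ _
  have h5 := s_nonneg h (i, P.j0)
  have h6 := mul_le_mul_of_nonneg_right h4 (by linarith : 0 ≤ 2 * P.s (i, P.j0))
  have h7 := h.r0 i
  constructor <;> linarith

theorem col_bound (h : P.Ok) {X : R × C → ℤ} (hB : P.Bal X) (hN : P.NB X) {j : C}
    (hj : j ≠ P.j0) :
    -(2 * Fintype.card R * P.s (P.i0, j)) ≤ X (P.i0, j) ∧ X (P.i0, j) ≤ P.c j := by
  have h1 := hB.2 j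
  rw [← add_sum_erase univ (fun i => X (i, j)) (mem_univ P.i0)] at h1
  have h2 : 0 ≤ ∑ i ∈ univ.erase P.i0, X (i, j) :=
    sum_nonneg fun i hi => (hN (i, j) (not_piv (ne_of_mem_erase hi) hj)).1
  have h3 : ∑ i ∈ univ.erase P.i0, X (i, j) ≤ ∑ _i ∈ univ.erase P.i0, 2 * P.s (P.i0, j) :=
    sum_le_sum fun i hi => ((hN (i, j) (not_piv (ne_of_mem_erase hi) hj)).2.trans
      (h.hbx2 _)).trans (by linarith [s_mono_row h i j])
  rw [sum_const, nsmul_eq_mul] at h3
  have h4 : (((univ.erase P.i0).card : ℕ) : ℤ) ≤ Fintype.card R := by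
    exact_mod_cast card_le_univ _
  have h5 := s_nonneg h (P.i0, j)
  have h6 := mul_le_mul_of_nonneg_right h4 (by linarith : 0 ≤ 2 * P.s (P.i0, j))
  have h7 := h.c0 j
  constructor <;> linarith

theorem cor_bound (h : P.Ok) {X : R × C → ℤ} (hB : P.Bal X) (hN : P.NB X) :
    -(P.M * P.s P.cor) ≤ X P.cor ∧ X P.cor ≤ 3 * P.M * P.s P.cor := by
  have h1 := hB.2 P.j0
  rw [← add_sum_erase univ (fun i => X (i, P.j0)) (mem_univ P.i0)] at h1
  have htot := tot_le h
  have hsplit : ∑ i, P.r i = P.r P.i0 + ∑ i ∈ univ.erase P.i0, P.r i :=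
    (add_sum_erase univ P.r (mem_univ P.i0)).symm
  have hs0 := s_nonneg h P.cor
  have h2 : ∑ i ∈ univ.erase P.i0, X (i, P.j0) ≤ ∑ i ∈ univ.erase P.i0, P.r i :=
    sum_le_sum fun i hi => (row_bound h hB hN (ne_of_mem_erase hi)).2
  have h3 : ∑ _i ∈ univ.erase P.i0, -(2 * Fintype.card C * P.s P.cor) ≤
      ∑ i ∈ univ.erase P.i0, X (i, P.j0) := by
    refine sum_le_sum fun i hi => ?_
    have a1 := (row_bound h hB hN (ne_of_mem_erase hi)).1
    have a2 := mul_le_mul_of_nonneg_left (s_le_cor h (i, P.j0))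
      (by linarith [P.cardC_pos] : (0 : ℤ) ≤ 2 * Fintype.card C)
    linarith
  rw [sum_const, nsmul_eq_mul] at h3
  have h4 : (((univ.erase P.i0).card : ℕ) : ℤ) ≤ Fintype.card R := by
    exact_mod_cast card_le_univ _
  have h5 : (((univ.erase P.i0).card : ℕ) : ℤ) * (2 * Fintype.card C * P.s P.cor) ≤
      Fintype.card R * (2 * Fintype.card C * P.s P.cor) :=
    mul_le_mul_of_nonneg_right h4 (mul_nonneg (by linarith [P.cardC_pos]) hs0)
  have h6 : (Fintype.card R : ℤ) * (2 * Fintype.card C * P.s P.cor) = 2 * (P.M * P.s P.cor) := by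
    rw [M_eq]; ring
  have h7 := c_le_tot h P.j0
  have h8 := h.r0 P.i0
  have h9 := h.c0 P.j0
  have e : X (P.i0, P.j0) = X P.cor := rfl
  rw [e] at h1
  constructor
  · linarith
  · nlinarith

theorem reach (h : P.Ok) {X : R × C → ℤ} (hB : P.Bal X) (hN : P.NB X) {e : R × C}
    (he : P.piv e) : -(2 * P.M * P.s e) ≤ X e ∧ X e ≤ 3 * P.M * P.s e := by
  obtain ⟨i, j⟩ := e
  have hs := s_nonneg h (i, j)
  have hM1 : (1 : ℤ) ≤ P.M := by exact_mod_cast P.M_pos
  have aR := P.cardR_le_M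
  have aC := P.cardC_le_M
  by_cases hi : i = P.i0
  · by_cases hj : j = P.j0
    · subst hi; subst hj
      have := cor_bound h hB hN
      have e : P.cor = (P.i0, P.j0) := rfl
      rw [e] at this
      constructor
      · nlinarith [this.1]
      · exact this.2
    · subst hi
      have h1 := col_bound h hB hN hj
      have h2 := c_le h j
      constructor
      · nlinarith [h1.1]
      · nlinarith [h1.2]
  · have hj : j = P.j0 := by
      rcases he.2.2 with h | h
      · exact absurd h hi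
      · exact h
    subst hj
    have h1 := row_bound h hB hN hi
    have h2 := r_le h i
    constructor
    · nlinarith [h1.1]
    · nlinarith [h1.2]

theorem mem_Tb (h : P.Ok) {X : R × C → ℤ} (hB : P.Bal X) (hN : P.NB X) : X ∈ P.Tb := by
  unfold Tb
  rw [mem_filter, Fintype.mem_piFinset]
  refine ⟨fun e => ?_, hB⟩
  rw [mem_Icc]
  by_cases he : P.piv e
  · have h1 := reach h hB hN he
    have h2 := h.hL e
    have h3 := s_nonneg h e
    have hM1 : (1 : ℤ) ≤ P.M := by exact_mod_cast P.M_pos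
    constructor <;> nlinarith
  · have h1 := hN e he
    have h2 := bx_le_L h e
    have : (0 : ℤ) ≤ P.L e := by positivity
    constructor <;> omega

end Par

end P328R.Soft
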