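import Vale.Agent.P328R.Soft2

/-!
P328R, section 6 preliminaries (helper6): the soft law gives probability at least `1/2` to the
event that all pivots are nonnegative (switchings).
-/

namespace P328R.Soft

open Finset

set_option linter.unusedSectionVars false

namespace Par

variable {R C : Type} [Fintype R] [Fintype C] [DecidableEq R] [DecidableEq C] {P : Par R C}

/-- the `2 × 2` pattern `(1_i - 1_i') ⊗ (1_j - 1_j')` -/
def pat (i i' : R) (j j' : C) : R × C → ℤ := fun e =>
  ((if e.1 = i then 1 else 0) - (if e.1 = i' then 1 else 0)) *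
    ((if e.2 = j then 1 else 0) - (if e.2 = j' then 1 else 0))

theorem pat_row (i i' : R) (j j' : C) (a : R) : ∑ b, pat i i' j j' (a, b) = 0 := by
  have h1 : ∑ b : C, ((if b = j then (1 : ℤ) else 0) - (if b = j' then 1 else 0)) = 0 := by
    rw [sum_sub_distrib]; simp
  have h2 : ∑ b, pat i i' j j' (a, b) = ((if a = i then (1 : ℤ) else 0) -
      (if a = i' then 1 else 0)) *
      ∑ b : C, ((if b = j then (1 : ℤ) else 0) - (if b = j' then 1 else 0)) := by
    rw [mul_sum]; rfl
  rw [h2, h1, mul_zero]

theorem pat_col (i i' : R) (j j' : C) (b : C) : ∑ a, pat i i' j j' (a, b) = 0 := by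
  have h1 : ∑ a : R, ((if a = i then (1 : ℤ) else 0) - (if a = i' then 1 else 0)) = 0 := by
    rw [sum_sub_distrib]; simp
  have h2 : ∑ a, pat i i' j j' (a, b) =
      (∑ a : R, ((if a = i then (1 : ℤ) else 0) - (if a = i' then 1 else 0))) *
      ((if b = j then (1 : ℤ) else 0) - (if b = j' then 1 else 0)) := by
    rw [sum_mul]; rfl
  rw [h2, h1, zero_mul]

theorem bal_add {X : R × C → ℤ} (hB : P.Bal X) (x : ℤ) (i i' : R) (j j' : C) :
    P.Bal (X + x • pat i i' j j') := by
  constructor
  · intro a
    simp only [Pi.add_apply, Pi.smul_apply, smul_eq_mul, sum_add_distrib, ← mul_sum, pat_row,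
      mul_zero, add_zero]
    exact hB.1 a
  · intro b
    simp only [Pi.add_apply, Pi.smul_apply, smul_eq_mul, sum_add_distrib, ← mul_sum, pat_col,
      mul_zero, add_zero]
    exact hB.2 b

/-- generic switching inequality -/
theorem switch {ι : Type} [Fintype ι] (d : ι → R × C → ℤ) (e : R × C) (hde : ∀ k, d k e = 1)
    (y x : ℤ) {K' : ℝ} (hK' : 0 ≤ K')
    (hX : ∀ X ∈ P.Tb, X e = y → P.G e X ≠ 0 →
      ∃ k, X + x • d k ∈ P.Tb ∧ P.G e X ≤ K' * P.G e (X + x • d k)) :
    P.H e y ≤ Fintype.card ι * K' * P.H e (y + x) := by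
  classical
  unfold H
  have h1 : ∀ X ∈ P.Tb.filter (fun X => X e = y), P.G e X ≤
      ∑ k, if X + x • d k ∈ P.Tb then K' * P.G e (X + x • d k) else 0 := by
    intro X hXm
    obtain ⟨hX1, hX2⟩ := mem_filter.1 hXm
    have hnn : ∀ k ∈ (univ : Finset ι), 0 ≤
        (if X + x • d k ∈ P.Tb then K' * P.G e (X + x • d k) else 0) := by
      intro k _
      split_ifs
      · exact mul_nonneg hK' (G_nonneg _ _)
      · exact le_rfl
    by_cases hG : P.G e X = 0
    · rw [hG]; exact sum_nonneg hnn
    · obtain ⟨k, hk1, hk2⟩ := hX X hX1 hX2 hG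
      have h2 := single_le_sum hnn (mem_univ k)
      rw [if_pos hk1] at h2
      exact hk2.trans h2
  refine (sum_le_sum h1).trans ?_
  rw [sum_comm]
  have h2 : ∀ k ∈ (univ : Finset ι), ∑ X ∈ P.Tb with X e = y,
      (if X + x • d k ∈ P.Tb then K' * P.G e (X + x • d k) else 0) ≤
      K' * ∑ X ∈ P.Tb with X e = y + x, P.G e X := by
    intro k _
    rw [← sum_filter, mul_sum]
    have hinj : ∀ X ∈ ((P.Tb.filter (fun X => X e = y)).filter (fun X => X + x • d k ∈ P.Tb)),
        ∀ Y ∈ ((P.Tb.filter (fun X => X e = y)).filter (fun X => X + x • d k ∈ P.Tb)),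
        X + x • d k = Y + x • d k → X = Y := fun X _ Y _ hXY => add_right_cancel hXY
    rw [← sum_image (f := fun Z => K' * P.G e Z) (g := fun X => X + x • d k) hinj]
    apply sum_le_sum_of_subset_of_nonneg
    · intro Z hZ
      obtain ⟨X, hXm, rfl⟩ := mem_image.1 hZ
      obtain ⟨hX1, hX2⟩ := mem_filter.1 hXm
      obtain ⟨hX3, hX4⟩ := mem_filter.1 hX1
      rw [mem_filter]
      refine ⟨hX2, ?_⟩
      simp [hX4, hde k]
    · intro Z _ _
      exact mul_nonneg hK' (G_nonneg _ _)
  refine (sum_le_sum h2).trans ?_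
  rw [sum_const, card_univ, nsmul_eq_mul]
  apply le_of_eq; ring

/-- comparison of products -/
theorem G_le {e : R × C} {X X' : R × C → ℤ} {K' : ℝ} (hK : 1 ≤ K')
    (h : ∀ e', e' ≠ e → e' ≠ P.cor → P.w e' (X e') ≤ P.w e' (X' e'))
    (hc : P.cor ≠ e → P.w P.cor (X P.cor) ≤ K' * P.w P.cor (X' P.cor)) :
    P.G e X ≤ K' * P.G e X' := by
  unfold G
  by_cases hce : P.cor = e
  · have h1 : ∏ e' ∈ univ.erase e, P.w e' (X e') ≤ ∏ e' ∈ univ.erase e, P.w e' (X' e') :=
      prod_le_prod (fun e' _ => w_nonneg _ _) fun e' he' =>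
        h e' (ne_of_mem_erase he') (by rw [hce]; exact ne_of_mem_erase he')
    have h2 : 0 ≤ ∏ e' ∈ univ.erase e, P.w e' (X' e') := prod_nonneg fun _ _ => w_nonneg _ _
    nlinarith
  · have hmem : P.cor ∈ univ.erase e := mem_erase.2 ⟨hce, mem_univ _⟩
    rw [← mul_prod_erase _ _ hmem, ← mul_prod_erase _ _ hmem, ← mul_assoc]
    apply mul_le_mul (hc hce)
    · exact prod_le_prod (fun e' _ => w_nonneg _ _) fun e' he' =>
        h e' (ne_of_mem_erase (mem_of_mem_erase he')) (ne_of_mem_erase he')
    · exact prod_nonneg fun _ _ => w_nonneg _ _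
    · exact mul_nonneg (by linarith) (w_nonneg _ _)

theorem w_one {e : R × C} {x : ℤ} (h0 : 0 ≤ x) (h1 : P.piv e → x ≤ P.L e)
    (h2 : ¬ P.piv e → x ≤ P.bx e) : P.w e x = 1 := by
  by_cases he : P.piv e
  · rw [w_piv he]; exact softw_of_nonneg h0 (h1 he)
  · exact w_of_nonpiv he ⟨h0, h2 he⟩

theorem exists_big {ι : Type} (S : Finset ι) (f : ι → ℤ) (x A : ℤ)
    (hA : A ≤ ∑ k ∈ S, f k) (hx : (S.card : ℤ) * x < A) : ∃ k ∈ S, x ≤ f k := by
  by_contra hcon
  push Not at hcon
  have h1 : ∑ k ∈ S, f k ≤ ∑ _k ∈ S, x := sum_le_sum fun k hk => (hcon k hk).le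
  rw [sum_const, nsmul_eq_mul] at h1
  linarith

theorem two_row {X : R × C → ℤ} (hB : P.Bal X) (hN : P.NB X) {i : R} (hi : i ≠ P.i0) {j : C}
    (hj : j ≠ P.j0) : X (i, P.j0) + X (i, j) ≤ P.r i := by
  have h1 := hB.1 i
  rw [← add_sum_erase univ (fun j => X (i, j)) (mem_univ P.j0),
    ← add_sum_erase (univ.erase P.j0) (fun j => X (i, j)) (mem_erase.2 ⟨hj, mem_univ _⟩)] at h1
  have h2 : 0 ≤ ∑ b ∈ (univ.erase P.j0).erase j, X (i, b) :=
    sum_nonneg fun b hb => (hN (i, b) (not_piv hi (ne_of_mem_erase (mem_of_mem_erase hb)))).1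
  linarith

theorem two_col {X : R × C → ℤ} (hB : P.Bal X) (hN : P.NB X) {i : R} (hi : i ≠ P.i0) {j : C}
    (hj : j ≠ P.j0) : X (P.i0, j) + X (i, j) ≤ P.c j := by
  have h1 := hB.2 j
  rw [← add_sum_erase univ (fun i => X (i, j)) (mem_univ P.i0),
    ← add_sum_erase (univ.erase P.i0) (fun i => X (i, j)) (mem_erase.2 ⟨hi, mem_univ _⟩)] at h1
  have h2 : 0 ≤ ∑ a ∈ (univ.erase P.i0).erase i, X (a, j) :=
    sum_nonneg fun a ha => (hN (a, j) (not_piv (ne_of_mem_erase (mem_of_mem_erase ha)) hj)).1
  linarith

theorem Tb_bal {X : R × C → ℤ} (hX : X ∈ P.Tb) : P.Bal X := (mem_filter.1 hX).2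

theorem Tb_le {X : R × C → ℤ} (hX : X ∈ P.Tb) (e : R × C) : -(P.L e : ℤ) ≤ X e ∧ X e ≤ P.L e :=
  mem_Icc.1 (Fintype.mem_piFinset.1 (mem_filter.1 hX).1 e)

theorem card_erase_row (P : Par R C) :
    (((univ.erase P.i0 : Finset R).card : ℕ) : ℤ) = Fintype.card R - 1 := by
  rw [card_erase_of_mem (mem_univ _), card_univ]
  have := P.cardR_pos
  omega

theorem card_erase_col (P : Par R C) :
    (((univ.erase P.j0 : Finset C).card : ℕ) : ℤ) = Fintype.card C - 1 := by
  rw [card_erase_of_mem (mem_univ _), card_univ]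
  have := P.cardC_pos
  omega

/-- if `M x ≤ s` and `0 < s` then `(k - 1) x < s` for `k ≤ M` -/
theorem small_aux {k M x s : ℤ} (hk : k ≤ M) (hx : 0 ≤ x) (h : M * x ≤ s) (hs : 0 < s) :
    (k - 1) * x < s := by
  rcases eq_or_lt_of_le hx with h0 | h0
  · rw [← h0]; simpa using hs
  · nlinarith

/-- switching for the corner -/
theorem cor_switch (h : P.Ok) (hp : P.piv P.cor) {y x : ℤ} (hy : y ≤ 0) (hx : 0 ≤ x)
    (hxs : P.M * x ≤ P.s P.cor) : P.H P.cor y ≤ P.M * P.H P.cor (y + x) := by
  have hQ0 : 0 ≤ P.Q := h.hQ0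
  have hr : 0 < P.r P.i0 := lt_of_le_of_lt hQ0 hp.1
  have hc : 0 < P.c P.j0 := lt_of_le_of_lt hQ0 hp.2.1
  have hs : 0 < P.s P.cor := lt_min hr hc
  have hsr : P.s P.cor ≤ P.r P.i0 := min_le_left _ _
  have hsc : P.s P.cor ≤ P.c P.j0 := min_le_right _ _
  have key := switch (P := P) (ι := {i : R // i ≠ P.i0} × {j : C // j ≠ P.j0})
    (fun k => pat P.i0 k.1.1 P.j0 k.2.1) P.cor
    (by
      rintro ⟨⟨i, hi⟩, ⟨j, hj⟩⟩
      simp [pat, cor, hi.symm, hj.symm]) y x (K' := 1) zero_le_one (by
      intro X hX hXy hG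
      have hB := Tb_bal hX
      have hN := NB_of_G hp hG
      have hXc : X (P.i0, P.j0) = y := hXy
      -- donors
      have hcol := hB.2 P.j0
      rw [← add_sum_erase univ (fun i => X (i, P.j0)) (mem_univ P.i0)] at hcol
      have hrow := hB.1 P.i0
      rw [← add_sum_erase univ (fun j => X (P.i0, j)) (mem_univ P.j0)] at hrow
      obtain ⟨i, hi, hxi⟩ := exists_big (univ.erase P.i0) (fun i => X (i, P.j0)) x (P.c P.j0)
        (by linarith)
        (by rw [card_erase_row]; exact lt_of_lt_of_le (small_aux P.cardR_le_M hx hxs hs) hsc)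
      obtain ⟨j, hj, hxj⟩ := exists_big (univ.erase P.j0) (fun j => X (P.i0, j)) x (P.r P.i0)
        (by linarith)
        (by rw [card_erase_col]; exact lt_of_lt_of_le (small_aux P.cardC_le_M hx hxs hs) hsr)
      have hi' := ne_of_mem_erase hi
      have hj' := ne_of_mem_erase hj
      refine ⟨(⟨i, hi'⟩, ⟨j, hj'⟩), ?_⟩
      simp only at hxi hxj ⊢
      set X' := X + x • pat P.i0 i P.j0 j with hX'
      have hB' : P.Bal X' := bal_add hB x _ _ _ _
      have hv : ∀ a b, X' (a, b) = X (a, b) + x *
          (((if a = P.i0 then 1 else 0) - (if a = i then 1 else 0)) *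
          ((if b = P.j0 then 1 else 0) - (if b = j then 1 else 0))) := fun a b => rfl
      have v1 : X' (i, P.j0) = X (i, P.j0) - x := by
        rw [hv]; simp [hi', hj'.symm]; ring
      have v2 : X' (P.i0, j) = X (P.i0, j) - x := by
        rw [hv]; simp [hi'.symm, hj']; ring
      have v3 : X' (i, j) = X (i, j) + x := by
        rw [hv]; simp [hi', hj']
      have v4 : ∀ a b, a ≠ P.i0 → a ≠ i → X' (a, b) = X (a, b) := by
        intro a b h1 h2; rw [hv]; simp [h1, h2]
      have v5 : ∀ a b, b ≠ P.j0 → b ≠ j → X' (a, b) = X (a, b) := by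
        intro a b h1 h2; rw [hv]; simp [h1, h2]
      have t1 := two_row hB hN hi' hj'
      have t2 := two_col hB hN hi' hj'
      have hb3 : 0 ≤ X' (i, j) ∧ X' (i, j) ≤ P.bx (i, j) := by
        have := (hN (i, j) (not_piv hi' hj')).1
        rw [v3]
        exact ⟨by linarith, le_trans (le_min (by simp only; linarith) (by simp only; linarith))
          (h.hbx1 (i, j))⟩
      have hN' : P.NB X' := by
        rintro ⟨a, b⟩ hab
        by_cases ha : a = P.i0
        · by_cases hb : b = P.j0
          · subst ha; subst hb; exact absurd hp hab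
          · by_cases hb2 : b = j
            · subst ha; subst hb2
              have := (hN _ hab)
              rw [v2]; constructor <;> linarith [this.1, this.2]
            · rw [v5 a b hb hb2]; exact hN _ hab
        · by_cases ha2 : a = i
          · by_cases hb : b = P.j0
            · subst ha2; subst hb
              have := (hN _ hab)
              rw [v1]; constructor <;> linarith [this.1, this.2]
            · by_cases hb2 : b = j
              · subst ha2; subst hb2; exact hb3
              · rw [v5 a b hb hb2]; exact hN _ hab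
          · rw [v4 a b ha ha2]; exact hN _ hab
      have hT' := mem_Tb h hB' hN'
      refine ⟨hT', ?_⟩
      apply G_le le_rfl
      · rintro ⟨a, b⟩ hab _
        by_cases ha : a = P.i0
        · by_cases hb : b = P.j0
          · subst ha; subst hb; exact absurd rfl hab
          · by_cases hb2 : b = j
            · subst ha; subst hb2
              rw [w_one (x := X' (P.i0, b)) (by rw [v2]; linarith) (fun _ => (Tb_le hT' _).2)
                (fun hq => (hN' _ hq).2)]
              exact w_le_one _ _
            · rw [v5 a b hb hb2]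
        · by_cases ha2 : a = i
          · by_cases hb : b = P.j0
            · subst ha2; subst hb
              rw [w_one (x := X' (a, P.j0)) (by rw [v1]; linarith) (fun _ => (Tb_le hT' _).2)
                (fun hq => (hN' _ hq).2)]
              exact w_le_one _ _
            · by_cases hb2 : b = j
              · subst ha2; subst hb2
                rw [w_one (x := X' (a, b)) hb3.1 (fun _ => (Tb_le hT' _).2)
                  (fun hq => (hN' _ hq).2)]
                exact w_le_one _ _
              · rw [v5 a b hb hb2]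
          · rw [v4 a b ha ha2]
      · intro hne; exact absurd rfl hne)
  refine key.trans ?_
  have hc1 : (Fintype.card ({i : R // i ≠ P.i0} × {j : C // j ≠ P.j0}) : ℝ) ≤ P.M := by
    have : Fintype.card ({i : R // i ≠ P.i0} × {j : C // j ≠ P.j0}) ≤ P.M := by
      rw [Fintype.card_prod]
      exact Nat.mul_le_mul (Fintype.card_subtype_le _) (Fintype.card_subtype_le _)
    exact_mod_cast this
  have := mul_le_mul_of_nonneg_right hc1 (H_nonneg (P := P) P.cor (y + x))
  linarith

/-- loss at the corner -/
theorem cor_loss (h : P.Ok) (hp : P.piv P.cor) {X X' : R × C → ℤ} {x : ℤ} (hx : 0 ≤ x)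
    (hq : 4 * P.q * x ≤ P.L P.cor) (hX : X ∈ P.Tb) (hB' : P.Bal X') (hN' : P.NB X')
    (hv : X' P.cor = X P.cor - x) : P.w P.cor (X P.cor) ≤ 2 * P.w P.cor (X' P.cor) := by
  rw [w_piv hp, w_piv hp, hv]
  have h1 := cor_bound h hB' hN'
  have hL := h.hL P.cor
  have hs := s_nonneg h P.cor
  have hM1 : (1 : ℤ) ≤ P.M := by exact_mod_cast P.M_pos
  have h2 := softw_lip (L := P.L P.cor) (q := P.q) (x := X P.cor) (t := x) hx
    (Tb_le hX _).2 (by rw [← hv]; nlinarith [h1.1])
  have h3 : 2 * (P.q : ℝ) * x / P.L P.cor ≤ 1 / 2 := by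
    have hs2 : 0 < P.s P.cor := by
      have hQ0 : 0 ≤ P.Q := h.hQ0
      exact lt_min (lt_of_le_of_lt hQ0 hp.1) (lt_of_le_of_lt hQ0 hp.2.1)
    have hL0 : 0 < P.L P.cor := by
      have : (0 : ℤ) < P.L P.cor := by nlinarith
      exact_mod_cast this
    have hL0' : (0 : ℝ) < P.L P.cor := by exact_mod_cast hL0
    rw [div_le_iff₀ hL0']
    have h5 : 4 * (P.q : ℝ) * x ≤ P.L P.cor := by exact_mod_cast hq
    linarith
  have h4 := softw_nonneg (P.L P.cor) P.q (X P.cor)
  nlinarith

/-- switching for a pivot in the distinguished column -/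
theorem row_switch (h : P.Ok) {i : R} (hi : i ≠ P.i0) (hp : P.piv (i, P.j0)) {y x : ℤ}
    (hy : y ≤ 0) (hx : 0 ≤ x) (hxs : P.M * x ≤ P.s (i, P.j0))
    (hxq : 4 * P.q * x ≤ P.L P.cor) :
    P.H (i, P.j0) y ≤ 2 * P.M * P.H (i, P.j0) (y + x) := by
  have hQ0 : 0 ≤ P.Q := h.hQ0
  have hpc := piv_cor h hp
  have hr : 0 < P.r i := lt_of_le_of_lt hQ0 hp.1
  have hc : 0 < P.c P.j0 := lt_of_le_of_lt hQ0 hp.2.1
  have hs : 0 < P.s (i, P.j0) := lt_min hr hc
  have hsr : P.s (i, P.j0) ≤ P.r i := min_le_left _ _
  have hM1 : (1 : ℤ) ≤ P.M := by exact_mod_cast P.M_pos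
  have key := switch (P := P) (ι := {j : C // j ≠ P.j0})
    (fun k => pat i P.i0 P.j0 k.1) (i, P.j0)
    (by
      rintro ⟨j, hj⟩
      simp [pat, hi, hj.symm]) y x (K' := 2) zero_le_two (by
      intro X hX hXy hG
      have hB := Tb_bal hX
      have hN := NB_of_G hp hG
      have hrow := hB.1 i
      rw [← add_sum_erase univ (fun j => X (i, j)) (mem_univ P.j0)] at hrow
      obtain ⟨j, hj, hxj⟩ := exists_big (univ.erase P.j0) (fun j => X (i, j)) x (P.r i)
        (by linarith)
        (by rw [card_erase_col]; exact lt_of_lt_of_le (small_aux P.cardC_le_M hx hxs hs) hsr)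
      have hj' := ne_of_mem_erase hj
      refine ⟨⟨j, hj'⟩, ?_⟩
      simp only at hxj ⊢
      set X' := X + x • pat i P.i0 P.j0 j with hX'
      have hB' : P.Bal X' := bal_add hB x _ _ _ _
      have hv : ∀ a b, X' (a, b) = X (a, b) + x *
          (((if a = i then 1 else 0) - (if a = P.i0 then 1 else 0)) *
          ((if b = P.j0 then 1 else 0) - (if b = j then 1 else 0))) := fun a b => rfl
      have v1 : X' (i, j) = X (i, j) - x := by
        rw [hv]; simp [hi, hj']; ring
      have v2 : X' P.cor = X P.cor - x := by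
        show X' (P.i0, P.j0) = X (P.i0, P.j0) - x
        rw [hv]; simp [hi.symm, hj'.symm]; ring
      have v3 : X' (P.i0, j) = X (P.i0, j) + x := by
        rw [hv]; simp [hi.symm, hj']
      have v4 : ∀ a b, a ≠ P.i0 → a ≠ i → X' (a, b) = X (a, b) := by
        intro a b h1 h2; rw [hv]; simp [h1, h2]
      have v5 : ∀ a b, b ≠ P.j0 → b ≠ j → X' (a, b) = X (a, b) := by
        intro a b h1 h2; rw [hv]; simp [h1, h2]
      have t2 := two_col hB hN hi hj'
      have hN' : P.NB X' := by
        rintro ⟨a, b⟩ hab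
        by_cases ha : a = P.i0
        · by_cases hb : b = P.j0
          · subst ha; subst hb; exact absurd hpc hab
          · by_cases hb2 : b = j
            · subst ha; subst hb2
              have h1 := (hN _ hab)
              have hcQ : P.c b ≤ P.Q := by
                by_contra hcon
                push Not at hcon
                exact hab ⟨hpc.1, hcon, Or.inl rfl⟩
              have hseq : P.s (P.i0, b) = P.c b := min_eq_right (hcQ.trans hpc.1.le)
              have hbb := h.hbx1 (P.i0, b)
              rw [hseq] at hbb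
              rw [v3]; constructor <;> linarith [h1.1]
            · rw [v5 a b hb hb2]; exact hN _ hab
        · by_cases ha2 : a = i
          · by_cases hb : b = P.j0
            · subst ha2; subst hb; exact absurd hp hab
            · by_cases hb2 : b = j
              · subst ha2; subst hb2
                have := (hN _ hab)
                rw [v1]; constructor <;> linarith [this.1, this.2]
              · rw [v5 a b hb hb2]; exact hN _ hab
          · rw [v4 a b ha ha2]; exact hN _ hab
      have hT' := mem_Tb h hB' hN'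
      refine ⟨hT', ?_⟩
      apply G_le one_le_two
      · rintro ⟨a, b⟩ hab hab2
        by_cases ha : a = P.i0
        · by_cases hb : b = P.j0
          · subst ha; subst hb; exact absurd rfl hab2
          · by_cases hb2 : b = j
            · subst ha; subst hb2
              by_cases hpp : P.piv (P.i0, b)
              · rw [w_piv hpp, w_piv hpp]
                exact softw_mono (by rw [v3]; linarith) (Tb_le hT' _).2
              · rw [w_of_nonpiv hpp (hN' _ hpp)]; exact w_le_one _ _
            · rw [v5 a b hb hb2]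
        · by_cases ha2 : a = i
          · by_cases hb : b = P.j0
            · subst ha2; subst hb; exact absurd rfl hab
            · by_cases hb2 : b = j
              · subst ha2; subst hb2
                rw [w_of_nonpiv (not_piv ha hj') (hN' _ (not_piv ha hj'))]; exact w_le_one _ _
              · rw [v5 a b hb hb2]
          · rw [v4 a b ha ha2]
      · intro _; exact cor_loss h hpc hx hxq hX hB' hN' v2)
  refine key.trans ?_
  have hc1 : (Fintype.card {j : C // j ≠ P.j0} : ℝ) ≤ P.M := by
    have h1 : Fintype.card {j : C // j ≠ P.j0} ≤ Fintype.card C := Fintype.card_subtype_le _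
    have h2 : Fintype.card C ≤ P.M := by exact_mod_cast P.cardC_le_M
    exact_mod_cast h1.trans h2
  have := mul_le_mul_of_nonneg_right hc1 (H_nonneg (P := P) (i, P.j0) (y + x))
  linarith

/-- switching for a pivot in the distinguished row -/
theorem col_switch (h : P.Ok) {j : C} (hj : j ≠ P.j0) (hp : P.piv (P.i0, j)) {y x : ℤ}
    (hy : y ≤ 0) (hx : 0 ≤ x) (hxs : P.M * x ≤ P.s (P.i0, j))
    (hxq : 4 * P.q * x ≤ P.L P.cor) :
    P.H (P.i0, j) y ≤ 2 * P.M * P.H (P.i0, j) (y + x) := by
  have hQ0 : 0 ≤ P.Q := h.hQ0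
  have hpc := piv_cor h hp
  have hr : 0 < P.r P.i0 := lt_of_le_of_lt hQ0 hp.1
  have hc : 0 < P.c j := lt_of_le_of_lt hQ0 hp.2.1
  have hs : 0 < P.s (P.i0, j) := lt_min hr hc
  have hsc : P.s (P.i0, j) ≤ P.c j := min_le_right _ _
  have hM1 : (1 : ℤ) ≤ P.M := by exact_mod_cast P.M_pos
  have key := switch (P := P) (ι := {i : R // i ≠ P.i0})
    (fun k => pat P.i0 k.1 j P.j0) (P.i0, j)
    (by
      rintro ⟨i, hi⟩
      simp [pat, hj, hi.symm]) y x (K' := 2) zero_le_two (by
      intro X hX hXy hG
      have hB := Tb_bal hX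
      have hN := NB_of_G hp hG
      have hcol := hB.2 j
      rw [← add_sum_erase univ (fun i => X (i, j)) (mem_univ P.i0)] at hcol
      obtain ⟨i, hi, hxi⟩ := exists_big (univ.erase P.i0) (fun i => X (i, j)) x (P.c j)
        (by linarith)
        (by rw [card_erase_row]; exact lt_of_lt_of_le (small_aux P.cardR_le_M hx hxs hs) hsc)
      have hi' := ne_of_mem_erase hi
      refine ⟨⟨i, hi'⟩, ?_⟩
      simp only at hxi ⊢
      set X' := X + x • pat P.i0 i j P.j0 with hX'
      have hB' : P.Bal X' := bal_add hB x _ _ _ _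
      have hv : ∀ a b, X' (a, b) = X (a, b) + x *
          (((if a = P.i0 then 1 else 0) - (if a = i then 1 else 0)) *
          ((if b = j then 1 else 0) - (if b = P.j0 then 1 else 0))) := fun a b => rfl
      have v1 : X' (i, j) = X (i, j) - x := by
        rw [hv]; simp [hi', hj]; ring
      have v2 : X' P.cor = X P.cor - x := by
        show X' (P.i0, P.j0) = X (P.i0, P.j0) - x
        rw [hv]; simp [hi'.symm, hj.symm]; ring
      have v3 : X' (i, P.j0) = X (i, P.j0) + x := by
        rw [hv]; simp [hi', hj.symm]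
      have v4 : ∀ a b, a ≠ P.i0 → a ≠ i → X' (a, b) = X (a, b) := by
        intro a b h1 h2; rw [hv]; simp [h1, h2]
      have v5 : ∀ a b, b ≠ P.j0 → b ≠ j → X' (a, b) = X (a, b) := by
        intro a b h1 h2; rw [hv]; simp [h1, h2]
      have t2 := two_row hB hN hi' hj
      have hN' : P.NB X' := by
        rintro ⟨a, b⟩ hab
        by_cases hb : b = P.j0
        · by_cases ha : a = P.i0
          · subst ha; subst hb; exact absurd hpc hab
          · by_cases ha2 : a = i
            · subst ha2; subst hb
              have h1 := (hN _ hab)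
              have hrQ : P.r a ≤ P.Q := by
                by_contra hcon
                push Not at hcon
                exact hab ⟨hcon, hpc.2.1, Or.inr rfl⟩
              have hseq : P.s (a, P.j0) = P.r a := min_eq_left (hrQ.trans hpc.2.1.le)
              have hbb := h.hbx1 (a, P.j0)
              rw [hseq] at hbb
              rw [v3]; constructor <;> linarith [h1.1]
            · rw [v4 a b ha ha2]; exact hN _ hab
        · by_cases hb2 : b = j
          · by_cases ha : a = P.i0
            · subst ha; subst hb2; exact absurd hp hab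
            · by_cases ha2 : a = i
              · subst ha2; subst hb2
                have := (hN _ hab)
                rw [v1]; constructor <;> linarith [this.1, this.2]
              · rw [v4 a b ha ha2]; exact hN _ hab
          · rw [v5 a b hb hb2]; exact hN _ hab
      have hT' := mem_Tb h hB' hN'
      refine ⟨hT', ?_⟩
      apply G_le one_le_two
      · rintro ⟨a, b⟩ hab hab2
        by_cases hb : b = P.j0
        · by_cases ha : a = P.i0
          · subst ha; subst hb; exact absurd rfl hab2
          · by_cases ha2 : a = i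
            · subst ha2; subst hb
              by_cases hpp : P.piv (a, P.j0)
              · rw [w_piv hpp, w_piv hpp]
                exact softw_mono (by rw [v3]; linarith) (Tb_le hT' _).2
              · rw [w_of_nonpiv hpp (hN' _ hpp)]; exact w_le_one _ _
            · rw [v4 a b ha ha2]
        · by_cases hb2 : b = j
          · by_cases ha : a = P.i0
            · subst ha; subst hb2; exact absurd rfl hab
            · by_cases ha2 : a = i
              · subst ha2; subst hb2
                rw [w_of_nonpiv (not_piv hi' hb) (hN' _ (not_piv hi' hb))]; exact w_le_one _ _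
              · rw [v4 a b ha ha2]
          · rw [v5 a b hb hb2]
      · intro _; exact cor_loss h hpc hx hxq hX hB' hN' v2)
  refine key.trans ?_
  have hc1 : (Fintype.card {i : R // i ≠ P.i0} : ℝ) ≤ P.M := by
    have h1 : Fintype.card {i : R // i ≠ P.i0} ≤ Fintype.card R := Fintype.card_subtype_le _
    have h2 : Fintype.card R ≤ P.M := by exact_mod_cast P.cardR_le_M
    exact_mod_cast h1.trans h2
  have := mul_le_mul_of_nonneg_right hc1 (H_nonneg (P := P) (P.i0, j) (y + x))
  linarith

end Par

end P328R.Soft
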