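import Vale.Agent.P328R.Soft3

/-!
P328R, section 6 preliminaries (helper6): the soft law gives probability at least `1/2` to the
event that all pivots are nonnegative.
-/

namespace P328R.Soft

open Finset

set_option linter.unusedSectionVars false

namespace Par

variable {R C : Type} [Fintype R] [Fintype C] [DecidableEq R] [DecidableEq C] {P : Par R C}

theorem neg_fiber {e : R × C} (hp : P.piv e) :
    ∑ X ∈ P.Tb with X e < 0, P.pw X =
      ∑ y ∈ Icc (-(P.L e : ℤ)) (-1), softw (P.L e) P.q y * P.H e y := by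
  classical
  have h1 : ∀ X ∈ P.Tb.filter (fun X => X e < 0), X e ∈ Icc (-(P.L e : ℤ)) (-1) := by
    intro X hX
    obtain ⟨hX1, hX2⟩ := mem_filter.1 hX
    have := Tb_le hX1 e
    rw [mem_Icc]; constructor <;> omega
  rw [← sum_fiberwise_of_maps_to h1]
  refine sum_congr rfl fun y hy => ?_
  have hy' := mem_Icc.1 hy
  unfold H
  rw [mul_sum, filter_filter]
  have h2 : P.Tb.filter (fun X => X e < 0 ∧ X e = y) = P.Tb.filter (fun X => X e = y) := by
    ext X
    simp only [mem_filter]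
    constructor
    · rintro ⟨a, b, c⟩; exact ⟨a, c⟩
    · rintro ⟨a, c⟩; exact ⟨a, by omega, c⟩
  rw [h2]
  refine sum_congr rfl fun X hX => ?_
  rw [pw_eq e X, w_piv hp, (mem_filter.1 hX).2]

theorem nonneg_fiber {e : R × C} (hp : P.piv e) :
    ∑ X ∈ P.Tb with ¬ X e < 0, P.pw X = ∑ y ∈ Icc (0 : ℤ) (P.L e), P.H e y := by
  classical
  have h1 : ∀ X ∈ P.Tb.filter (fun X => ¬ X e < 0), X e ∈ Icc (0 : ℤ) (P.L e) := by
    intro X hX
    obtain ⟨hX1, hX2⟩ := mem_filter.1 hX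
    have := Tb_le hX1 e
    rw [mem_Icc]; constructor <;> omega
  rw [← sum_fiberwise_of_maps_to h1]
  refine sum_congr rfl fun y hy => ?_
  have hy' := mem_Icc.1 hy
  unfold H
  rw [filter_filter]
  have h2 : P.Tb.filter (fun X => ¬ X e < 0 ∧ X e = y) = P.Tb.filter (fun X => X e = y) := by
    ext X
    simp only [mem_filter]
    constructor
    · rintro ⟨a, b, c⟩; exact ⟨a, c⟩
    · rintro ⟨a, c⟩; exact ⟨a, by omega, c⟩
  rw [h2]
  refine sum_congr rfl fun X hX => ?_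
  rw [pw_eq e X, w_piv hp, (mem_filter.1 hX).2, softw_of_nonneg hy'.1 hy'.2, one_mul]

/-- from a switching inequality to a tail bound for one pivot -/
theorem pivot_tail {e : R × C} (hp : P.piv e) {K : ℝ} (hK : 0 ≤ K) {x1 x2 : ℕ}
    (h1 : 1 ≤ x2) (h2 : x2 ≤ x1) (h3 : x1 ≤ P.L e)
    (hH : ∀ y : ℤ, y ≤ 0 → ∀ x : ℤ, 0 ≤ x → x ≤ x1 → P.H e y ≤ K * P.H e (y + x))
    {a : ℝ} (ha0 : 0 ≤ a) (hA : K * P.L e ≤ a * (P.q * x2))
    (hB : x2 * K ≤ a * (x1 - x2 + 1)) :
    ∑ X ∈ P.Tb with X e < 0, P.pw X ≤ 2 * a * ∑ X ∈ P.Tb, P.pw X := by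
  have key := tail (L := P.L e) (q := P.q) (H := P.H e) (H_nonneg e) hK h1 h2 h3 hH ha0 hA hB
  rw [← neg_fiber hp, ← nonneg_fiber hp] at key
  have := sum_filter_add_sum_filter_not P.Tb (fun X => X e < 0) P.pw
  rw [this] at key
  exact key

/-- parameters good for the tail bound `1/k`: the length is at most `A s` at the pivots
different from the corner and between `Lam s` and `2 Lam s` at the corner -/
structure Tail (P : Par R C) (k A Lam : ℕ) : Prop where
  hk : 1 ≤ k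
  hA0 : 1 ≤ A
  hA : ∀ e, P.piv e → e ≠ P.cor → (P.L e : ℤ) ≤ A * P.s e
  hC1 : Lam * P.s P.cor ≤ (P.L P.cor : ℤ)
  hC2 : (P.L P.cor : ℤ) ≤ 2 * Lam * P.s P.cor
  hLam : 2 ^ 13 * P.M ^ 4 * k ^ 2 * A ≤ Lam
  hq : 2 ^ 8 * P.M ^ 3 * k ^ 2 * Lam ≤ P.q
  hQ : 2 ^ 8 * (P.M : ℤ) ^ 2 * k * P.q ≤ Lam * P.Q

/-- floor arithmetic: `x / d ≥ x / (2 d)` once `x ≥ d` -/
theorem floor_aux {x d : ℕ} (hd : 0 < d) (hx : d ≤ x) :
    1 ≤ x / d ∧ d * (x / d) ≤ x ∧ x ≤ 2 * d * (x / d) := by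
  have h1 : 1 ≤ x / d := (Nat.one_le_div_iff hd).2 hx
  have h2 : d * (x / d) ≤ x := Nat.mul_div_le x d
  have h3 : x < d * (x / d + 1) := Nat.lt_mul_div_succ x hd
  refine ⟨h1, h2, ?_⟩
  have h4 : d * 1 ≤ d * (x / d) := Nat.mul_le_mul_left d h1
  have h5 : d * (x / d + 1) = d * (x / d) + d := by ring
  have h6 : 2 * d * (x / d) = d * (x / d) + d * (x / d) := by ring
  omega

/-- size of `s` at a pivot -/
theorem s_big {k A Lam : ℕ} (t : P.Tail k A Lam) {e : R × C} (hp : P.piv e) {s : ℕ}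
    (hs : P.s e = s) : 2 ^ 8 * P.M ^ 2 * k * P.q ≤ Lam * s := by
  have h1 : P.Q ≤ (s : ℤ) := by rw [← hs]; exact (lt_min hp.1 hp.2.1).le
  have h2 : (Lam : ℤ) * P.Q ≤ Lam * s := mul_le_mul_of_nonneg_left h1 (by positivity)
  have h3 := t.hQ.trans h2
  exact_mod_cast h3

/-- corner -/
theorem cor_tail {k A Lam : ℕ} (t : P.Tail k A Lam) (h : P.Ok) (hp : P.piv P.cor) :
    ∑ X ∈ P.Tb with X P.cor < 0, P.pw X ≤ 2 * (1 / (4 * k)) * ∑ X ∈ P.Tb, P.pw X := by
  have hM1 : 1 ≤ P.M := P.M_pos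
  have hM1' : (1 : ℝ) ≤ P.M := by exact_mod_cast hM1
  have hk1 : 1 ≤ k := t.hk
  have hk1' : (1 : ℝ) ≤ k := by exact_mod_cast hk1
  set M : ℕ := P.M with hM
  have hL1 := t.hC1
  have hL2 := t.hC2
  have hs := s_nonneg h P.cor
  obtain ⟨s, hs'⟩ := Int.eq_ofNat_of_zero_le hs
  have hbig := s_big t hp hs'
  rw [hs'] at hL1 hL2
  have hLn1 : Lam * s ≤ P.L P.cor := by exact_mod_cast hL1
  have hLn2 : P.L P.cor ≤ 2 * Lam * s := by exact_mod_cast hL2
  have hA0 := t.hA0
  have hLam := t.hLam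
  have hq := t.hq
  rw [← hM] at hLam hq hbig
  have hMpos : 0 < M := hM1
  have hLampos : 0 < Lam := lt_of_lt_of_le (by positivity) hLam
  -- s ≥ 2^16 M^5 k^3
  have hs2 : 2 ^ 16 * M ^ 5 * k ^ 3 ≤ s := by
    have e : Lam * (2 ^ 16 * M ^ 5 * k ^ 3) ≤ Lam * s := by
      calc Lam * (2 ^ 16 * M ^ 5 * k ^ 3) = 2 ^ 8 * M ^ 2 * k * (2 ^ 8 * M ^ 3 * k ^ 2 * Lam) := by
            ring
        _ ≤ 2 ^ 8 * M ^ 2 * k * P.q := Nat.mul_le_mul_left _ hq
        _ ≤ Lam * s := hbig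
    exact Nat.le_of_mul_le_mul_left e hLampos
  have r5 : 2 ^ 16 * (M : ℝ) ^ 5 * k ^ 3 ≤ s := by exact_mod_cast hs2
  have kk : (k : ℝ) ≤ k ^ 3 := by
    calc (k : ℝ) = k ^ 1 := (pow_one _).symm
      _ ≤ k ^ 3 := pow_le_pow_right₀ hk1' (by norm_num)
  have m25 : (M : ℝ) ^ 2 ≤ M ^ 5 := pow_le_pow_right₀ hM1' (by norm_num)
  have r7 : (16 : ℝ) * M ^ 2 * k ≤ s := by
    have : (M : ℝ) ^ 2 * k ≤ M ^ 5 * k ^ 3 := mul_le_mul m25 kk (by positivity) (by positivity)
    have h0 : (0 : ℝ) ≤ M ^ 5 * k ^ 3 := by positivity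
    linarith
  have r7' : M ≤ s := by
    have hmk : (M : ℝ) * 1 ≤ M * k := mul_le_mul_of_nonneg_left hk1' (by positivity)
    have hmm : (M : ℝ) * k ≤ M ^ 2 * k := by nlinarith
    have : (M : ℝ) ≤ s := by linarith
    exact_mod_cast this
  obtain ⟨-, a1, a2⟩ := floor_aux hMpos r7'
  set x1 : ℕ := s / M with hx1
  have b1 : (M : ℝ) * x1 ≤ s := by exact_mod_cast a1
  have b2 : (s : ℝ) ≤ 2 * M * x1 := by exact_mod_cast a2
  have r8 : 8 * M * k ≤ x1 := by
    have : (8 : ℝ) * M * k ≤ x1 := by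
      have h5 : (2 * (M : ℝ)) * (8 * M * k) ≤ (2 * M) * x1 := by nlinarith
      exact le_of_mul_le_mul_left h5 (by positivity)
    exact_mod_cast this
  obtain ⟨hx2p, a3, a4⟩ := floor_aux (x := x1) (d := 8 * M * k) (by positivity) r8
  set x2 : ℕ := x1 / (8 * M * k) with hx2
  have b3 : 8 * (M : ℝ) * k * x2 ≤ x1 := by exact_mod_cast a3
  have b4 : (x1 : ℝ) ≤ 2 * (8 * M * k) * x2 := by exact_mod_cast a4
  have hx2p' : (1 : ℝ) ≤ x2 := by exact_mod_cast hx2p
  have r9 : 2 ^ 8 * (M : ℝ) ^ 3 * k ^ 2 * Lam ≤ P.q := by exact_mod_cast hq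
  have r10 : (P.L P.cor : ℝ) ≤ 2 * Lam * s := by exact_mod_cast hLn2
  refine pivot_tail hp (K := M) (by positivity) (x1 := x1) (x2 := x2) hx2p ?_ ?_ ?_
    (by positivity) ?_ ?_
  · have : x2 ≤ 8 * M * k * x2 := Nat.le_mul_of_pos_left _ (by positivity)
    exact this.trans a3
  · have h5 : x1 ≤ M * x1 := Nat.le_mul_of_pos_left _ hMpos
    have h6 : s ≤ Lam * s := Nat.le_mul_of_pos_left _ hLampos
    exact ((h5.trans a1).trans h6).trans hLn1
  · intro y hy x hx0 hxx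
    apply cor_switch h hp hy hx0
    rw [hs']
    have : (M : ℤ) * x ≤ M * x1 := mul_le_mul_of_nonneg_left hxx (by positivity)
    have h5 : (M : ℤ) * x1 ≤ s := by exact_mod_cast a1
    exact this.trans h5
  · -- M * L ≤ 1/(4k) (q x2)
    rw [one_div_mul_eq_div, le_div_iff₀ (by positivity)]
    have c1 : (s : ℝ) ≤ 32 * M ^ 2 * k * x2 := by
      have := mul_le_mul_of_nonneg_left b4 (by positivity : (0 : ℝ) ≤ 2 * M)
      nlinarith
    calc (M : ℝ) * P.L P.cor * (4 * k) = (4 * M * k) * P.L P.cor := by ring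
      _ ≤ (4 * M * k) * (2 * Lam * s) := mul_le_mul_of_nonneg_left r10 (by positivity)
      _ = (8 * M * Lam * k) * s := by ring
      _ ≤ (8 * M * Lam * k) * (32 * M ^ 2 * k * x2) :=
          mul_le_mul_of_nonneg_left c1 (by positivity)
      _ = (2 ^ 8 * (M : ℝ) ^ 3 * k ^ 2 * Lam) * x2 := by ring
      _ ≤ P.q * x2 := mul_le_mul_of_nonneg_right r9 (by positivity)
  · -- x2 M ≤ 1/(4k) (x1 - x2 + 1)
    rw [one_div_mul_eq_div, le_div_iff₀ (by positivity)]
    have c1 : (x2 : ℝ) ≤ (M * k) * x2 := by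
      have : (1 : ℝ) ≤ M * k := by nlinarith
      nlinarith
    nlinarith

/-- arithmetic for the other pivots -/
theorem other_tail {k A Lam : ℕ} (t : P.Tail k A Lam) (h : P.Ok) {e : R × C} (hp : P.piv e)
    (hne : e ≠ P.cor)
    (hsw : ∀ y x : ℤ, y ≤ 0 → 0 ≤ x → P.M * x ≤ P.s e → 4 * P.q * x ≤ P.L P.cor →
      P.H e y ≤ 2 * P.M * P.H e (y + x)) :
    ∑ X ∈ P.Tb with X e < 0, P.pw X ≤ 2 * (1 / (8 * P.M * k)) * ∑ X ∈ P.Tb, P.pw X := by
  have hM1 : 1 ≤ P.M := P.M_pos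
  have hM1' : (1 : ℝ) ≤ P.M := by exact_mod_cast hM1
  have hk1 : 1 ≤ k := t.hk
  have hk1' : (1 : ℝ) ≤ k := by exact_mod_cast hk1
  set M : ℕ := P.M with hM
  have hL := t.hA e hp hne
  have hL4 := h.hL e
  have hs := s_nonneg h e
  obtain ⟨s, hs'⟩ := Int.eq_ofNat_of_zero_le hs
  have hbig := s_big t hp hs'
  have hcors : (Lam : ℤ) * s ≤ P.L P.cor := by
    rw [← hs']
    exact (mul_le_mul_of_nonneg_left (s_le_cor h e) (by positivity)).trans t.hC1
  rw [hs'] at hL hL4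
  have hLn : P.L e ≤ A * s := by exact_mod_cast hL
  have hLn4 : 4 * M * s ≤ P.L e := by exact_mod_cast hL4
  have hA0 := t.hA0
  have hLam := t.hLam
  have hq := t.hq
  rw [← hM] at hLam hq hbig
  have hMpos : 0 < M := hM1
  have hLampos : 0 < Lam := lt_of_lt_of_le (by positivity) hLam
  have hqpos : 0 < P.q := lt_of_lt_of_le (by positivity) hq
  have rq0 : (0 : ℝ) < P.q := by exact_mod_cast hqpos
  have r5 : 2 ^ 8 * (M : ℝ) ^ 2 * k * P.q ≤ Lam * s := by exact_mod_cast hbig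
  have r6 : 2 ^ 13 * (M : ℝ) ^ 4 * k ^ 2 * A ≤ Lam := by exact_mod_cast hLam
  have r7 : (P.L e : ℝ) ≤ A * s := by exact_mod_cast hLn
  have m12 : (1 : ℝ) ≤ M ^ 2 * k := by
    have : (1 : ℝ) ≤ M ^ 2 := one_le_pow₀ hM1'
    nlinarith
  -- x1 = Lam s / (4 q)
  have d1 : 4 * P.q ≤ Lam * s := by
    have : (4 * (P.q : ℝ)) ≤ Lam * s := by nlinarith
    exact_mod_cast this
  obtain ⟨-, a1, a2⟩ := floor_aux (x := Lam * s) (d := 4 * P.q) (by positivity) d1
  set x1 : ℕ := Lam * s / (4 * P.q) with hx1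
  have b1 : 4 * (P.q : ℝ) * x1 ≤ Lam * s := by exact_mod_cast a1
  have b2 : (Lam : ℝ) * s ≤ 2 * (4 * P.q) * x1 := by exact_mod_cast a2
  have r8 : 32 * M ^ 2 * k ≤ x1 := by
    have : (32 : ℝ) * M ^ 2 * k ≤ x1 := by
      have h5 : (8 * (P.q : ℝ)) * (32 * M ^ 2 * k) ≤ (8 * P.q) * x1 := by nlinarith
      exact le_of_mul_le_mul_left h5 (by positivity)
    exact_mod_cast this
  obtain ⟨hx2p, a3, a4⟩ := floor_aux (x := x1) (d := 32 * M ^ 2 * k) (by positivity) r8
  set x2 : ℕ := x1 / (32 * M ^ 2 * k) with hx2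
  have b3 : 32 * (M : ℝ) ^ 2 * k * x2 ≤ x1 := by exact_mod_cast a3
  have b4 : (x1 : ℝ) ≤ 2 * (32 * M ^ 2 * k) * x2 := by exact_mod_cast a4
  have hx2p' : (1 : ℝ) ≤ x2 := by exact_mod_cast hx2p
  -- M x1 ≤ s
  have hMx1 : M * x1 ≤ s := by
    have c1 : Lam * (M * x1) ≤ Lam * s := by
      calc Lam * (M * x1) = (M * Lam) * x1 := by ring
        _ ≤ (4 * P.q) * x1 := by
          apply Nat.mul_le_mul_right
          calc M * Lam ≤ 2 ^ 8 * M ^ 3 * k ^ 2 * Lam := by
                apply Nat.mul_le_mul_right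
                have e1 : M ≤ M ^ 3 := Nat.le_self_pow (by norm_num) M
                have e2 : M ^ 3 ≤ 2 ^ 8 * M ^ 3 * k ^ 2 := by
                  calc M ^ 3 = 1 * M ^ 3 * 1 := by ring
                    _ ≤ 2 ^ 8 * M ^ 3 * k ^ 2 :=
                      Nat.mul_le_mul (Nat.mul_le_mul_right _ (by norm_num))
                        (Nat.one_le_pow _ _ hk1)
                exact e1.trans e2
            _ ≤ P.q := hq
            _ ≤ 4 * P.q := by omega
        _ ≤ Lam * s := a1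
    exact Nat.le_of_mul_le_mul_left c1 hLampos
  refine pivot_tail hp (K := 2 * M) (by positivity) (x1 := x1) (x2 := x2) hx2p ?_ ?_ ?_
    (by positivity) ?_ ?_
  · have : x2 ≤ 32 * M ^ 2 * k * x2 := Nat.le_mul_of_pos_left _ (by positivity)
    exact this.trans a3
  · have h5 : x1 ≤ M * x1 := Nat.le_mul_of_pos_left _ hMpos
    have h6 : s ≤ 4 * M * s := Nat.le_mul_of_pos_left _ (by positivity)
    exact ((h5.trans hMx1).trans h6).trans hLn4
  · intro y hy x hx0 hxx
    apply hsw y x hy hx0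
    · rw [hs']
      have : (M : ℤ) * x ≤ M * x1 := mul_le_mul_of_nonneg_left hxx (by positivity)
      have h5 : (M : ℤ) * x1 ≤ s := by exact_mod_cast hMx1
      exact this.trans h5
    · have : 4 * (P.q : ℤ) * x ≤ 4 * P.q * x1 := mul_le_mul_of_nonneg_left hxx (by positivity)
      have h5 : 4 * (P.q : ℤ) * x1 ≤ Lam * s := by exact_mod_cast a1
      exact (this.trans h5).trans hcors
  · rw [one_div_mul_eq_div, le_div_iff₀ (by positivity)]
    -- 2 M (A s) (8 M k) ≤ q x2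
    have c1 : (Lam : ℝ) * s ≤ 512 * M ^ 2 * k * (P.q * x2) := by
      have := mul_le_mul_of_nonneg_left b4 (by positivity : (0 : ℝ) ≤ 8 * P.q)
      nlinarith
    have c2 : (Lam : ℝ) * (2 * M * (A * s) * (8 * M * k)) ≤ Lam * (P.q * x2) := by
      calc (Lam : ℝ) * (2 * M * (A * s) * (8 * M * k)) =
            (16 * M ^ 2 * A * k) * (Lam * s) := by ring
        _ ≤ (16 * M ^ 2 * A * k) * (512 * M ^ 2 * k * (P.q * x2)) :=
            mul_le_mul_of_nonneg_left c1 (by positivity)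
        _ = (2 ^ 13 * (M : ℝ) ^ 4 * k ^ 2 * A) * (P.q * x2) := by ring
        _ ≤ Lam * (P.q * x2) := mul_le_mul_of_nonneg_right r6 (by positivity)
    have c3 : 2 * (M : ℝ) * P.L e * (8 * M * k) ≤ 2 * M * (A * s) * (8 * M * k) :=
      mul_le_mul_of_nonneg_right (mul_le_mul_of_nonneg_left r7 (by positivity)) (by positivity)
    exact c3.trans (le_of_mul_le_mul_left c2 (by exact_mod_cast hLampos))
  · rw [one_div_mul_eq_div, le_div_iff₀ (by positivity)]
    have c1 : (x2 : ℝ) ≤ (M ^ 2 * k) * x2 := by nlinarith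
    nlinarith

/-- number of pivots -/
theorem card_piv_le : (univ.filter fun e : R × C => P.piv e ∧ e ≠ P.cor).card ≤ 2 * P.M := by
  classical
  have h1 : (univ.filter fun e : R × C => P.piv e ∧ e ≠ P.cor) ⊆
      (univ.image fun i : R => (i, P.j0)) ∪ (univ.image fun j : C => (P.i0, j)) := by
    rintro ⟨i, j⟩ he
    obtain ⟨-, hp, -⟩ := mem_filter.1 he
    rw [mem_union, mem_image, mem_image]
    rcases hp.2.2 with h | h
    · right; exact ⟨j, mem_univ _, by simp only at h; rw [h]⟩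
    · left; exact ⟨i, mem_univ _, by simp only at h; rw [h]⟩
  have h2 := card_le_card h1
  have h3 := card_union_le (univ.image fun i : R => (i, P.j0)) (univ.image fun j : C => (P.i0, j))
  have h4 : (univ.image fun i : R => (i, P.j0)).card ≤ Fintype.card R := card_image_le
  have h5 : (univ.image fun j : C => (P.i0, j)).card ≤ Fintype.card C := card_image_le
  have h6 : Fintype.card R ≤ P.M := by exact_mod_cast P.cardR_le_M
  have h7 : Fintype.card C ≤ P.M := by exact_mod_cast P.cardC_le_M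
  omega

/-- the soft law gives probability at most `1/k` to negative pivots -/
theorem neg_le {k A Lam : ℕ} (t : P.Tail k A Lam) (h : P.Ok) :
    ∑ X ∈ P.Tb with (∃ e, P.piv e ∧ X e < 0), P.pw X ≤ 1 / k * ∑ X ∈ P.Tb, P.pw X := by
  classical
  set Z := ∑ X ∈ P.Tb, P.pw X with hZ
  have hZ0 : 0 ≤ Z := sum_nonneg fun X _ => pw_nonneg X
  -- union bound
  have h1 : ∑ X ∈ P.Tb with (∃ e, P.piv e ∧ X e < 0), P.pw X ≤
      ∑ e ∈ univ.filter (fun e => P.piv e), ∑ X ∈ P.Tb with X e < 0, P.pw X := by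
    have h2 : ∀ X ∈ P.Tb.filter (fun X => ∃ e, P.piv e ∧ X e < 0), P.pw X ≤
        ∑ e ∈ univ.filter (fun e => P.piv e), if X e < 0 then P.pw X else 0 := by
      intro X hX
      obtain ⟨e, he, hXe⟩ := (mem_filter.1 hX).2
      have h3 := single_le_sum (f := fun e => if X e < 0 then P.pw X else 0)
        (s := univ.filter (fun e => P.piv e)) (fun e _ => by
          split_ifs
          · exact pw_nonneg X
          · exact le_rfl) (mem_filter.2 ⟨mem_univ e, he⟩)
      simp only [if_pos hXe] at h3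
      exact h3
    refine (sum_le_sum h2).trans ?_
    have h4 : ∑ X ∈ P.Tb with (∃ e, P.piv e ∧ X e < 0),
        ∑ e ∈ univ.filter (fun e => P.piv e), (if X e < 0 then P.pw X else 0) ≤
        ∑ X ∈ P.Tb, ∑ e ∈ univ.filter (fun e => P.piv e), (if X e < 0 then P.pw X else 0) := by
      apply sum_le_sum_of_subset_of_nonneg (filter_subset _ _)
      intro X _ _
      apply sum_nonneg
      intro e _
      split_ifs
      · exact pw_nonneg X
      · exact le_rfl
    refine h4.trans ?_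
    rw [sum_comm]
    apply le_of_eq
    refine sum_congr rfl fun e _ => ?_
    rw [sum_filter]
  refine h1.trans ?_
  -- no pivots
  by_cases hpc : P.piv P.cor
  swap
  · have : univ.filter (fun e => P.piv e) = ∅ := by
      ext e
      simp only [mem_filter, mem_univ, true_and, notMem_empty, iff_false]
      exact fun he => hpc (piv_cor h he)
    rw [this, sum_empty]; positivity
  have hsplit : univ.filter (fun e => P.piv e) =
      insert P.cor (univ.filter fun e : R × C => P.piv e ∧ e ≠ P.cor) := by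
    ext e
    simp only [mem_filter, mem_univ, true_and, mem_insert]
    constructor
    · intro he
      by_cases hec : e = P.cor
      · exact Or.inl hec
      · exact Or.inr ⟨he, hec⟩
    · rintro (he | he)
      · rw [he]; exact hpc
      · exact he.1
  rw [hsplit, sum_insert (by simp)]
  have hc := cor_tail t h hpc
  have hM1 : (1 : ℝ) ≤ P.M := by exact_mod_cast P.M_pos
  have ho : ∑ e ∈ univ.filter (fun e : R × C => P.piv e ∧ e ≠ P.cor),
      ∑ X ∈ P.Tb with X e < 0, P.pw X ≤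
      ∑ _e ∈ univ.filter (fun e : R × C => P.piv e ∧ e ≠ P.cor),
        2 * (1 / (8 * P.M * k)) * Z := by
    refine sum_le_sum fun e he => ?_
    obtain ⟨-, hp, hne⟩ := mem_filter.1 he
    apply other_tail t h hp hne
    obtain ⟨i, j⟩ := e
    intro y x hy hx hxs hxq
    by_cases hi : i = P.i0
    · subst hi
      have hj : j ≠ P.j0 := fun hj => hne (by subst hj; rfl)
      exact col_switch h hj hp hy hx hxs hxq
    · have hj : j = P.j0 := by
        rcases hp.2.2 with h | h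
        · exact absurd h hi
        · exact h
      subst hj
      exact row_switch h hi hp hy hx hxs hxq
  rw [sum_const, nsmul_eq_mul] at ho
  have hcard : ((univ.filter fun e : R × C => P.piv e ∧ e ≠ P.cor).card : ℝ) ≤ 2 * P.M := by
    exact_mod_cast card_piv_le (P := P)
  have h5 : ((univ.filter fun e : R × C => P.piv e ∧ e ≠ P.cor).card : ℝ) *
      (2 * (1 / (8 * P.M * k)) * Z) ≤ 2 * P.M * (2 * (1 / (8 * P.M * k)) * Z) :=
    mul_le_mul_of_nonneg_right hcard (by positivity)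
  have hk1 : (1 : ℝ) ≤ k := by exact_mod_cast t.hk
  have h6 : 2 * (P.M : ℝ) * (2 * (1 / (8 * P.M * k)) * Z) = 1 / 2 * (1 / k * Z) := by
    field_simp; ring
  have h7 : 2 * (1 / (4 * (k : ℝ))) * Z = 1 / 2 * (1 / k * Z) := by
    field_simp; ring
  linarith

end Par

end P328R.Soft
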