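import Vale.Agent.P328R.Soft4

/-!
P328R, section 6 preliminaries (helper6): tables, the corner ratio, and the soft law restricted
to nonnegative pivots.
-/

namespace P328R.Soft

open Finset

set_option linter.unusedSectionVars false

variable {R C : Type} [Fintype R] [Fintype C] [DecidableEq R] [DecidableEq C]

/-- contingency tables with margins `r`, `c` (integer valued) -/
noncomputable def Om (r : R → ℤ) (c : C → ℤ) : Finset (R × C → ℤ) :=
  (Fintype.piFinset fun e => Icc 0 (min (r e.1) (c e.2))).filter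
    fun X => (∀ i, ∑ j, X (i, j) = r i) ∧ ∀ j, ∑ i, X (i, j) = c j

theorem mem_Om {r : R → ℤ} {c : C → ℤ} {X : R × C → ℤ} :
    X ∈ Om r c ↔ (∀ e, 0 ≤ X e) ∧ (∀ i, ∑ j, X (i, j) = r i) ∧ ∀ j, ∑ i, X (i, j) = c j := by
  unfold Om
  rw [mem_filter, Fintype.mem_piFinset]
  constructor
  · rintro ⟨h1, h2⟩
    exact ⟨fun e => (mem_Icc.1 (h1 e)).1, h2⟩
  · rintro ⟨h1, h2⟩
    refine ⟨fun e => ?_, h2⟩
    rw [mem_Icc]
    obtain ⟨i, j⟩ := e
    refine ⟨h1 _, le_min ?_ ?_⟩
    · have := single_le_sum (f := fun j => X (i, j)) (fun j _ => h1 (i, j)) (mem_univ j)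
      rw [h2.1 i] at this; exact this
    · have := single_le_sum (f := fun i => X (i, j)) (fun i _ => h1 (i, j)) (mem_univ i)
      rw [h2.2 j] at this; exact this

/-- **Corner ratio.** A uniform table has the entry at `(i0, j0)` at least `a` with probability at
least `1/(mn)`, as soon as `m (a - 1) < c j0` and `n (a - 1) < r i0`. -/
theorem corner_ratio {r : R → ℤ} {c : C → ℤ} (i0 : R) (j0 : C) {a : ℤ} (ha : 0 ≤ a)
    (hr : Fintype.card C * (a - 1) < r i0) (hc : Fintype.card R * (a - 1) < c j0) :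
    (Om r c).card ≤ Fintype.card R * Fintype.card C *
      ((Om r c).filter fun X => a ≤ X (i0, j0)).card := by
  classical
  have hRne : Nonempty R := ⟨i0⟩
  have hCne : Nonempty C := ⟨j0⟩
  set A := (Om r c).filter fun X => a ≤ X (i0, j0) with hA
  -- every table is, up to a switching, in `A`
  have hex : ∀ X ∈ Om r c, ∃ p : R × C, X + a • (if p.1 = i0 ∨ p.2 = j0 then 0 else
      Par.pat i0 p.1 j0 p.2) ∈ A := by
    intro X hX
    obtain ⟨hn, hrow, hcol⟩ := mem_Om.1 hX
    have e1 : ∃ i, a ≤ X (i, j0) := by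
      by_contra hcon
      push Not at hcon
      have h1 : ∑ i, X (i, j0) ≤ ∑ _i : R, (a - 1) :=
        sum_le_sum fun i _ => Int.le_sub_one_of_lt (hcon i)
      rw [hcol j0, sum_const, card_univ, nsmul_eq_mul] at h1
      linarith
    have e2 : ∃ j, a ≤ X (i0, j) := by
      by_contra hcon
      push Not at hcon
      have h1 : ∑ j, X (i0, j) ≤ ∑ _j : C, (a - 1) :=
        sum_le_sum fun j _ => Int.le_sub_one_of_lt (hcon j)
      rw [hrow i0, sum_const, card_univ, nsmul_eq_mul] at h1
      linarith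
    obtain ⟨i, hi⟩ := e1
    obtain ⟨j, hj⟩ := e2
    by_cases hi0 : i = i0
    · refine ⟨(i0, j0), ?_⟩
      rw [if_pos (Or.inl rfl), smul_zero, add_zero, hA, mem_filter]
      exact ⟨hX, by rw [← hi0]; exact hi⟩
    by_cases hj0 : j = j0
    · refine ⟨(i0, j0), ?_⟩
      rw [if_pos (Or.inl rfl), smul_zero, add_zero, hA, mem_filter]
      exact ⟨hX, by rw [← hj0]; exact hj⟩
    refine ⟨(i, j), ?_⟩
    rw [if_neg (by rintro (h | h); exacts [hi0 h, hj0 h]), hA, mem_filter, mem_Om]
    have hv : ∀ a' b', (X + a • Par.pat i0 i j0 j) (a', b') = X (a', b') + a *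
          (((if a' = i0 then 1 else 0) - (if a' = i then 1 else 0)) *
          ((if b' = j0 then 1 else 0) - (if b' = j then 1 else 0))) := fun a' b' => rfl
    refine ⟨⟨?_, ?_, ?_⟩, ?_⟩
    · rintro ⟨a', b'⟩
      rw [hv]
      have h0 := hn (a', b')
      by_cases h1 : a' = i0
      · subst h1
        by_cases h2 : b' = j0
        · subst h2; simp [Ne.symm hi0, Ne.symm hj0]; linarith
        · by_cases h3 : b' = j
          · subst h3; simp [Ne.symm hi0, h2]; linarith
          · simp [h2, h3, h0]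
      · by_cases h4 : a' = i
        · subst h4
          by_cases h2 : b' = j0
          · subst h2; simp [h1, Ne.symm hj0]; linarith
          · by_cases h3 : b' = j
            · subst h3; simp [h1, h2]; linarith
            · simp [h2, h3, h0]
        · simp [h1, h4, h0]
    · intro a'
      simp only [Pi.add_apply, Pi.smul_apply, smul_eq_mul, sum_add_distrib, ← mul_sum,
        Par.pat_row, mul_zero, add_zero]
      exact hrow a'
    · intro b'
      simp only [Pi.add_apply, Pi.smul_apply, smul_eq_mul, sum_add_distrib, ← mul_sum,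
        Par.pat_col, mul_zero, add_zero]
      exact hcol b'
    · rw [hv]
      have h0 := hn (i0, j0)
      simp [Ne.symm hi0, Ne.symm hj0]
      linarith
  -- injection into `(R × C) × A`
  choose! p hp using hex
  have hcard : (Om r c).card ≤ ((univ : Finset (R × C)) ×ˢ A).card := by
    apply card_le_card_of_injOn (fun X => (p X, X + a • (if (p X).1 = i0 ∨ (p X).2 = j0 then 0
      else Par.pat i0 (p X).1 j0 (p X).2)))
    · intro X hX
      exact mem_coe.2 (mem_product.2 ⟨mem_univ _, hp X (mem_coe.1 hX)⟩)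
    · intro X _ Y _ hXY
      simp only [Prod.mk.injEq] at hXY
      obtain ⟨h1, h2⟩ := hXY
      rw [h1] at h2
      exact add_right_cancel h2
  rw [card_product, card_univ, Fintype.card_prod] at hcard
  exact hcard

/-- subtracting `a` from the corner -/
theorem corner_shift {r : R → ℤ} {c : C → ℤ} (i0 : R) (j0 : C) {a : ℤ} (ha : 0 ≤ a) :
    ((Om r c).filter fun X => a ≤ X (i0, j0)).card =
      (Om (fun i => r i - if i = i0 then a else 0) (fun j => c j - if j = j0 then a else 0)).card := by
  classical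
  apply card_bij' (fun X _ => X - a • Pi.single (i0, j0) 1) (fun X _ => X + a • Pi.single (i0, j0) 1)
  · intro X _; simp
  · intro X _; simp
  · intro X hX
    obtain ⟨h1, h2⟩ := mem_filter.1 hX
    obtain ⟨hn, hrow, hcol⟩ := mem_Om.1 h1
    rw [mem_Om]
    refine ⟨?_, ?_, ?_⟩
    · intro e
      simp only [Pi.sub_apply, Pi.smul_apply, smul_eq_mul, Pi.single_apply]
      by_cases he : e = (i0, j0)
      · subst he; simp; linarith
      · rw [if_neg he]; simpa using hn e
    · intro i
      simp only [Pi.sub_apply, Pi.smul_apply, smul_eq_mul, Pi.single_apply, sum_sub_distrib,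
        Prod.mk.injEq, hrow i]
      congr 1
      by_cases hi : i = i0
      · simp [hi]
      · simp [hi]
    · intro j
      simp only [Pi.sub_apply, Pi.smul_apply, smul_eq_mul, Pi.single_apply, sum_sub_distrib,
        Prod.mk.injEq, hcol j]
      congr 1
      by_cases hj : j = j0
      · simp [hj]
      · simp [hj]
  · intro X hX
    obtain ⟨hn, hrow, hcol⟩ := mem_Om.1 hX
    rw [mem_filter, mem_Om]
    refine ⟨⟨?_, ?_, ?_⟩, ?_⟩
    · intro e
      simp only [Pi.add_apply, Pi.smul_apply, smul_eq_mul, Pi.single_apply]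
      have := hn e
      split_ifs <;> linarith
    · intro i
      simp only [Pi.add_apply, Pi.smul_apply, smul_eq_mul, Pi.single_apply, sum_add_distrib,
        Prod.mk.injEq, hrow i]
      by_cases hi : i = i0
      · simp [hi]
      · simp [hi]
    · intro j
      simp only [Pi.add_apply, Pi.smul_apply, smul_eq_mul, Pi.single_apply, sum_add_distrib,
        Prod.mk.injEq, hcol j]
      by_cases hj : j = j0
      · simp [hj]
      · simp [hj]
    · simp only [Pi.add_apply, Pi.smul_apply, smul_eq_mul, Pi.single_eq_same]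
      have := hn (i0, j0)
      linarith

namespace Par

variable {P : Par R C}

/-- the tables are the states with nonnegative pivots, and they have weight `1` -/
theorem Om_subset (h : P.Ok) : Om P.r P.c ⊆ P.Tb := by
  intro X hX
  obtain ⟨hn, hrow, hcol⟩ := mem_Om.1 hX
  refine mem_Tb h ⟨hrow, hcol⟩ fun e _ => ⟨hn e, ?_⟩
  refine le_trans (le_min ?_ ?_) (h.hbx1 e)
  · obtain ⟨i, j⟩ := e
    have := single_le_sum (f := fun j => X (i, j)) (fun j _ => hn (i, j)) (mem_univ j)
    rw [hrow i] at this; exact this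
  · obtain ⟨i, j⟩ := e
    have := single_le_sum (f := fun i => X (i, j)) (fun i _ => hn (i, j)) (mem_univ i)
    rw [hcol j] at this; exact this

theorem pw_Om (h : P.Ok) {X : R × C → ℤ} (hX : X ∈ Om P.r P.c) : P.pw X = 1 := by
  obtain ⟨hn, hrow, hcol⟩ := mem_Om.1 hX
  unfold pw
  apply prod_eq_one
  rintro ⟨i, j⟩ _
  apply w_of_nonneg h (hn _)
  apply le_min
  · have := single_le_sum (f := fun j => X (i, j)) (fun j _ => hn (i, j)) (mem_univ j)
    rw [hrow i] at this; exact this
  · have := single_le_sum (f := fun i => X (i, j)) (fun i _ => hn (i, j)) (mem_univ i)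
    rw [hcol j] at this; exact this

theorem mem_Om_of {X : R × C → ℤ} (hX : X ∈ P.Tb) (hw : P.pw X ≠ 0)
    (hp : ¬ ∃ e, P.piv e ∧ X e < 0) : X ∈ Om P.r P.c := by
  rw [mem_Om]
  refine ⟨fun e => ?_, Tb_bal hX⟩
  by_cases he : P.piv e
  · by_contra hcon
    exact hp ⟨e, he, not_le.1 hcon⟩
  · exact (NB_of_pw hw e he).1

/-- total mass = number of tables + mass of the states with a negative pivot -/
theorem mass_eq (h : P.Ok) : ∑ X ∈ P.Tb, P.pw X = (Om P.r P.c).card +
    ∑ X ∈ P.Tb with (∃ e, P.piv e ∧ X e < 0), P.pw X := by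
  classical
  rw [← sum_filter_add_sum_filter_not P.Tb (fun X => ∃ e, P.piv e ∧ X e < 0), add_comm]
  congr 1
  have h1 : ∑ X ∈ P.Tb with ¬ (∃ e, P.piv e ∧ X e < 0), P.pw X =
      ∑ X ∈ Om P.r P.c, P.pw X := by
    symm
    apply sum_subset
    · intro X hX
      rw [mem_filter]
      refine ⟨Om_subset h hX, ?_⟩
      rintro ⟨e, -, he⟩
      exact absurd ((mem_Om.1 hX).1 e) (not_le.2 he)
    · intro X hX hXn
      by_contra hcon
      obtain ⟨h1, h2⟩ := mem_filter.1 hX
      exact hXn (mem_Om_of h1 hcon h2)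
  rw [h1, sum_congr rfl fun X hX => pw_Om h hX, sum_const, nsmul_eq_mul, mul_one]

/-- the mass is at most `(1 + 1/(k-1))` times the number of tables, in the form
`(1 - 1/k) Z ≤ #Ω ≤ Z` -/
theorem mass_bounds {k A Lam : ℕ} (t : P.Tail k A Lam) (h : P.Ok) :
    (1 - 1 / k) * ∑ X ∈ P.Tb, P.pw X ≤ (Om P.r P.c).card ∧
      ((Om P.r P.c).card : ℝ) ≤ ∑ X ∈ P.Tb, P.pw X := by
  have h1 := mass_eq h
  have h2 := neg_le t h
  have h3 : 0 ≤ ∑ X ∈ P.Tb with (∃ e, P.piv e ∧ X e < 0), P.pw X :=
    sum_nonneg fun X _ => pw_nonneg X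
  constructor <;> linarith

end Par

end P328R.Soft
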