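import Vale.Agent.P328R.Algo
import Vale.Agent.P328R.Sched
import Vale.Agent.P328R.PMFTools
import Vale.Agent.P328R.Soft5

/-!
P328R (helper6): bridge between the soft model (`P328R.Soft`) and the algorithm (`Algo.lean`):
the stationary law is close to the uniform law, warm start, corner ratio.
-/

namespace Vale.Agent.P328R.SB

open Finset
open scoped ENNReal
open Vale.Agent.P328RAM (Tab rowSum colSum)

set_option linter.unusedSectionVars false

/-- admissible parameters (soft tail `1/k`) -/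
structure Good (p : Par) (m n k : ℕ) : Prop where
  hk : 1 ≤ k
  hQ0 : 0 ≤ p.Q
  hLp : 4 * (m * n : ℕ) ≤ p.Lp
  hLam : 2 ^ 14 * (m * n : ℕ) ^ 4 * k ^ 2 * p.Lp ≤ p.Lc
  hq : 2 ^ 8 * (m * n : ℕ) ^ 3 * k ^ 2 * p.Lc ≤ p.q
  hQ : 2 ^ 8 * (m * n : ℕ) ^ 2 * k * p.q ≤ p.Lc * p.Q

variable {p : Par} {m n : ℕ} {g : Mg}

theorem sc_nonneg (hg : Valid m n g) {i j : ℕ} (hi : i < m) (hj : j < n) : 0 ≤ sc g i j :=
  le_min (hg.r_nonneg i hi) (hg.c_nonneg j hj)

theorem sg_pos (g : Mg) (i j : ℕ) : 0 < sg g i j := by unfold sg; positivity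

theorem sc_lt_sg {i j : ℕ} (h : 0 ≤ sc g i j) : sc g i j < sg g i j := by
  have h1 : (sc g i j).toNat < 2 ^ sb g i j := Nat.lt_size_self _
  have h2 : ((sc g i j).toNat : ℤ) < 2 ^ sb g i j := by exact_mod_cast h1
  rw [Int.toNat_of_nonneg h] at h2
  exact h2

theorem sg_le {i j : ℕ} (h : 0 < sc g i j) : sg g i j ≤ 2 * sc g i j := by
  have h0 : 0 < sb g i j := Nat.size_pos.2 (by omega)
  have h1 : 2 ^ (sb g i j - 1) ≤ (sc g i j).toNat := by
    apply Nat.lt_size.1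
    show _ < sb g i j
    omega
  have h2 : (2 : ℤ) ^ (sb g i j - 1) ≤ sc g i j := by
    have : (((2 : ℕ) ^ (sb g i j - 1) : ℕ) : ℤ) ≤ ((sc g i j).toNat : ℤ) := by exact_mod_cast h1
    rw [Int.toNat_of_nonneg h.le] at this
    push_cast at this
    exact this
  have h3 : sg g i j = 2 * 2 ^ (sb g i j - 1) := by
    unfold sg
    rw [← pow_succ']
    congr 1
    omega
  linarith

/-- the soft model of the phase with margins `g` -/
def SP (p : Par) (g : Mg) (hm : 0 < m) (hn : 0 < n) : _root_.P328R.Soft.Par (Fin m) (Fin n) where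
  r := fun i => g.r i
  c := fun j => g.c j
  i0 := ⟨is m g, am_lt _ _ hm⟩
  j0 := ⟨js n g, am_lt _ _ hn⟩
  Q := p.Q
  q := p.q
  bx := fun e => if Blk p m n g e.1 e.2 then sg g e.1 e.2 - 1 else sc g e.1 e.2
  L := fun e => if sc g e.1 e.2 = 0 then 0 else (Ls p m n g e.1 e.2).toNat

theorem SP_M (hm : 0 < m) (hn : 0 < n) : (SP p g hm hn).M = m * n := by
  unfold _root_.P328R.Soft.Par.M
  rw [Fintype.card_fin, Fintype.card_fin]

theorem SP_s (hm : 0 < m) (hn : 0 < n) (e : Fin m × Fin n) :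
    (SP p g hm hn).s e = sc g e.1 e.2 := rfl

theorem SP_piv (hm : 0 < m) (hn : 0 < n) (e : Fin m × Fin n) :
    (SP p g hm hn).piv e ↔ Piv p m n g e.1 e.2 := by
  obtain ⟨i, j⟩ := e
  unfold _root_.P328R.Soft.Par.piv Piv SP
  simp only [Fin.ext_iff]
  have h1 : g.r i ≤ g.r (is m g) := am_max _ _ _ i.2
  have h2 : g.c j ≤ g.c (js n g) := am_max _ _ _ j.2
  constructor
  · rintro ⟨a, b, c⟩
    refine ⟨⟨a.trans_le h1, b.trans_le h2⟩, ?_⟩
    rcases c with c | c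
    · exact Or.inl ⟨c, b⟩
    · exact Or.inr ⟨c, a⟩
  · rintro ⟨⟨a, b⟩, c | c⟩
    · refine ⟨?_, c.2, Or.inl c.1⟩
      rw [c.1]; exact a
    · refine ⟨c.2, ?_, Or.inr c.1⟩
      rw [c.1]; exact b

theorem Good.Lp_pos {k : ℕ} (hp : Good p m n k) (hm : 0 < m) (hn : 0 < n) : 4 ≤ p.Lp := by
  have h1 : 1 ≤ m * n := Nat.mul_pos hm hn
  have h2 := hp.hLp
  have h3 : (1 : ℤ) ≤ ((m * n : ℕ) : ℤ) := by exact_mod_cast h1
  linarith

theorem Good.Lp_le {k : ℕ} (hp : Good p m n k) (hm : 0 < m) (hn : 0 < n) : p.Lp ≤ p.Lc := by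
  have h0 := Good.Lp_pos hp hm hn
  have h1 : 1 ≤ m * n := Nat.mul_pos hm hn
  have h3 : (1 : ℤ) ≤ ((m * n : ℕ) : ℤ) := by exact_mod_cast h1
  have h4 : (1 : ℤ) ≤ (k : ℤ) := by exact_mod_cast hp.hk
  have h5 : (1 : ℤ) ≤ ((m * n : ℕ) : ℤ) ^ 4 := one_le_pow₀ h3
  have h6 : (1 : ℤ) ≤ (k : ℤ) ^ 2 := one_le_pow₀ h4
  have h7 : (1 : ℤ) ≤ 2 ^ 14 * ((m * n : ℕ) : ℤ) ^ 4 * k ^ 2 := by
    have := one_le_mul_of_one_le_of_one_le h5 h6
    nlinarith
  have h8 := hp.hLam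
  have h9 : 1 * p.Lp ≤ 2 ^ 14 * ((m * n : ℕ) : ℤ) ^ 4 * k ^ 2 * p.Lp :=
    mul_le_mul_of_nonneg_right h7 (by linarith)
  linarith

theorem Ls_eq {k : ℕ} (hp : Good p m n k) (hm : 0 < m) (hn : 0 < n) (i j : ℕ) :
    p.Lp * sg g i j ≤ Ls p m n g i j ∧ Ls p m n g i j ≤ p.Lc * sg g i j := by
  have h0 := Good.Lp_pos hp hm hn
  have h1 := Good.Lp_le hp hm hn
  have h2 := (sg_pos g i j).le
  have h3 : p.Lp * sg g i j ≤ p.Lc * sg g i j := mul_le_mul_of_nonneg_right h1 h2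
  unfold Ls
  split_ifs
  · exact ⟨h3, le_rfl⟩
  · exact ⟨le_rfl, h3⟩

theorem Ls_pos {k : ℕ} (hp : Good p m n k) (hm : 0 < m) (hn : 0 < n) (i j : ℕ) :
    0 < Ls p m n g i j := by
  have h0 := Good.Lp_pos hp hm hn
  have h1 := (Ls_eq (g := g) hp hm hn i j).1
  have h2 := sg_pos g i j
  have : 0 < p.Lp * sg g i j := mul_pos (by linarith) h2
  linarith

theorem SP_L {k : ℕ} (hp : Good p m n k) (hm : 0 < m) (hn : 0 < n) {e : Fin m × Fin n}
    (h : 0 < sc g e.1 e.2) : ((SP p g hm hn).L e : ℤ) = Ls p m n g e.1 e.2 := by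
  show ((if sc g e.1 e.2 = 0 then 0 else (Ls p m n g e.1 e.2).toNat : ℕ) : ℤ) = _
  rw [if_neg h.ne']
  exact Int.toNat_of_nonneg (Ls_pos hp hm hn _ _).le

theorem SP_ok {k : ℕ} (hp : Good p m n k) (hm : 0 < m) (hn : 0 < n) (hg : Valid m n g) :
    (SP p g hm hn).Ok := by
  have hs : ∀ e : Fin m × Fin n, 0 ≤ sc g e.1 e.2 := fun e => sc_nonneg hg e.1.2 e.2.2
  refine ⟨fun i => hg.r_nonneg i i.2, fun j => hg.c_nonneg j j.2, hg.sum_eq, fun i => am_max _ _ _ i.2,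
    fun j => am_max _ _ _ j.2, hp.hQ0, ?_, ?_, ?_⟩
  · intro e
    show sc g e.1 e.2 ≤ if Blk p m n g e.1 e.2 then sg g e.1 e.2 - 1 else sc g e.1 e.2
    split_ifs
    · have := sc_lt_sg (hs e); omega
    · exact le_rfl
  · intro e
    show (if Blk p m n g e.1 e.2 then sg g e.1 e.2 - 1 else sc g e.1 e.2) ≤ 2 * sc g e.1 e.2
    split_ifs with h
    · have h1 : p.Q < sc g e.1 e.2 := lt_min h.1.2 h.2.2
      have h2 : 0 < sc g e.1 e.2 := lt_of_le_of_lt hp.hQ0 h1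
      have := sg_le h2
      omega
    · have := hs e; omega
  · intro e
    rw [SP_M, SP_s]
    rcases (hs e).eq_or_lt with h | h
    · rw [← h, mul_zero]; positivity
    · rw [SP_L hp hm hn h]
      have h1 := (Ls_eq (g := g) hp hm hn e.1 e.2).1
      have h2 := sc_lt_sg (hs e)
      have h3 := hp.hLp
      have h4 : 4 * ((m * n : ℕ) : ℤ) * sc g e.1 e.2 ≤ p.Lp * sg g e.1 e.2 :=
        mul_le_mul h3 h2.le (hs e) (by linarith [Good.Lp_pos hp hm hn])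
      linarith

theorem SP_tail {k : ℕ} (hp : Good p m n k) (hm : 0 < m) (hn : 0 < n) (hg : Valid m n g) :
    (SP p g hm hn).Tail k (2 * p.Lp).toNat p.Lc.toNat := by
  have hs : ∀ e : Fin m × Fin n, 0 ≤ sc g e.1 e.2 := fun e => sc_nonneg hg e.1.2 e.2.2
  have h0 := Good.Lp_pos hp hm hn
  have h1 := Good.Lp_le hp hm hn
  have hA : (((2 * p.Lp).toNat : ℕ) : ℤ) = 2 * p.Lp := Int.toNat_of_nonneg (by linarith)
  have hC : ((p.Lc.toNat : ℕ) : ℤ) = p.Lc := Int.toNat_of_nonneg (by linarith)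
  refine ⟨hp.hk, by omega, ?_, ?_, ?_, ?_, ?_, ?_⟩
  · intro e he hne
    rw [hA, SP_s]
    rcases (hs e).eq_or_lt with h | h
    · show ((if sc g e.1 e.2 = 0 then 0 else (Ls p m n g e.1 e.2).toNat : ℕ) : ℤ) ≤ _
      rw [if_pos h.symm, ← h]; simp
    · rw [SP_L hp hm hn h]
      have h2 := sg_le h
      have h3 : Ls p m n g e.1 e.2 = p.Lp * sg g e.1 e.2 := by
        unfold Ls
        rw [if_neg]
        rintro ⟨a, b⟩
        apply hne
        obtain ⟨i, j⟩ := e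
        show (i, j) = ((⟨is m g, _⟩, ⟨js n g, _⟩) : Fin m × Fin n)
        rw [Prod.mk.injEq, Fin.ext_iff, Fin.ext_iff]
        exact ⟨a, b⟩
      rw [h3]
      nlinarith
  · rw [hC, SP_s]
    rcases (hs (SP p g hm hn).cor).eq_or_lt with h | h
    · rw [← h, mul_zero]; positivity
    · rw [SP_L hp hm hn h]
      have h2 := sc_lt_sg h.le
      have h3 : Ls p m n g ((SP p g hm hn).cor.1 : ℕ) ((SP p g hm hn).cor.2 : ℕ) =
          p.Lc * sg g ((SP p g hm hn).cor.1 : ℕ) ((SP p g hm hn).cor.2 : ℕ) := by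
        unfold Ls
        rw [if_pos ⟨rfl, rfl⟩]
      rw [h3]
      exact mul_le_mul_of_nonneg_left h2.le (by linarith)
  · rw [hC, SP_s]
    rcases (hs (SP p g hm hn).cor).eq_or_lt with h | h
    · show ((if sc g ((SP p g hm hn).cor.1 : ℕ) ((SP p g hm hn).cor.2 : ℕ) = 0 then 0
        else (Ls p m n g ((SP p g hm hn).cor.1 : ℕ) ((SP p g hm hn).cor.2 : ℕ)).toNat : ℕ) : ℤ) ≤ _
      rw [if_pos h.symm, ← h]; simp
    · rw [SP_L hp hm hn h]
      have h2 := sg_le h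
      have h3 : Ls p m n g ((SP p g hm hn).cor.1 : ℕ) ((SP p g hm hn).cor.2 : ℕ) =
          p.Lc * sg g ((SP p g hm hn).cor.1 : ℕ) ((SP p g hm hn).cor.2 : ℕ) := by
        unfold Ls
        rw [if_pos ⟨rfl, rfl⟩]
      rw [h3]
      nlinarith
  · rw [SP_M]
    have h2 := hp.hLam
    zify
    rw [hA, hC]
    push_cast at h2 ⊢
    linarith
  · rw [SP_M]
    have h2 := hp.hq
    zify
    rw [hC]
    push_cast at h2 ⊢
    exact h2
  · rw [SP_M]
    have h2 := hp.hQ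
    rw [hC]
    exact h2

end Vale.Agent.P328R.SB
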