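import Vale.Agent.P328R.Soft6

/-!
P328R (helper6): the integer weight of the algorithm is a constant times the weight of the soft
model; the sets `stF`, `OmegaF`; the laws `piF`, `uniF`.
-/

namespace Vale.Agent.P328R.SB

open Finset
open scoped ENNReal
open Vale.Agent.P328RAM (Tab rowSum colSum)

set_option linter.unusedSectionVars false

variable {p : Par} {m n : ℕ} {g : Mg} {k : ℕ}

theorem cw_eq (hp : Good p m n k) (hm : 0 < m) (hn : 0 < n) (hg : Valid m n g) (e : Fin m × Fin n)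
    (x : ℤ) : (cw p m n g e.1 e.2 x : ℝ) =
      (if Piv p m n g e.1 e.2 then ((SP p g hm hn).L e : ℝ) ^ p.q else 1) *
        (SP p g hm hn).w e x := by
  have hs : 0 ≤ sc g e.1 e.2 := sc_nonneg hg e.1.2 e.2.2
  unfold cw
  by_cases hP : Piv p m n g e.1 e.2
  · have hpiv := (SP_piv (p := p) (g := g) hm hn e).2 hP
    have hs1 : 0 < sc g e.1 e.2 :=
      lt_of_le_of_lt hp.hQ0 (lt_min hpiv.1 hpiv.2.1)
    have hL := SP_L (p := p) (g := g) hp hm hn hs1
    have hLp : 0 < (SP p g hm hn).L e := by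
      have := Ls_pos (g := g) hp hm hn e.1 e.2
      rw [← hL] at this
      exact_mod_cast this
    rw [if_pos hP, if_pos hP, _root_.P328R.Soft.Par.w_piv hpiv, ← hL]
    set L := (SP p g hm hn).L e
    have hq : (SP p g hm hn).q = p.q := rfl
    rw [hq]
    by_cases hx : |x| ≤ (L : ℤ)
    · rw [if_pos hx]
      have hx2 := abs_le.1 hx
      rcases le_total 0 x with h0 | h0
      · rw [_root_.P328R.Soft.softw_of_nonneg h0 hx2.2, min_eq_left h0, add_zero, mul_one,
          Int.toNat_natCast]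
        push_cast
        rfl
      · rw [_root_.P328R.Soft.softw_of_neg hx2.1 h0, min_eq_right h0, Nat.cast_pow, ← mul_pow]
        congr 1
        have h1 : (((L + x : ℤ).toNat : ℕ) : ℤ) = L + x := Int.toNat_of_nonneg (by omega)
        have h2 : (((L + x : ℤ).toNat : ℕ) : ℝ) = (L : ℝ) + x := by exact_mod_cast h1
        rw [h2]
        have h3 : (L : ℝ) ≠ 0 := by positivity
        field_simp
    · rw [if_neg hx, _root_.P328R.Soft.softw_of_not (fun h => hx (abs_le.2 h))]
      simp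
  · have hpiv : ¬ (SP p g hm hn).piv e := fun h => hP ((SP_piv (p := p) (g := g) hm hn e).1 h)
    rw [if_neg hP, if_neg hP, one_mul]
    unfold _root_.P328R.Soft.Par.w
    rw [if_neg hpiv]
    show (((if Blk p m n g e.1 e.2 then _ else _ : ℕ) : ℕ) : ℝ) =
      if 0 ≤ x ∧ x ≤ (if Blk p m n g e.1 e.2 then sg g e.1 e.2 - 1 else sc g e.1 e.2) then 1 else 0
    by_cases hB : Blk p m n g e.1 e.2
    · rw [if_pos hB, if_pos hB]
      by_cases h : 0 ≤ x ∧ x < sg g e.1 e.2
      · rw [if_pos h, if_pos ⟨h.1, by omega⟩]; simp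
      · rw [if_neg h, if_neg (fun h' => h ⟨h'.1, by omega⟩)]; simp
    · rw [if_neg hB, if_neg hB]
      split_ifs <;> simp

/-- the normalizing constant between the integer weight and the soft weight -/
noncomputable def kap (p : Par) (g : Mg) (hm : 0 < m) (hn : 0 < n) : ℝ :=
  ∏ e : Fin m × Fin n, if Piv p m n g e.1 e.2 then ((SP p g hm hn).L e : ℝ) ^ p.q else 1

theorem kap_pos (hp : Good p m n k) (hm : 0 < m) (hn : 0 < n) :
    0 < kap p g hm hn := by
  apply prod_pos
  intro e _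
  split_ifs with hP
  · have hpiv := (SP_piv (p := p) (g := g) hm hn e).2 hP
    have hs1 : 0 < sc g e.1 e.2 :=
      lt_of_le_of_lt hp.hQ0 (lt_min hpiv.1 hpiv.2.1)
    have hL := SP_L (p := p) (g := g) hp hm hn hs1
    have hLp : 0 < (SP p g hm hn).L e := by
      have := Ls_pos (g := g) hp hm hn e.1 e.2
      rw [← hL] at this
      exact_mod_cast this
    positivity
  · exact one_pos

theorem Wt_eq (hp : Good p m n k) (hm : 0 < m) (hn : 0 < n) (hg : Valid m n g) {X : Tab m n}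
    (hX : ∀ i : Fin m, rowSum X i = g.r i) :
    (Wt p g X : ℝ) = kap p g hm hn * (SP p g hm hn).pw X := by
  unfold Wt kap _root_.P328R.Soft.Par.pw
  rw [if_pos hX, ← prod_mul_distrib, Nat.cast_prod]
  exact prod_congr rfl fun e _ => cw_eq hp hm hn hg e (X e)

theorem mem_stF {X : Tab m n} : X ∈ stF p g m n ↔
    (∀ e, |X e| ≤ 2 * (p.Lc + p.Lp + 1) * ∑ i : Fin m, g.r i) ∧
      (∀ j : Fin n, colSum X j = g.c j) ∧ Wt p g X ≠ 0 := by
  unfold stF box
  rw [mem_filter, Fintype.mem_piFinset]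
  simp only [mem_Icc, abs_le]

theorem OmegaF_eq (hm : 0 < m) (hn : 0 < n) : OmegaF g m n =
    _root_.P328R.Soft.Om (SP p g hm hn).r (SP p g hm hn).c := by
  ext X
  rw [mem_OmegaF, _root_.P328R.Soft.mem_Om]
  rfl

theorem Wt_row {X : Tab m n} (h : Wt p g X ≠ 0) (i : Fin m) : rowSum X i = g.r i := by
  by_contra hc
  apply h
  unfold Wt
  rw [if_neg fun h' => hc (h' i)]

theorem stF_bal {X : Tab m n} (hm : 0 < m) (hn : 0 < n) (h : X ∈ stF p g m n) :
    (SP p g hm hn).Bal X := by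
  obtain ⟨_, h2, h3⟩ := mem_stF.1 h
  exact ⟨fun i => Wt_row h3 i, fun j => h2 j⟩

theorem stF_eq (hp : Good p m n k) (hm : 0 < m) (hn : 0 < n) (hg : Valid m n g) (X : Tab m n) :
    X ∈ stF p g m n ↔ X ∈ (SP p g hm hn).Tb ∧ (SP p g hm hn).pw X ≠ 0 := by
  have hok := SP_ok hp hm hn hg
  constructor
  · intro h
    have hB := stF_bal hm hn h
    obtain ⟨_, h2, h3⟩ := mem_stF.1 h
    have h4 : (SP p g hm hn).pw X ≠ 0 := by
      intro hc
      have h5 := Wt_eq hp hm hn hg (fun i => Wt_row h3 i)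
      rw [hc, mul_zero] at h5
      exact h3 (by exact_mod_cast h5)
    exact ⟨_root_.P328R.Soft.Par.mem_Tb hok hB (_root_.P328R.Soft.Par.NB_of_pw h4), h4⟩
  · rintro ⟨h1, h2⟩
    have hB := _root_.P328R.Soft.Par.Tb_bal h1
    rw [mem_stF]
    refine ⟨fun e => ?_, fun j => hB.2 j, ?_⟩
    · have h0 := Good.Lp_pos hp hm hn
      have h0' := Good.Lp_le hp hm hn
      have hs : 0 ≤ sc g e.1 e.2 := sc_nonneg hg e.1.2 e.2.2
      have h3 : sc g e.1 e.2 ≤ ∑ i : Fin m, g.r i := by
        refine le_trans (min_le_left _ _) ?_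
        exact single_le_sum (f := fun i : Fin m => g.r i) (fun i _ => hg.r_nonneg i i.2) (mem_univ e.1)
      have h4 := _root_.P328R.Soft.Par.Tb_le h1 e
      by_cases hp' : (SP p g hm hn).piv e
      · have hs1 : 0 < sc g e.1 e.2 :=
          lt_of_le_of_lt hp.hQ0 (lt_min hp'.1 hp'.2.1)
        rw [SP_L hp hm hn hs1] at h4
        have h5 := (Ls_eq (g := g) hp hm hn e.1 e.2).2
        have h6 := sg_le hs1
        have h7 : p.Lc * sg g e.1 e.2 ≤ p.Lc * (2 * sc g e.1 e.2) :=
          mul_le_mul_of_nonneg_left h6 (by linarith)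
        have h8 : p.Lc * (2 * sc g e.1 e.2) ≤ 2 * (p.Lc + p.Lp + 1) * ∑ i : Fin m, g.r i := by
          have h9 : p.Lc * (2 * sc g e.1 e.2) ≤ p.Lc * (2 * ∑ i : Fin m, g.r i) :=
            mul_le_mul_of_nonneg_left (by linarith) (by linarith)
          nlinarith
        rw [abs_le]
        constructor <;> linarith [h4.1, h4.2]
      · have h5 := _root_.P328R.Soft.Par.NB_of_pw h2 e hp'
        have h6 := hok.hbx2 e
        rw [SP_s] at h6
        rw [abs_of_nonneg h5.1]
        nlinarith [h5.2]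
    · intro hc
      have h5 := Wt_eq hp hm hn hg (X := X) (fun i => hB.1 i)
      rw [hc, Nat.cast_zero, eq_comm, mul_eq_zero] at h5
      rcases h5 with h5 | h5
      · exact (kap_pos (g := g) hp hm hn).ne' h5
      · exact h2 h5

theorem sum_stF (hp : Good p m n k) (hm : 0 < m) (hn : 0 < n) (hg : Valid m n g) :
    ((∑ X ∈ stF p g m n, Wt p g X : ℕ) : ℝ) =
      kap p g hm hn * ∑ X ∈ (SP p g hm hn).Tb, (SP p g hm hn).pw X := by
  classical
  rw [Nat.cast_sum, mul_sum]
  have h1 : ∀ X ∈ stF p g m n, (Wt p g X : ℝ) = kap p g hm hn * (SP p g hm hn).pw X := by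
    intro X hX
    exact Wt_eq hp hm hn hg fun i => Wt_row (mem_stF.1 hX).2.2 i
  rw [sum_congr rfl h1]
  apply sum_subset
  · intro X hX
    exact ((stF_eq hp hm hn hg X).1 hX).1
  · intro X hX hXn
    by_contra hc
    apply hXn
    rw [stF_eq hp hm hn hg]
    exact ⟨hX, fun h => hc (by rw [h, mul_zero])⟩

/-- the total mass of the soft model -/
noncomputable def Zs (p : Par) (g : Mg) (hm : 0 < m) (hn : 0 < n) : ℝ :=
  ∑ X ∈ (SP p g hm hn).Tb, (SP p g hm hn).pw X

theorem Zs_bounds (hp : Good p m n k) (hm : 0 < m) (hn : 0 < n) (hg : Valid m n g) :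
    (1 - 1 / k) * Zs p g hm hn ≤ ((OmegaF g m n).card : ℝ) ∧
      ((OmegaF g m n).card : ℝ) ≤ Zs p g hm hn := by
  rw [OmegaF_eq (p := p) hm hn]
  exact _root_.P328R.Soft.Par.mass_bounds (SP_tail hp hm hn hg) (SP_ok hp hm hn hg)

theorem Zs_pos (hp : Good p m n k) (hm : 0 < m) (hn : 0 < n) (hg : Valid m n g)
    (hne : (OmegaF g m n).Nonempty) : 0 < Zs p g hm hn := by
  have h1 := (Zs_bounds hp hm hn hg).2
  have h2 : (0 : ℝ) < ((OmegaF g m n).card : ℝ) := by exact_mod_cast card_pos.2 hne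
  linarith

theorem sum_ne (hp : Good p m n k) (hm : 0 < m) (hn : 0 < n) (hg : Valid m n g)
    (hne : (OmegaF g m n).Nonempty) : ∑ X ∈ stF p g m n, Wt p g X ≠ 0 := by
  intro h
  have h1 := sum_stF hp hm hn hg
  rw [h, Nat.cast_zero] at h1
  have h2 := mul_pos (kap_pos (g := g) hp hm hn) (Zs_pos hp hm hn hg hne)
  unfold Zs at h2
  linarith

theorem piF_eq (hp : Good p m n k) (hm : 0 < m) (hn : 0 < n) (hg : Valid m n g)
    (hne : (OmegaF g m n).Nonempty) {X : Tab m n} (hX : X ∈ stF p g m n) :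
    piF p g m n X = ENNReal.ofReal ((SP p g hm hn).pw X / Zs p g hm hn) := by
  classical
  unfold piF
  rw [lawOf_apply (sum_ne hp hm hn hg hne), if_pos hX]
  have h1 := sum_stF hp hm hn hg
  have h2 := Wt_eq hp hm hn hg (X := X) fun i => Wt_row (mem_stF.1 hX).2.2 i
  have h3 := kap_pos (g := g) hp hm hn
  have h4 := Zs_pos hp hm hn hg hne
  have h5 : (SP p g hm hn).pw X / Zs p g hm hn =
      (Wt p g X : ℝ) / ((∑ X ∈ stF p g m n, Wt p g X : ℕ) : ℝ) := by
    rw [h1, h2]
    unfold Zs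
    rw [mul_div_mul_left _ _ h3.ne']
  have h6 : (0 : ℝ) < ((∑ X ∈ stF p g m n, Wt p g X : ℕ) : ℝ) := by
    rw [h1]; exact mul_pos h3 h4
  rw [h5, ENNReal.ofReal_div_of_pos h6, ENNReal.ofReal_natCast, ENNReal.ofReal_natCast]

theorem piF_zero (hp : Good p m n k) (hm : 0 < m) (hn : 0 < n) (hg : Valid m n g)
    (hne : (OmegaF g m n).Nonempty) {X : Tab m n} (hX : X ∉ stF p g m n) :
    piF p g m n X = 0 := by
  classical
  unfold piF
  rw [lawOf_apply (sum_ne hp hm hn hg hne), if_neg hX]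

theorem OmegaF_sub (hp : Good p m n k) (hm : 0 < m) (hn : 0 < n) (hg : Valid m n g) {X : Tab m n}
    (hX : X ∈ OmegaF g m n) : X ∈ stF p g m n ∧ (SP p g hm hn).pw X = 1 := by
  have hok := SP_ok hp hm hn hg
  have h1 := hX
  rw [OmegaF_eq (p := p) hm hn] at h1
  have h2 := _root_.P328R.Soft.Par.pw_Om hok h1
  refine ⟨?_, h2⟩
  rw [stF_eq hp hm hn hg, h2]
  exact ⟨_root_.P328R.Soft.Par.Om_subset hok h1, one_ne_zero⟩

theorem uniF_eq (hne : (OmegaF g m n).Nonempty) (X : Tab m n) [Decidable (X ∈ OmegaF g m n)] :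
    uniF g m n X = if X ∈ OmegaF g m n then ENNReal.ofReal (1 / (OmegaF g m n).card) else 0 := by
  unfold uniF
  rw [lawOf_apply (by simpa using hne.ne_empty) X]
  by_cases h : X ∈ OmegaF g m n
  · rw [if_pos h, if_pos h]
    have h2 : (0 : ℝ) < ((OmegaF g m n).card : ℝ) := by exact_mod_cast card_pos.2 hne
    rw [ENNReal.ofReal_div_of_pos h2, ENNReal.ofReal_natCast]
    simp
  · rw [if_neg h, if_neg h]

/-- **(hu)** the stationary law is close to the uniform law -/
theorem tv_pi_uni (hp : Good p m n k) (hm : 0 < m) (hn : 0 < n) (hg : Valid m n g)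
    (hne : (OmegaF g m n).Nonempty) :
    TVle (piF p g m n) (uniF g m n) (ENNReal.ofReal (1 / k)) := by
  classical
  have hZ := Zs_pos hp hm hn hg hne
  have hc : (0 : ℝ) < ((OmegaF g m n).card : ℝ) := by exact_mod_cast card_pos.2 hne
  obtain ⟨hb1, hb2⟩ := Zs_bounds hp hm hn hg
  intro F hF
  set ρ : Tab m n → ℝ≥0∞ := fun X => if X ∈ stF p g m n \ OmegaF g m n then piF p g m n X else 0
    with hρ
  have h1 : EE (piF p g m n) F ≤ EE (uniF g m n) F + ∑' X, ρ X := by
    unfold EE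
    rw [← ENNReal.tsum_add]
    refine ENNReal.tsum_le_tsum fun X => ?_
    by_cases hX : X ∈ OmegaF g m n
    · obtain ⟨h2, h3⟩ := OmegaF_sub hp hm hn hg hX
      refine le_trans (mul_le_mul_left ?_ _) le_self_add
      rw [piF_eq hp hm hn hg hne h2, uniF_eq hne, if_pos hX, h3]
      exact ENNReal.ofReal_le_ofReal (one_div_le_one_div_of_le hc hb2)
    · by_cases hX2 : X ∈ stF p g m n
      · refine le_trans ?_ le_add_self
        rw [hρ]
        simp only [mem_sdiff, hX, hX2, not_false_eq_true, and_self, if_true]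
        calc piF p g m n X * F X ≤ piF p g m n X * 1 := mul_le_mul_right (hF X) _
          _ = _ := mul_one _
      · rw [piF_zero hp hm hn hg hne hX2, zero_mul]; exact zero_le
  refine h1.trans (add_le_add_right ?_ _)
  have h2 : ∑' X, ρ X = ∑ X ∈ stF p g m n \ OmegaF g m n, piF p g m n X := by
    rw [tsum_eq_sum (s := stF p g m n \ OmegaF g m n)]
    · exact sum_congr rfl fun X hX => by rw [hρ]; simp only [if_pos hX]
    · intro X hX
      rw [hρ]; simp only [if_neg hX]
  rw [h2]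
  have h3 : ∀ X ∈ stF p g m n \ OmegaF g m n, piF p g m n X =
      ENNReal.ofReal ((SP p g hm hn).pw X / Zs p g hm hn) := fun X hX =>
    piF_eq hp hm hn hg hne (mem_sdiff.1 hX).1
  rw [sum_congr rfl h3, ← ENNReal.ofReal_sum_of_nonneg fun X _ =>
    div_nonneg (_root_.P328R.Soft.Par.pw_nonneg X) hZ.le]
  apply ENNReal.ofReal_le_ofReal
  rw [← sum_div, div_le_iff₀ hZ]
  have h4 : ∑ X ∈ stF p g m n, (SP p g hm hn).pw X = Zs p g hm hn := by
    unfold Zs
    apply sum_subset
    · intro X hX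
      exact ((stF_eq hp hm hn hg X).1 hX).1
    · intro X hX hXn
      by_contra hc
      apply hXn
      rw [stF_eq hp hm hn hg]
      exact ⟨hX, hc⟩
  have h5 : ∑ X ∈ OmegaF g m n, (SP p g hm hn).pw X = ((OmegaF g m n).card : ℝ) := by
    rw [sum_congr rfl fun X hX => (OmegaF_sub hp hm hn hg hX).2, sum_const, nsmul_eq_mul, mul_one]
  have h6 := sum_sdiff (s₁ := OmegaF g m n) (s₂ := stF p g m n)
    (f := fun X => (SP p g hm hn).pw X) fun X hX => (OmegaF_sub hp hm hn hg hX).1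
  linarith

end Vale.Agent.P328R.SB
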