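import Vale.Agent.P328R.Soft8

/-!
P328R (helper6): the numeric conditions `SB.Good` for parameters which are powers.
-/

namespace Vale.Agent.P328R.SB

open Finset
open scoped ENNReal
open Vale.Agent.P328RAM (Tab rowSum colSum)

variable {p : Par} {m n : ℕ} {g : Mg}

/-- `Good` for the parameters `Lp = 16 μ²`, `Lc = 2^10 μ^10 E²`, `q = 2^12 μ^16 E⁴`,
`Q ≥ 2^10 q μ²` -/
theorem good_pow {μ E : ℕ} (hmn : m + n ≤ μ) (hE : 1 ≤ E) (hLp : p.Lp = 2 ^ 4 * (μ : ℤ) ^ 2)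
    (hLc : p.Lc = 2 ^ 10 * (μ : ℤ) ^ 10 * (E : ℤ) ^ 2)
    (hq : p.q = 2 ^ 12 * μ ^ 16 * E ^ 4) (hQ : 2 ^ 10 * (p.q : ℤ) * (μ : ℤ) ^ 2 ≤ p.Q) :
    Good p m n E := by
  have h1 : (m : ℤ) + n ≤ μ := by exact_mod_cast hmn
  have hm : (0 : ℤ) ≤ m := by positivity
  have hn : (0 : ℤ) ≤ n := by positivity
  set t : ℤ := ((m * n : ℕ) : ℤ) with ht
  set u : ℤ := (μ : ℤ) with hu
  have hu0 : 0 ≤ u := by positivity
  have ht0 : 0 ≤ t := by positivity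
  have h4 : 4 * t ≤ u ^ 2 := by
    have e : t = (m : ℤ) * n := by rw [ht]; push_cast; ring
    rw [e]
    nlinarith [sq_nonneg ((m : ℤ) - n)]
  have hE' : (1 : ℤ) ≤ (E : ℤ) := by exact_mod_cast hE
  set k : ℤ := (E : ℤ) with hk
  have hqz : (p.q : ℤ) = 2 ^ 12 * u ^ 16 * k ^ 4 := by rw [hq]; push_cast; ring
  have h42 : 16 * t ^ 2 ≤ u ^ 4 := by
    calc 16 * t ^ 2 = (4 * t) ^ 2 := by ring
      _ ≤ (u ^ 2) ^ 2 := pow_le_pow_left₀ (by linarith) h4 2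
      _ = u ^ 4 := by ring
  have h43 : 64 * t ^ 3 ≤ u ^ 6 := by
    calc 64 * t ^ 3 = (4 * t) ^ 3 := by ring
      _ ≤ (u ^ 2) ^ 3 := pow_le_pow_left₀ (by linarith) h4 3
      _ = u ^ 6 := by ring
  have h44 : 256 * t ^ 4 ≤ u ^ 8 := by
    calc 256 * t ^ 4 = (4 * t) ^ 4 := by ring
      _ ≤ (u ^ 2) ^ 4 := pow_le_pow_left₀ (by linarith) h4 4
      _ = u ^ 8 := by ring
  refine ⟨hE, ?_, ?_, ?_, ?_, ?_⟩
  · refine le_trans ?_ hQ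
    positivity
  · rw [hLp]
    nlinarith [sq_nonneg u]
  · rw [hLc, hLp]
    calc 2 ^ 14 * t ^ 4 * k ^ 2 * (2 ^ 4 * u ^ 2) = 256 * t ^ 4 * (2 ^ 10 * k ^ 2 * u ^ 2) := by ring
      _ ≤ u ^ 8 * (2 ^ 10 * k ^ 2 * u ^ 2) := mul_le_mul_of_nonneg_right h44 (by positivity)
      _ = _ := by ring
  · rw [hLc, hqz]
    calc 2 ^ 8 * t ^ 3 * k ^ 2 * (2 ^ 10 * u ^ 10 * k ^ 2) =
          64 * t ^ 3 * (2 ^ 12 * u ^ 10 * k ^ 4) := by ring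
      _ ≤ u ^ 6 * (2 ^ 12 * u ^ 10 * k ^ 4) := mul_le_mul_of_nonneg_right h43 (by positivity)
      _ = _ := by ring
  · rw [hLc]
    have hq0 : (0 : ℤ) ≤ p.q := by positivity
    have hk1 : k ≤ k ^ 2 := by nlinarith
    have hE0 : 0 ≤ 2 ^ 10 * u ^ 10 * k ^ 2 := by positivity
    refine le_trans ?_ (mul_le_mul_of_nonneg_left hQ hE0)
    rcases hu0.eq_or_lt with h0 | h0
    · have e0 : t = 0 := by
        have : 4 * t ≤ 0 := by rw [← h0] at h4; simpa using h4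
        linarith
      have h9 : (0 : ℤ) ≤ 2 ^ 10 * u ^ 10 * k ^ 2 * (2 ^ 10 * ↑p.q * u ^ 2) := by positivity
      rw [← ht, e0]
      refine le_trans (le_of_eq ?_) h9
      ring
    · have h5 : u ^ 4 ≤ 2 ^ 16 * u ^ 12 := by
        have h6 : (1 : ℤ) ≤ u ^ 8 := one_le_pow₀ (by linarith)
        have h7 : 0 ≤ u ^ 4 := by positivity
        nlinarith
      calc 2 ^ 8 * t ^ 2 * k * (p.q : ℤ) = 16 * t ^ 2 * (16 * k * p.q) := by ring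
        _ ≤ u ^ 4 * (16 * k * p.q) := mul_le_mul_of_nonneg_right h42 (by positivity)
        _ ≤ (2 ^ 16 * u ^ 12) * (16 * k ^ 2 * p.q) :=
          mul_le_mul h5 (mul_le_mul_of_nonneg_right (by linarith) hq0) (by positivity)
            (by positivity)
        _ = 2 ^ 10 * u ^ 10 * k ^ 2 * (2 ^ 10 * ↑p.q * u ^ 2) := by ring

/-- the total variation bound for such parameters -/
theorem tv_pow (hv : Valid m n g) {μ E : ℕ} {η : ℝ} (hmn : m + n ≤ μ) (hE : 1 ≤ E)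
    (hη : 1 / (E : ℝ) ≤ η) (hLp : p.Lp = 2 ^ 4 * (μ : ℤ) ^ 2)
    (hLc : p.Lc = 2 ^ 10 * (μ : ℤ) ^ 10 * (E : ℤ) ^ 2)
    (hq : p.q = 2 ^ 12 * μ ^ 16 * E ^ 4) (hQ : 2 ^ 10 * (p.q : ℤ) * (μ : ℤ) ^ 2 ≤ p.Q) :
    TVle (piF p g m n) (uniF g m n) (ENNReal.ofReal η) :=
  (tv_piF_uniF hv (good_pow hmn hE hLp hLc hq hQ)).mono (ENNReal.ofReal_le_ofReal hη)

end Vale.Agent.P328R.SB
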