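import Vale.Agent.P328R.AGood

/-! Module M10: the assembly. -/

set_option linter.unusedSectionVars false
set_option linter.unusedVariables false

namespace Vale.Agent.P328R

open Finset

section lin

variable {V E : Type} [Fintype V] [DecidableEq V] [Fintype E] [DecidableEq E]

theorem Z_nonneg' (src tgt : E → V) {M : ℤ} {f : E → ℤ → ℝ} (hf : ∀ e x, 0 ≤ f e x) (β : V → ℤ) :
    0 ≤ Z src tgt M f β :=
  Finset.sum_nonneg fun X _ => pw_nonneg hf X

theorem cut_nonneg' {f : E → ℤ → ℝ} (hf : ∀ e x, 0 ≤ f e x) (T : E → ℤ) :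
    ∀ e x, 0 ≤ cut f T e x := fun e x => mul_nonneg (hf _ _) (hf _ _)

theorem A_mono (src tgt : E → V) {M : ℤ} {α β : V → ℤ} {G G' : (E → ℤ) → (E → ℤ) → ℝ}
    (h : ∀ X Y, G X Y ≤ G' X Y) : ∀ (k : ℕ) (f : E → ℤ → ℝ) (T : E → ℤ), (∀ e x, 0 ≤ f e x) →
    A src tgt M α β k f T G ≤ A src tgt M α β k f T G'
  | 0, f, T, hf => by
    simp only [A]
    exact Finset.sum_le_sum fun X _ => mul_le_mul_of_nonneg_left (h _ _) (pw_nonneg hf X)
  | k + 1, f, T, hf => by
    simp only [A]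
    exact mul_le_mul_of_nonneg_left
      (Finset.sum_le_sum fun T' _ => A_mono src tgt h k _ _ (cut_nonneg' hf T'))
      (inv_nonneg.2 (Z_nonneg' src tgt hf α))

theorem A_add (src tgt : E → V) {M : ℤ} {α β : V → ℤ} (G G' : (E → ℤ) → (E → ℤ) → ℝ) :
    ∀ (k : ℕ) (f : E → ℤ → ℝ) (T : E → ℤ),
    A src tgt M α β k f T (fun X Y => G X Y + G' X Y) =
      A src tgt M α β k f T G + A src tgt M α β k f T G'
  | 0, f, T => by
    simp only [A, mul_add, Finset.sum_add_distrib]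
  | k + 1, f, T => by
    simp only [A, A_add src tgt G G' k, Finset.sum_add_distrib, mul_add]

theorem A_smul (src tgt : E → V) {M : ℤ} {α β : V → ℤ} (c : ℝ) (G : (E → ℤ) → (E → ℤ) → ℝ) :
    ∀ (k : ℕ) (f : E → ℤ → ℝ) (T : E → ℤ),
    A src tgt M α β k f T (fun X Y => c * G X Y) = c * A src tgt M α β k f T G
  | 0, f, T => by
    simp only [A, Finset.mul_sum]
    exact Finset.sum_congr rfl fun X _ => by ring
  | k + 1, f, T => by
    simp only [A, A_smul src tgt c G k]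
    rw [← Finset.mul_sum]
    ring

theorem A_zero (src tgt : E → V) {M : ℤ} {α β : V → ℤ} (k : ℕ) (f : E → ℤ → ℝ) (T : E → ℤ) :
    A src tgt M α β k f T (fun _ _ => 0) = 0 := by
  have h := A_smul src tgt (M := M) (α := α) (β := β) 0 (fun _ _ => 0) k f T
  simpa using h

theorem A_sum (src tgt : E → V) {M : ℤ} {α β : V → ℤ} {ι : Type} [DecidableEq ι] (s : Finset ι)
    (G : ι → (E → ℤ) → (E → ℤ) → ℝ) (k : ℕ) (f : E → ℤ → ℝ) (T : E → ℤ) :
    A src tgt M α β k f T (fun X Y => ∑ i ∈ s, G i X Y) =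
      ∑ i ∈ s, A src tgt M α β k f T (G i) := by
  induction s using Finset.induction_on with
  | empty => simpa using A_zero src tgt k f T
  | insert a s ha ih =>
    simp only [Finset.sum_insert ha]
    rw [A_add, ih]

end lin

/-! ### `psi` -/

theorem psi_nonneg' (n : ℤ) : 0 ≤ psi n := by
  unfold psi
  rcases eq_or_ne n 0 with h | h
  · subst h
    simp
  · have h1 : (1 : ℤ) ≤ n ^ 2 := by
      have : 0 < n ^ 2 := by positivity
      omega
    have h2 : (1 : ℝ) ≤ (n : ℝ) ^ 2 := by exact_mod_cast h1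
    have h3 : 0 ≤ (n : ℝ) ^ 2 := by positivity
    nlinarith

theorem psi_ge_twelve (n : ℤ) (h : ¬ |n| ≤ 1) : 12 ≤ psi n := by
  unfold psi
  have h1 : (4 : ℤ) ≤ n ^ 2 := by
    have h2 : 2 ≤ |n| := by omega
    have h3 := sq_abs n
    nlinarith
  have h2 : (4 : ℝ) ≤ (n : ℝ) ^ 2 := by exact_mod_cast h1
  nlinarith

theorem psi_le_pow (n : ℤ) {L : ℝ} (h : |(n : ℝ)| ≤ L) : psi n ≤ L ^ 4 := by
  unfold psi
  have h1 : (n : ℝ) ^ 2 ≤ L ^ 2 := by
    rw [← sq_abs]
    exact pow_le_pow_left₀ (abs_nonneg _) h 2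
  have h3 : 0 ≤ (n : ℝ) ^ 2 := by positivity
  have h4 : ((n : ℝ) ^ 2) * ((n : ℝ) ^ 2) ≤ L ^ 2 * L ^ 2 := mul_le_mul h1 h1 h3 (by positivity)
  nlinarith

variable {R C : Type} [Fintype R] [LinearOrder R] [Fintype C] [DecidableEq C]

/-- the moment functionals -/
noncomputable def Lam : (R × C) ⊕ (R × C × C) ⊕ (C × R × R) → (R × C → ℤ) → (R × C → ℤ) → ℝ
  | Sum.inl e => fun X Y => psi (X e - Y e)
  | Sum.inr (Sum.inl (i, j, j')) => fun X Y =>
      if j ≠ j' then psi ((X (i, j) - Y (i, j)) + (X (i, j') - Y (i, j'))) else 0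
  | Sum.inr (Sum.inr (j, i, i')) => fun X Y =>
      if i ≠ i' then psi ((X (i, j) - Y (i, j)) + (X (i', j) - Y (i', j))) else 0

theorem Lam_nonneg (l : (R × C) ⊕ (R × C × C) ⊕ (C × R × R)) (X Y : R × C → ℤ) :
    0 ≤ Lam l X Y := by
  rcases l with e | ⟨i, j, j'⟩ | ⟨j, i, i'⟩
  · exact psi_nonneg' _
  · simp only [Lam]
    split_ifs
    · exact psi_nonneg' _
    · exact le_rfl
  · simp only [Lam]
    split_ifs
    · exact psi_nonneg' _
    · exact le_rfl

/-- bad pairs are paid for -/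
theorem bad_le (X Y : R × C → ℤ) (h : ¬ Good X Y) : 12 ≤ ∑ l, Lam l X Y := by
  have hsingle : ∀ l, 12 ≤ Lam l X Y → 12 ≤ ∑ l, Lam l X Y := fun l hl =>
    hl.trans (Finset.single_le_sum (fun l _ => Lam_nonneg l X Y) (Finset.mem_univ l))
  unfold Good at h
  by_cases h1 : ∀ e, |X e - Y e| ≤ 1
  · by_cases h2 : ∀ i : R, ∀ j j' : C, j ≠ j' →
        |(X (i, j) - Y (i, j)) + (X (i, j') - Y (i, j'))| ≤ 1
    · have h3 : ¬ ∀ j : C, ∀ i i' : R, i ≠ i' →
          |(X (i, j) - Y (i, j)) + (X (i', j) - Y (i', j))| ≤ 1 := fun h3 => h ⟨h1, h2, h3⟩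
      push Not at h3
      obtain ⟨j, i, i', hne, h4⟩ := h3
      refine hsingle (Sum.inr (Sum.inr (j, i, i'))) ?_
      simp only [Lam]
      rw [if_pos hne]
      exact psi_ge_twelve _ (not_le.2 h4)
    · push Not at h2
      obtain ⟨i, j, j', hne, h4⟩ := h2
      refine hsingle (Sum.inr (Sum.inl (i, j, j'))) ?_
      simp only [Lam]
      rw [if_pos hne]
      exact psi_ge_twelve _ (not_le.2 h4)
  · push Not at h1
    obtain ⟨e, h4⟩ := h1
    refine hsingle (Sum.inl e) ?_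
    simp only [Lam]
    exact psi_ge_twelve _ (not_le.2 h4)

theorem sq_le_good_bad (g : (R × C → ℤ) → ℝ) (B : ℝ) (hB : ∀ X, |g X| ≤ B) (X Y : R × C → ℤ) :
    (g X - g Y) ^ 2 ≤ goodSq g X Y + B ^ 2 / 3 * ∑ l, Lam l X Y := by
  have h0 : 0 ≤ ∑ l, Lam l X Y := Finset.sum_nonneg fun l _ => Lam_nonneg l X Y
  unfold goodSq
  split_ifs with h
  · have : 0 ≤ B ^ 2 / 3 * ∑ l, Lam l X Y := by positivity
    linarith
  · have h1 := bad_le X Y h
    have h2 : (g X - g Y) ^ 2 ≤ 4 * B ^ 2 := by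
      have hx := abs_le.1 (hB X)
      have hy := abs_le.1 (hB Y)
      nlinarith
    have h3 : B ^ 2 / 3 * 12 ≤ B ^ 2 / 3 * ∑ l, Lam l X Y :=
      mul_le_mul_of_nonneg_left h1 (by positivity)
    linarith

theorem grid_ne (e : R × C) : gs R C e ≠ gt R C e := by
  simp [gs, gt]

theorem A_Lam (α : R ⊕ C → ℤ) {M : ℤ} (l : (R × C) ⊕ (R × C × C) ⊕ (C × R × R)) (k : ℕ)
    {f : R × C → ℤ → ℝ} {T : R × C → ℤ} (hF : Frame (gs R C) (gt R C) M α f T) :
    A (gs R C) (gt R C) M α α k f T (Lam l) ≤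
      (1 / 3) ^ k * A (gs R C) (gt R C) M α α 0 f T (Lam l) := by
  rcases l with e | ⟨i, j, j'⟩ | ⟨j, i, i'⟩
  · exact A_psi_one (gs R C) (gt R C) grid_ne e k hF
  · by_cases h : j ≠ j'
    · have h1 := A_psi_two_src (gs R C) (gt R C) grid_ne (i, j) (i, j')
        (fun h2 => h (congrArg Prod.snd h2)) rfl k hF
      simp only [Lam, if_pos h]
      exact h1
    · simp only [Lam, if_neg h]
      rw [A_zero, A_zero, mul_zero]
  · by_cases h : i ≠ i'
    · have h1 := A_psi_two_tgt (gs R C) (gt R C) grid_ne (i, j) (i', j)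
        (fun h2 => h (congrArg Prod.fst h2)) rfl k hF
      simp only [Lam, if_pos h]
      exact h1
    · simp only [Lam, if_neg h]
      rw [A_zero, A_zero, mul_zero]

/-- all moment functionals are bounded by `16 K⁴` -/
theorem Lam_le {X Y : R × C → ℤ} {K : ℝ} (hK : ∀ e, |((X e - Y e : ℤ) : ℝ)| ≤ K) :
    ∑ l, Lam l X Y ≤ 18 * (Fintype.card R) * (Fintype.card C) *
      ((Fintype.card R) + (Fintype.card C)) * K ^ 4 := by
  have hK4 : 0 ≤ K ^ 4 := by positivity
  have h2 : ∀ e e' : R × C, |(((X e - Y e) + (X e' - Y e') : ℤ) : ℝ)| ≤ 2 * K := by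
    intro e e'
    push_cast
    have h3 := hK e
    have h4 := hK e'
    push_cast at h3 h4
    refine (abs_add_le _ _).trans ?_
    linarith
  have e16 : (2 * K) ^ 4 = 16 * K ^ 4 := by ring
  rw [Fintype.sum_sum_type, Fintype.sum_sum_type]
  have a1 : ∑ e : R × C, Lam (Sum.inl e) X Y ≤ ∑ _e : R × C, K ^ 4 :=
    Finset.sum_le_sum fun e _ => psi_le_pow _ (hK e)
  have a2 : ∑ q : R × C × C, Lam (Sum.inr (Sum.inl q)) X Y ≤ ∑ _q : R × C × C, 16 * K ^ 4 := by
    refine Finset.sum_le_sum fun q _ => ?_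
    obtain ⟨i, j, j'⟩ := q
    simp only [Lam]
    split_ifs
    · rw [← e16]
      exact psi_le_pow _ (h2 _ _)
    · positivity
  have a3 : ∑ q : C × R × R, Lam (Sum.inr (Sum.inr q)) X Y ≤ ∑ _q : C × R × R, 16 * K ^ 4 := by
    refine Finset.sum_le_sum fun q _ => ?_
    obtain ⟨j, i, i'⟩ := q
    simp only [Lam]
    split_ifs
    · rw [← e16]
      exact psi_le_pow _ (h2 _ _)
    · positivity
  rw [Finset.sum_const, Finset.card_univ, nsmul_eq_mul] at a1 a2 a3
  simp only [Fintype.card_prod, Nat.cast_mul] at a1 a2 a3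
  set n : ℝ := (Fintype.card R : ℝ) with hn
  set c : ℝ := (Fintype.card C : ℝ) with hc
  have hnc : n * c ≤ 2 * (n * c) * (n + c) := by
    rcases Nat.eq_zero_or_pos (Fintype.card R) with h | h
    · have : n = 0 := by rw [hn, h]; simp
      rw [this]
      simp
    · have h1 : (1 : ℝ) ≤ n := by
        rw [hn]
        exact_mod_cast h
      have h0 : 0 ≤ c := Nat.cast_nonneg _
      have h3 : 0 ≤ n * c := by positivity
      nlinarith
  have h3 : n * c * K ^ 4 ≤ 2 * (n * c) * (n + c) * K ^ 4 := mul_le_mul_of_nonneg_right hnc hK4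
  nlinarith

/-- one frame of the top level -/
theorem frame_bound (α : R ⊕ C → ℤ) {M : ℤ} (w : R × C → ℤ → ℝ) (g : (R × C → ℤ) → ℝ) (B : ℝ)
    (hB : ∀ X, |g X| ≤ B) (k : ℕ) {f : R × C → ℤ → ℝ} {T : R × C → ℤ}
    (hF : Frame (gs R C) (gt R C) M α f T) :
    A (gs R C) (gt R C) M α α 0 f T (fun X Y => (g X - g Y) ^ 2) ≤
      2 ^ k * (∑ pq : R × R, 2 * (Fintype.card C : ℝ) *
          A (gs R C) (gt R C) M α (α + dl (Sum.inl pq.1) (Sum.inl pq.2)) 0 f T
          (fun X _ => Gam α w g X) +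
        B ^ 2 / 3 * ∑ l, (1 / 3) ^ k * A (gs R C) (gt R C) M α α 0 f T (Lam l)) := by
  have hf : ∀ e x, 0 ≤ f e x := fun e => (hF.1 e).1
  have h1 := A_iter_ge (gs R C) (gt R C) (M := M) (α := α) (β := α) (c := 2) (by norm_num)
    (G := fun X Y => (g X - g Y) ^ 2) (fun X Y => sq_nonneg _)
    (fun f T hF => A_zero_le_two (gs R C) (gt R C) g hF) k hF
  refine h1.trans (mul_le_mul_of_nonneg_left ?_ (by positivity))
  have h2 := A_mono (gs R C) (gt R C) (M := M) (α := α) (β := α) (sq_le_good_bad g B hB) k f T hf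
  refine h2.trans ?_
  rw [A_add, A_smul, A_sum]
  have hΓ : ∀ X, 0 ≤ Gam α w g X := by
    intro X
    unfold Gam
    refine Finset.sum_nonneg fun j _ => Finset.sum_nonneg fun a _ => Finset.sum_nonneg fun b _ => ?_
    split_ifs
    · positivity
    · exact le_rfl
  have h3 : A (gs R C) (gt R C) M α α k f T (goodSq g) ≤
      ∑ pq : R × R, A (gs R C) (gt R C) M α (α + dl (Sum.inl pq.1) (Sum.inl pq.2)) k f T
        (fun X _ => 2 * (Fintype.card C : ℝ) * Gam α w g X) := by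
    refine A_mono_iter (gs R C) (gt R C) Finset.univ
      (fun pq : R × R => α + dl (Sum.inl pq.1) (Sum.inl pq.2))
      (fun _ X _ => 2 * (Fintype.card C : ℝ) * Gam α w g X) (fun f T hF => ?_) k hF
    refine (A_good α w g hF).trans (le_of_eq ?_)
    rw [Finset.mul_sum]
    exact Finset.sum_congr rfl fun pq _ => (A_smul _ _ _ _ _ _ _).symm
  refine add_le_add (h3.trans (Finset.sum_le_sum fun pq _ => ?_))
    (mul_le_mul_of_nonneg_left (Finset.sum_le_sum fun l _ => A_Lam α l k hF) (by positivity))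
  have h4 := A_smul (gs R C) (gt R C) (M := M) (α := α)
    (β := α + dl (Sum.inl pq.1) (Sum.inl pq.2)) (2 * (Fintype.card C : ℝ))
    (fun X _ => Gam α w g X) k f T
  rw [h4]
  exact mul_le_mul_of_nonneg_left
    (A_load (gs R C) (gt R C) grid_ne (Sum.inl pq.1) (Sum.inl pq.2) hΓ k hF) (by positivity)

/-- M10. Theorem U. `B` bounds `|g|`, `K` bounds all differences of entries of two
configurations of positive weight. -/
theorem theoremU (α : R ⊕ C → ℤ) {M : ℤ} (w : R × C → ℤ → ℝ) (hw : ∀ e, LC (w e))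
    (hM : ∀ e, Supp M (w e)) (g : (R × C → ℤ) → ℝ) (B K : ℝ) (hB : ∀ X, |g X| ≤ B)
    (hK0 : 0 ≤ K)
    (hK : ∀ X Y, bd (gs R C) (gt R C) X = α → bd (gs R C) (gt R C) Y = α →
      pw w X ≠ 0 → pw w Y ≠ 0 → ∀ e, |((X e - Y e : ℤ) : ℝ)| ≤ K) (k : ℕ) :
    ∑ X ∈ conf (gs R C) (gt R C) M α, ∑ Y ∈ conf (gs R C) (gt R C) M α,
        pw w X * pw w Y * (g X - g Y) ^ 2 ≤
      2 ^ k * (2 * (Fintype.card C : ℝ) * ∑ pq : R × R,
          Z (gs R C) (gt R C) M w (α + dl (Sum.inl pq.2) (Sum.inl pq.1)) *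
            ∑ X ∈ conf (gs R C) (gt R C) M (α + dl (Sum.inl pq.1) (Sum.inl pq.2)),
              pw w X * Gam α w g X)
        + (2 / 3) ^ k * (6 * (Fintype.card R) * (Fintype.card C) *
            ((Fintype.card R) + (Fintype.card C)) * K ^ 4 * B ^ 2 *
            (Z (gs R C) (gt R C) M w α) ^ 2) := by
  have hw0 : ∀ e x, 0 ≤ w e x := fun e => (hw e).1
  rw [top_pairs (gs R C) (gt R C) hM (fun X Y => (g X - g Y) ^ 2)]
  refine (Finset.sum_le_sum fun T' hT' =>
    frame_bound α w g B hB k (Frame.of_cut hw hM hT')).trans ?_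
  rw [← Finset.mul_sum, Finset.sum_add_distrib, mul_add]
  refine add_le_add (le_of_eq ?_) ?_
  · congr 1
    rw [Finset.sum_comm, Finset.mul_sum]
    refine Finset.sum_congr rfl fun pq _ => ?_
    rw [← Finset.mul_sum, top_load (gs R C) (gt R C) hM (Sum.inl pq.1) (Sum.inl pq.2)]
  · rw [← Finset.mul_sum, Finset.sum_comm]
    have h1 : ∀ l ∈ (Finset.univ : Finset ((R × C) ⊕ (R × C × C) ⊕ (C × R × R))),
        ∑ T' ∈ conf (gs R C) (gt R C) (2 * M) (fun v => 2 * α v), (1 / 3 : ℝ) ^ k *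
          A (gs R C) (gt R C) M α α 0 (cut w T') T' (Lam l) =
        (1 / 3) ^ k * ∑ X ∈ conf (gs R C) (gt R C) M α, ∑ Y ∈ conf (gs R C) (gt R C) M α,
          pw w X * pw w Y * Lam l X Y := by
      intro l _
      rw [← Finset.mul_sum, ← top_pairs (gs R C) (gt R C) hM (Lam l)]
    rw [Finset.sum_congr rfl h1, ← Finset.mul_sum]
    have h2 : ∑ l, ∑ X ∈ conf (gs R C) (gt R C) M α, ∑ Y ∈ conf (gs R C) (gt R C) M α,
          pw w X * pw w Y * Lam l X Y ≤
        18 * (Fintype.card R) * (Fintype.card C) *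
          ((Fintype.card R) + (Fintype.card C)) * K ^ 4 * (Z (gs R C) (gt R C) M w α) ^ 2 := by
      rw [Finset.sum_comm]
      have e1 : 18 * (Fintype.card R : ℝ) * (Fintype.card C) *
          ((Fintype.card R) + (Fintype.card C)) * K ^ 4 * (Z (gs R C) (gt R C) M w α) ^ 2 =
          ∑ X ∈ conf (gs R C) (gt R C) M α, ∑ Y ∈ conf (gs R C) (gt R C) M α,
            pw w X * pw w Y * (18 * (Fintype.card R : ℝ) * (Fintype.card C) *
          ((Fintype.card R) + (Fintype.card C)) * K ^ 4) := by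
        have e2 : (Z (gs R C) (gt R C) M w α) ^ 2 =
            ∑ X ∈ conf (gs R C) (gt R C) M α, ∑ Y ∈ conf (gs R C) (gt R C) M α,
              pw w X * pw w Y := by
          rw [sq, Z, Finset.sum_mul_sum]
        rw [e2, mul_comm, Finset.sum_mul]
        exact Finset.sum_congr rfl fun X _ => by rw [Finset.sum_mul]
      rw [e1]
      refine Finset.sum_le_sum fun X hX => ?_
      rw [Finset.sum_comm]
      refine Finset.sum_le_sum fun Y hY => ?_
      rw [← Finset.mul_sum]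
      by_cases hx : pw w X = 0
      · rw [hx]
        simp
      by_cases hy : pw w Y = 0
      · rw [hy]
        simp
      refine mul_le_mul_of_nonneg_left ?_ (mul_nonneg (pw_nonneg hw0 X) (pw_nonneg hw0 Y))
      exact Lam_le (hK X Y (Finset.mem_filter.1 hX).2 (Finset.mem_filter.1 hY).2 hx hy)
    have e3 : (2 / 3 : ℝ) ^ k = 2 ^ k * (1 / 3) ^ k := by
      rw [← mul_pow]
      norm_num
    rw [e3]
    have h3 := mul_le_mul_of_nonneg_left h2
      (show 0 ≤ (2 : ℝ) ^ k * (1 / 3) ^ k * (B ^ 2 / 3) by positivity)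
    refine le_trans (le_of_eq ?_) (h3.trans (le_of_eq ?_))
    · ring
    · ring

end Vale.Agent.P328R
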