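import Vale.Agent.P328R.WCond
import Vale.Agent.P328R.WBlk

/-! Module W5: assembly of the weak Poincaré inequality from the tensorization (W4) and the
conditional Theorem U (W3). -/

set_option linter.unusedSectionVars false

namespace Vale.Agent.P328R

open Finset

theorem exists_pow {x : ℝ} (hx : 1 ≤ x) : ∃ k : ℕ, x ≤ (3 / 2) ^ k ∧ (2 : ℝ) ^ k ≤ (9 / 4) * x ^ 2 := by
  classical
  have hex : ∃ k : ℕ, x ≤ (3 / 2 : ℝ) ^ k := by
    obtain ⟨k, hk⟩ := pow_unbounded_of_one_lt x (by norm_num : (1 : ℝ) < 3 / 2)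
    exact ⟨k, hk.le⟩
  refine ⟨Nat.find hex, Nat.find_spec hex, ?_⟩
  rcases Nat.eq_zero_or_pos (Nat.find hex) with h0 | h0
  · rw [h0]
    nlinarith
  · obtain ⟨j, hj⟩ : ∃ j, Nat.find hex = j + 1 := ⟨Nat.find hex - 1, by omega⟩
    have h1 : ¬ x ≤ (3 / 2 : ℝ) ^ j := Nat.find_min hex (by omega)
    push_neg at h1
    have h2 : ((3 / 2 : ℝ) ^ j) ^ 2 ≤ x ^ 2 := pow_le_pow_left₀ (by positivity) h1.le 2
    have h3 : (2 : ℝ) ^ (j + 1) ≤ (9 / 4) ^ (j + 1) :=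
      pow_le_pow_left₀ (by norm_num) (by norm_num) _
    rw [hj]
    calc (2 : ℝ) ^ (j + 1) ≤ (9 / 4) ^ (j + 1) := h3
      _ = (9 / 4) * ((3 / 2 : ℝ) ^ j) ^ 2 := by
          rw [← pow_mul, mul_comm j 2, pow_mul]
          norm_num [pow_succ]
          ring
      _ ≤ _ := mul_le_mul_of_nonneg_left h2 (by norm_num)


theorem asm_far {p x ε B d S z : ℝ} (hx0 : 0 < x) (hε : 0 < ε) (hd : 0 ≤ d)
    (e1 : p ≤ 1 / x) (g3 : 8 * d * S ^ 4 ≤ ε * x) :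
    p * (4 * B ^ 2 * d * S ^ 4) * z ^ 2 ≤ (ε / 2) * B ^ 2 * z ^ 2 := by
  have g1 : p * (4 * B ^ 2 * d * S ^ 4) ≤ (1 / x) * (4 * B ^ 2 * d * S ^ 4) :=
    mul_le_mul_of_nonneg_right e1 (by positivity)
  have g2 : (1 / x) * (4 * B ^ 2 * d * S ^ 4) ≤ (ε / 2) * B ^ 2 := by
    rw [one_div, inv_mul_le_iff₀ hx0]
    have := mul_le_mul_of_nonneg_right g3 (sq_nonneg B)
    linarith
  exact mul_le_mul_of_nonneg_right (g1.trans g2) (by positivity)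

theorem asm_cond {p x y ε B K1 c3 : ℝ} (hy0 : 0 < y) (hK1 : 0 ≤ K1) (hc3 : 0 ≤ c3)
    (e2 : p ≤ 1 / y) (g3 : (9 / 4) * x ^ 2 * (48 * K1 * c3) * 2 ≤ ε * y) :
    (9 / 4 * x ^ 2) * (48 * K1) * (p * (c3 * B ^ 2)) ≤ (ε / 2) * B ^ 2 := by
  have g1 : p * (c3 * B ^ 2) ≤ (1 / y) * (c3 * B ^ 2) :=
    mul_le_mul_of_nonneg_right e2 (by positivity)
  have g2 : (9 / 4 * x ^ 2) * (48 * K1) * ((1 / y) * (c3 * B ^ 2)) ≤ (ε / 2) * B ^ 2 := by
    have g4 : (9 / 4 * x ^ 2) * (48 * K1) * ((1 / y) * (c3 * B ^ 2)) =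
        ((9 / 4) * x ^ 2 * (48 * K1 * c3) * B ^ 2) / y := by
      field_simp
    rw [g4, div_le_iff₀ hy0]
    have := mul_le_mul_of_nonneg_right g3 (sq_nonneg B)
    linarith
  exact (mul_le_mul_of_nonneg_left g1 (by positivity)).trans g2

theorem asm_main {x y z b1 b2 A3 W Bl V E pk pl : ℝ} (hz : 0 ≤ z) (hb1 : 0 ≤ b1) (hb2 : 0 ≤ b2)
    (hA3 : 0 ≤ A3) (hW : 0 ≤ W) (hBl : 0 ≤ Bl) (hV : 0 ≤ V)
    (hk : pk ≤ 9 / 4 * x ^ 2) (hl : pl ≤ 9 / 4 * y ^ 2)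
    (hC : V ≤ pl * A3 * W + E * z) :
    pk * z * (b1 * Bl + b2 * V) ≤
      (9 / 4) * x ^ 2 * (b1 + b2 * ((9 / 4) * y ^ 2 * A3)) * (z * (W + Bl)) +
        ((9 / 4 * x ^ 2) * b2 * E) * z ^ 2 := by
  have hC' : V ≤ (9 / 4 * y ^ 2) * A3 * W + E * z :=
    hC.trans (by
      have := mul_le_mul_of_nonneg_right (mul_le_mul_of_nonneg_right hl hA3) hW
      linarith)
  have g1 : b1 * Bl + b2 * V ≤ b1 * Bl + b2 * ((9 / 4 * y ^ 2) * A3 * W + E * z) := by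
    have := mul_le_mul_of_nonneg_left hC' hb2
    linarith
  have g2 : pk * z ≤ (9 / 4 * x ^ 2) * z := mul_le_mul_of_nonneg_right hk hz
  have g3 : pk * z * (b1 * Bl + b2 * V) ≤
      (9 / 4 * x ^ 2) * z * (b1 * Bl + b2 * ((9 / 4 * y ^ 2) * A3 * W + E * z)) :=
    mul_le_mul g2 g1 (by positivity) (by positivity)
  have g4 : 0 ≤ (9 / 4 * x ^ 2) * z * b1 * W := by positivity
  have g5 : 0 ≤ (9 / 4 * x ^ 2) * z * (b2 * ((9 / 4 * y ^ 2) * A3)) * Bl := by positivity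
  have g6 : (9 / 4) * x ^ 2 * (b1 + b2 * ((9 / 4) * y ^ 2 * A3)) * (z * (W + Bl)) +
        ((9 / 4 * x ^ 2) * b2 * E) * z ^ 2 =
      (9 / 4 * x ^ 2) * z * (b1 * Bl + b2 * ((9 / 4 * y ^ 2) * A3 * W + E * z)) +
        (9 / 4 * x ^ 2) * z * b1 * W + (9 / 4 * x ^ 2) * z * (b2 * ((9 / 4 * y ^ 2) * A3)) * Bl := by
    ring
  linarith

variable {R C : Type} [Fintype R] [LinearOrder R] [Fintype C] [DecidableEq C]

theorem WormE_nonneg {α : R ⊕ C → ℤ} {M : ℤ} {w : R × C → ℤ → ℝ} (hw : ∀ e x, 0 ≤ w e x)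
    (L : ℕ) (g : (R × C → ℤ) → ℝ) : 0 ≤ WormE α M w L g := by
  unfold WormE
  refine Finset.sum_nonneg fun X _ => Finset.sum_nonneg fun s _ => ?_
  split_ifs
  · exact mul_nonneg (le_min (pw_nonneg hw X) (pw_nonneg hw _)) (sq_nonneg _)
  · exact le_rfl

theorem BlockE_nonneg {α : R ⊕ C → ℤ} {M : ℤ} {w : R × C → ℤ → ℝ} (hw : ∀ e x, 0 ≤ w e x)
    {i0 : R} {j0 : C} {D : Finset (R × C)} {lam : R × C → ℤ} (hl : ∀ e ∈ D, 0 ≤ lam e)
    (g : (R × C → ℤ) → ℝ) : 0 ≤ BlockE α M w i0 j0 D lam g := by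
  unfold BlockE
  refine Finset.sum_nonneg fun X _ => Finset.sum_nonneg fun e he => ?_
  have h1 : (0 : ℝ) ≤ lam e := by exact_mod_cast hl e he
  refine mul_nonneg (by positivity) (Finset.sum_nonneg fun d _ => ?_)
  exact mul_nonneg (le_min (pw_nonneg hw X) (pw_nonneg hw _)) (sq_nonneg _)

/-- The first constant. -/
noncomputable def cx (D S ε : ℝ) : ℝ := 8 * D * S ^ 4 / ε + 1

/-- The second constant. -/
noncomputable def cy (m n D S K1 Kd ε : ℝ) : ℝ :=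
  (9 / 4) * cx D S ε ^ 2 * (48 * K1 * (3 * m * n * (m + n) * Kd ^ 4)) * 2 / ε + 1

/-- The final constant. -/
noncomputable def cA (m n D S K K1 K2 Kd ε : ℝ) : ℝ :=
  (9 / 4) * cx D S ε ^ 2 * (48 * K1 ^ 2 * K2 * (D + 1) +
    48 * K1 * ((9 / 4) * cy m n D S K1 Kd ε ^ 2 * (n * (K * (n * m ^ 2) ^ 2) * (K * m))))

/-- **W5: weak Poincaré inequality.** -/
theorem soft_wp {α : R ⊕ C → ℤ} {M : ℤ} {w : R × C → ℤ → ℝ} (hw : ∀ e, LC (w e))
    (hM : ∀ e, Supp M (w e)) {i0 : R} {j0 : C} {D : Finset (R × C)}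
    (hD : ∀ e ∈ D, e.1 ≠ i0 ∧ e.2 ≠ j0) {sig lam u : R × C → ℤ} {K2 : ℕ} {K1 S : ℝ}
    (hu : ∀ e ∈ D, 1 ≤ u e) (hlam : ∀ e ∈ D, lam e = K2 * u e) (hdvd : ∀ e ∈ D, lam e ∣ sig e)
    (hK2 : 4 * D.card ≤ K2)
    (hS0 : 0 ≤ S) (hS : ∀ e ∈ D, (sig e : ℝ) ≤ S * u e)
    (hbox : ∀ X : R × C → ℤ, pw w X ≠ 0 → ∀ e ∈ D, 0 ≤ X e ∧ X e < sig e)
    (hK1 : 1 ≤ K1)
    (hJ : ∀ X ∈ conf (gs R C) (gt R C) M α, pw w X ≠ 0 → ∀ W : R × C → ℤ,
      (∀ e ∈ D, 0 ≤ W e ∧ W e < sig e ∧ |W e - X e| < lam e) →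
      pw w X ≤ K1 * pw w (upd i0 j0 D X W))
    {K : ℝ} (hK : 1 ≤ K) (hR : Rep α w D K)
    {Kd : ℝ} (hKd0 : 0 ≤ Kd)
    (hKd : ∀ X ∈ conf (gs R C) (gt R C) M α, ∀ Y ∈ conf (gs R C) (gt R C) M α,
      pw w X ≠ 0 → pw w Y ≠ 0 → (∀ e ∈ D, X e = Y e) → ∀ e, |((X e - Y e : ℤ) : ℝ)| ≤ Kd)
    (g : (R × C → ℤ) → ℝ) {B : ℝ} (hB0 : 0 ≤ B)
    (hB : ∀ X ∈ conf (gs R C) (gt R C) M α, |g X| ≤ B) {ε : ℝ} (hε : 0 < ε) :
    ∑ X ∈ conf (gs R C) (gt R C) M α, ∑ Y ∈ conf (gs R C) (gt R C) M α,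
        pw w X * pw w Y * (g X - g Y) ^ 2 ≤
      cA (Fintype.card R) (Fintype.card C) D.card S K K1 K2 Kd ε *
          (Z (gs R C) (gt R C) M w α *
            (WormE α M w 5 g + BlockE α M w i0 j0 D lam g)) +
        ε * B ^ 2 * (Z (gs R C) (gt R C) M w α) ^ 2 := by
  have hw0 : ∀ e x, 0 ≤ w e x := fun e => (hw e).1
  have hz0 : 0 ≤ Z (gs R C) (gt R C) M w α := Finset.sum_nonneg fun X _ => pw_nonneg hw0 X
  have hW0 := WormE_nonneg (α := α) (M := M) hw0 5 g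
  have hBl0 : 0 ≤ BlockE α M w i0 j0 D lam g := BlockE_nonneg hw0 (fun e he => by
    rw [hlam e he]; exact mul_nonneg (by positivity) (by linarith [hu e he])) g
  have hV0 : 0 ≤ VarD α M w D g := by
    unfold VarD
    exact Finset.sum_nonneg fun X _ => mul_nonneg (pw_nonneg hw0 X) (sq_nonneg _)
  have hx1 : 1 ≤ cx D.card S ε := by
    unfold cx
    have : 0 ≤ 8 * (D.card : ℝ) * S ^ 4 / ε := by positivity
    linarith
  have hK10 : 0 ≤ K1 := by linarith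
  have hK0 : 0 ≤ K := by linarith
  obtain ⟨k, hk1, hk2⟩ := exists_pow hx1
  have hy1 : 1 ≤ cy (Fintype.card R) (Fintype.card C) D.card S K1 Kd ε := by
    unfold cy
    have : 0 ≤ (9 / 4) * cx D.card S ε ^ 2 * (48 * K1 * (3 * (Fintype.card R : ℝ) *
      (Fintype.card C) * ((Fintype.card R : ℝ) + Fintype.card C) * Kd ^ 4)) * 2 / ε := by
      positivity
    linarith
  obtain ⟨l, hl1, hl2⟩ := exists_pow hy1
  have hT := tensor hw hM hD hu hlam hdvd hK2 hS hbox hK1 hJ g hB0 hB k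
  have hC := cond_var_le hw hM hK hR hKd0 hKd g hB0 hB l
  have hx0 : 0 < cx D.card S ε := by linarith
  have hy0 : 0 < cy (Fintype.card R) (Fintype.card C) D.card S K1 Kd ε := by linarith
  have epow : ∀ (k : ℕ) (x : ℝ), 0 < x → x ≤ (3 / 2) ^ k → (2 / 3 : ℝ) ^ k ≤ 1 / x := by
    intro k x hx h
    have : (2 / 3 : ℝ) ^ k = 1 / (3 / 2) ^ k := by
      rw [one_div, ← inv_pow]; norm_num
    rw [this]
    exact one_div_le_one_div_of_le hx h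
  have hfar := asm_far (B := B) (z := Z (gs R C) (gt R C) M w α) hx0 hε
    (by positivity : (0 : ℝ) ≤ D.card) (epow k _ hx0 hk1) (S := S) (by
      have : ε * cx D.card S ε = 8 * D.card * S ^ 4 + ε := by unfold cx; field_simp
      rw [this]; linarith)
  have hcond := asm_cond (B := B) (x := cx D.card S ε) (ε := ε) hy0 hK10
    (by positivity : (0 : ℝ) ≤ 3 * (Fintype.card R : ℝ) * (Fintype.card C) *
      ((Fintype.card R : ℝ) + Fintype.card C) * Kd ^ 4) (epow l _ hy0 hl1) (by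
      have : ε * cy (Fintype.card R) (Fintype.card C) D.card S K1 Kd ε =
          (9 / 4) * cx D.card S ε ^ 2 * (48 * K1 * (3 * (Fintype.card R : ℝ) *
            (Fintype.card C) * ((Fintype.card R : ℝ) + Fintype.card C) * Kd ^ 4)) * 2 + ε := by
        unfold cy; field_simp
      rw [this]; linarith)
  have hmain := asm_main (x := cx D.card S ε)
    (y := cy (Fintype.card R) (Fintype.card C) D.card S K1 Kd ε) (b1 := 48 * K1 ^ 2 * K2 * (D.card + 1))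
    (b2 := 48 * K1) (A3 := (Fintype.card C : ℝ) * (K * ((Fintype.card C : ℝ) *
      (Fintype.card R) ^ 2) ^ 2) * (K * Fintype.card R)) (E := (2 / 3) ^ l *
      (3 * (Fintype.card R : ℝ) * (Fintype.card C) *
        ((Fintype.card R : ℝ) + Fintype.card C) * Kd ^ 4 * B ^ 2)) hz0 (by positivity)
    (by positivity) (by positivity) hW0 hBl0 hV0 hk2 hl2 hC
  have hcond' := mul_le_mul_of_nonneg_right hcond (sq_nonneg (Z (gs R C) (gt R C) M w α))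
  refine hT.trans ?_
  refine (add_le_add hmain hfar).trans ?_
  unfold cA
  linarith

end Vale.Agent.P328R
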