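import Vale.Agent.P328R.WRepair

/-! Module W3: the conditional variance given the B-cells, from Theorem U and the repair. -/

set_option linter.unusedSectionVars false

namespace Vale.Agent.P328R

open Finset

variable {R C : Type} [Fintype R] [LinearOrder R] [Fintype C] [DecidableEq C]

theorem pw_wcond (w : R × C → ℤ → ℝ) (D : Finset (R × C)) (b X : R × C → ℤ) :
    pw (wcond w D b) X = if ∀ e ∈ D, X e = b e then pw w X else 0 := by
  unfold pw
  split_ifs with h
  · refine Finset.prod_congr rfl fun e _ => ?_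
    unfold wcond
    by_cases he : e ∈ D
    · simp [h e he]
    · simp [he]
  · push Not at h
    obtain ⟨e, he, h⟩ := h
    exact Finset.prod_eq_zero (Finset.mem_univ e) (by unfold wcond; simp [he, h])

theorem wcond_nonneg {w : R × C → ℤ → ℝ} (hw : ∀ e x, 0 ≤ w e x) (D : Finset (R × C))
    (b : R × C → ℤ) : ∀ e x, 0 ≤ wcond w D b e x := by
  intro e x
  unfold wcond
  split_ifs
  · exact le_rfl
  · exact hw e x

theorem wcond_LC {w : R × C → ℤ → ℝ} (hw : ∀ e, LC (w e)) (D : Finset (R × C))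
    (b : R × C → ℤ) : ∀ e, LC (wcond w D b e) := by
  intro e
  refine ⟨wcond_nonneg (fun e => (hw e).1) D b e, fun x y hxy => ?_⟩
  by_cases he : e ∈ D
  · have h0 : wcond w D b e x * wcond w D b e y = 0 := by
      unfold wcond
      by_cases hx : x = b e
      · have hy : y ≠ b e := by omega
        simp [he, hy]
      · simp [he, hx]
    rw [h0]
    exact mul_nonneg (wcond_nonneg (fun e => (hw e).1) D b e _)
      (wcond_nonneg (fun e => (hw e).1) D b e _)
  · have h : wcond w D b e = w e := by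
      funext z; unfold wcond; simp [he]
    rw [h]
    exact (hw e).2 x y hxy

theorem wcond_supp {M : ℤ} {w : R × C → ℤ → ℝ} (hM : ∀ e, Supp M (w e)) (D : Finset (R × C))
    (b : R × C → ℤ) : ∀ e, Supp M (wcond w D b e) := by
  intro e x hx
  unfold wcond
  split_ifs
  · rfl
  · exact hM e x hx

theorem rep_wcond {α : R ⊕ C → ℤ} {w : R × C → ℤ → ℝ} {D : Finset (R × C)} {K : ℝ}
    (hR : Rep α w D K) (b : R × C → ℤ) : Rep α (wcond w D b) D K := by
  intro X hX hpos
  rw [pw_wcond] at hpos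
  split_ifs at hpos with h
  · obtain ⟨s, t, h1, h2, h3⟩ := hR X hX hpos
    refine ⟨s, t, h1, ?_, h3⟩
    rw [pw_wcond, pw_wcond, if_pos h, if_pos fun e he => (h3 e he).trans (h e he)]
    exact h2
  · exact absurd hpos (lt_irrefl _)

/-- pairwise differences and variance -/
theorem pair_var {ι : Type} (S : Finset ι) (p g : ι → ℝ) (hp : ∀ x, 0 ≤ p x) :
    ∑ x ∈ S, ∑ y ∈ S, p x * p y * (g x - g y) ^ 2 =
      2 * (∑ x ∈ S, p x) * ∑ x ∈ S, p x * (g x - (∑ y ∈ S, p y * g y) / ∑ y ∈ S, p y) ^ 2 := by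
  set Zp := ∑ x ∈ S, p x with hZ
  set G := ∑ y ∈ S, p y * g y with hG
  set H := ∑ y ∈ S, p y * g y ^ 2 with hH
  have e1 : ∑ x ∈ S, ∑ y ∈ S, p x * p y * (g x - g y) ^ 2 = 2 * Zp * H - 2 * G ^ 2 := by
    have : ∀ x, ∑ y ∈ S, p x * p y * (g x - g y) ^ 2 =
        p x * g x ^ 2 * Zp - 2 * (p x * g x) * G + p x * H := by
      intro x
      rw [hZ, hG, hH, mul_sum, mul_sum, mul_sum, ← sum_sub_distrib, ← sum_add_distrib]
      exact sum_congr rfl fun y _ => by ring
    simp only [this]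
    rw [sum_add_distrib, sum_sub_distrib, ← sum_mul, ← sum_mul, ← sum_mul, ← mul_sum]
    rw [← hZ, ← hG, ← hH]; ring
  rw [e1]
  rcases eq_or_ne Zp 0 with h0 | h0
  · have hz : ∀ x ∈ S, p x = 0 := (sum_eq_zero_iff_of_nonneg fun x _ => hp x).1 (hZ ▸ h0)
    have hG0 : G = 0 := sum_eq_zero fun x hx => by rw [hz x hx, zero_mul]
    rw [h0, hG0]; ring
  · have e2 : ∑ x ∈ S, p x * (g x - G / Zp) ^ 2 = H - G ^ 2 / Zp := by
      have : ∀ x, p x * (g x - G / Zp) ^ 2 =
          p x * g x ^ 2 - 2 * (G / Zp) * (p x * g x) + (G / Zp) ^ 2 * p x := fun x => by ring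
      simp only [this]
      rw [sum_add_distrib, sum_sub_distrib, ← mul_sum, ← mul_sum, ← hZ, ← hG, ← hH]
      field_simp
      ring
    rw [e2]
    field_simp

/-- one value of the B-cells -/
theorem cond_var_one {α : R ⊕ C → ℤ} {M : ℤ} {w : R × C → ℤ → ℝ} (hw : ∀ e, LC (w e))
    (hM : ∀ e, Supp M (w e)) {D : Finset (R × C)} {K : ℝ} (hK : 1 ≤ K) (hR : Rep α w D K)
    {Kd : ℝ} (hKd0 : 0 ≤ Kd)
    (hKd : ∀ X ∈ conf (gs R C) (gt R C) M α, ∀ Y ∈ conf (gs R C) (gt R C) M α,
      pw w X ≠ 0 → pw w Y ≠ 0 → (∀ e ∈ D, X e = Y e) → ∀ e, |((X e - Y e : ℤ) : ℝ)| ≤ Kd)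
    (g g' : (R × C → ℤ) → ℝ) {B : ℝ}
    (hg : ∀ X ∈ conf (gs R C) (gt R C) M α, g' X = g X) (hB' : ∀ X, |g' X| ≤ B)
    (b : R × C → ℤ)
    (hE : ∑ pq : R × R, ∑ X ∈ conf (gs R C) (gt R C) M (α + dl (Sum.inl pq.1) (Sum.inl pq.2)),
          pw (wcond w D b) X * Gam α (wcond w D b) g' X ≤
        K * (Fintype.card R) * WormE α M (wcond w D b) 5 g) (k : ℕ) :
    ∑ X ∈ conf (gs R C) (gt R C) M α, pw (wcond w D b) X * (g X - cmean α M w D g b) ^ 2 ≤
      2 ^ k * ((Fintype.card C : ℝ) * (K * ((Fintype.card C : ℝ) * (Fintype.card R) ^ 2) ^ 2) *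
        (K * Fintype.card R)) * WormE α M (wcond w D b) 5 g +
      (2 / 3) ^ k * (3 * (Fintype.card R : ℝ) * (Fintype.card C) *
        ((Fintype.card R : ℝ) + Fintype.card C) * Kd ^ 4 * B ^ 2) *
        Zc α M w D b := by
  set wb := wcond w D b with hwb
  have hw0 : ∀ e x, 0 ≤ w e x := fun e => (hw e).1
  have hwb0 : ∀ e x, 0 ≤ wb e x := wcond_nonneg hw0 D b
  have hpw0 : ∀ X, 0 ≤ pw wb X := pw_nonneg hwb0
  have hU := theoremU α (M := M) wb (wcond_LC hw D b) (wcond_supp hM D b) g' B Kd hB' hKd0 (by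
    intro X Y hX hY hpX hpY e
    rw [hwb, pw_wcond] at hpX hpY
    have hX1 : ∀ e ∈ D, X e = b e := by
      by_contra h; rw [if_neg h] at hpX; exact hpX rfl
    have hY1 : ∀ e ∈ D, Y e = b e := by
      by_contra h; rw [if_neg h] at hpY; exact hpY rfl
    rw [if_pos hX1] at hpX
    rw [if_pos hY1] at hpY
    have hmem : ∀ W : R × C → ℤ, bd (gs R C) (gt R C) W = α → pw w W ≠ 0 →
        W ∈ conf (gs R C) (gt R C) M α := by
      intro W hW hpW
      refine mem_filter.2 ⟨?_, hW⟩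
      unfold box
      rw [Fintype.mem_piFinset]
      intro e'
      by_contra hcon
      have h2 : M < |W e'| := by
        by_contra h3
        push Not at h3
        exact hcon (mem_Icc.2 (abs_le.1 h3))
      exact hpW (Finset.prod_eq_zero (mem_univ e') (hM e' _ h2))
    exact hKd X (hmem X hX hpX) Y (hmem Y hY hpY) hpX hpY
      (fun e he => (hX1 e he).trans (hY1 e he).symm) e) k
  -- left side
  set Zb := Z (gs R C) (gt R C) M wb α with hZb
  set V := ∑ X ∈ conf (gs R C) (gt R C) M α, pw wb X * (g X - cmean α M w D g b) ^ 2 with hV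
  have hL : ∑ X ∈ conf (gs R C) (gt R C) M α, ∑ Y ∈ conf (gs R C) (gt R C) M α,
      pw wb X * pw wb Y * (g' X - g' Y) ^ 2 = 2 * Zb * V := by
    have h1 : ∑ X ∈ conf (gs R C) (gt R C) M α, ∑ Y ∈ conf (gs R C) (gt R C) M α,
        pw wb X * pw wb Y * (g' X - g' Y) ^ 2 =
        ∑ X ∈ conf (gs R C) (gt R C) M α, ∑ Y ∈ conf (gs R C) (gt R C) M α,
        pw wb X * pw wb Y * (g X - g Y) ^ 2 :=
      sum_congr rfl fun X hX => sum_congr rfl fun Y hY => by rw [hg X hX, hg Y hY]
    rw [h1, pair_var _ _ _ hpw0]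
    rfl
  have hZb0 : 0 ≤ Zb := sum_nonneg fun X _ => hpw0 X
  have hV0 : 0 ≤ V := sum_nonneg fun X _ => mul_nonneg (hpw0 X) (sq_nonneg _)
  have hE0 : 0 ≤ WormE α M wb 5 g := by
    unfold WormE
    refine sum_nonneg fun X _ => sum_nonneg fun s _ => ?_
    split_ifs
    · exact mul_nonneg (le_min (hpw0 _) (hpw0 _)) (sq_nonneg _)
    · exact le_rfl
  have hB0 : 0 ≤ B := (abs_nonneg _).trans (hB' 0)
  rcases hZb0.eq_or_lt with h0 | hpos
  · -- no weight at all
    have hz : ∀ X ∈ conf (gs R C) (gt R C) M α, pw wb X = 0 :=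
      (sum_eq_zero_iff_of_nonneg fun x _ => hpw0 x).1 h0.symm
    have hV1 : V = 0 := sum_eq_zero fun X hX => by rw [hz X hX, zero_mul]
    rw [hV1]
    have hZc : Zc α M w D b = 0 := h0.symm
    rw [hZc]
    positivity
  · rw [hL] at hU
    -- holes
    set Hn : ℝ := K * ((Fintype.card C : ℝ) * (Fintype.card R) ^ 2) ^ 2 with hHn
    have hhole : ∀ p q : R, Z (gs R C) (gt R C) M wb (α + dl (Sum.inl p) (Sum.inl q)) ≤ Hn * Zb :=
      fun p q => hole_ratio hwb0 (wcond_supp hM D b) hK (rep_wcond hR b) p q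
    have hin0 : ∀ pq : R × R, 0 ≤
        ∑ X ∈ conf (gs R C) (gt R C) M (α + dl (Sum.inl pq.1) (Sum.inl pq.2)),
          pw wb X * Gam α wb g' X := fun pq =>
      sum_nonneg fun X _ => mul_nonneg (hpw0 X) (Gam_nonneg _ _ _ _)
    have hsum : ∑ pq : R × R, Z (gs R C) (gt R C) M wb (α + dl (Sum.inl pq.2) (Sum.inl pq.1)) *
        ∑ X ∈ conf (gs R C) (gt R C) M (α + dl (Sum.inl pq.1) (Sum.inl pq.2)),
          pw wb X * Gam α wb g' X ≤
        Hn * Zb * (K * (Fintype.card R) * WormE α M wb 5 g) := by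
      calc _ ≤ ∑ pq : R × R, Hn * Zb *
            ∑ X ∈ conf (gs R C) (gt R C) M (α + dl (Sum.inl pq.1) (Sum.inl pq.2)),
              pw wb X * Gam α wb g' X :=
            sum_le_sum fun pq _ => mul_le_mul_of_nonneg_right (hhole pq.2 pq.1) (hin0 pq)
        _ = Hn * Zb * ∑ pq : R × R,
            ∑ X ∈ conf (gs R C) (gt R C) M (α + dl (Sum.inl pq.1) (Sum.inl pq.2)),
              pw wb X * Gam α wb g' X := by rw [mul_sum]
        _ ≤ _ := by
            refine mul_le_mul_of_nonneg_left hE (mul_nonneg ?_ hZb0)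
            rw [hHn]; positivity
    have hU2 : 2 * Zb * V ≤ 2 ^ k * (2 * (Fintype.card C : ℝ) *
        (Hn * Zb * (K * (Fintype.card R) * WormE α M wb 5 g))) +
        (2 / 3) ^ k * (6 * (Fintype.card R) * (Fintype.card C) *
          ((Fintype.card R) + (Fintype.card C)) * Kd ^ 4 * B ^ 2 * Zb ^ 2) := by
      refine hU.trans (add_le_add ?_ le_rfl)
      refine mul_le_mul_of_nonneg_left (mul_le_mul_of_nonneg_left hsum (by positivity))
        (by positivity)
    have hZc : Zc α M w D b = Zb := rfl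
    rw [hZc]
    have h2 : 2 * Zb * V ≤ 2 * Zb * (2 ^ k * ((Fintype.card C : ℝ) * Hn *
        (K * Fintype.card R)) * WormE α M wb 5 g +
        (2 / 3) ^ k * (3 * (Fintype.card R : ℝ) * (Fintype.card C) *
        ((Fintype.card R : ℝ) + Fintype.card C) * Kd ^ 4 * B ^ 2) * Zb) := by
      refine hU2.trans (le_of_eq ?_)
      ring
    exact le_of_mul_le_mul_left h2 (by positivity)

/-- **Conditional Theorem U.** `Kd` bounds the differences of exact tables of positive weight with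
the same B-cells. -/
theorem cond_var_le {α : R ⊕ C → ℤ} {M : ℤ} {w : R × C → ℤ → ℝ} (hw : ∀ e, LC (w e))
    (hM : ∀ e, Supp M (w e)) {D : Finset (R × C)} {K : ℝ} (hK : 1 ≤ K) (hR : Rep α w D K)
    {Kd : ℝ} (hKd0 : 0 ≤ Kd)
    (hKd : ∀ X ∈ conf (gs R C) (gt R C) M α, ∀ Y ∈ conf (gs R C) (gt R C) M α,
      pw w X ≠ 0 → pw w Y ≠ 0 → (∀ e ∈ D, X e = Y e) → ∀ e, |((X e - Y e : ℤ) : ℝ)| ≤ Kd)
    (g : (R × C → ℤ) → ℝ) {B : ℝ} (hB0 : 0 ≤ B)
    (hB : ∀ X ∈ conf (gs R C) (gt R C) M α, |g X| ≤ B) (k : ℕ) :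
    VarD α M w D g ≤
      2 ^ k * ((Fintype.card C : ℝ) * (K * ((Fintype.card C : ℝ) * (Fintype.card R) ^ 2) ^ 2) *
        (K * Fintype.card R)) * WormE α M w 5 g +
      (2 / 3) ^ k * (3 * (Fintype.card R : ℝ) * (Fintype.card C) *
        ((Fintype.card R : ℝ) + Fintype.card C) * Kd ^ 4 * B ^ 2) *
        Z (gs R C) (gt R C) M w α := by
  classical
  have hw0 : ∀ e x, 0 ≤ w e x := fun e => (hw e).1
  obtain ⟨g', hg, hB', hE⟩ := exists_ext hw0 hM hK hR g hB0 hB
  -- restriction to `D`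
  let ρ : (R × C → ℤ) → (R × C → ℤ) := fun X e => if e ∈ D then X e else 0
  set S := conf (gs R C) (gt R C) M α with hS
  have hρ : ∀ X b, b ∈ S.image ρ → ((∀ e ∈ D, X e = b e) ↔ ρ X = b) := by
    intro X b hb
    obtain ⟨Y, _, rfl⟩ := mem_image.1 hb
    constructor
    · intro h
      funext e
      by_cases he : e ∈ D
      · have := h e he
        simp only [ρ, he, if_true] at this ⊢
        exact this
      · simp [ρ, he]
    · intro h e he
      have := congrFun h e
      simp only [ρ, he, if_true] at this ⊢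
      exact this
  -- decomposition of sums
  have hdec : ∀ F : (R × C → ℤ) → (R × C → ℤ) → ℝ,
      ∑ X ∈ S, pw w X * F (ρ X) X = ∑ b ∈ S.image ρ, ∑ X ∈ S, pw (wcond w D b) X * F b X := by
    intro F
    rw [sum_comm]
    refine sum_congr rfl fun X hX => ?_
    rw [sum_eq_single (ρ X)]
    · rw [pw_wcond, if_pos]
      exact (hρ X _ (mem_image_of_mem ρ hX)).2 rfl
    · intro b hb hne
      rw [pw_wcond, if_neg, zero_mul]
      intro h
      exact hne ((hρ X b hb).1 h).symm
    · intro h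
      exact absurd (mem_image_of_mem ρ hX) h
  have e1 : VarD α M w D g = ∑ b ∈ S.image ρ, ∑ X ∈ S,
      pw (wcond w D b) X * (g X - cmean α M w D g b) ^ 2 := by
    rw [← hdec fun b X => (g X - cmean α M w D g b) ^ 2]
    unfold VarD
    refine sum_congr rfl fun X _ => ?_
    rw [cmean_congr (b := X) (b' := ρ X) fun e he => by simp [ρ, he]]
  have e2 : ∑ b ∈ S.image ρ, Zc α M w D b = Z (gs R C) (gt R C) M w α := by
    have := hdec fun _ _ => 1
    simp only [mul_one] at this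
    exact this.symm
  have e3 : ∑ b ∈ S.image ρ, WormE α M (wcond w D b) 5 g ≤ WormE α M w 5 g := by
    unfold WormE
    rw [sum_comm]
    refine sum_le_sum fun X hX => ?_
    rw [sum_comm]
    refine sum_le_sum fun s _ => ?_
    set Y := mvs (List.ofFn s) X with hY
    split_ifs with hbd
    · rw [← sum_mul]
      refine mul_le_mul_of_nonneg_right ?_ (sq_nonneg _)
      calc ∑ b ∈ S.image ρ, min (pw (wcond w D b) X) (pw (wcond w D b) Y)
          ≤ ∑ b ∈ S.image ρ, if b = ρ X then min (pw w X) (pw w Y) else 0 := by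
            refine sum_le_sum fun b hb => ?_
            split_ifs with hbX
            · refine min_le_min ?_ ?_
              · rw [pw_wcond]; split_ifs
                · exact le_rfl
                · exact pw_nonneg hw0 X
              · rw [pw_wcond]; split_ifs
                · exact le_rfl
                · exact pw_nonneg hw0 Y
            · refine (min_le_left _ _).trans (le_of_eq ?_)
              rw [pw_wcond, if_neg]
              intro h
              exact hbX ((hρ X b hb).1 h).symm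
        _ = min (pw w X) (pw w Y) := by
            rw [sum_ite_eq' (S.image ρ) (ρ X), if_pos (mem_image_of_mem ρ hX)]
    · simp
  rw [e1]
  refine (sum_le_sum fun b _ => cond_var_one hw hM hK hR hKd0 hKd g g' hg hB' b (hE b) k).trans ?_
  rw [sum_add_distrib, ← mul_sum, ← mul_sum, e2]
  refine add_le_add (mul_le_mul_of_nonneg_left e3 ?_) le_rfl
  positivity

end Vale.Agent.P328R
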