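import Vale.Agent.P328R.TheoremU

/-!
Section 6, weak Poincaré part: shared definitions.

The chain lives on EXACT tables (boundary `α`). Its worm move applies five unit column moves.
`D` is the set of B-cells; the weights conditioned on the values of the B-cells are `wcond`.
-/

set_option linter.unusedSectionVars false

namespace Vale.Agent.P328R

open Finset

variable {R C : Type} [Fintype R] [LinearOrder R] [Fintype C] [DecidableEq C]

/-- Apply a list of unit column moves `(column, from row, to row)`, first entry first. -/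
def mvs : List (C × R × R) → (R × C → ℤ) → (R × C → ℤ)
  | [], X => X
  | s :: l, X => mvs l (mv s.1 s.2.1 s.2.2 X)

/-- Every near-table of positive weight is repaired by two unit column moves which do not touch
the cells of `D` and loose at most a factor `K` of weight. -/
def Rep (α : R ⊕ C → ℤ) (w : R × C → ℤ → ℝ) (D : Finset (R × C)) (K : ℝ) : Prop :=
  ∀ X : R × C → ℤ, Near α X → 0 < pw w X → ∃ s t : C × R × R,
    bd (gs R C) (gt R C) (mvs [s, t] X) = α ∧ pw w X ≤ K * pw w (mvs [s, t] X) ∧
    ∀ e ∈ D, mvs [s, t] X e = X e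

open scoped Classical in
/-- The energy of the composite worm with `L` unit column moves (Metropolis rates). -/
noncomputable def WormE (α : R ⊕ C → ℤ) (M : ℤ) (w : R × C → ℤ → ℝ) (L : ℕ)
    (g : (R × C → ℤ) → ℝ) : ℝ :=
  ∑ X ∈ conf (gs R C) (gt R C) M α, ∑ s : Fin L → C × R × R,
    if bd (gs R C) (gt R C) (mvs (List.ofFn s) X) = α then
      min (pw w X) (pw w (mvs (List.ofFn s) X)) * (g X - g (mvs (List.ofFn s) X)) ^ 2
    else 0

/-- The weights conditioned on the values `b` of the cells in `D`. -/
def wcond (w : R × C → ℤ → ℝ) (D : Finset (R × C)) (b : R × C → ℤ) : R × C → ℤ → ℝ :=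
  fun e x => if e ∈ D ∧ x ≠ b e then 0 else w e x

/-- Total weight of the exact tables which agree with `b` on `D`. -/
noncomputable def Zc (α : R ⊕ C → ℤ) (M : ℤ) (w : R × C → ℤ → ℝ) (D : Finset (R × C))
    (b : R × C → ℤ) : ℝ :=
  Z (gs R C) (gt R C) M (wcond w D b) α

/-- Conditional mean of `g` given the cells in `D`. -/
noncomputable def cmean (α : R ⊕ C → ℤ) (M : ℤ) (w : R × C → ℤ → ℝ) (D : Finset (R × C))
    (g : (R × C → ℤ) → ℝ) (b : R × C → ℤ) : ℝ :=
  (∑ Y ∈ conf (gs R C) (gt R C) M α, pw (wcond w D b) Y * g Y) / Zc α M w D b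

/-- `Z` times the mean conditional variance of `g` given the cells in `D`. -/
noncomputable def VarD (α : R ⊕ C → ℤ) (M : ℤ) (w : R × C → ℤ → ℝ) (D : Finset (R × C))
    (g : (R × C → ℤ) → ℝ) : ℝ :=
  ∑ X ∈ conf (gs R C) (gt R C) M α, pw w X * (g X - cmean α M w D g X) ^ 2

theorem cmean_congr {α : R ⊕ C → ℤ} {M : ℤ} {w : R × C → ℤ → ℝ} {D : Finset (R × C)}
    {g : (R × C → ℤ) → ℝ} {b b' : R × C → ℤ} (h : ∀ e ∈ D, b e = b' e) :
    cmean α M w D g b = cmean α M w D g b' := by
  have : wcond w D b = wcond w D b' := by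
    funext e x
    unfold wcond
    by_cases he : e ∈ D
    · rw [h e he]
    · simp [he]
  unfold cmean Zc
  rw [this]

end Vale.Agent.P328R
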