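import Vale.Agent.P328R.WDefs

/-! Module W2: extension of `g` to near-tables through the repair map. -/

set_option linter.unusedSectionVars false

namespace Vale.Agent.P328R

open Finset

variable {R C : Type} [Fintype R] [LinearOrder R] [Fintype C] [DecidableEq C]

/-- The inverse unit move. -/
def ivm (s : C × R × R) : C × R × R := (s.1, s.2.2, s.2.1)

theorem mvs_ivm (s t : C × R × R) (X : R × C → ℤ) : mvs [ivm t, ivm s] (mvs [s, t] X) = X := by
  simp only [mvs, ivm, mv_mv]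

theorem dl_self (u : R ⊕ C) : dl u u = (0 : R ⊕ C → ℤ) := by
  funext x
  unfold dl
  simp

theorem card_near (α : R ⊕ C → ℤ) (X : R × C → ℤ) :
    ((univ : Finset (R × R)).filter fun pq =>
      bd (gs R C) (gt R C) X = α + dl (Sum.inl pq.1) (Sum.inl pq.2)).card ≤ Fintype.card R := by
  rw [← Finset.card_univ (α := R)]
  refine Finset.card_le_card_of_injOn (fun pq => pq.1) (fun _ _ => Finset.mem_coe.2 (mem_univ _)) ?_
  intro x hx y hy hxy
  have hx' := (Finset.mem_filter.1 (Finset.mem_coe.1 hx)).2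
  have hy' := (Finset.mem_filter.1 (Finset.mem_coe.1 hy)).2
  have h1 : dl (Sum.inl x.1 : R ⊕ C) (Sum.inl x.2) = dl (Sum.inl y.1) (Sum.inl y.2) := by
    have := hx'.symm.trans hy'
    exact add_left_cancel this
  have hxy' : x.1 = y.1 := hxy
  refine Prod.ext hxy' ?_
  have h2 := congrFun h1 (Sum.inl x.2)
  unfold dl at h2
  rw [hxy'] at h2
  by_contra hne
  simp only [Sum.inl.injEq, if_pos] at h2
  rw [if_neg hne] at h2
  omega

theorem pw_wcond_pos {w : R × C → ℤ → ℝ} {D : Finset (R × C)} {b X : R × C → ℤ}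
    (h : pw (wcond w D b) X ≠ 0) : (∀ e ∈ D, X e = b e) ∧ pw (wcond w D b) X = pw w X := by
  have h1 : ∀ e ∈ D, X e = b e := by
    intro e he
    by_contra hne
    refine h (Finset.prod_eq_zero (Finset.mem_univ e) ?_)
    unfold wcond
    rw [if_pos ⟨he, hne⟩]
  refine ⟨h1, ?_⟩
  unfold pw wcond
  refine Finset.prod_congr rfl fun e _ => ?_
  rw [if_neg]
  rintro ⟨he, hne⟩
  exact hne (h1 e he)

theorem pw_wcond_eq {w : R × C → ℤ → ℝ} {D : Finset (R × C)} {b X : R × C → ℤ}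
    (h1 : ∀ e ∈ D, X e = b e) : pw (wcond w D b) X = pw w X := by
  unfold pw wcond
  refine Finset.prod_congr rfl fun e _ => ?_
  rw [if_neg]
  rintro ⟨he, hne⟩
  exact hne (h1 e he)

theorem mem_conf_of_pw {α : R ⊕ C → ℤ} {M : ℤ} {w : R × C → ℤ → ℝ} (hM : ∀ e, Supp M (w e))
    {X : R × C → ℤ} (h1 : bd (gs R C) (gt R C) X = α) (h2 : pw w X ≠ 0) :
    X ∈ conf (gs R C) (gt R C) M α := by
  unfold conf box
  rw [Finset.mem_filter, Fintype.mem_piFinset]
  refine ⟨fun e => ?_, h1⟩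
  rw [Finset.mem_Icc, ← abs_le]
  by_contra hcon
  exact h2 (Finset.prod_eq_zero (Finset.mem_univ e) (hM e _ (not_le.mp hcon)))

open scoped Classical in
/-- **W2.** Extension of `g` to near-tables. -/
theorem exists_ext' {α : R ⊕ C → ℤ} {M : ℤ} {w : R × C → ℤ → ℝ} (hw : ∀ e x, 0 ≤ w e x)
    (hM : ∀ e, Supp M (w e)) {D : Finset (R × C)} {K : ℝ} (hK : 1 ≤ K) (hR : Rep α w D K)
    (g : (R × C → ℤ) → ℝ) {B : ℝ} (hB0 : 0 ≤ B)
    (hB : ∀ X ∈ conf (gs R C) (gt R C) M α, |g X| ≤ B) :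
    ∃ g' : (R × C → ℤ) → ℝ, (∀ X ∈ conf (gs R C) (gt R C) M α, g' X = g X) ∧
      (∀ X, |g' X| ≤ B) ∧
      ∀ b : R × C → ℤ,
      ∑ pq : R × R, ∑ X ∈ conf (gs R C) (gt R C) M (α + dl (Sum.inl pq.1) (Sum.inl pq.2)),
          pw (wcond w D b) X * Gam α (wcond w D b) g' X ≤
        K * (Fintype.card R) * WormE α M (wcond w D b) 5 g := by
  have hwb : ∀ (b : R × C → ℤ) e x, 0 ≤ wcond w D b e x := by
    intro b e x
    unfold wcond
    split_ifs
    · exact le_rfl
    · exact hw e x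
  have hWpos : ∀ b, 0 ≤ WormE α M (wcond w D b) 5 g := by
    intro b
    unfold WormE
    refine Finset.sum_nonneg fun X _ => Finset.sum_nonneg fun s _ => ?_
    split_ifs
    · exact mul_nonneg (le_min (pw_nonneg (hwb b) X) (pw_nonneg (hwb b) _)) (sq_nonneg _)
    · exact le_rfl
  -- the trivial cases
  by_cases hRn : Nonempty R
  swap
  · have hRe : IsEmpty R := not_nonempty_iff.1 hRn
    refine ⟨fun X => if X ∈ conf (gs R C) (gt R C) M α then g X else 0,
      fun X hX => if_pos hX, fun X => ?_, fun b => ?_⟩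
    · by_cases h : X ∈ conf (gs R C) (gt R C) M α
      · simp only [if_pos h]; exact hB X h
      · simp only [if_neg h, abs_zero]; exact hB0
    · rw [Finset.univ_eq_empty, Finset.sum_empty]
      have := hWpos b
      positivity
  by_cases hCn : Nonempty C
  swap
  · have hCe : IsEmpty C := not_nonempty_iff.1 hCn
    refine ⟨fun X => if X ∈ conf (gs R C) (gt R C) M α then g X else 0,
      fun X hX => if_pos hX, fun X => ?_, fun b => ?_⟩
    · by_cases h : X ∈ conf (gs R C) (gt R C) M α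
      · simp only [if_pos h]; exact hB X h
      · simp only [if_neg h, abs_zero]; exact hB0
    · have h0 : ∀ X, Gam α (wcond w D b) (fun X => if X ∈ conf (gs R C) (gt R C) M α then g X
          else 0) X = 0 := by
        intro X
        unfold Gam
        rw [Finset.univ_eq_empty (α := C), Finset.sum_empty]
      simp only [h0, mul_zero, Finset.sum_const_zero]
      have := hWpos b
      positivity
  obtain ⟨a0⟩ := hRn
  obtain ⟨j0⟩ := hCn
  have htriv : ∀ X : R × C → ℤ, mvs [(j0, a0, a0), (j0, a0, a0)] X = X := by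
    intro X
    have h1 : mv j0 a0 a0 X = X := by
      funext e
      unfold mv
      ring
    simp only [mvs, h1]
  -- the repair map
  have hex : ∀ X : R × C → ℤ, ∃ st : (C × R × R) × (C × R × R),
      (bd (gs R C) (gt R C) X = α → mvs [st.1, st.2] X = X) ∧
      (Near α X → 0 < pw w X → bd (gs R C) (gt R C) (mvs [st.1, st.2] X) = α ∧
        pw w X ≤ K * pw w (mvs [st.1, st.2] X) ∧ ∀ e ∈ D, mvs [st.1, st.2] X e = X e) := by
    intro X
    by_cases h1 : bd (gs R C) (gt R C) X = α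
    · refine ⟨((j0, a0, a0), (j0, a0, a0)), fun _ => htriv X, fun _ h3 => ?_⟩
      simp only [htriv X]
      exact ⟨h1, by nlinarith, fun _ _ => trivial⟩
    · by_cases h2 : Near α X ∧ 0 < pw w X
      · obtain ⟨s, t, h⟩ := hR X h2.1 h2.2
        exact ⟨(s, t), fun h3 => absurd h3 h1, fun _ _ => h⟩
      · exact ⟨((j0, a0, a0), (j0, a0, a0)), fun h3 => absurd h3 h1,
          fun h3 h4 => absurd ⟨h3, h4⟩ h2⟩
  choose rp hrp1 hrp2 using hex
  obtain ⟨Rx, hRx⟩ : ∃ Rx : (R × C → ℤ) → (R × C → ℤ), ∀ X, Rx X = mvs [(rp X).1, (rp X).2] X :=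
    ⟨_, fun _ => rfl⟩
  have hRxE : ∀ X, bd (gs R C) (gt R C) X = α → Rx X = X := fun X h => by
    rw [hRx]; exact hrp1 X h
  have hRx2 : ∀ X, Near α X → 0 < pw w X → bd (gs R C) (gt R C) (Rx X) = α ∧
      pw w X ≤ K * pw w (Rx X) ∧ ∀ e ∈ D, Rx X e = X e := fun X h h' => by
    rw [hRx]; exact hrp2 X h h'
  have hRpos : ∀ X, Near α X → 0 < pw w X → 0 < pw w (Rx X) := by
    intro X h h'
    have := (hRx2 X h h').2.1
    by_contra hc
    have h0 : pw w (Rx X) = 0 := le_antisymm (not_lt.1 hc) (pw_nonneg hw _)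
    rw [h0, mul_zero] at this
    linarith
  have hRmem : ∀ X, Near α X → 0 < pw w X → Rx X ∈ conf (gs R C) (gt R C) M α := fun X h h' =>
    mem_conf_of_pw hM (hRx2 X h h').1 (hRpos X h h').ne'
  obtain ⟨g', hg'⟩ : ∃ g' : (R × C → ℤ) → ℝ, ∀ X, g' X = if Near α X ∧ 0 < pw w X then g (Rx X)
      else if X ∈ conf (gs R C) (gt R C) M α then g X else 0 := ⟨_, fun _ => rfl⟩
  refine ⟨g', fun X hX => ?_, fun X => ?_, fun b => ?_⟩
  · rw [hg']
    by_cases h : Near α X ∧ 0 < pw w X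
    · rw [if_pos h, hRxE X (Finset.mem_filter.1 hX).2]
    · rw [if_neg h, if_pos hX]
  · rw [hg']
    by_cases h : Near α X ∧ 0 < pw w X
    · rw [if_pos h]; exact hB _ (hRmem X h.1 h.2)
    · rw [if_neg h]
      by_cases h2 : X ∈ conf (gs R C) (gt R C) M α
      · rw [if_pos h2]; exact hB X h2
      · rw [if_neg h2, abs_zero]; exact hB0
  -- the energy
  obtain ⟨F, hF⟩ : ∃ F : (R × C → ℤ) × (Fin 5 → C × R × R) → ℝ, ∀ Ys, F Ys =
      if bd (gs R C) (gt R C) (mvs (List.ofFn Ys.2) Ys.1) = α then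
        min (pw (wcond w D b) Ys.1) (pw (wcond w D b) (mvs (List.ofFn Ys.2) Ys.1)) *
          (g Ys.1 - g (mvs (List.ofFn Ys.2) Ys.1)) ^ 2 else 0 := ⟨_, fun _ => rfl⟩
  have hF0 : ∀ Ys, 0 ≤ F Ys := by
    intro Ys
    rw [hF]
    split_ifs
    · exact mul_nonneg (le_min (pw_nonneg (hwb b) _) (pw_nonneg (hwb b) _)) (sq_nonneg _)
    · exact le_rfl
  obtain ⟨T, hT⟩ : ∃ T : (R × C → ℤ) → C → R → R → ℝ, ∀ X j a c, T X j a c =
      pw (wcond w D b) X * (if Near α (mv j a c X) ∧ pw (wcond w D b) X ≤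
        pw (wcond w D b) (mv j a c X) then (g' X - g' (mv j a c X)) ^ 2 else 0) :=
    ⟨_, fun _ _ _ _ => rfl⟩
  have hT0 : ∀ X j a c, 0 ≤ T X j a c := by
    intro X j a c
    rw [hT]
    refine mul_nonneg (pw_nonneg (hwb b) X) ?_
    split_ifs
    · positivity
    · exact le_rfl
  obtain ⟨Φ, hΦ⟩ : ∃ Φ : (R × C → ℤ) × (C × R × R) → (R × C → ℤ) × (Fin 5 → C × R × R),
      ∀ y, Φ y = (Rx y.1, ![ivm (rp y.1).2, ivm (rp y.1).1, y.2,
        (rp (mv y.2.1 y.2.2.1 y.2.2.2 y.1)).1, (rp (mv y.2.1 y.2.2.1 y.2.2.2 y.1)).2]) :=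
    ⟨_, fun _ => rfl⟩
  have hΦinj : Function.Injective Φ := by
    intro y z h
    rw [hΦ, hΦ] at h
    have h1 : Rx y.1 = Rx z.1 := congrArg Prod.fst h
    have h2 := congrArg Prod.snd h
    have h3 : ivm (rp y.1).2 = ivm (rp z.1).2 := congrFun h2 0
    have h4 : ivm (rp y.1).1 = ivm (rp z.1).1 := congrFun h2 1
    have h5 : y.2 = z.2 := congrFun h2 2
    refine Prod.ext ?_ h5
    rw [← mvs_ivm (rp y.1).1 (rp y.1).2 y.1, ← mvs_ivm (rp z.1).1 (rp z.1).2 z.1, ← hRx, ← hRx,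
      h1, h3, h4]
  have hkey : ∀ X j a c, Near α X → T X j a c ≤ K * F (Φ (X, (j, a, c))) := by
    intro X j a c hN
    by_cases h0 : pw (wcond w D b) X = 0
    · rw [hT, h0, zero_mul]
      exact mul_nonneg (by linarith) (hF0 _)
    by_cases h1 : Near α (mv j a c X) ∧ pw (wcond w D b) X ≤ pw (wcond w D b) (mv j a c X)
    swap
    · rw [hT, if_neg h1, mul_zero]
      exact mul_nonneg (by linarith) (hF0 _)
    have hpos : 0 < pw (wcond w D b) X := lt_of_le_of_ne (pw_nonneg (hwb b) X) (Ne.symm h0)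
    have hpos' : 0 < pw (wcond w D b) (mv j a c X) := hpos.trans_le h1.2
    obtain ⟨hXb, hXw⟩ := pw_wcond_pos h0
    obtain ⟨hXb', hXw'⟩ := pw_wcond_pos hpos'.ne'
    have hp1 : 0 < pw w X := by rw [← hXw]; exact hpos
    have hp2 : 0 < pw w (mv j a c X) := by rw [← hXw']; exact hpos'
    obtain ⟨r1, r2, r3⟩ := hRx2 X hN hp1
    obtain ⟨s1, s2, s3⟩ := hRx2 (mv j a c X) h1.1 hp2
    have hend : mvs (List.ofFn (Φ (X, (j, a, c))).2) (Φ (X, (j, a, c))).1 = Rx (mv j a c X) := by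
      rw [hΦ]
      have e1 : List.ofFn (![ivm (rp X).2, ivm (rp X).1, (j, a, c),
          (rp (mv j a c X)).1, (rp (mv j a c X)).2] : Fin 5 → C × R × R) =
          [ivm (rp X).2, ivm (rp X).1, (j, a, c), (rp (mv j a c X)).1, (rp (mv j a c X)).2] := rfl
      show mvs (List.ofFn (![ivm (rp X).2, ivm (rp X).1, (j, a, c),
          (rp (mv j a c X)).1, (rp (mv j a c X)).2] : Fin 5 → C × R × R)) (Rx X) = _
      rw [e1]
      have e2 : mvs [ivm (rp X).2, ivm (rp X).1] (Rx X) = X := by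
        rw [hRx]; exact mvs_ivm _ _ X
      simp only [mvs] at e2 ⊢
      rw [e2, hRx]
      rfl
    have hst : (Φ (X, (j, a, c))).1 = Rx X := by rw [hΦ]
    rw [hF, hend, hst, if_pos s1, hT, if_pos h1]
    have e3 : pw (wcond w D b) (Rx X) = pw w (Rx X) :=
      pw_wcond_eq fun e he => by rw [r3 e he, hXb e he]
    have e4 : pw (wcond w D b) (Rx (mv j a c X)) = pw w (Rx (mv j a c X)) :=
      pw_wcond_eq fun e he => by rw [s3 e he, hXb' e he]
    have e5 : g' X = g (Rx X) := by rw [hg', if_pos ⟨hN, hp1⟩]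
    have e6 : g' (mv j a c X) = g (Rx (mv j a c X)) := by rw [hg', if_pos ⟨h1.1, hp2⟩]
    rw [e3, e4, e5, e6, ← mul_assoc]
    refine mul_le_mul_of_nonneg_right ?_ (sq_nonneg _)
    rw [mul_min_of_nonneg _ _ (by linarith : (0 : ℝ) ≤ K)]
    refine le_min ?_ ?_
    · rw [hXw]; exact r2
    · refine h1.2.trans ?_
      rw [hXw']; exact s2
  -- summation
  set S : Finset (R × C → ℤ) := (box (R × C) M).filter fun X => Near α X with hS
  have hsum1 : ∑ pq : R × R, ∑ X ∈ conf (gs R C) (gt R C) M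
        (α + dl (Sum.inl pq.1) (Sum.inl pq.2)), pw (wcond w D b) X * Gam α (wcond w D b) g' X ≤
      (Fintype.card R) * ∑ X ∈ S, ∑ j : C, ∑ a : R, ∑ c : R, T X j a c := by
    have e1 : ∀ X, pw (wcond w D b) X * Gam α (wcond w D b) g' X =
        ∑ j : C, ∑ a : R, ∑ c : R, T X j a c := by
      intro X
      unfold Gam
      simp only [Finset.mul_sum, hT]
    have e2 : ∀ pq : R × R, ∑ X ∈ conf (gs R C) (gt R C) M
        (α + dl (Sum.inl pq.1) (Sum.inl pq.2)), pw (wcond w D b) X * Gam α (wcond w D b) g' X =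
        ∑ X ∈ S, if bd (gs R C) (gt R C) X = α + dl (Sum.inl pq.1) (Sum.inl pq.2) then
          (∑ j : C, ∑ a : R, ∑ c : R, T X j a c) else 0 := by
      intro pq
      rw [← Finset.sum_filter]
      refine Finset.sum_congr ?_ fun X _ => e1 X
      ext X
      unfold conf
      rw [Finset.mem_filter, Finset.mem_filter, hS, Finset.mem_filter]
      constructor
      · rintro ⟨h1, h2⟩
        exact ⟨⟨h1, pq.1, pq.2, h2⟩, h2⟩
      · rintro ⟨⟨h1, _⟩, h2⟩
        exact ⟨h1, h2⟩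
    rw [Finset.sum_congr rfl fun pq _ => e2 pq, Finset.sum_comm, Finset.mul_sum]
    refine Finset.sum_le_sum fun X _ => ?_
    rw [← Finset.sum_filter, Finset.sum_const, nsmul_eq_mul]
    refine mul_le_mul_of_nonneg_right ?_ ?_
    · exact_mod_cast card_near α X
    · exact Finset.sum_nonneg fun j _ => Finset.sum_nonneg fun a _ =>
        Finset.sum_nonneg fun c _ => hT0 X j a c
  have hsum2 : ∑ X ∈ S, ∑ j : C, ∑ a : R, ∑ c : R, T X j a c =
      ∑ y ∈ S ×ˢ (univ : Finset (C × R × R)), T y.1 y.2.1 y.2.2.1 y.2.2.2 := by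
    rw [Finset.sum_product]
    refine Finset.sum_congr rfl fun X _ => ?_
    rw [Fintype.sum_prod_type]
    refine Finset.sum_congr rfl fun j _ => ?_
    rw [Fintype.sum_prod_type]
  have hsum3 : ∑ y ∈ S ×ˢ (univ : Finset (C × R × R)), T y.1 y.2.1 y.2.2.1 y.2.2.2 ≤
      K * WormE α M (wcond w D b) 5 g := by
    have hW : WormE α M (wcond w D b) 5 g =
        ∑ Ys ∈ conf (gs R C) (gt R C) M α ×ˢ (univ : Finset (Fin 5 → C × R × R)), F Ys := by
      unfold WormE
      rw [Finset.sum_product]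
      exact Finset.sum_congr rfl fun X _ => Finset.sum_congr rfl fun s _ => by rw [hF]
    rw [hW, Finset.mul_sum]
    have h1 : ∑ y ∈ S ×ˢ (univ : Finset (C × R × R)), T y.1 y.2.1 y.2.2.1 y.2.2.2 ≤
        ∑ y ∈ (S ×ˢ (univ : Finset (C × R × R))).filter
          (fun y => Φ y ∈ conf (gs R C) (gt R C) M α ×ˢ (univ : Finset (Fin 5 → C × R × R))),
          K * F (Φ y) := by
      rw [Finset.sum_filter]
      refine Finset.sum_le_sum fun y hy => ?_
      have hN : Near α y.1 := (Finset.mem_filter.1 (Finset.mem_product.1 hy).1).2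
      have h2 := hkey y.1 y.2.1 y.2.2.1 y.2.2.2 hN
      by_cases h3 : Φ y ∈ conf (gs R C) (gt R C) M α ×ˢ (univ : Finset (Fin 5 → C × R × R))
      · rw [if_pos h3]; exact h2
      · rw [if_neg h3]
        -- then the weight of `y.1` vanishes
        have h4 : pw (wcond w D b) y.1 = 0 := by
          by_contra h5
          obtain ⟨h6, h7⟩ := pw_wcond_pos h5
          have h8 : 0 < pw w y.1 := by
            rw [← h7]; exact lt_of_le_of_ne (pw_nonneg (hwb b) _) (Ne.symm h5)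
          refine h3 (Finset.mem_product.2 ⟨?_, Finset.mem_univ _⟩)
          rw [hΦ]
          exact hRmem y.1 hN h8
        rw [hT, h4, zero_mul]
    refine h1.trans ?_
    rw [← Finset.sum_image (f := fun z => K * F z) (g := Φ) (fun a _ c _ h => hΦinj h)]
    refine Finset.sum_le_sum_of_subset_of_nonneg ?_ fun z _ _ =>
      mul_nonneg (by linarith) (hF0 z)
    intro z hz
    obtain ⟨y, hy, rfl⟩ := Finset.mem_image.1 hz
    exact (Finset.mem_filter.1 hy).2
  calc _ ≤ _ := hsum1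
    _ ≤ (Fintype.card R) * (K * WormE α M (wcond w D b) 5 g) := by
        rw [hsum2]
        exact mul_le_mul_of_nonneg_left hsum3 (by positivity)
    _ = _ := by ring

end Vale.Agent.P328R
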