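import Vale.Agent.P328R.WDefs

/-! Module W1: the hole ratio. -/

set_option linter.unusedSectionVars false

namespace Vale.Agent.P328R

open Finset

variable {R C : Type} [Fintype R] [LinearOrder R] [Fintype C] [DecidableEq C]

private theorem mv_inj (j : C) (a b : R) {X Y : R × C → ℤ} (h : mv j a b X = mv j a b Y) : X = Y := by
  funext e
  have := congrFun h e
  simp only [mv] at this
  linarith

private theorem mvs_inj (l : List (C × R × R)) {X Y : R × C → ℤ} (h : mvs l X = mvs l Y) : X = Y := by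
  induction l generalizing X Y with
  | nil => exact h
  | cons a l ih => exact mv_inj _ _ _ (ih h)

private theorem mem_box_of_pw_pos {M : ℤ} {w : R × C → ℤ → ℝ} (hM : ∀ e, Supp M (w e))
    {X : R × C → ℤ} (h : pw w X ≠ 0) : X ∈ box (R × C) M := by
  simp only [box, Fintype.mem_piFinset, Finset.mem_Icc]
  intro e
  by_contra hcon
  apply h
  refine Finset.prod_eq_zero (Finset.mem_univ e) (hM e _ ?_)
  by_contra hle
  push Not at hle
  exact hcon (abs_le.mp hle)

/-- The hole ratio. -/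
theorem hole_ratio' {α : R ⊕ C → ℤ} {M : ℤ} {w : R × C → ℤ → ℝ} (hw : ∀ e x, 0 ≤ w e x)
    (hM : ∀ e, Supp M (w e)) {D : Finset (R × C)} {K : ℝ} (hK : 1 ≤ K) (hR : Rep α w D K)
    (p q : R) :
    Z (gs R C) (gt R C) M w (α + dl (Sum.inl p) (Sum.inl q)) ≤
      K * ((Fintype.card C : ℝ) * (Fintype.card R) ^ 2) ^ 2 * Z (gs R C) (gt R C) M w α := by
  classical
  set β : R ⊕ C → ℤ := α + dl (Sum.inl p) (Sum.inl q) with hβ
  set S : Finset (R × C → ℤ) := (conf (gs R C) (gt R C) M β).filter fun X => 0 < pw w X with hS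
  have hpw0 : ∀ X, 0 ≤ pw w X := pw_nonneg hw
  have hZ : Z (gs R C) (gt R C) M w β = ∑ X ∈ S, pw w X := by
    unfold Z
    rw [hS, Finset.sum_filter]
    refine Finset.sum_congr rfl fun X _ => ?_
    split_ifs with h
    · rfl
    · exact le_antisymm (not_lt.mp h) (hpw0 X)
  have hmem : ∀ X ∈ S, ∃ s t : C × R × R,
      mvs [s, t] X ∈ conf (gs R C) (gt R C) M α ∧ pw w X ≤ K * pw w (mvs [s, t] X) := by
    intro X hX
    rw [hS, Finset.mem_filter] at hX
    obtain ⟨hXc, hXp⟩ := hX
    unfold conf at hXc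
    rw [Finset.mem_filter] at hXc
    obtain ⟨s, t, h1, h2, -⟩ := hR X ⟨p, q, hXc.2⟩ hXp
    refine ⟨s, t, ?_, h2⟩
    unfold conf
    rw [Finset.mem_filter]
    refine ⟨mem_box_of_pw_pos hM ?_, h1⟩
    intro h0
    rw [h0, mul_zero] at h2
    linarith
  rcases S.eq_empty_or_nonempty with hSe | hSne
  · rw [hZ, hSe, Finset.sum_empty]
    exact mul_nonneg (mul_nonneg (by linarith) (by positivity))
      (Finset.sum_nonneg fun X _ => hpw0 X)
  have : Nonempty (C × R × R) := by
    obtain ⟨X, hX⟩ := hSne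
    exact ⟨(hmem X hX).choose⟩
  choose! fs ft hf using hmem
  set P : Finset ((R × C → ℤ) × ((C × R × R) × (C × R × R))) :=
    (conf (gs R C) (gt R C) M α) ×ˢ Finset.univ with hP
  set φ : (R × C → ℤ) → (R × C → ℤ) × ((C × R × R) × (C × R × R)) :=
    fun X => (mvs [fs X, ft X] X, (fs X, ft X)) with hφ
  have hinj : Set.InjOn φ (S : Set (R × C → ℤ)) := by
    intro X _ Y _ h
    simp only [hφ, Prod.mk.injEq] at h
    obtain ⟨h1, h2, h3⟩ := h
    rw [h2, h3] at h1
    exact mvs_inj _ h1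
  have hsub : S.image φ ⊆ P := by
    intro y hy
    rw [Finset.mem_image] at hy
    obtain ⟨X, hX, rfl⟩ := hy
    rw [hP, Finset.mem_product]
    exact ⟨(hf X hX).1, Finset.mem_univ _⟩
  rw [hZ]
  calc ∑ X ∈ S, pw w X ≤ ∑ X ∈ S, K * pw w (φ X).1 :=
        Finset.sum_le_sum fun X hX => (hf X hX).2
    _ = ∑ y ∈ S.image φ, K * pw w y.1 := by
        rw [Finset.sum_image hinj]
    _ ≤ ∑ y ∈ P, K * pw w y.1 :=
        Finset.sum_le_sum_of_subset_of_nonneg hsub fun y _ _ =>
          mul_nonneg (by linarith) (hpw0 _)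
    _ = K * ((Fintype.card C : ℝ) * (Fintype.card R) ^ 2) ^ 2 * Z (gs R C) (gt R C) M w α := by
        rw [hP, Finset.sum_product]
        simp only [Finset.sum_const, Finset.card_univ, Fintype.card_prod, nsmul_eq_mul]
        unfold Z
        rw [Finset.mul_sum]
        refine Finset.sum_congr rfl fun X _ => ?_
        push_cast
        ring

end Vale.Agent.P328R
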