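import Vale.Agent.P328R.WDefs
import Vale.Agent.P328R.WHole
import Vale.Agent.P328R.WExt

/-! Modules W1, W2: repair of near-tables; the energy of the one-unit moves between near-tables is
bounded by the energy of the composite worm on exact tables; hole ratio. -/

set_option linter.unusedSectionVars false

namespace Vale.Agent.P328R

open Finset

variable {R C : Type} [Fintype R] [LinearOrder R] [Fintype C] [DecidableEq C]

theorem mvs_append (s t : List (C × R × R)) (X : R × C → ℤ) :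
    mvs (s ++ t) X = mvs t (mvs s X) := by
  induction s generalizing X with
  | nil => rfl
  | cons a l ih => simp only [List.cons_append, mvs, ih]

/-- The hole ratio. -/
theorem hole_ratio {α : R ⊕ C → ℤ} {M : ℤ} {w : R × C → ℤ → ℝ} (hw : ∀ e x, 0 ≤ w e x)
    (hM : ∀ e, Supp M (w e)) {D : Finset (R × C)} {K : ℝ} (hK : 1 ≤ K) (hR : Rep α w D K)
    (p q : R) :
    Z (gs R C) (gt R C) M w (α + dl (Sum.inl p) (Sum.inl q)) ≤
      K * ((Fintype.card C : ℝ) * (Fintype.card R) ^ 2) ^ 2 * Z (gs R C) (gt R C) M w α := by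
  exact hole_ratio' hw hM hK hR p q

/-- Extension of `g` to near-tables. -/
theorem exists_ext {α : R ⊕ C → ℤ} {M : ℤ} {w : R × C → ℤ → ℝ} (hw : ∀ e x, 0 ≤ w e x)
    (hM : ∀ e, Supp M (w e)) {D : Finset (R × C)} {K : ℝ} (hK : 1 ≤ K) (hR : Rep α w D K)
    (g : (R × C → ℤ) → ℝ) {B : ℝ} (hB0 : 0 ≤ B)
    (hB : ∀ X ∈ conf (gs R C) (gt R C) M α, |g X| ≤ B) :
    ∃ g' : (R × C → ℤ) → ℝ, (∀ X ∈ conf (gs R C) (gt R C) M α, g' X = g X) ∧
      (∀ X, |g' X| ≤ B) ∧
      ∀ b : R × C → ℤ,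
      ∑ pq : R × R, ∑ X ∈ conf (gs R C) (gt R C) M (α + dl (Sum.inl pq.1) (Sum.inl pq.2)),
          pw (wcond w D b) X * Gam α (wcond w D b) g' X ≤
        K * (Fintype.card R) * WormE α M (wcond w D b) 5 g :=
  exists_ext' hw hM hK hR g hB0 hB

end Vale.Agent.P328R
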